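import Crest.Agent.R100.Kernel

/-!
# R100/Circle: Dirichlet kernel, passage to the circle  (task)

`dirichlet`: `SN f N x = T⁻¹ ∫_{x-T/2}^{x+T/2} f y D_N(x-y) dy`
(`fourierCoeff_eq_intervalIntegral`), `D_N u = sin(ξu)/sin(πu/T)` for `0 < |u| ≤ T/2`,
`ξ = (2N+1)π/T` (geometric sum / telescoping); `|1/sin z - 1/z| ≤ 2` for `0 < |z| ≤ π/2`; the part of
`[-T, 2T)` with `|x - y| ≥ T/2` costs `≤ π⁻¹ (2/T) 3T ∫‖f‖`.
`circ_bound`: `F = lift f` has `∫‖F‖ ≤ 3δT`; apply `hl` with `lam = H·3δ` and `RealBound` with `3δ`,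
`S = [0,T) \ Ω₁`, `Ξ = {ξ_N : N ≤ N₀}`; `Ω` = the set of points of the circle whose representative in
`[0,T)` lies in `Ω₁` (preimage under `AddCircle.equivIco`/`measurableEquivIco`; haar = `T⁻¹ volume`,
`AddCircle.volume_eq_smul_haarAddCircle`, `AddCircle.measurePreserving_mk`,
`AddCircle.lintegral_preimage`).  Monotone convergence in `N₀` (`lintegral_iSup`).
-/

set_option autoImplicit false
open MeasureTheory Set

namespace Crest.Agent.R100

/-- three periods of `f` on the line -/
noncomputable def lift {T : ℝ} (f : AddCircle T → ℂ) : ℝ → ℂ :=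
  (Ico (-T) (2 * T)).indicator (fun y => f y)

/-- the Dirichlet kernel -/
noncomputable def circleDN (N : ℕ) (z : ℝ) : ℂ :=
  ∑ k ∈ Finset.Icc (-(N : ℤ)) N, Complex.exp (2 * k * z * Complex.I)

theorem circle_DN_mul (N : ℕ) (z : ℝ) :
    circleDN N z * Complex.sin z = Complex.sin ((2 * N + 1) * z) := by
  unfold circleDN
  induction N with
  | zero => simp
  | succ N ih =>
    have h1 : Finset.Icc (-((N + 1 : ℕ) : ℤ)) ((N + 1 : ℕ) : ℤ)
        = insert (-((N : ℤ) + 1)) (insert ((N : ℤ) + 1) (Finset.Icc (-(N : ℤ)) N)) := by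
      ext k
      simp only [Finset.mem_Icc, Finset.mem_insert]
      omega
    rw [h1, Finset.sum_insert (by simp only [Finset.mem_Icc, Finset.mem_insert]; omega),
      Finset.sum_insert (by simp only [Finset.mem_Icc]; omega), ← add_assoc, add_mul, ih]
    have h2 := Complex.two_cos (x := 2 * (N + 1) * z)
    have h3 : (2 * ((N + 1 : ℕ) : ℂ) + 1) * z = 2 * (N + 1) * z + z := by push_cast; ring
    have h4 : (2 * (N : ℂ) + 1) * z = 2 * (N + 1) * z - z := by ring
    have h5 : Complex.exp (2 * ((-((N : ℤ) + 1) : ℤ) : ℂ) * z * Complex.I)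
        + Complex.exp (2 * (((N : ℤ) + 1 : ℤ) : ℂ) * z * Complex.I)
        = 2 * Complex.cos (2 * (N + 1) * z) := by
      rw [h2, add_comm]
      congr 2 <;> push_cast <;> ring
    rw [h5, h3, h4, Complex.sin_add, Complex.sin_sub]
    ring

theorem circle_norm_DN (N : ℕ) (z : ℝ) : ‖circleDN N z‖ ≤ (Finset.Icc (-(N : ℤ)) N).card := by
  refine (norm_sum_le _ _).trans (le_of_eq ?_)
  rw [Finset.card_eq_sum_ones, Nat.cast_sum]
  refine Finset.sum_congr rfl fun k _ => ?_
  have : (2 * (k : ℂ) * z * Complex.I) = ((2 * k * z : ℝ) : ℂ) * Complex.I := by push_cast; ring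
  rw [this, Complex.norm_exp_ofReal_mul_I, Nat.cast_one]

theorem circle_continuous_DN (N : ℕ) : Continuous (circleDN N) := by
  unfold circleDN; fun_prop

theorem circle_DN_sub (N : ℕ) {z : ℝ} (h0 : z ≠ 0) (hz : |z| ≤ Real.pi / 2) :
    ‖circleDN N z - ((Real.sin ((2 * N + 1) * z) / z : ℝ) : ℂ)‖ ≤ 1 := by
  have hpi := Real.pi_pos
  have hz0 : 0 < |z| := abs_pos.2 h0
  have h1 := Real.mul_abs_le_abs_sin hz
  have hs0 : 0 < |Real.sin z| := lt_of_lt_of_le (by positivity) h1
  have hs : Real.sin z ≠ 0 := abs_pos.1 hs0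
  have h2 : circleDN N z = ((Real.sin ((2 * N + 1) * z) / Real.sin z : ℝ) : ℂ) := by
    have h3 := circle_DN_mul N z
    have h4 : Complex.sin z ≠ 0 := by exact_mod_cast hs
    push_cast
    rw [eq_div_iff h4, h3]
  rw [h2, ← Complex.ofReal_sub, Complex.norm_real, Real.norm_eq_abs]
  have h5 : Real.sin ((2 * N + 1) * z) / Real.sin z - Real.sin ((2 * N + 1) * z) / z
      = Real.sin ((2 * N + 1) * z) * (z - Real.sin z) / (Real.sin z * z) := by
    field_simp
  rw [h5, abs_div, abs_mul, abs_mul, div_le_one (mul_pos hs0 hz0)]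
  have h6 := Real.abs_sub_sin_le z
  have h7 := mul_le_mul (Real.abs_sin_le_one ((2 * N + 1) * z)) h6 (abs_nonneg _) zero_le_one
  have h8 : |z| ≤ 2 := by linarith [Real.pi_le_four]
  have h9 : 1 / 2 ≤ 2 / Real.pi := by
    rw [le_div_iff₀ hpi]; linarith [Real.pi_le_four]
  have h10 : 1 / 2 * |z| ≤ |Real.sin z| := (mul_le_mul_of_nonneg_right h9 hz0.le).trans h1
  have h11 := mul_le_mul_of_nonneg_right h10 hz0.le
  have h12 := mul_le_mul_of_nonneg_right h8 (mul_pos hz0 hz0).le
  nlinarith [mul_pos hz0 hz0]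

section Lift

variable {T : ℝ} [hT : Fact (0 < T)] {f : AddCircle T → ℂ}

omit hT in
theorem circle_measurable_lift (hf : Measurable f) : Measurable (lift f) :=
  (hf.comp AddCircle.measurable_mk').indicator measurableSet_Ico

omit hT in
theorem circle_norm_lift_le {M : ℝ} (hb : ∀ y, ‖f y‖ ≤ M) (y : ℝ) : ‖lift f y‖ ≤ M :=
  (norm_indicator_le_norm_self _ _).trans (hb _)

omit hT in
theorem circle_integrableOn (hf : Measurable f) {M : ℝ} (hb : ∀ y, ‖f y‖ ≤ M) {s : Set ℝ}
    (hs : volume s ≠ ⊤) : IntegrableOn (fun y : ℝ => f y) s :=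
  Measure.integrableOn_of_bounded hs (hf.comp AddCircle.measurable_mk').aestronglyMeasurable
    (Filter.Eventually.of_forall fun _ => hb _)

omit hT in
theorem circle_integrable_lift (hf : Measurable f) {M : ℝ} (hb : ∀ y, ‖f y‖ ≤ M) :
    Integrable (lift f) :=
  (integrable_indicator_iff measurableSet_Ico).2 (circle_integrableOn hf hb (by simp))

theorem circle_integral_period (g : AddCircle T → ℝ) (a : ℝ) :
    ∫ y in a..a + T, g y = T * ∫ y, g y ∂AddCircle.haarAddCircle := by
  rw [AddCircle.intervalIntegral_preimage, AddCircle.integral_haarAddCircle, smul_eq_mul,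
    mul_inv_cancel_left₀ hT.out.ne']

theorem circle_integral_lift (hf : Measurable f) {M : ℝ} (hb : ∀ y, ‖f y‖ ≤ M) :
    ∫ y, ‖lift f y‖ = 3 * T * ∫ y, ‖f y‖ ∂AddCircle.haarAddCircle := by
  have h0 := hT.out
  have hi : ∀ a b : ℝ, IntervalIntegrable (fun y : ℝ => ‖f y‖) volume a b := fun a b =>
    intervalIntegrable_iff.2 (circle_integrableOn hf hb (by simp [uIoc])).norm
  have h1 : (fun y => ‖lift f y‖) = (Ico (-T) (2 * T)).indicator fun y : ℝ => ‖f y‖ := by
    funext y
    exact norm_indicator_eq_indicator_norm _ _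
  rw [h1, integral_indicator measurableSet_Ico, integral_Ico_eq_integral_Ioc,
    ← intervalIntegral.integral_of_le (by linarith),
    ← intervalIntegral.integral_add_adjacent_intervals (hi (-T) 0) (hi 0 (2 * T)),
    ← intervalIntegral.integral_add_adjacent_intervals (hi 0 T) (hi T (2 * T))]
  have h2 := circle_integral_period (fun y => ‖f y‖) (-T)
  have h3 := circle_integral_period (fun y => ‖f y‖) 0
  have h4 := circle_integral_period (fun y => ‖f y‖) T
  rw [neg_add_cancel] at h2
  rw [zero_add] at h3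
  rw [← two_mul] at h4
  rw [h2, h3, h4]
  ring

theorem circle_SN_eq (hf : Measurable f) {M : ℝ} (hb : ∀ y, ‖f y‖ ≤ M) (N : ℕ) (x a : ℝ) :
    SN f N x = ∫ y in Ioc a (a + T), f y * ((T⁻¹ : ℝ) * circleDN N (Real.pi / T * (x - y))) := by
  have h0 := hT.out
  have hT0 : (T : ℂ) ≠ 0 := by exact_mod_cast h0.ne'
  have hi := circle_integrableOn hf hb (s := Ioc a (a + T)) (by simp)
  unfold SN circleDN
  simp only [Finset.mul_sum]
  rw [integral_finsetSum]
  · refine Finset.sum_congr rfl fun k _ => ?_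
    rw [fourierCoeff_eq_intervalIntegral f k a, intervalIntegral.integral_of_le (by linarith),
      ← integral_smul, smul_eq_mul, ← integral_mul_const]
    refine integral_congr_ae (Filter.Eventually.of_forall fun y => ?_)
    simp only [fourier_coe_apply, smul_eq_mul, Complex.real_smul]
    have h1 : Complex.exp (2 * k * ((Real.pi / T * (x - y) : ℝ) : ℂ) * Complex.I)
        = Complex.exp (2 * Real.pi * Complex.I * ((-k : ℤ) : ℂ) * y / T)
          * Complex.exp (2 * Real.pi * Complex.I * k * x / T) := by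
      rw [← Complex.exp_add]
      congr 1
      push_cast
      field_simp
      ring
    rw [h1]
    push_cast
    ring
  · intro k _
    refine Integrable.mul_bdd (c := ‖((T⁻¹ : ℝ) : ℂ)‖) hi
      (Continuous.aestronglyMeasurable (by fun_prop)) (Filter.Eventually.of_forall fun y => ?_)
    have : (2 * (k : ℂ) * ((Real.pi / T * (x - y) : ℝ) : ℂ) * Complex.I)
        = ((2 * k * (Real.pi / T * (x - y)) : ℝ) : ℂ) * Complex.I := by push_cast; ring
    rw [norm_mul, this, Complex.norm_exp_ofReal_mul_I, mul_one]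

theorem circle_lintegral (g : AddCircle T → ENNReal) :
    ∫⁻ z, g z ∂AddCircle.haarAddCircle = ENNReal.ofReal T⁻¹ * ∫⁻ y in Ico 0 T, g y := by
  have h0 := hT.out
  have h1 := AddCircle.lintegral_preimage T 0 g
  rw [zero_add, ← setLIntegral_congr Ico_ae_eq_Ioc, AddCircle.volume_eq_smul_haarAddCircle,
    lintegral_smul_measure, smul_eq_mul] at h1
  rw [h1, ← mul_assoc, ← ENNReal.ofReal_mul (inv_nonneg.2 h0.le), inv_mul_cancel₀ h0.ne']
  simp

end Lift

theorem dirichlet {T : ℝ} [Fact (0 < T)] {f : AddCircle T → ℂ} (hf : Measurable f) {M : ℝ}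
    (hb : ∀ y, ‖f y‖ ≤ M) (N : ℕ) {x : ℝ} (hx : x ∈ Ico 0 T) :
    ‖SN f N x - (Real.pi⁻¹ : ℝ) * ∫ y, lift f y *
        ((Real.sin ((2 * N + 1) * Real.pi / T * (x - y)) / (x - y) : ℝ) : ℂ)‖ ≤
      4 * ∫ y, ‖f y‖ ∂AddCircle.haarAddCircle := by
  have h0 : 0 < T := Fact.out
  have hpi := Real.pi_pos
  have hi := circle_integrable_lift hf hb
  set ξ : ℝ := (2 * N + 1) * Real.pi / T with hξ
  set K₁ : ℝ → ℂ := (Ioc (x - T / 2) (x - T / 2 + T)).indicator
    fun y => (T⁻¹ : ℝ) * circleDN N (Real.pi / T * (x - y)) with hK₁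
  set K₂ : ℝ → ℂ := fun y => (Real.pi⁻¹ : ℝ) * ((Real.sin (ξ * (x - y)) / (x - y) : ℝ) : ℂ)
    with hK₂
  have hm₁ : Measurable K₁ := by
    refine Measurable.indicator (Continuous.measurable ?_) measurableSet_Ioc
    exact continuous_const.mul ((circle_continuous_DN N).comp (by fun_prop))
  have hm₂ : Measurable K₂ := by
    refine measurable_const.mul (Complex.measurable_ofReal.comp ?_)
    fun_prop
  have e1 : SN f N x = ∫ y, lift f y * K₁ y := by
    rw [circle_SN_eq hf hb N x (x - T / 2), ← integral_indicator measurableSet_Ioc]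
    refine integral_congr_ae (Filter.Eventually.of_forall fun y => ?_)
    by_cases hy : y ∈ Ioc (x - T / 2) (x - T / 2 + T)
    · have hy' : y ∈ Ico (-T) (2 * T) := ⟨by linarith [hy.1, hx.1], by linarith [hy.2, hx.2]⟩
      simp only [hK₁, lift, indicator_of_mem hy, indicator_of_mem hy']
    · simp only [hK₁, indicator_of_notMem hy, mul_zero]
  have e2 : ((Real.pi⁻¹ : ℝ) : ℂ) * ∫ y, lift f y * ((Real.sin (ξ * (x - y)) / (x - y) : ℝ) : ℂ)
      = ∫ y, lift f y * K₂ y := by
    rw [← integral_const_mul]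
    refine integral_congr_ae (Filter.Eventually.of_forall fun y => ?_)
    simp only [hK₂]
    ring
  have hb₁ : ∀ y, ‖K₁ y‖ ≤ ‖((T⁻¹ : ℝ) : ℂ)‖ * (Finset.Icc (-(N : ℤ)) N).card := fun y => by
    refine (norm_indicator_le_norm_self _ _).trans ?_
    rw [norm_mul]
    exact mul_le_mul_of_nonneg_left (circle_norm_DN N _) (norm_nonneg _)
  have hd : ∀ᵐ y, ‖K₁ y - K₂ y‖ ≤ T⁻¹ := by
    filter_upwards [compl_mem_ae_iff.2 (measure_singleton x)] with y hyx
    have hu : x - y ≠ 0 := sub_ne_zero.2 (Ne.symm hyx)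
    by_cases hy : y ∈ Ioc (x - T / 2) (x - T / 2 + T)
    · have hz : |Real.pi / T * (x - y)| ≤ Real.pi / 2 := by
        have h1 : |x - y| ≤ T / 2 := abs_le.2 ⟨by linarith [hy.2], by linarith [hy.1]⟩
        rw [abs_mul, abs_of_pos (div_pos hpi h0)]
        refine (mul_le_mul_of_nonneg_left h1 (div_pos hpi h0).le).trans (le_of_eq ?_)
        field_simp
      have h2 := circle_DN_sub N (mul_ne_zero (div_pos hpi h0).ne' hu) hz
      have h3 : K₁ y - K₂ y = (T⁻¹ : ℝ) * (circleDN N (Real.pi / T * (x - y))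
          - ((Real.sin ((2 * N + 1) * (Real.pi / T * (x - y))) / (Real.pi / T * (x - y)) : ℝ) : ℂ)) := by
        have h4 : ξ * (x - y) = (2 * N + 1) * (Real.pi / T * (x - y)) := by rw [hξ]; ring
        simp only [hK₁, hK₂, indicator_of_mem hy, h4]
        rw [mul_sub ((T⁻¹ : ℝ) : ℂ), ← Complex.ofReal_mul, ← Complex.ofReal_mul]
        congr 2
        field_simp
      rw [h3, norm_mul, Complex.norm_real, Real.norm_eq_abs, abs_of_pos (inv_pos.2 h0)]
      exact mul_le_of_le_one_right (inv_pos.2 h0).le h2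
    · have h1 : T / 2 ≤ |x - y| := by
        rw [mem_Ioc, not_and_or, not_lt, not_le] at hy
        rcases hy with hy | hy
        · exact le_abs.2 (Or.inl (by linarith))
        · exact le_abs.2 (Or.inr (by linarith))
      simp only [hK₁, hK₂, indicator_of_notMem hy, zero_sub, norm_neg, ← Complex.ofReal_mul,
        Complex.norm_real, Real.norm_eq_abs, abs_mul, abs_div, abs_of_pos (inv_pos.2 hpi)]
      have h2 : |Real.sin (ξ * (x - y))| / |x - y| ≤ 1 / (T / 2) :=
        div_le_div₀ zero_le_one (Real.abs_sin_le_one _) (half_pos h0) h1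
      have h3 : Real.pi⁻¹ ≤ 1 / 2 := by
        rw [inv_eq_one_div]
        exact one_div_le_one_div_of_le two_pos Real.two_le_pi
      refine (mul_le_mul h3 h2 (by positivity) (by norm_num)).trans (le_of_eq ?_)
      field_simp
  have i1 : Integrable fun y => lift f y * K₁ y :=
    hi.mul_bdd hm₁.aestronglyMeasurable (Filter.Eventually.of_forall hb₁)
  have i3 : Integrable fun y => lift f y * (K₁ y - K₂ y) :=
    hi.mul_bdd (hm₁.sub hm₂).aestronglyMeasurable hd
  have i2 : Integrable fun y => lift f y * K₂ y := by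
    refine (i1.sub i3).congr (Filter.Eventually.of_forall fun y => ?_)
    simp only [Pi.sub_apply]
    ring
  rw [e1, e2, ← integral_sub i1 i2]
  have hm0 : 0 ≤ ∫ y, ‖f y‖ ∂AddCircle.haarAddCircle := integral_nonneg fun _ => norm_nonneg _
  calc ‖∫ y, (lift f y * K₁ y - lift f y * K₂ y)‖ ≤ ∫ y, ‖lift f y‖ * T⁻¹ := by
        refine norm_integral_le_of_norm_le (hi.norm.mul_const _) ?_
        filter_upwards [hd] with y hy
        rw [← mul_sub, norm_mul]
        exact mul_le_mul_of_nonneg_left hy (norm_nonneg _)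
    _ = 3 * ∫ y, ‖f y‖ ∂AddCircle.haarAddCircle := by
        rw [integral_mul_const, circle_integral_lift hf hb]
        field_simp
    _ ≤ 4 * ∫ y, ‖f y‖ ∂AddCircle.haarAddCircle := by linarith

theorem circ_bound {T : ℝ} [Fact (0 < T)] {C : ℝ} {c : ℕ} (hC : 0 ≤ C) (h : RealBound C c) :
    CircBound T (C + 10) c := by
  intro f δ H d hδ hH hd hf hb hm
  have h0 : 0 < T := Fact.out
  have hpi := Real.pi_pos
  have hH0 : 0 < H := by linarith
  have hi := circle_integrable_lift hf hb
  have hI : ∫ y, ‖lift f y‖ ≤ 3 * δ * T := by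
    rw [circle_integral_lift hf hb]
    have := mul_le_mul_of_nonneg_left hm (by positivity : (0 : ℝ) ≤ 3 * T)
    linarith
  obtain ⟨Ω₁, hΩm, hΩv, hΩg⟩ := hl hi (lam := H * (3 * δ)) (by positivity)
  set Ω : Set (AddCircle T) := (fun z => ((AddCircle.equivIco T 0 z : Ico 0 (0 + T)) : ℝ)) ⁻¹' Ω₁
    with hΩ
  have hΩ' : MeasurableSet Ω :=
    (measurable_subtype_coe.comp (AddCircle.measurableEquivIco T 0).measurable) hΩm
  have hmem : ∀ y ∈ Ico 0 T, ((y : AddCircle T) ∈ Ω ↔ y ∈ Ω₁) := fun y hy => by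
    rw [hΩ, mem_preimage, AddCircle.equivIco_coe_eq (by rwa [zero_add])]
  refine ⟨Ω, hΩ', ?_, ?_⟩
  · rw [← lintegral_indicator_one hΩ', circle_lintegral]
    have h1 : ∫⁻ y in Ico 0 T, Ω.indicator (1 : AddCircle T → ENNReal) (y : AddCircle T)
        ≤ volume Ω₁ := by
      rw [← lintegral_indicator_one hΩm]
      refine le_trans (setLIntegral_mono' measurableSet_Ico fun y hy => ?_)
        (setLIntegral_le_lintegral _ _)
      by_cases hy' : y ∈ Ω₁
      · rw [indicator_of_mem hy', indicator_of_mem ((hmem y hy).2 hy')]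
        exact le_rfl
      · rw [indicator_of_notMem hy', indicator_of_notMem (fun h => hy' ((hmem y hy).1 h))]
    refine (mul_le_mul_right (h1.trans hΩv) _).trans ?_
    rw [← ENNReal.ofReal_mul (inv_nonneg.2 h0.le)]
    refine ENNReal.ofReal_le_ofReal ?_
    calc T⁻¹ * (10 * (∫ y, ‖lift f y‖) / (H * (3 * δ)))
        ≤ T⁻¹ * (10 * (3 * δ * T) / (H * (3 * δ))) := by gcongr
      _ = 10 / H := by field_simp
      _ ≤ (C + 10) / H := by gcongr; linarith
  · set S : Set ℝ := Ico 0 T \ Ω₁ with hS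
    have hSm : MeasurableSet S := measurableSet_Ico.diff hΩm
    have h1 : ∫⁻ y in Ico 0 T, Ωᶜ.indicator (Smax f) (y : AddCircle T)
        = ∫⁻ y in S, Smax f (y : AddCircle T) := by
      rw [hS, sdiff_eq, inter_comm, ← Measure.restrict_restrict hΩm.compl,
        ← lintegral_indicator hΩm.compl]
      refine setLIntegral_congr_fun measurableSet_Ico fun y hy => ?_
      by_cases hy' : y ∈ Ω₁
      · rw [indicator_of_notMem (notMem_compl_iff.2 hy'),
          indicator_of_notMem (notMem_compl_iff.2 ((hmem y hy).2 hy'))]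
      · rw [indicator_of_mem (mem_compl hy'),
          indicator_of_mem (mem_compl fun h => hy' ((hmem y hy).1 h))]
    rw [← lintegral_indicator hΩ'.compl, circle_lintegral, h1]
    set G : ℕ → ℝ → ENNReal := fun N₀ y => ⨆ N ∈ Finset.range (N₀ + 1), ‖SN f N y‖ₑ with hG
    have hGm : ∀ N₀, Measurable (G N₀) := fun N₀ =>
      Measurable.iSup fun N => Measurable.iSup fun _ =>
        ((continuous_SN f N).measurable.comp AddCircle.measurable_mk').enorm
    have hGmono : Monotone G := fun N₀ N₁ hN y =>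
      biSup_mono fun N hN' => Finset.mem_range.2 (by have := Finset.mem_range.1 hN'; omega)
    have h2 : ∀ y : ℝ, Smax f y ≤ ⨆ N₀, G N₀ y := fun y =>
      iSup_le fun N => le_iSup_of_le N (le_iSup₂_of_le N (Finset.self_mem_range_succ N) le_rfl)
    have hX : 1 ≤ d + H ^ c := by
      have : 0 ≤ H ^ c := by positivity
      linarith
    have h3 : ∀ N₀, ∫⁻ y in S, G N₀ y ≤ ENNReal.ofReal (T * (δ * (C + 10) * (d + H ^ c))) := by
      intro N₀
      classical
      set Ξ : Finset ℝ := (Finset.range (N₀ + 1)).image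
        fun N : ℕ => (2 * N + 1) * Real.pi / T with hΞ
      have h4 := h (lift f) (3 * δ) H d T S Ξ (by positivity) hH hd h0
        (circle_measurable_lift hf) hi
        (fun y => (circle_norm_lift_le hb y).trans (by nlinarith [Real.exp_pos d])) hI hSm
        sdiff_subset fun x hx => hΩg x hx.2
      set B : ℝ → ENNReal := fun x => ⨆ ξ ∈ Ξ,
        ‖∫ y, lift f y * ((Real.sin (ξ * (x - y)) / (x - y) : ℝ) : ℂ)‖ₑ with hB
      have h5 : ∀ x ∈ S, G N₀ x ≤ ENNReal.ofReal Real.pi⁻¹ * B x + ENNReal.ofReal (4 * δ) := by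
        intro x hx
        refine iSup₂_le fun N hN => ?_
        have h6 := dirichlet hf hb N hx.1
        set J := ∫ y, lift f y *
          ((Real.sin ((2 * N + 1) * Real.pi / T * (x - y)) / (x - y) : ℝ) : ℂ) with hJ
        have h7 : ‖J‖ₑ ≤ B x :=
          le_iSup₂_of_le (f := fun ξ (_ : ξ ∈ Ξ) =>
            ‖∫ y, lift f y * ((Real.sin (ξ * (x - y)) / (x - y) : ℝ) : ℂ)‖ₑ)
            ((2 * N + 1) * Real.pi / T) (Finset.mem_image_of_mem _ hN) le_rfl
        have h8 : ‖SN f N x‖ ≤ Real.pi⁻¹ * ‖J‖ + 4 * δ := by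
          have h9 := norm_le_insert' (SN f N x) ((Real.pi⁻¹ : ℝ) * J)
          rw [norm_mul, Complex.norm_real, Real.norm_eq_abs, abs_of_pos (inv_pos.2 hpi)] at h9
          linarith
        rw [← ofReal_norm]
        refine (ENNReal.ofReal_le_ofReal h8).trans ?_
        rw [ENNReal.ofReal_add (by positivity) (by positivity),
          ENNReal.ofReal_mul (inv_pos.2 hpi).le, ofReal_norm]
        gcongr
      refine (setLIntegral_mono' hSm h5).trans ?_
      rw [lintegral_add_right _ measurable_const, lintegral_const_mul' _ _ ENNReal.ofReal_ne_top,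
        setLIntegral_const]
      have h10 : volume S ≤ ENNReal.ofReal T := (measure_mono sdiff_subset).trans (by simp)
      refine (add_le_add (mul_le_mul_right h4 _) (mul_le_mul_right h10 _)).trans ?_
      rw [← ENNReal.ofReal_mul (inv_pos.2 hpi).le, ← ENNReal.ofReal_mul (by positivity),
        ← ENNReal.ofReal_add (by positivity) (by positivity)]
      refine ENNReal.ofReal_le_ofReal ?_
      have h11 : Real.pi⁻¹ ≤ 1 / 3 := by
        rw [inv_eq_one_div]
        exact one_div_le_one_div_of_le three_pos Real.pi_gt_three.le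
      have h12 := mul_le_mul_of_nonneg_right h11
        (by positivity : 0 ≤ T * (3 * δ) * C * (d + H ^ c))
      have h13 := mul_le_mul_of_nonneg_left hX (by positivity : 0 ≤ T * δ)
      have h14 : 0 ≤ T * δ := by positivity
      linarith
    have h15 : ∫⁻ y in S, Smax f (y : AddCircle T)
        ≤ ENNReal.ofReal (T * (δ * (C + 10) * (d + H ^ c))) := by
      refine (lintegral_mono h2).trans ?_
      rw [lintegral_iSup hGm hGmono]
      exact iSup_le h3
    refine (mul_le_mul_right h15 _).trans ?_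
    rw [← ENNReal.ofReal_mul (inv_nonneg.2 h0.le), inv_mul_cancel_left₀ h0.ne']

end Crest.Agent.R100
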