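import Crest.Agent.R100.Stmts

/-!
# R100/Final: density of trigonometric polynomials and a.e. convergence  (task)

`approx`: truncate `f = f 1{‖f‖ ≤ K} + f 1{‖f‖ > K}` (dominated convergence: `LL` of the tail is
small), approximate the bounded part in `L²` by an element of the span of the `fourier k`
(`span_fourierLp_closure_eq_top`, or `span_fourier_closure_eq_top` + density of continuous
functions); `Φ s = s log(2+s)` satisfies `Φ(a+b) ≤ Φ(2a) + Φ(2b) ≤ 4Φ a + 4Φ b` (monotone;
`log(2+2a) ≤ 2 log(2+a)`), and `Φ s ≤ s + s²` (`log(2+s) ≤ 1 + s`).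
`final`: replace `f` by a measurable representative `g` (`fourierCoeff` only depends on the a.e.
class).  For a polynomial `P`, `SN P N = P` for large `N` (`fourierCoeff_fourier`), `SN` is additive on
integrable functions, so `limsup ‖SN g N x - g x‖ ≤ Smax (g-P) x + ‖(g-P) x‖`.  Hence for all `ε`:
`haar {x | ¬ ∀ᶠ N, ‖SN g N x - g x‖ ≤ 2ε} ≤ ε + 2η/ε` (Markov, `log 2 ≥ 1/2`); let `η`, then `ε → 0`.
-/

set_option autoImplicit false
open MeasureTheory Set

namespace Crest.Agent.R100

/-- the Young function -/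
noncomputable def Final_ph (s : ℝ) : ℝ := s * Real.log (2 + s)

theorem Final_log_ge {s : ℝ} (hs : 0 ≤ s) : 1 / 2 ≤ Real.log (2 + s) := by
  have h1 := Real.log_two_gt_d9
  have h2 : Real.log 2 ≤ Real.log (2 + s) := Real.log_le_log (by norm_num) (by linarith)
  linarith

theorem Final_ph_nonneg {s : ℝ} (hs : 0 ≤ s) : 0 ≤ Final_ph s :=
  mul_nonneg hs ((by norm_num : (0 : ℝ) ≤ 1 / 2).trans (Final_log_ge hs))

theorem Final_ph_mono {a b : ℝ} (ha : 0 ≤ a) (hab : a ≤ b) : Final_ph a ≤ Final_ph b :=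
  mul_le_mul hab (Real.log_le_log (by linarith) (by linarith))
    ((by norm_num : (0 : ℝ) ≤ 1 / 2).trans (Final_log_ge ha)) (ha.trans hab)

theorem Final_ph_two {b : ℝ} (hb : 0 ≤ b) : Final_ph (2 * b) ≤ 4 * Final_ph b := by
  have h1 : Real.log (2 + 2 * b) ≤ 2 * Real.log (2 + b) := by
    have : Real.log ((2 + b) ^ 2) = 2 * Real.log (2 + b) := by rw [Real.log_pow]; norm_num
    rw [← this]
    exact Real.log_le_log (by linarith) (by nlinarith)
  unfold Final_ph
  nlinarith

theorem Final_ph_add {a b : ℝ} (ha : 0 ≤ a) (hb : 0 ≤ b) :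
    Final_ph (a + b) ≤ 4 * Final_ph a + 4 * Final_ph b := by
  have h1 := Final_ph_nonneg ha
  have h2 := Final_ph_nonneg hb
  rcases le_total a b with h | h
  · have := (Final_ph_mono (add_nonneg ha hb) (by linarith : a + b ≤ 2 * b)).trans (Final_ph_two hb)
    linarith
  · have := (Final_ph_mono (add_nonneg ha hb) (by linarith : a + b ≤ 2 * a)).trans (Final_ph_two ha)
    linarith

theorem Final_ph_le {s δ : ℝ} (hs : 0 ≤ s) (hδ : 0 < δ) : Final_ph s ≤ δ + (1 + 1 / δ) * s ^ 2 := by
  have h1 : Real.log (2 + s) ≤ 1 + s := by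
    have := Real.log_le_sub_one_of_pos (show 0 < 2 + s by linarith)
    linarith
  have h2 : Final_ph s ≤ s * (1 + s) := mul_le_mul_of_nonneg_left h1 hs
  have h3 : s ≤ δ + 1 / δ * s ^ 2 := by
    rw [one_div, inv_mul_eq_div, ← sub_le_iff_le_add', le_div_iff₀ hδ]
    nlinarith [sq_nonneg (s - δ), sq_nonneg s]
  nlinarith

theorem Final_eq (z : ℂ) :
    ‖z‖ₑ * ENNReal.ofReal (Real.log (2 + ‖z‖)) = ENNReal.ofReal (Final_ph ‖z‖) := by
  rw [Final_ph, ENNReal.ofReal_mul (norm_nonneg _), ofReal_norm]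

section

variable {T : ℝ} [Fact (0 < T)]

theorem Final_LL (f : AddCircle T → ℂ) :
    LL f = ∫⁻ x, ENNReal.ofReal (Final_ph ‖f x‖) ∂AddCircle.haarAddCircle := by
  simp only [LL, Final_eq]

theorem Final_meas {f : AddCircle T → ℂ} (hf : Measurable f) :
    Measurable fun x => ENNReal.ofReal (Final_ph ‖f x‖) := by
  unfold Final_ph
  exact (hf.norm.mul ((hf.norm.const_add 2).log)).ennreal_ofReal

theorem Final_LL_add {f g : AddCircle T → ℂ} (hf : Measurable f) :
    LL (fun x => f x + g x) ≤ 4 * LL f + 4 * LL g := by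
  rw [Final_LL, Final_LL, Final_LL, ← lintegral_const_mul' _ _ (by norm_num),
    ← lintegral_const_mul' _ _ (by norm_num), ← lintegral_add_left ((Final_meas hf).const_mul _)]
  refine lintegral_mono fun x => ?_
  have h1 := (Final_ph_mono (norm_nonneg _) (norm_add_le (f x) (g x))).trans
    (Final_ph_add (norm_nonneg _) (norm_nonneg _))
  refine (ENNReal.ofReal_le_ofReal h1).trans ?_
  rw [ENNReal.ofReal_add (by have := Final_ph_nonneg (norm_nonneg (f x)); positivity)
    (by have := Final_ph_nonneg (norm_nonneg (g x)); positivity),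
    ENNReal.ofReal_mul (by norm_num), ENNReal.ofReal_mul (by norm_num)]
  simp

theorem Final_tail {f : AddCircle T → ℂ} (hf : Measurable f) (hl : LL f < ⊤) {η : ℝ} (hη : 0 < η) :
    ∃ K : ℕ, LL ({x | (K : ℝ) < ‖f x‖}.indicator f) ≤ ENNReal.ofReal η := by
  have hm : ∀ K : ℕ, Measurable ({x | (K : ℝ) < ‖f x‖}.indicator f) := fun K =>
    hf.indicator (measurableSet_lt measurable_const hf.norm)
  have h := tendsto_lintegral_of_dominated_convergence (μ := AddCircle.haarAddCircle)
    (F := fun (K : ℕ) x => ENNReal.ofReal (Final_ph ‖{x | (K : ℝ) < ‖f x‖}.indicator f x‖))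
    (f := fun _ => 0) (fun x => ENNReal.ofReal (Final_ph ‖f x‖)) (fun K => Final_meas (hm K))
    (fun K => ae_of_all _ fun x => ENNReal.ofReal_le_ofReal
      (Final_ph_mono (norm_nonneg _) (norm_indicator_le_norm_self f x)))
    (by rw [← Final_LL]; exact hl.ne) (ae_of_all _ fun x => ?_)
  · rw [lintegral_zero] at h
    obtain ⟨K, hK⟩ := (h.eventually (ge_mem_nhds (ENNReal.ofReal_pos.2 hη))).exists
    exact ⟨K, by rw [Final_LL]; exact hK⟩
  · refine tendsto_const_nhds.congr' ?_
    obtain ⟨K, hK⟩ := exists_nat_ge ‖f x‖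
    filter_upwards [Filter.eventually_ge_atTop K] with N hN
    have : x ∉ {x | (N : ℝ) < ‖f x‖} := by
      have h' : (K : ℝ) ≤ N := by exact_mod_cast hN
      simp only [mem_ofPred_eq, not_lt]
      linarith
    rw [indicator_of_notMem this]
    simp [Final_ph]

theorem Final_LL_le_sq (g : AddCircle T → ℂ) {δ : ℝ} (hδ : 0 < δ) :
    LL g ≤ ENNReal.ofReal δ + ENNReal.ofReal (1 + 1 / δ) *
      ∫⁻ x, ‖g x‖ₑ ^ 2 ∂AddCircle.haarAddCircle := by
  have h1 : ENNReal.ofReal δ = ∫⁻ _x : AddCircle T, ENNReal.ofReal δ ∂AddCircle.haarAddCircle := by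
    simp
  rw [Final_LL, ← lintegral_const_mul' _ _ ENNReal.ofReal_ne_top, h1,
    ← lintegral_add_left measurable_const]
  refine lintegral_mono fun x => ?_
  refine (ENNReal.ofReal_le_ofReal (Final_ph_le (norm_nonneg _) hδ)).trans ?_
  rw [ENNReal.ofReal_add hδ.le (by positivity), ENNReal.ofReal_mul (by positivity),
    ENNReal.ofReal_pow (norm_nonneg _), ofReal_norm]

theorem Final_L2 {b : AddCircle T → ℂ} (hb : MemLp b 2 AddCircle.haarAddCircle) {ε : ℝ}
    (hε : 0 < ε) : ∃ (s : Finset ℤ) (c : ℤ → ℂ),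
      ∫⁻ x, ‖b x - ∑ k ∈ s, c k * fourier k x‖ₑ ^ 2 ∂AddCircle.haarAddCircle ≤
        ENNReal.ofReal (ε ^ 2) := by
  have h1 : hb.toLp b ∈ (Submodule.span ℂ (range (@fourierLp T _ 2 _))).topologicalClosure := by
    rw [span_fourierLp_closure_eq_top (by norm_num)]
    trivial
  obtain ⟨P, hP, hd⟩ := Metric.mem_closure_iff.1 h1 ε hε
  obtain ⟨c, rfl⟩ := Finsupp.mem_span_range_iff_exists_finsupp.1 hP
  refine ⟨c.support, c, ?_⟩
  have h2 : (c.sum fun i a => a • @fourierLp T _ 2 _ i) =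
      ContinuousMap.toLp (E := ℂ) 2 AddCircle.haarAddCircle ℂ (∑ k ∈ c.support, c k • fourier k) := by
    rw [map_sum]
    simp only [map_smul]
    rfl
  have h3 : edist (hb.toLp b) (c.sum fun i a => a • @fourierLp T _ 2 _ i) =
      eLpNorm (fun x => b x - ∑ k ∈ c.support, c k * fourier k x) 2 AddCircle.haarAddCircle := by
    rw [Lp.edist_def, h2]
    refine eLpNorm_congr_ae ?_
    filter_upwards [hb.coeFn_toLp, ContinuousMap.coeFn_toLp (p := 2) (𝕜 := ℂ)
      AddCircle.haarAddCircle (∑ k ∈ c.support, c k • (fourier k : C(AddCircle T, ℂ)))] with x h4 h5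
    rw [Pi.sub_apply, h4, h5]
    simp
  have h4 : eLpNorm (fun x => b x - ∑ k ∈ c.support, c k * fourier k x) 2 AddCircle.haarAddCircle ≤
      ENNReal.ofReal ε := by
    rw [← h3, edist_dist]
    exact ENNReal.ofReal_le_ofReal hd.le
  have h5 := eLpNorm_nnreal_pow_eq_lintegral (μ := AddCircle.haarAddCircle) (p := 2)
    (f := fun x => b x - ∑ k ∈ c.support, c k * fourier k x) (by norm_num)
  simp only [ENNReal.coe_ofNat, NNReal.coe_ofNat, ENNReal.rpow_ofNat] at h5
  rw [← h5, ENNReal.ofReal_pow hε.le]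
  exact pow_le_pow_left' h4 2

theorem Final_enorm_le (f : AddCircle T → ℂ) :
    ∫⁻ x, ‖f x‖ₑ ∂AddCircle.haarAddCircle ≤ 2 * LL f := by
  rw [Final_LL, ← lintegral_const_mul' _ _ (by norm_num)]
  refine lintegral_mono fun x => ?_
  have h1 : ‖f x‖ ≤ 2 * Final_ph ‖f x‖ := by
    have := mul_le_mul_of_nonneg_left (Final_log_ge (norm_nonneg (f x))) (norm_nonneg (f x))
    unfold Final_ph
    linarith
  rw [← ofReal_norm]
  refine (ENNReal.ofReal_le_ofReal h1).trans ?_
  rw [ENNReal.ofReal_mul (by norm_num)]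
  simp

theorem Final_SN_poly (s : Finset ℤ) (c : ℤ → ℂ) :
    ∀ᶠ N : ℕ in Filter.atTop, ∀ x : AddCircle T,
      SN (fun x : AddCircle T => ∑ k ∈ s, c k * fourier k x) N x = ∑ k ∈ s, c k * fourier k x := by
  classical
  have hco : ∀ j : ℤ, fourierCoeff (fun x : AddCircle T => ∑ k ∈ s, c k * fourier k x) j =
      if j ∈ s then c j else 0 := by
    intro j
    have h1 := fourierCoeff.sum s (fun k (x : AddCircle T) => c k * fourier k x) fun k _ =>
      (Continuous.integrable_of_hasCompactSupport (by fun_prop) (HasCompactSupport.of_compactSpace _))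
    have h2 : (fun x : AddCircle T => ∑ k ∈ s, c k * fourier k x) =
        ∑ k ∈ s, fun x : AddCircle T => c k * fourier k x := by
      funext x; simp
    rw [h2, h1, Finset.sum_apply]
    simp only [fourierCoeff.const_mul]
    have h3 : ∀ k : ℤ, fourierCoeff (fun x : AddCircle T => fourier k x) j = if j = k then 1 else 0 :=
      fun k => by
        have := congrFun (fourierCoeff_fourier (T := T) k) j
        rw [Pi.single_apply] at this
        exact this
    simp only [h3, mul_ite, mul_one, mul_zero, Finset.sum_ite_eq]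
  filter_upwards [Filter.eventually_ge_atTop (s.sup Int.natAbs)] with N hN x
  have hsub : s ⊆ Finset.Icc (-(N : ℤ)) N := fun k hk => by
    have := (Finset.le_sup (f := Int.natAbs) hk).trans hN
    rw [Finset.mem_Icc]
    omega
  unfold SN
  simp only [hco, smul_eq_mul, ite_mul, zero_mul]
  rw [← Finset.sum_filter, Finset.filter_mem_eq_inter, Finset.inter_eq_right.2 hsub]

theorem Final_SN_add {f g : AddCircle T → ℂ} (hf : Integrable f AddCircle.haarAddCircle)
    (hg : Integrable g AddCircle.haarAddCircle) (N : ℕ) (x : AddCircle T) :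
    SN (f + g) N x = SN f N x + SN g N x := by
  unfold SN
  rw [fourierCoeff.add hf hg, ← Finset.sum_add_distrib]
  exact Finset.sum_congr rfl fun k _ => by rw [Pi.add_apply, add_smul]

end

theorem approx {T : ℝ} [Fact (0 < T)] {f : AddCircle T → ℂ} (hf : Measurable f) (hl : LL f < ⊤)
    {η : ℝ} (hη : 0 < η) :
    ∃ (s : Finset ℤ) (c : ℤ → ℂ),
      LL (fun x => f x - ∑ k ∈ s, c k * fourier k x) ≤ ENNReal.ofReal η := by
  obtain ⟨K, hK⟩ := Final_tail hf hl (η := η / 8) (by positivity)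
  have hms : MeasurableSet {x | (K : ℝ) < ‖f x‖} := measurableSet_lt measurable_const hf.norm
  have hb : MemLp ({x | (K : ℝ) < ‖f x‖}ᶜ.indicator f) 2 AddCircle.haarAddCircle := by
    refine MemLp.of_bound (hf.indicator hms.compl).aestronglyMeasurable K (ae_of_all _ fun x => ?_)
    by_cases hx : x ∈ {x | (K : ℝ) < ‖f x‖}ᶜ
    · rw [indicator_of_mem hx]
      simpa using hx
    · rw [indicator_of_notMem hx]
      simp
  have hδ : 0 < η / 16 := by positivity
  have hq : 0 < (η / 16) / (1 + 1 / (η / 16)) := by positivity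
  obtain ⟨s, c, hsc⟩ := Final_L2 hb (Real.sqrt_pos.2 hq)
  rw [Real.sq_sqrt hq.le] at hsc
  refine ⟨s, c, ?_⟩
  have h1 := Final_LL_le_sq
    (fun x => {x | (K : ℝ) < ‖f x‖}ᶜ.indicator f x - ∑ k ∈ s, c k * fourier k x) hδ
  have h2 : ENNReal.ofReal (1 + 1 / (η / 16)) * ∫⁻ x, ‖{x | (K : ℝ) < ‖f x‖}ᶜ.indicator f x -
      ∑ k ∈ s, c k * fourier k x‖ₑ ^ 2 ∂AddCircle.haarAddCircle ≤ ENNReal.ofReal (η / 16) := by
    refine (mul_le_mul_right hsc _).trans ?_
    rw [← ENNReal.ofReal_mul (by positivity), mul_div_cancel₀ _ (by positivity)]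
  have h3 := Final_LL_add (g := fun x => {x | (K : ℝ) < ‖f x‖}ᶜ.indicator f x -
    ∑ k ∈ s, c k * fourier k x) (hf.indicator hms)
  have h4 : (fun x => f x - ∑ k ∈ s, c k * fourier k x) = fun x =>
      {x | (K : ℝ) < ‖f x‖}.indicator f x + ({x | (K : ℝ) < ‖f x‖}ᶜ.indicator f x -
        ∑ k ∈ s, c k * fourier k x) := by
    funext x
    rw [← add_sub_assoc, indicator_self_add_compl_apply]
  rw [h4]
  refine h3.trans ?_
  have h5 := h1.trans (add_le_add_right h2 _)
  rw [← ENNReal.ofReal_add hδ.le hδ.le] at h5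
  refine (add_le_add (mul_le_mul_right hK 4) (mul_le_mul_right h5 4)).trans (le_of_eq ?_)
  have h6 : (4 : ENNReal) = ENNReal.ofReal 4 := by simp
  rw [h6, ← ENNReal.ofReal_mul (by norm_num), ← ENNReal.ofReal_mul (by norm_num),
    ← ENNReal.ofReal_add (by positivity) (by positivity)]
  congr 1
  ring

theorem Final_bad {T : ℝ} [Fact (0 < T)] (h : WeakSmall T) {g : AddCircle T → ℂ} (hg : Measurable g)
    (hl : LL g < ⊤) {ε : ℝ} (hε : 0 < ε) :
    AddCircle.haarAddCircle {x | ¬ ∀ᶠ N : ℕ in Filter.atTop, ‖SN g N x - g x‖ ≤ 2 * ε} ≤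
      ENNReal.ofReal (3 * ε) := by
  obtain ⟨η, hη, hw⟩ := h ε hε
  obtain ⟨s, c, hsc⟩ := approx hg hl (η := min η (ε ^ 2)) (by positivity)
  set P : AddCircle T → ℂ := fun x => ∑ k ∈ s, c k * fourier k x with hP
  have hPc : Continuous P := by rw [hP]; fun_prop
  have hPi : Integrable P AddCircle.haarAddCircle :=
    hPc.integrable_of_hasCompactSupport (HasCompactSupport.of_compactSpace _)
  have hr : Measurable fun x => g x - P x := hg.sub hPc.measurable
  have hri : ∫⁻ x, ‖g x - P x‖ₑ ∂AddCircle.haarAddCircle ≤ ENNReal.ofReal (2 * ε ^ 2) := by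
    refine (Final_enorm_le _).trans ?_
    refine (mul_le_mul_right (hsc.trans (ENNReal.ofReal_le_ofReal (min_le_right _ _))) 2).trans ?_
    rw [ENNReal.ofReal_mul (by norm_num)]
    simp
  have hint : Integrable (fun x => g x - P x) AddCircle.haarAddCircle :=
    ⟨hr.aestronglyMeasurable, hri.trans_lt ENNReal.ofReal_lt_top⟩
  have h1 := hw _ hr (hsc.trans (ENNReal.ofReal_le_ofReal (min_le_left _ _)))
  have h2 : AddCircle.haarAddCircle {x | ENNReal.ofReal ε ≤ ‖g x - P x‖ₑ} ≤
      ENNReal.ofReal (2 * ε) := by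
    refine (meas_ge_le_lintegral_div hr.enorm.aemeasurable (ENNReal.ofReal_pos.2 hε).ne'
      ENNReal.ofReal_ne_top).trans ((ENNReal.div_le_div_right hri _).trans (le_of_eq ?_))
    rw [← ENNReal.ofReal_div_of_pos hε]
    congr 1
    field_simp
  have hsub : {x | ¬ ∀ᶠ N : ℕ in Filter.atTop, ‖SN g N x - g x‖ ≤ 2 * ε} ⊆
      {x | ENNReal.ofReal ε < Smax (fun x => g x - P x) x} ∪
        {x | ENNReal.ofReal ε ≤ ‖g x - P x‖ₑ} := by
    intro x hx
    by_contra hc
    simp only [mem_union, mem_ofPred_eq, not_or, not_lt, not_le] at hc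
    refine hx ?_
    filter_upwards [Final_SN_poly (T := T) s c] with N hN
    have e1 : g = (fun x => g x - P x) + P := by funext y; simp
    have e2 : SN g N x = SN (fun x => g x - P x) N x + P x := by
      conv_lhs => rw [e1]
      rw [Final_SN_add hint hPi, hN x]
    have e3 : ‖SN (fun x => g x - P x) N x‖ ≤ ε := by
      have := (le_iSup (fun N : ℕ => ‖SN (fun x => g x - P x) N x‖ₑ) N).trans hc.1
      rwa [← ofReal_norm, ENNReal.ofReal_le_ofReal_iff hε.le] at this
    have e4 : ‖g x - P x‖ ≤ ε := by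
      have := hc.2.le
      rwa [← ofReal_norm, ENNReal.ofReal_le_ofReal_iff hε.le] at this
    have e5 : SN g N x - g x = SN (fun x => g x - P x) N x - (g x - P x) := by rw [e2]; ring
    rw [e5]
    exact (norm_sub_le _ _).trans (by linarith)
  refine (measure_mono hsub).trans ((measure_union_le _ _).trans ((add_le_add h1 h2).trans (le_of_eq ?_)))
  rw [← ENNReal.ofReal_add hε.le (by positivity)]
  congr 1
  ring

theorem final {T : ℝ} [Fact (0 < T)] (h : WeakSmall T) (f : AddCircle T → ℂ)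
    (hf : AEStronglyMeasurable f AddCircle.haarAddCircle) (hl : LL f < ⊤) :
    ∀ᵐ x ∂AddCircle.haarAddCircle, Filter.Tendsto (fun N : ℕ => SN f N x) Filter.atTop
      (nhds (f x)) := by
  have hg : Measurable (hf.mk f) := hf.stronglyMeasurable_mk.measurable
  have hfg : f =ᵐ[AddCircle.haarAddCircle] hf.mk f := hf.ae_eq_mk
  generalize hf.mk f = g at hg hfg
  have hLL : LL g = LL f := lintegral_congr_ae (hfg.mono fun x hx => by simp only [hx])
  have hSN : SN f = SN g := by
    funext N x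
    unfold SN
    rw [fourierCoeff_congr_ae hfg]
  have h1 : ∀ δ : ℝ, 0 < δ → ∀ᵐ x ∂AddCircle.haarAddCircle,
      ∀ᶠ N : ℕ in Filter.atTop, ‖SN g N x - g x‖ ≤ δ := by
    intro δ hδ
    rw [ae_iff, ← nonpos_iff_eq_zero]
    refine ENNReal.le_of_forall_pos_le_add fun ε hε _ => ?_
    have hε' : (0 : ℝ) < ε := hε
    have hm : 0 < min (δ / 2) (ε / 3) := by positivity
    refine le_trans (measure_mono fun x hx => ?_) ((Final_bad h hg (hLL ▸ hl) hm).trans ?_)
    · intro hc
      refine hx (hc.mono fun N hN => hN.trans ?_)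
      have := min_le_left (δ / 2) (ε / 3)
      linarith
    · rw [zero_add, ← ENNReal.ofReal_coe_nnreal]
      refine ENNReal.ofReal_le_ofReal ?_
      have := min_le_right (δ / 2) (ε / 3)
      linarith
  have h2 := ae_all_iff.2 fun n : ℕ => h1 (1 / ((n : ℝ) + 1)) Nat.one_div_pos_of_nat
  filter_upwards [h2, hfg] with x hx hx'
  rw [hSN, hx', Metric.tendsto_nhds]
  intro ε hε
  obtain ⟨n, hn⟩ := exists_nat_one_div_lt hε
  exact (hx n).mono fun N hN => by rw [dist_eq_norm]; exact hN.trans_lt hn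

end Crest.Agent.R100
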