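import Crest.Agent.R100.Kernel

/-!
# R100/Scale: from the model on `[0,1)` to an arbitrary grid  (task)

Put `f₁ y = δ⁻¹ f (a + ℓ y)`, `N = {v ∈ nodes D : avr u ‖f₁‖ ≤ H for all u <:+ v}`, `D' = D + 1`
(depth `< D` gives `|v| + 2 ≤ D + 1`).  For `x = a + ℓ x₁`, `x₁ ∈ I lf`, `lf ∈ below D' []`:
`sf ((x₁ - lft v)/len v) = sg v lf` (`sf_eq_sg`), and
`∫ f y ex(-ξ) y KK dy = δ ex(-ξ) a · Y (nodes D) f₁ lf (ξ ℓ)` (substitution; `hf` is `1_{I 0v} - 1_{I 1v}`).
If `x ∈ S` all nodes above `lf` are in `N` (`GoodPt` for `[a + ℓ lft u, a + ℓ (lft u + len u))`), so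
`Y (nodes D) = Y N` at `lf` (`sg_eq_zero`).  Choose `fr lf ∈ ℓ Ξ` maximising `‖Y N f₁ lf ·‖`
(`Ξ` empty is trivial); the integrand vanishes off `[a, a+ℓ)` and is bounded on `S` by the step
function `∑_lf 1_{a + ℓ I lf} δ ‖Y N f₁ lf (fr lf)‖`.
-/

set_option autoImplicit false
open MeasureTheory Set

namespace Crest.Agent.R100

theorem sf_eq_sg {v lf : Nd} (h : v.length + 2 ≤ lf.length) {x : ℝ} (hx : x ∈ I lf) :
    sf ((x - lft v) / len v) = sg v lf := by
  have hL := len_pos v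
  obtain ⟨z, hz⟩ : ∃ z, z = (x - lft v) / len v := ⟨_, rfl⟩
  have hxz : x = lft v + z * len v := by rw [hz]; field_simp; ring
  rw [← hz]
  by_cases hv : x ∈ I v
  · have h1 : ∃ b c : Bool, x ∈ I (c :: b :: v) := by
      rw [← I_union] at hv
      rcases hv with hv | hv <;> rw [← I_union] at hv <;> rcases hv with hv | hv <;>
        exact ⟨_, _, hv⟩
    obtain ⟨b, c, hbc⟩ := h1
    rw [sg_of_suffix (suffix_of_mem hx hbc (by simp only [List.length_cons]; omega))]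
    obtain ⟨h2, h3⟩ := hbc
    rw [hxz] at h2 h3
    cases b <;> cases c <;> simp only [lft, len_cons, if_true, Bool.false_eq_true, if_false] at h2 h3
    · have a1 : 0 ≤ z := by nlinarith
      have a2 : z < 1 / 4 := by nlinarith
      rw [sf, if_pos ⟨a1, a2⟩, if_pos rfl]
    · have a1 : 1 / 4 ≤ z := by nlinarith
      have a2 : z < 3 / 4 := by nlinarith
      rw [sf, if_neg fun h => by linarith [h.2], if_pos ⟨a1, a2⟩, if_neg (by decide)]
    · have a1 : 1 / 4 ≤ z := by nlinarith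
      have a2 : z < 3 / 4 := by nlinarith
      rw [sf, if_neg fun h => by linarith [h.2], if_pos ⟨a1, a2⟩, if_neg (by decide)]
    · have a1 : 3 / 4 ≤ z := by nlinarith
      have a2 : z < 1 := by nlinarith
      rw [sf, if_neg fun h => by linarith [h.2], if_neg fun h => by linarith [h.2],
        if_pos ⟨a1, a2⟩, if_pos rfl]
  · rw [sg_eq_zero fun hs => hv (I_mono hs hx)]
    have h1 : ¬ (0 ≤ z ∧ z < 1) := fun h => hv ⟨by nlinarith [h.1], by nlinarith [h.2]⟩
    rw [sf, if_neg fun h => h1 ⟨h.1, by linarith [h.2]⟩,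
      if_neg fun h => h1 ⟨by linarith [h.1], by linarith [h.2]⟩,
      if_neg fun h => h1 ⟨by linarith [h.1], h.2⟩]

/-- the image of a node -/
abbrev scJ (a ℓ : ℝ) (u : Nd) : Set ℝ := Ico (a + ℓ * lft u) (a + ℓ * (lft u + len u))

theorem mem_scJ {a ℓ : ℝ} (hℓ : 0 < ℓ) {u : Nd} {t : ℝ} : a + ℓ * t ∈ scJ a ℓ u ↔ t ∈ I u := by
  simp only [scJ, I, mem_Ico, add_le_add_iff_left, add_lt_add_iff_left, mul_le_mul_iff_right₀ hℓ,
    mul_lt_mul_iff_right₀ hℓ]

theorem scale_subst {E : Type*} [NormedAddCommGroup E] [NormedSpace ℝ E] {ℓ : ℝ} (hℓ : 0 < ℓ)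
    (a : ℝ) (g : ℝ → E) : ∫ t, g (a + ℓ * t) = ℓ⁻¹ • ∫ y, g y := by
  rw [Measure.integral_comp_mul_left (fun y => g (a + y)) ℓ, integral_add_left_eq_self,
    abs_of_pos (by positivity)]

theorem scale_subst_set {E : Type*} [NormedAddCommGroup E] [NormedSpace ℝ E] {ℓ : ℝ} (hℓ : 0 < ℓ)
    (a : ℝ) (u : Nd) (g : ℝ → E) : ∫ t in I u, g (a + ℓ * t) = ℓ⁻¹ • ∫ y in scJ a ℓ u, g y := by
  rw [← integral_indicator (measurableSet_I u), ← integral_indicator measurableSet_Ico,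
    ← scale_subst hℓ a]
  congr 1
  funext t
  by_cases ht : t ∈ I u
  · rw [indicator_of_mem ht, indicator_of_mem ((mem_scJ hℓ).2 ht)]
  · rw [indicator_of_notMem ht, indicator_of_notMem (mt (mem_scJ hℓ).1 ht)]

theorem scale_hf (v : Nd) (g : ℝ → ℂ) (t : ℝ) :
    g t * (hf ((t - lft v) / len v) : ℂ) =
      (I (false :: v)).indicator g t - (I (true :: v)).indicator g t := by
  have hL := len_pos v
  obtain ⟨z, hz⟩ : ∃ z, z = (t - lft v) / len v := ⟨_, rfl⟩
  have hxz : t = lft v + z * len v := by rw [hz]; field_simp; ring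
  have h0 : t ∈ I (false :: v) ↔ 0 ≤ z ∧ z < 1 / 2 := by
    rw [I_false, mem_Ico, hxz]
    constructor <;> rintro ⟨h1, h2⟩ <;> exact ⟨by nlinarith, by nlinarith⟩
  have h1 : t ∈ I (true :: v) ↔ 1 / 2 ≤ z ∧ z < 1 := by
    rw [I_true, mem_Ico, hxz]
    constructor <;> rintro ⟨h1, h2⟩ <;> exact ⟨by nlinarith, by nlinarith⟩
  rw [← hz, hf]
  split_ifs with a1 a2
  · rw [indicator_of_mem (h0.2 a1), indicator_of_notMem fun h => by linarith [(h1.1 h).1, a1.2]]
    simp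
  · rw [indicator_of_notMem (mt h0.1 a1), indicator_of_mem (h1.2 a2)]
    simp
  · rw [indicator_of_notMem (mt h0.1 a1), indicator_of_notMem (mt h1.1 a2)]
    simp

theorem scale_dif {F : ℝ → ℂ} (hF : BM F) (v : Nd) (η : ℝ) :
    ∫ t, F t * ex (-η) t * (hf ((t - lft v) / len v) : ℂ) = len v * dif v F η := by
  simp only [scale_hf v (fun t => F t * ex (-η) t)]
  rw [integral_sub ((integrable_indicator_iff (measurableSet_I _)).2 (integrableOn_co hF _ _))
    ((integrable_indicator_iff (measurableSet_I _)).2 (integrableOn_co hF _ _)),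
    integral_indicator (measurableSet_I _), integral_indicator (measurableSet_I _),
    ← len_mul_av, ← len_mul_av, len_cons, len_cons, dif, co, co]
  push_cast
  ring

theorem scale_abs_hf (z : ℝ) : |hf z| ≤ 1 := by
  unfold hf
  split_ifs <;> simp

theorem scale_KK {f : ℝ → ℂ} {δ ℓ a : ℝ} (hδ : 0 < δ) (hℓ : 0 < ℓ) (hi : Integrable f)
    (hF : BM fun y => ((δ⁻¹ : ℝ) : ℂ) * f (a + ℓ * y)) {D : ℕ} {lf : Nd}
    (hlen : lf.length = D + 1) {t : ℝ} (ht : t ∈ I lf) (ξ : ℝ) :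
    ∫ y, f y * ex (-ξ) y * (KK D ℓ a (a + ℓ * t) y : ℂ) = δ * ex (-ξ) a *
      Y (nodes D) (fun _ y => ((δ⁻¹ : ℝ) : ℂ) * f (a + ℓ * y)) lf (ξ * ℓ) := by
  have hδ' : (δ : ℂ) ≠ 0 := by exact_mod_cast hδ.ne'
  have hℓ' : (ℓ : ℂ) ≠ 0 := by exact_mod_cast hℓ.ne'
  have harg : ∀ (v : Nd) (s : ℝ),
      (a + ℓ * s - a - ℓ * lft v) / (ℓ * len v) = (s - lft v) / len v := fun v s => by
    have := (len_pos v).ne'
    field_simp; ring
  have hint : ∀ v : Nd, Integrable fun y =>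
      f y * ex (-ξ) y * (hf ((y - a - ℓ * lft v) / (ℓ * len v)) : ℂ) := fun v => by
    refine ((hi.mul_bdd (c := 1) (continuous_ex _).aestronglyMeasurable
      (Filter.Eventually.of_forall fun y => (norm_ex _ _).le)).mul_bdd (c := 1) ?_
      (Filter.Eventually.of_forall fun y => ?_))
    · exact (Complex.measurable_ofReal.comp (measurable_hf.comp (by fun_prop))).aestronglyMeasurable
    · rw [Complex.norm_real]; exact scale_abs_hf _
  have hnode : ∀ v : Nd, ∫ y, f y * ex (-ξ) y * (hf ((y - a - ℓ * lft v) / (ℓ * len v)) : ℂ) =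
      ℓ * (δ * ex (-ξ) a * (len v *
        dif v (fun y => ((δ⁻¹ : ℝ) : ℂ) * f (a + ℓ * y)) (ξ * ℓ))) := fun v => by
    have h1 := scale_subst hℓ a
      fun y => f y * ex (-ξ) y * (hf ((y - a - ℓ * lft v) / (ℓ * len v)) : ℂ)
    rw [← scale_dif hF, ← integral_const_mul]
    rw [Complex.real_smul, Complex.ofReal_inv, eq_inv_mul_iff_mul_eq₀ hℓ'] at h1
    rw [← h1]
    congr 2
    funext s
    have e : ex (-ξ) (ℓ * s) = ex (-(ξ * ℓ)) s := by unfold ex; congr 3; ring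
    rw [harg, ex_add', e]
    push_cast
    field_simp
  simp only [KK, Complex.ofReal_sum, Finset.mul_sum, Y]
  rw [integral_finsetSum]
  · refine Finset.sum_congr rfl fun v hv => ?_
    have hv' := mem_nodes.1 hv
    have hL : (len v : ℂ) ≠ 0 := by exact_mod_cast (len_pos v).ne'
    simp only [Complex.ofReal_mul (_ * _), mul_left_comm (f _ * _)]
    rw [integral_const_mul, hnode, harg, sf_eq_sg (by omega) ht]
    push_cast
    field_simp
  · intro v _
    simp only [Complex.ofReal_mul (_ * _), mul_left_comm (f _ * _)]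
    exact (hint v).const_mul _

theorem scale_bound {C : ℝ} {c : ℕ} (h : DyBound C c) : ScaleBound C c := by
  classical
  intro f δ H d ℓ a D S Ξ hδ hH hd hℓ hm hi hb hint hS hgood
  set f₁ : ℝ → ℂ := fun y => ((δ⁻¹ : ℝ) : ℂ) * f (a + ℓ * y) with hf₁
  have hnorm : ∀ y, ‖f₁ y‖ = δ⁻¹ * ‖f (a + ℓ * y)‖ := fun y => by
    rw [hf₁, norm_mul, Complex.norm_real, Real.norm_of_nonneg (by positivity)]
  have havr : ∀ u, avr u (fun y => ‖f₁ y‖) =
      (len u)⁻¹ * (δ⁻¹ * (ℓ⁻¹ * ∫ y in scJ a ℓ u, ‖f y‖)) := by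
    intro u
    simp only [avr, hnorm, integral_const_mul]
    rw [scale_subst_set hℓ a u (fun y => ‖f y‖), smul_eq_mul]
  set N := (nodes D).filter (fun v => ∀ u, u <:+ v → avr u (fun y => ‖f₁ y‖) ≤ H) with hN
  have hmod : Model f₁ H d N (D + 1) := by
    refine ⟨by fun_prop, fun y => ?_, fun v hv u hu => ?_, fun v hv => ?_, fun v hv => ?_⟩
    · rw [hnorm, inv_mul_le_iff₀ hδ]; exact hb _
    · rw [hN, Finset.mem_filter, mem_nodes] at hv ⊢
      exact ⟨hu.length_le.trans_lt hv.1, fun w hw => hv.2 w (hw.trans hu)⟩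
    · exact (Finset.mem_filter.1 hv).2 v (List.suffix_refl v)
    · have := mem_nodes.1 (Finset.mem_filter.1 hv).1
      omega
  have hone : avr [] (fun y => ‖f₁ y‖) ≤ 1 := by
    rw [havr, len_nil, inv_one, one_mul, inv_mul_le_iff₀ hδ, inv_mul_le_iff₀ hℓ]
    refine (setIntegral_le_integral hi.norm
      (Filter.Eventually.of_forall fun y => norm_nonneg _)).trans (hint.trans (le_of_eq ?_))
    ring
  have hfr : ∀ lf, ∃ η : ℝ, ∀ ξ ∈ Ξ,
      ‖Y N (fun _ => f₁) lf (ξ * ℓ)‖ ≤ ‖Y N (fun _ => f₁) lf η‖ := by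
    intro lf
    rcases Ξ.eq_empty_or_nonempty with rfl | hne
    · exact ⟨0, by simp⟩
    · obtain ⟨ξ₀, -, h0⟩ := Ξ.exists_max_image (fun ξ => ‖Y N (fun _ => f₁) lf (ξ * ℓ)‖) hne
      exact ⟨ξ₀ * ℓ, h0⟩
  choose fr hfr using hfr
  have hmain := h f₁ H d N (D + 1) fr hmod hH hd hone
  have hpt : ∀ x ∈ S, ⨆ ξ ∈ Ξ, ‖∫ y, f y * ex (-ξ) y * (KK D ℓ a x y : ℂ)‖ₑ ≤
      ∑ lf ∈ below (D + 1) [], (scJ a ℓ lf).indicator
        (fun _ => ENNReal.ofReal (δ * ‖Y N (fun _ => f₁) lf (fr lf)‖)) x := by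
    intro x hx
    refine iSup₂_le fun ξ hξ => ?_
    by_cases hxa : x ∈ Ico a (a + ℓ)
    · obtain ⟨t, rfl⟩ : ∃ t, x = a + ℓ * t := ⟨(x - a) / ℓ, by field_simp; ring⟩
      have ht : t ∈ I [] := by
        rw [I_nil]
        exact ⟨by nlinarith [hxa.1], by nlinarith [hxa.2]⟩
      obtain ⟨lf, hlf, htl⟩ := exists_below ht (D + 1)
      refine le_trans ?_ (Finset.single_le_sum (f := fun lf => (scJ a ℓ lf).indicator
        (fun _ => ENNReal.ofReal (δ * ‖Y N (fun _ => f₁) lf (fr lf)‖)) (a + ℓ * t))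
        (fun _ _ => zero_le) hlf)
      rw [indicator_of_mem ((mem_scJ hℓ).2 htl), ← ofReal_norm]
      refine ENNReal.ofReal_le_ofReal ?_
      have hlen : lf.length = D + 1 := by simpa using (mem_below.1 hlf).1
      have hY : Y (nodes D) (fun _ => f₁) lf (ξ * ℓ) = Y N (fun _ => f₁) lf (ξ * ℓ) := by
        refine (Finset.sum_subset (Finset.filter_subset _ _) fun v hv hv' => ?_).symm
        rw [sg_eq_zero, Complex.ofReal_zero, zero_mul]
        intro hs
        refine hv' (Finset.mem_filter.2 ⟨hv, fun u hu => ?_⟩)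
        have hu' := (mem_scJ hℓ (a := a)).2 (I_mono (hu.trans hs) htl)
        have := hgood _ hx _ _ hu'.1 hu'.2
        rw [havr, inv_mul_le_iff₀ (len_pos u), inv_mul_le_iff₀ hδ, inv_mul_le_iff₀ hℓ]
        refine this.trans (le_of_eq ?_)
        ring
      rw [scale_KK hδ hℓ hi hmod.bm hlen htl, norm_mul, norm_mul, norm_ex, mul_one,
        Complex.norm_real, Real.norm_of_nonneg hδ.le, hY]
      exact mul_le_mul_of_nonneg_left (hfr lf ξ hξ) hδ.le
    · simp [KK_eq_zero D hℓ _ hxa]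
  calc _ ≤ ∫⁻ x in S, ∑ lf ∈ below (D + 1) [], (scJ a ℓ lf).indicator
        (fun _ => ENNReal.ofReal (δ * ‖Y N (fun _ => f₁) lf (fr lf)‖)) x :=
        setLIntegral_mono' hS hpt
    _ ≤ ∫⁻ x, ∑ lf ∈ below (D + 1) [], (scJ a ℓ lf).indicator
        (fun _ => ENNReal.ofReal (δ * ‖Y N (fun _ => f₁) lf (fr lf)‖)) x :=
        setLIntegral_le_lintegral _ _
    _ = ∑ lf ∈ below (D + 1) [],
        ENNReal.ofReal (ℓ * δ * (len lf * ‖Y N (fun _ => f₁) lf (fr lf)‖)) := by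
        rw [lintegral_finsetSum _ fun lf _ => measurable_const.indicator measurableSet_Ico]
        refine Finset.sum_congr rfl fun lf _ => ?_
        rw [lintegral_indicator_const measurableSet_Ico, Real.volume_Ico,
          ← ENNReal.ofReal_mul (by positivity)]
        congr 1
        ring
    _ ≤ _ := by
        rw [← ENNReal.ofReal_sum_of_nonneg fun lf _ => by have := len_pos lf; positivity,
          ← Finset.mul_sum, mul_assoc (ℓ * δ)]
        exact ENNReal.ofReal_le_ofReal (mul_le_mul_of_nonneg_left hmain (by positivity))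

end Crest.Agent.R100
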