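import Crest.Agent.R100.Kernel

/-!
# R100/Transfer: averaging over the grids  (task)

With `Φ` of `kernel_avg`, `κ_D u = (Φ(u 2^D/2T) - Φ(u/2T))/u`:
`-(1/8) sin(ξu)/u = sin(ξu) κ_D u + sin(ξu) Φ(u/2T)/u - sin(ξu)(Φ(u 2^D/2T) + 1/8)/u`.
Second term `≤ 1/(2T)` (integral `≤ δ/2`); third term vanishes for `|u| ≥ 2T 2^{-D}` and is `≤ 2|ξ|`
(integral `≤ 8 |ξ| δ e^d T 2^{-D} ≤ δ` for all `ξ ∈ Ξ` when `D` is large).  First term:
`sin = (ex ξ - ex (-ξ))/(2I)`, `ex ξ (x - y) = ex ξ x ex (-ξ) y`, and for fixed `x ∈ [0,T)` Fubini in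
`(y; ℓ, a)` (`KK` is bounded, vanishes unless `a ∈ (x-ℓ, x] ⊆ (-2T, T)`):
`‖∫ f ex(-ξ) κ_D(x-·)‖ₑ ≤ ∫⁻_{ℓ ∈ (T,2T]} ℓ⁻² ∫⁻_{a ∈ (-2T,T)} ‖∫ f ex(-ξ) KK D ℓ a x‖ₑ`.
Take the supremum over `Ξ' = Ξ ∪ -Ξ` inside, Tonelli in `x` (measurability:
`StronglyMeasurable.integral_prod_right`, `measurable_KK`), `ScaleBound` (`∫‖f‖ ≤ δT ≤ δℓ`):
`≤ 3T · ∫ ℓ⁻² ℓ dℓ · δ C(..) ≤ 3 T δ C (d + H^c)`.  Total `8 (3C + 2)`.
-/

set_option autoImplicit false
open MeasureTheory Set

namespace Crest.Agent.R100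

theorem transfer_integrable {f : ℝ → ℂ} (hf : Integrable f) {g : ℝ → ℝ} (hg : Measurable g) {M : ℝ}
    (hM : ∀ y, |g y| ≤ M) : Integrable fun y => f y * (g y : ℂ) :=
  hf.mul_bdd (c := M) (Complex.measurable_ofReal.comp hg).aestronglyMeasurable
    (Filter.Eventually.of_forall fun y => by simpa using hM y)

theorem transfer_sinc (ξ u : ℝ) : |Real.sin (ξ * u) / u| ≤ |ξ| := by
  rcases eq_or_ne u 0 with rfl | hu
  · simp
  · rw [abs_div, div_le_iff₀ (abs_pos.2 hu), ← abs_mul]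
    exact Real.abs_sin_le_abs

theorem transfer_sin (ξ x y : ℝ) : ((Real.sin (ξ * (x - y)) : ℝ) : ℂ) =
    (ex ξ x * ex (-ξ) y - ex (-ξ) x * ex ξ y) / (2 * Complex.I) := by
  rw [Complex.ofReal_sin, Complex.sin, eq_div_iff (by simp), ex, ex, ex, ex, ← Complex.exp_add,
    ← Complex.exp_add]
  have e1 : ((ξ * x : ℝ) : ℂ) * Complex.I + ((-ξ * y : ℝ) : ℂ) * Complex.I =
      ((ξ * (x - y) : ℝ) : ℂ) * Complex.I := by push_cast; ring
  have e2 : ((-ξ * x : ℝ) : ℂ) * Complex.I + ((ξ * y : ℝ) : ℂ) * Complex.I =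
      -((ξ * (x - y) : ℝ) : ℂ) * Complex.I := by push_cast; ring
  rw [e1, e2]
  linear_combination (Complex.exp (-((ξ * (x - y) : ℝ) : ℂ) * Complex.I) -
    Complex.exp (((ξ * (x - y) : ℝ) : ℂ) * Complex.I)) * Complex.I_mul_I

/-- the sine kernel for one grid -/
theorem transfer_grid {f : ℝ → ℂ} (hf : Integrable f) (D : ℕ) {ℓ : ℝ} (hℓ : 0 < ℓ) (a x ξ : ℝ)
    {G : ENNReal} (h1 : ‖∫ y, f y * ex (-ξ) y * (KK D ℓ a x y : ℂ)‖ₑ ≤ G)
    (h2 : ‖∫ y, f y * ex (- -ξ) y * (KK D ℓ a x y : ℂ)‖ₑ ≤ G) :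
    ‖∫ y, f y * (Real.sin (ξ * (x - y)) : ℂ) * (KK D ℓ a x y : ℂ)‖ₑ ≤ G := by
  have hK : Measurable fun y => KK D ℓ a x y :=
    (measurable_KK D).comp (f := fun y : ℝ => ((ℓ, a), (x, y))) (by fun_prop)
  have hi : ∀ η : ℝ, Integrable fun y => f y * ex η y * (KK D ℓ a x y : ℂ) := fun η =>
    transfer_integrable (hf.mul_bdd (c := 1) (continuous_ex η).aestronglyMeasurable
      (Filter.Eventually.of_forall fun y => (norm_ex η y).le)) hK (abs_KK_le D hℓ a x)
  rw [neg_neg] at h2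
  have e : ∫ y, f y * (Real.sin (ξ * (x - y)) : ℂ) * (KK D ℓ a x y : ℂ) =
      (ex ξ x * (∫ y, f y * ex (-ξ) y * (KK D ℓ a x y : ℂ)) -
        ex (-ξ) x * ∫ y, f y * ex ξ y * (KK D ℓ a x y : ℂ)) / (2 * Complex.I) := by
    rw [← integral_const_mul, ← integral_const_mul,
      ← integral_sub ((hi _).const_mul _) ((hi _).const_mul _), ← integral_div]
    refine integral_congr_ae (Filter.Eventually.of_forall fun y => ?_)
    simp only [transfer_sin]
    ring
  rcases eq_or_ne G ⊤ with rfl | hG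
  · exact le_top
  lift G to NNReal using hG
  rw [e]
  rw [enorm_le_coe, ← NNReal.coe_le_coe, coe_nnnorm] at h1 h2 ⊢
  have h3 := norm_sub_le (ex ξ x * ∫ y, f y * ex (-ξ) y * (KK D ℓ a x y : ℂ))
    (ex (-ξ) x * ∫ y, f y * ex ξ y * (KK D ℓ a x y : ℂ))
  rw [norm_mul, norm_mul, norm_ex, norm_ex] at h3
  rw [norm_div, norm_mul, Complex.norm_I, Complex.norm_two]
  linarith

/-- the measure on the grids -/
noncomputable def transferM (T : ℝ) : Measure (ℝ × ℝ) :=
  (volume.restrict (Ioc T (2 * T))).prod (volume.restrict (Ioo (-(2 * T)) T))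

instance (T : ℝ) : IsFiniteMeasure (transferM T) := by
  unfold transferM
  infer_instance

theorem transferM_ae (T : ℝ) : ∀ᵐ p ∂transferM T, p.1 ∈ Ioc T (2 * T) :=
  Measure.QuasiMeasurePreserving.ae Measure.quasiMeasurePreserving_fst
    (ae_restrict_mem measurableSet_Ioc)

theorem transferM_univ {T : ℝ} (hT : 0 < T) :
    transferM T univ = ENNReal.ofReal (3 * T ^ 2) := by
  rw [transferM, ← univ_prod_univ, Measure.prod_prod, Measure.restrict_apply_univ,
    Measure.restrict_apply_univ, Real.volume_Ioc, Real.volume_Ioo,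
    ← ENNReal.ofReal_mul (by linarith)]
  congr 1
  ring

theorem transfer_kbound (D : ℕ) {T : ℝ} (hT : 0 < T) {ℓ : ℝ} (hℓ : ℓ ∈ Ioc T (2 * T)) (a x y : ℝ) :
    |(ℓ ^ 2)⁻¹ * KK D ℓ a x y| ≤ (T ^ 2)⁻¹ * (4 ^ D / T) := by
  have h0 := hT.trans hℓ.1
  have h1 := hℓ.1.le
  rw [abs_mul, abs_of_pos (by positivity)]
  refine mul_le_mul (by gcongr) ((abs_KK_le D h0 a x y).trans (by gcongr)) (abs_nonneg _)
    (by positivity)

/-- Fubini -/
theorem transfer_fubini {F : ℝ → ℂ} (hF : Integrable F) (hFm : Measurable F) (D : ℕ) {T : ℝ}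
    (hT : 0 < T) {x : ℝ} (hx : x ∈ Ico 0 T) :
    ∫ y, F y * ((∫ ℓ in Ioc T (2 * T), (ℓ ^ 2)⁻¹ * ∫ a, KK D ℓ a x y : ℝ) : ℂ) =
      ∫ p, (((p.1 ^ 2)⁻¹ : ℝ) : ℂ) * (∫ y, F y * (KK D p.1 p.2 x y : ℂ)) ∂transferM T := by
  have hk : Measurable fun q : ℝ × (ℝ × ℝ) => (q.2.1 ^ 2)⁻¹ * KK D q.2.1 q.2.2 x q.1 :=
    Measurable.mul (by fun_prop)
      ((measurable_KK D).comp (f := fun q : ℝ × (ℝ × ℝ) => (q.2, (x, q.1))) (by fun_prop))
  have h1 : ∀ y, ∫ ℓ in Ioc T (2 * T), (ℓ ^ 2)⁻¹ * ∫ a, KK D ℓ a x y =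
      ∫ p, (p.1 ^ 2)⁻¹ * KK D p.1 p.2 x y ∂transferM T := by
    intro y
    have hi : Integrable (fun p : ℝ × ℝ => (p.1 ^ 2)⁻¹ * KK D p.1 p.2 x y) (transferM T) :=
      (integrable_const ((T ^ 2)⁻¹ * (4 ^ D / T))).mono'
        (hk.comp (f := fun p : ℝ × ℝ => (y, p)) (by fun_prop)).aestronglyMeasurable
        ((transferM_ae T).mono fun p hp => transfer_kbound D hT hp _ _ _)
    rw [transferM] at hi ⊢
    rw [integral_prod _ hi]
    refine setIntegral_congr_fun measurableSet_Ioc fun ℓ hℓ => ?_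
    simp only
    rw [integral_const_mul, setIntegral_eq_integral_of_forall_compl_eq_zero]
    intro a ha
    refine KK_eq_zero D (hT.trans hℓ.1) y fun h => ha ⟨?_, ?_⟩
    · linarith [h.2, hℓ.2, hx.1]
    · linarith [h.1, hx.2]
  have hi : Integrable (fun q : ℝ × (ℝ × ℝ) =>
      F q.1 * (((q.2.1 ^ 2)⁻¹ * KK D q.2.1 q.2.2 x q.1 : ℝ) : ℂ)) (volume.prod (transferM T)) := by
    refine (hF.norm.mul_prod (integrable_const ((T ^ 2)⁻¹ * (4 ^ D / T)))).mono'
      ((hFm.comp measurable_fst).mul (Complex.measurable_ofReal.comp hk)).aestronglyMeasurable ?_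
    refine (Measure.QuasiMeasurePreserving.ae Measure.quasiMeasurePreserving_snd
      (transferM_ae T)).mono fun q hq => ?_
    rw [norm_mul, Complex.norm_real, Real.norm_eq_abs]
    exact mul_le_mul_of_nonneg_left (transfer_kbound D hT hq _ _ _) (norm_nonneg _)
  simp only [h1]
  simp only [← integral_complex_ofReal, ← integral_const_mul]
  rw [integral_integral_swap hi]
  refine integral_congr_ae (Filter.Eventually.of_forall fun p => ?_)
  refine integral_congr_ae (Filter.Eventually.of_forall fun y => ?_)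
  simp only
  push_cast
  ring

theorem real_bound {C : ℝ} {c : ℕ} (hC : 0 ≤ C) (h : ScaleBound C c) :
    RealBound (24 * C + 16) c := by
  classical
  intro f δ H d T S Ξ hδ hH hd hT hfm hf hb hI hS hST hG
  obtain ⟨Φ, hΦc, hΦ1, hΦ2, hΦ3, hΦ⟩ := kernel_avg
  obtain ⟨D, hD⟩ := pow_unbounded_of_one_lt (8 * (∑ ξ ∈ Ξ, |ξ|) * Real.exp d * T)
    (one_lt_two (α := ℝ))
  set Ξ' := Ξ ∪ Ξ.image Neg.neg with hΞ'
  set G : ℝ × ℝ → ℝ → ENNReal := fun p x =>
    ⨆ ξ ∈ Ξ', ‖∫ y, f y * ex (-ξ) y * (KK D p.1 p.2 x y : ℂ)‖ₑ with hGdef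
  have hK : 2 ≤ d + H ^ c := by linarith [one_le_pow₀ (n := c) (show 1 ≤ H by linarith)]
  -- the pointwise bound
  have key : ∀ x ∈ S, ⨆ ξ ∈ Ξ, ‖∫ y, f y * ((Real.sin (ξ * (x - y)) / (x - y) : ℝ) : ℂ)‖ₑ ≤
      8 * ∫⁻ p, ENNReal.ofReal ((p.1 ^ 2)⁻¹) * G p x ∂transferM T + ENNReal.ofReal (12 * δ) := by
    intro x hx
    refine iSup₂_le fun ξ hξ => ?_
    have hξ' : |ξ| ≤ ∑ ξ ∈ Ξ, |ξ| := Finset.single_le_sum (fun _ _ => abs_nonneg _) hξ
    have hs : Integrable fun y => f y * (Real.sin (ξ * (x - y)) : ℂ) :=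
      transfer_integrable hf (by fun_prop) fun y => Real.abs_sin_le_one _
    have h1 := transfer_fubini hs (hfm.mul (by fun_prop)) D hT (hST hx)
    have h2 : ‖∫ p, (((p.1 ^ 2)⁻¹ : ℝ) : ℂ) *
        (∫ y, f y * (Real.sin (ξ * (x - y)) : ℂ) * (KK D p.1 p.2 x y : ℂ)) ∂transferM T‖ₑ ≤
        ∫⁻ p, ENNReal.ofReal ((p.1 ^ 2)⁻¹) * G p x ∂transferM T := by
      refine (enorm_integral_le_lintegral_enorm _).trans
        (lintegral_mono_ae ((transferM_ae T).mono fun p hp => ?_))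
      rw [enorm_mul, ← ofReal_norm, Complex.norm_real, Real.norm_of_nonneg (by positivity)]
      refine mul_le_mul_right (transfer_grid hf D (hT.trans hp.1) p.2 x ξ ?_ ?_) _
      · exact le_iSup₂_of_le (f := fun ξ (_ : ξ ∈ Ξ') =>
          ‖∫ y, f y * ex (-ξ) y * (KK D p.1 p.2 x y : ℂ)‖ₑ) ξ (Finset.mem_union_left _ hξ) le_rfl
      · exact le_iSup₂_of_le (f := fun ξ (_ : ξ ∈ Ξ') =>
          ‖∫ y, f y * ex (-ξ) y * (KK D p.1 p.2 x y : ℂ)‖ₑ) (-ξ)
          (Finset.mem_union_right _ (Finset.mem_image_of_mem _ hξ)) le_rfl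
    rw [← h1] at h2
    set B : ℝ → ℝ := fun y => Real.sin (ξ * (x - y)) * (Φ ((x - y) / (2 * T)) / (x - y)) with hB
    set E : ℝ → ℝ := fun y =>
      Real.sin (ξ * (x - y)) / (x - y) * (Φ ((x - y) * 2 ^ D / (2 * T)) + 1 / 8) with hE
    have hΦm := hΦc.measurable
    have hB1 : ∀ y, |B y| ≤ 1 / (2 * T) := by
      intro y
      simp only [hB]
      rcases eq_or_ne (x - y) 0 with h0 | h0
      · rw [h0]; simp; positivity
      · rw [abs_mul, abs_div]
        have h3 := hΦ1 ((x - y) / (2 * T))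
        rw [abs_div, abs_of_pos (show 0 < 2 * T by positivity)] at h3
        have h4 : |Φ ((x - y) / (2 * T))| / |x - y| ≤ 1 / (2 * T) := by
          rw [div_le_iff₀ (abs_pos.2 h0)]
          exact h3.trans (le_of_eq (by ring))
        exact (mul_le_of_le_one_left (by positivity) (Real.abs_sin_le_one _)).trans h4
    have hE1 : ∀ y, |E y| ≤ |ξ| * 2 := by
      intro y
      simp only [hE]
      rw [abs_mul]
      refine mul_le_mul (transfer_sinc _ _) ?_ (abs_nonneg _) (abs_nonneg _)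
      have := abs_le.1 (hΦ2 ((x - y) * 2 ^ D / (2 * T)))
      rw [abs_le]
      constructor <;> linarith [this.1, this.2]
    have hE2 : ∀ y ∉ Icc (x - 2 * T / 2 ^ D) (x + 2 * T / 2 ^ D), E y = 0 := by
      intro y hy
      have h3 : 2 * T / 2 ^ D ≤ |x - y| := by
        by_contra h3
        obtain ⟨h4, h5⟩ := abs_lt.1 (not_le.1 h3)
        exact hy ⟨by linarith, by linarith⟩
      simp only [hE]
      rw [hΦ3, show (-1 / 8 + 1 / 8 : ℝ) = 0 by norm_num, mul_zero]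
      rw [abs_div, abs_mul, abs_of_pos (show 0 < 2 * T by positivity),
        abs_of_pos (show (0 : ℝ) < 2 ^ D by positivity), one_le_div (by positivity)]
      rwa [div_le_iff₀ (by positivity)] at h3
    have iS : Integrable fun y => f y * ((Real.sin (ξ * (x - y)) / (x - y) : ℝ) : ℂ) :=
      transfer_integrable hf (by fun_prop) fun y => transfer_sinc _ _
    have iB : Integrable fun y => f y * (B y : ℂ) :=
      transfer_integrable hf (by simp only [hB]; fun_prop) hB1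
    have iE : Integrable fun y => f y * (E y : ℂ) :=
      transfer_integrable hf (by simp only [hE]; fun_prop) hE1
    have nB : ‖∫ y, f y * (B y : ℂ)‖ ≤ δ / 2 := by
      refine (norm_integral_le_of_norm_le (hf.norm.mul_const (1 / (2 * T)))
        (Filter.Eventually.of_forall fun y => ?_)).trans ?_
      · rw [norm_mul, Complex.norm_real, Real.norm_eq_abs]
        exact mul_le_mul_of_nonneg_left (hB1 y) (norm_nonneg _)
      · rw [integral_mul_const]
        exact (mul_le_mul_of_nonneg_right hI (by positivity)).trans (le_of_eq (by field_simp))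
    have nE : ‖∫ y, f y * (E y : ℂ)‖ ≤ δ := by
      rw [← setIntegral_eq_integral_of_forall_compl_eq_zero
        (s := Icc (x - 2 * T / 2 ^ D) (x + 2 * T / 2 ^ D)) fun y hy => by simp [hE2 y hy]]
      refine (norm_setIntegral_le_of_norm_le_const (C := δ * Real.exp d * (|ξ| * 2))
        measure_Icc_lt_top fun y _ => ?_).trans ?_
      · rw [norm_mul, Complex.norm_real, Real.norm_eq_abs]
        exact mul_le_mul (hb y) (hE1 y) (abs_nonneg _) (by positivity)
      · have h3 : (0 : ℝ) ≤ 2 * T / 2 ^ D := by positivity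
        rw [Real.volume_real_Icc_of_le (by linarith)]
        have h4 : δ * Real.exp d * (|ξ| * 2) * (x + 2 * T / 2 ^ D - (x - 2 * T / 2 ^ D)) =
            δ * (8 * |ξ| * Real.exp d * T / 2 ^ D) := by ring
        rw [h4]
        refine mul_le_of_le_one_right hδ.le ((div_le_one (by positivity)).2 (le_trans ?_ hD.le))
        gcongr
    have e : ∫ y, f y * ((Real.sin (ξ * (x - y)) / (x - y) : ℝ) : ℂ) =
        -8 * (∫ y, f y * (Real.sin (ξ * (x - y)) : ℂ) *
          ((∫ ℓ in Ioc T (2 * T), (ℓ ^ 2)⁻¹ * ∫ a, KK D ℓ a x y : ℝ) : ℂ)) +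
        (8 * (∫ y, f y * (E y : ℂ)) - 8 * ∫ y, f y * (B y : ℂ)) := by
      have e1 : ∫ y, f y * (Real.sin (ξ * (x - y)) : ℂ) *
          ((∫ ℓ in Ioc T (2 * T), (ℓ ^ 2)⁻¹ * ∫ a, KK D ℓ a x y : ℝ) : ℂ) =
          ∫ y, (f y * (E y : ℂ) - f y * (B y : ℂ) -
            (1 / 8 : ℂ) * (f y * ((Real.sin (ξ * (x - y)) / (x - y) : ℝ) : ℂ))) := by
        refine integral_congr_ae (Filter.Eventually.of_forall fun y => ?_)
        simp only [hB, hE]
        rcases eq_or_ne x y with rfl | hxy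
        · simp
        · rw [hΦ T D x y hT hxy]
          push_cast
          ring
      have iEB : Integrable fun y => f y * (E y : ℂ) - f y * (B y : ℂ) := iE.sub iB
      rw [e1, integral_sub iEB (iS.const_mul _), integral_sub iE iB, integral_const_mul]
      ring
    rw [e]
    refine (enorm_add_le _ _).trans (add_le_add ?_ ?_)
    · rw [enorm_mul]
      refine mul_le_mul' (le_of_eq ?_) h2
      rw [← ofReal_norm]
      simp
    · rw [← ofReal_norm]
      refine ENNReal.ofReal_le_ofReal ((norm_sub_le _ _).trans ?_)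
      rw [norm_mul, norm_mul, show ‖(8 : ℂ)‖ = 8 by simp]
      linarith
  -- measurability
  have hGm : Measurable fun q : ℝ × (ℝ × ℝ) => ENNReal.ofReal ((q.2.1 ^ 2)⁻¹) * G q.2 q.1 := by
    refine Measurable.mul (by fun_prop) ?_
    refine Measurable.biSup (Ξ' : Set ℝ) Ξ'.countable_toSet fun ξ _ => ?_
    refine Measurable.enorm (StronglyMeasurable.measurable ?_)
    refine StronglyMeasurable.integral_prod_right' (f := fun z : (ℝ × (ℝ × ℝ)) × ℝ =>
      f z.2 * ex (-ξ) z.2 * (KK D z.1.2.1 z.1.2.2 z.1.1 z.2 : ℂ)) (Measurable.stronglyMeasurable ?_)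
    exact ((hfm.comp measurable_snd).mul ((continuous_ex _).measurable.comp measurable_snd)).mul
      (Complex.measurable_ofReal.comp ((measurable_KK D).comp
        (f := fun z : (ℝ × (ℝ × ℝ)) × ℝ => (z.1.2, (z.1.1, z.2))) (by fun_prop)))
  have main : ∫⁻ x in S, ∫⁻ p, ENNReal.ofReal ((p.1 ^ 2)⁻¹) * G p x ∂transferM T ≤
      ENNReal.ofReal (3 * (T * δ * C * (d + H ^ c))) := by
    rw [lintegral_lintegral_swap hGm.aemeasurable]
    refine (lintegral_mono_ae (g := fun _ => ENNReal.ofReal (T⁻¹ * (δ * C * (d + H ^ c))))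
      ((transferM_ae T).mono fun p hp => ?_)).trans ?_
    · have h0 := hT.trans hp.1
      have h1 := hp.1.le
      rw [lintegral_const_mul' _ _ ENNReal.ofReal_ne_top]
      refine (mul_le_mul_right (h f δ H d p.1 p.2 D S Ξ' hδ hH hd h0 hfm hf hb
        (hI.trans (by gcongr)) hS hG) _).trans ?_
      rw [← ENNReal.ofReal_mul (by positivity)]
      refine ENNReal.ofReal_le_ofReal ?_
      rw [show (p.1 ^ 2)⁻¹ * (p.1 * δ * C * (d + H ^ c)) = p.1⁻¹ * (δ * C * (d + H ^ c)) by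
        field_simp]
      gcongr
    · rw [lintegral_const, transferM_univ hT, ← ENNReal.ofReal_mul (by positivity)]
      exact ENNReal.ofReal_le_ofReal (le_of_eq (by field_simp))
  have hvol : volume S ≤ ENNReal.ofReal T := (measure_mono hST).trans (by simp)
  refine (setLIntegral_mono' hS key).trans ?_
  rw [lintegral_add_right _ measurable_const, lintegral_const_mul' _ _ (by simp), lintegral_const,
    Measure.restrict_apply_univ]
  refine (add_le_add (mul_le_mul_right main _) (mul_le_mul_right hvol _)).trans ?_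
  rw [← ENNReal.ofReal_mul (by positivity), show (8 : ENNReal) = ENNReal.ofReal 8 by simp,
    ← ENNReal.ofReal_mul (by positivity), ← ENNReal.ofReal_add (by positivity) (by positivity)]
  refine ENNReal.ofReal_le_ofReal ?_
  nlinarith [mul_pos hT hδ]

end Crest.Agent.R100
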