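import Crest.Agent.R100.Stmts

/-!
# R100/Weak: splitting a function of small `L log L` norm  (task)

Given `ε`, choose `H_j = H₀ (j+1)²` with `∑ C/H_j ≤ ε/2`.  Split `f = ∑_j f_j`,
`f_0 = f 1{‖f‖ ≤ e}`, `f_j = f 1{e^{2^{j-1}} < ‖f‖ ≤ e^{2^j}}` (`j ≥ 1`), `δ_j = ∫‖f_j‖`; then
`∑ 2^j δ_j ≤ 2η` (`log(2 + ‖f‖) ≥ 2^{j-1}` on the support; `log 2 ≥ 1/2` for `j = 0`).  Apply
`CircBound` with `δ_j' = δ_j + η e^{-2^j}` and `d_j = 2·2^j + log(1/η)` (`η ≤ 1`), so that
`e^{2^j} ≤ δ_j' e^{d_j}`.  `(j+1)^{2c} ≤ K 2^j`, hence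
`∑ δ_j' (d_j + H_j^c) ≤ K' η (1 + log(1/η)) ≤ 2K' √η·…→ 0`.
For `N ≤ N₀`: `SN f N = ∑_{j<J} SN f_j N + SN (tail_J) N`, `‖SN (tail_J) N x‖ ≤ (2N+1) ∫‖tail_J‖ → 0`
(`∫‖tail_J‖ ≤ η 2^{1-J}`), so `Smax f ≤ ∑' j, Smax f_j` everywhere.  Markov's inequality off `⋃ Ω_j`.
-/

set_option autoImplicit false
open MeasureTheory Set

namespace Crest.Agent.R100

theorem weak_ex (t : ℝ) : ∃ j : ℕ, t ≤ Real.exp (2 ^ j) := by
  obtain ⟨j, hj⟩ := pow_unbounded_of_one_lt t (by norm_num : (1 : ℝ) < 2)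
  exact ⟨j, hj.le.trans ((by linarith : (2 : ℝ) ^ j ≤ 2 ^ j + 1).trans (Real.add_one_le_exp _))⟩

open Classical in
/-- the size level of a real number -/
noncomputable def weakLev (t : ℝ) : ℕ := Nat.find (weak_ex t)

theorem weak_lev_le (t : ℝ) : t ≤ Real.exp (2 ^ weakLev t) := by
  classical
  exact Nat.find_spec (weak_ex t)

theorem weak_lev_log {t : ℝ} (ht : 0 ≤ t) : (2 : ℝ) ^ weakLev t ≤ 2 * Real.log (2 + t) := by
  classical
  rcases Nat.eq_zero_or_pos (weakLev t) with h | h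
  · rw [h]
    have h1 : Real.log 2 ≤ Real.log (2 + t) := Real.log_le_log (by norm_num) (by linarith)
    have h2 := Real.log_two_gt_d9
    norm_num at h2 ⊢
    linarith
  · obtain ⟨k, hk⟩ := Nat.exists_eq_succ_of_ne_zero h.ne'
    have h1 : ¬ t ≤ Real.exp (2 ^ k) :=
      Nat.find_min (weak_ex t) (show k < weakLev t by omega)
    push Not at h1
    have h2 : (2 : ℝ) ^ k ≤ Real.log (2 + t) := by
      rw [Real.le_log_iff_exp_le (by linarith)]
      linarith
    rw [hk, pow_succ]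
    linarith

theorem weak_measurable_lev : Measurable weakLev := by
  classical
  exact measurable_find (p := fun (t : ℝ) (j : ℕ) => t ≤ Real.exp (2 ^ j)) weak_ex
    (fun j => measurableSet_Iic)

section
variable {T : ℝ} [Fact (0 < T)]

/-- the level sets -/
def weakA (f : AddCircle T → ℂ) (j : ℕ) : Set (AddCircle T) := {x | weakLev ‖f x‖ = j}

omit [Fact (0 < T)] in
theorem weak_measA {f : AddCircle T → ℂ} (hf : Measurable f) (j : ℕ) :
    MeasurableSet (weakA f j) :=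
  (weak_measurable_lev.comp hf.norm) (measurableSet_singleton j)

omit [Fact (0 < T)] in
theorem weak_disj (f : AddCircle T → ℂ) : Pairwise (Function.onFun Disjoint (weakA f)) := by
  intro i j hij
  refine Set.disjoint_left.2 fun x hx hy => hij ?_
  exact (show weakLev ‖f x‖ = i from hx).symm.trans hy

omit [Fact (0 < T)] in
theorem weak_union (f : AddCircle T → ℂ) : ⋃ j, weakA f j = univ :=
  eq_univ_of_forall fun _ => mem_iUnion.2 ⟨_, rfl⟩

theorem weak_lint {f : AddCircle T → ℂ} (hf : Measurable f) :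
    ∑' j : ℕ, (2 : ENNReal) ^ j * ∫⁻ x in weakA f j, ‖f x‖ₑ ∂AddCircle.haarAddCircle ≤ 2 * LL f := by
  have h1 : ∀ j : ℕ, (2 : ENNReal) ^ j * ∫⁻ x in weakA f j, ‖f x‖ₑ ∂AddCircle.haarAddCircle ≤
      ∫⁻ x in weakA f j, 2 * (‖f x‖ₑ * ENNReal.ofReal (Real.log (2 + ‖f x‖)))
        ∂AddCircle.haarAddCircle := by
    intro j
    rw [← lintegral_const_mul _ hf.enorm]
    refine setLIntegral_mono' (weak_measA hf j) fun x hx => ?_
    have h2 := weak_lev_log (norm_nonneg (f x))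
    rw [show weakLev ‖f x‖ = j from hx] at h2
    have h3 : (2 : ENNReal) ^ j ≤ 2 * ENNReal.ofReal (Real.log (2 + ‖f x‖)) := by
      have := ENNReal.ofReal_le_ofReal h2
      rw [ENNReal.ofReal_mul (by norm_num), ENNReal.ofReal_pow (by norm_num)] at this
      simpa using this
    calc (2 : ENNReal) ^ j * ‖f x‖ₑ ≤ (2 * ENNReal.ofReal (Real.log (2 + ‖f x‖))) * ‖f x‖ₑ := by
          gcongr
      _ = _ := by ring
  refine (ENNReal.tsum_le_tsum h1).trans ?_
  rw [← lintegral_iUnion (weak_measA hf) (weak_disj f), weak_union, Measure.restrict_univ, LL,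
    lintegral_const_mul' _ _ (by norm_num)]

theorem weak_integrable {f : AddCircle T → ℂ} (hf : Measurable f) (hL : LL f < ⊤) :
    Integrable f AddCircle.haarAddCircle := by
  refine ⟨hf.aestronglyMeasurable, ?_⟩
  have h1 : ∫⁻ x, ‖f x‖ₑ ∂AddCircle.haarAddCircle ≤ 2 * LL f := by
    refine le_trans ?_ (weak_lint hf)
    rw [← Measure.restrict_univ (μ := AddCircle.haarAddCircle), ← weak_union f,
      lintegral_iUnion (weak_measA hf) (weak_disj f), weak_union, Measure.restrict_univ]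
    refine ENNReal.tsum_le_tsum fun j => ?_
    exact le_mul_of_one_le_left' (one_le_pow₀ (by norm_num))
  exact h1.trans_lt (ENNReal.mul_lt_top (by norm_num) hL)

theorem weak_coeff {f : AddCircle T → ℂ} (hf : Measurable f)
    (hi : Integrable f AddCircle.haarAddCircle) (k : ℤ) :
    HasSum (fun j => fourierCoeff ((weakA f j).indicator f) k) (fourierCoeff f k) := by
  have h1 := hi.fourier_smul (-k)
  have h2 := hasSum_integral_iUnion (weak_measA hf) (weak_disj f) h1.integrableOn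
  rw [weak_union, Measure.restrict_univ] at h2
  have h3 : ∀ j, fourierCoeff ((weakA f j).indicator f) k =
      ∫ t in weakA f j, fourier (-k) t • f t ∂AddCircle.haarAddCircle := by
    intro j
    rw [fourierCoeff, ← integral_indicator (weak_measA hf j)]
    congr 1
    funext t
    by_cases ht : t ∈ weakA f j
    · rw [indicator_of_mem ht, indicator_of_mem ht]
    · rw [indicator_of_notMem ht, indicator_of_notMem ht, smul_zero]
  simp only [h3]
  exact h2

theorem weak_Smax {f : AddCircle T → ℂ} (hf : Measurable f)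
    (hi : Integrable f AddCircle.haarAddCircle) (x : AddCircle T) :
    Smax f x ≤ ∑' j, Smax ((weakA f j).indicator f) x := by
  refine iSup_le fun N => ?_
  have h1 : HasSum (fun j => SN ((weakA f j).indicator f) N x) (SN f N x) :=
    hasSum_sum fun k _ => (weak_coeff hf hi k).smul_const _
  rw [← h1.tsum_eq]
  refine enorm_tsum_le_tsum_enorm.trans (ENNReal.tsum_le_tsum fun j => ?_)
  exact le_iSup (fun N : ℕ => ‖SN ((weakA f j).indicator f) N x‖ₑ) N

end

theorem weak_ratio (c : ℕ) : ∃ r : ℝ, 1 < r ∧ r ^ c ≤ 2 := by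
  refine ⟨(2 : ℝ) ^ (((c + 1 : ℕ) : ℝ)⁻¹), Real.one_lt_rpow (by norm_num) (by positivity), ?_⟩
  have h1 : ((2 : ℝ) ^ (((c + 1 : ℕ) : ℝ)⁻¹)) ^ (c + 1) = 2 :=
    Real.rpow_inv_natCast_pow (by norm_num) (by omega)
  refine le_trans (pow_le_pow_right₀ ?_ (Nat.le_succ c)) h1.le
  exact (Real.one_lt_rpow (by norm_num) (by positivity)).le

theorem weak_exp_le {L : ℝ} (hL : 0 < L) (j : ℕ) :
    Real.exp (-(L * 2 ^ j)) * 2 ^ j ≤ 2 / L ^ 2 * (1 / 2) ^ j := by
  have h1 := Real.quadratic_le_exp_of_nonneg (show 0 ≤ L * 2 ^ j by positivity)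
  have h2 : (L * 2 ^ j) ^ 2 / 2 ≤ Real.exp (L * 2 ^ j) := by
    have : 0 ≤ L * 2 ^ j := by positivity
    linarith
  have h3 : (0 : ℝ) < 2 ^ j := by positivity
  rw [Real.exp_neg, one_div, inv_pow]
  calc (Real.exp (L * 2 ^ j))⁻¹ * 2 ^ j ≤ ((L * 2 ^ j) ^ 2 / 2)⁻¹ * 2 ^ j := by gcongr
    _ = 2 / L ^ 2 * (2 ^ j)⁻¹ := by field_simp

theorem weak_geo {a q : ℝ} (ha : 0 ≤ a) (hq : 0 ≤ q) (hq1 : q < 1) :
    ∑' j : ℕ, ENNReal.ofReal (a * q ^ j) = ENNReal.ofReal (a * (1 - q)⁻¹) := by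
  rw [← ENNReal.ofReal_tsum_of_nonneg (fun j => by positivity)
    ((summable_geometric_of_lt_one hq hq1).mul_left a), tsum_mul_left,
    tsum_geometric_of_lt_one hq hq1]

theorem weak_small {T : ℝ} [Fact (0 < T)] {C : ℝ} {c : ℕ} (hC : 0 < C) (h : CircBound T C c) :
    WeakSmall T := by
  intro ε hε
  obtain ⟨r, hr1, hrc⟩ := weak_ratio c
  have hr0 : 0 < r := by linarith
  have hq1 : r⁻¹ < 1 := inv_lt_one_of_one_lt₀ hr1
  have hq2 : 0 < 1 - r⁻¹ := by linarith
  obtain ⟨H0, hH2, hH0⟩ : ∃ H0 : ℝ, 2 ≤ H0 ∧ C / H0 * (1 - r⁻¹)⁻¹ ≤ ε / 2 := by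
    refine ⟨max 2 (2 * C * (1 - r⁻¹)⁻¹ / ε), le_max_left _ _, ?_⟩
    have h1 : 2 * C * (1 - r⁻¹)⁻¹ / ε ≤ max 2 (2 * C * (1 - r⁻¹)⁻¹ / ε) := le_max_right _ _
    calc C / max 2 (2 * C * (1 - r⁻¹)⁻¹ / ε) * (1 - r⁻¹)⁻¹
        ≤ C / (2 * C * (1 - r⁻¹)⁻¹ / ε) * (1 - r⁻¹)⁻¹ := by gcongr
      _ = ε / 2 := by
          have : (1 - r⁻¹)⁻¹ ≠ 0 := by positivity
          generalize (1 - r⁻¹)⁻¹ = s at this
          field_simp
  obtain ⟨L, hL1, hL2⟩ : ∃ L : ℝ, 1 + H0 ^ c ≤ L ∧ 32 * C / ε ^ 2 ≤ L :=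
    ⟨max _ _, le_max_left _ _, le_max_right _ _⟩
  have hHc : 0 ≤ H0 ^ c := by positivity
  have hL0 : 0 < L := by linarith
  refine ⟨ε ^ 2 / (16 * C * L), by positivity, fun f hf hLL => ?_⟩
  set μ : Measure (AddCircle T) := AddCircle.haarAddCircle with hμ
  have hi : Integrable f μ := weak_integrable hf (hLL.trans_lt ENNReal.ofReal_lt_top)
  set δ : ℕ → ℝ := fun j => ∫ y, ‖(weakA f j).indicator f y‖ ∂μ with hδ
  have hδ0 : ∀ j, 0 ≤ δ j := fun j => integral_nonneg fun y => norm_nonneg _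
  have hδe : ∀ j, ENNReal.ofReal (δ j) = ∫⁻ x in weakA f j, ‖f x‖ₑ ∂μ := by
    intro j
    rw [hδ, ofReal_integral_norm_eq_lintegral_enorm (hi.indicator (weak_measA hf j)),
      ← lintegral_indicator (weak_measA hf j)]
    congr 1
    funext t
    by_cases ht : t ∈ weakA f j <;> simp [ht]
  have hall : ∀ j : ℕ, ∃ Ω : Set (AddCircle T), MeasurableSet Ω ∧
      μ Ω ≤ ENNReal.ofReal (C / H0 * r⁻¹ ^ j) ∧
      ∫⁻ x in Ωᶜ, Smax ((weakA f j).indicator f) x ∂μ ≤
        ENNReal.ofReal (2 * C * L) * (2 ^ j * ENNReal.ofReal (δ j)) +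
          ENNReal.ofReal (4 * C / L * (1 / 2) ^ j) := by
    intro j
    have h2j : (1 : ℝ) ≤ 2 ^ j := one_le_pow₀ (by norm_num)
    have hrj : (1 : ℝ) ≤ r ^ j := one_le_pow₀ hr1.le
    have hκ : 0 < Real.exp (-(L * 2 ^ j)) := Real.exp_pos _
    obtain ⟨Ω, hΩ, h1, h2⟩ := h ((weakA f j).indicator f) (δ j + Real.exp (-(L * 2 ^ j)))
      (H0 * r ^ j) ((1 + L) * 2 ^ j) (by have := hδ0 j; positivity) (by nlinarith) (by nlinarith)
      (hf.indicator (weak_measA hf j)) (fun y => by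
        have h3 : ‖(weakA f j).indicator f y‖ ≤ Real.exp (2 ^ j) := by
          by_cases hy : y ∈ weakA f j
          · rw [indicator_of_mem hy]
            have := weak_lev_le ‖f y‖
            rwa [show weakLev ‖f y‖ = j from hy] at this
          · rw [indicator_of_notMem hy, norm_zero]; positivity
        refine h3.trans ?_
        calc Real.exp (2 ^ j) = Real.exp (-(L * 2 ^ j)) * Real.exp ((1 + L) * 2 ^ j) := by
              rw [← Real.exp_add]; congr 1; ring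
          _ ≤ _ := by gcongr; linarith [hδ0 j]) (by linarith)
    refine ⟨Ω, hΩ, h1.trans (le_of_eq ?_), h2.trans ?_⟩
    · congr 1
      rw [inv_pow]; field_simp
    · have h4 : (1 + L) * 2 ^ j + (H0 * r ^ j) ^ c ≤ 2 * L * 2 ^ j := by
        have h5 : (H0 * r ^ j) ^ c ≤ H0 ^ c * 2 ^ j := by
          rw [mul_pow, ← pow_mul, mul_comm j c, pow_mul]
          gcongr
        nlinarith
      have h6 := weak_exp_le hL0 j
      have h7 : (δ j + Real.exp (-(L * 2 ^ j))) * C * ((1 + L) * 2 ^ j + (H0 * r ^ j) ^ c) ≤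
          2 * C * L * (2 ^ j * δ j) + 4 * C / L * (1 / 2) ^ j := by
        have := hδ0 j
        calc _ ≤ (δ j + Real.exp (-(L * 2 ^ j))) * C * (2 * L * 2 ^ j) := by gcongr
          _ = 2 * C * L * (2 ^ j * δ j) + 2 * C * L * (Real.exp (-(L * 2 ^ j)) * 2 ^ j) := by ring
          _ ≤ 2 * C * L * (2 ^ j * δ j) + 2 * C * L * (2 / L ^ 2 * (1 / 2) ^ j) := by gcongr
          _ = _ := by field_simp; ring
      refine (ENNReal.ofReal_le_ofReal h7).trans ?_
      have := hδ0 j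
      rw [ENNReal.ofReal_add (by positivity) (by positivity), 
        ENNReal.ofReal_mul (p := 2 * C * L) (by positivity),
        ENNReal.ofReal_mul (p := 2 ^ j) (by positivity), ENNReal.ofReal_pow (by norm_num)]
      simp
  choose Ω hΩm hΩ1 hΩ2 using hall
  have hU : μ (⋃ j, Ω j) ≤ ENNReal.ofReal (ε / 2) := by
    refine (measure_iUnion_le _).trans ((ENNReal.tsum_le_tsum hΩ1).trans ?_)
    rw [weak_geo (by positivity) (by positivity) hq1]
    exact ENNReal.ofReal_le_ofReal hH0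
  have hI : ∫⁻ x in (⋃ j, Ω j)ᶜ, Smax f x ∂μ ≤ ENNReal.ofReal (ε * (ε / 2)) := by
    calc ∫⁻ x in (⋃ j, Ω j)ᶜ, Smax f x ∂μ
        ≤ ∫⁻ x in (⋃ j, Ω j)ᶜ, ∑' j, Smax ((weakA f j).indicator f) x ∂μ :=
          lintegral_mono fun x => weak_Smax hf hi x
      _ = ∑' j, ∫⁻ x in (⋃ j, Ω j)ᶜ, Smax ((weakA f j).indicator f) x ∂μ :=
          lintegral_tsum fun j => (measurable_Smax _).aemeasurable
      _ ≤ ∑' j, (ENNReal.ofReal (2 * C * L) * (2 ^ j * ENNReal.ofReal (δ j)) +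
          ENNReal.ofReal (4 * C / L * (1 / 2) ^ j)) := by
          refine ENNReal.tsum_le_tsum fun j => le_trans ?_ (hΩ2 j)
          exact lintegral_mono_set (compl_subset_compl.2 (subset_iUnion Ω j))
      _ = ENNReal.ofReal (2 * C * L) * ∑' j, (2 ^ j * ∫⁻ x in weakA f j, ‖f x‖ₑ ∂μ) +
          ENNReal.ofReal (4 * C / L * (1 - 1 / 2)⁻¹) := by
          rw [ENNReal.tsum_add, ENNReal.tsum_mul_left,
            weak_geo (by positivity) (by norm_num) (by norm_num)]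
          simp only [hδe]
      _ ≤ ENNReal.ofReal (2 * C * L) * (2 * ENNReal.ofReal (ε ^ 2 / (16 * C * L))) +
          ENNReal.ofReal (4 * C / L * (1 - 1 / 2)⁻¹) := by
          gcongr
          exact (weak_lint hf).trans (by gcongr)
      _ = ENNReal.ofReal (2 * C * L * (2 * (ε ^ 2 / (16 * C * L))) + 4 * C / L * (1 - 1 / 2)⁻¹) := by
          rw [ENNReal.ofReal_add (by positivity) (by positivity),
            ENNReal.ofReal_mul (p := 2 * C * L) (by positivity),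
            ENNReal.ofReal_mul (p := 2) (by positivity)]
          simp
      _ ≤ ENNReal.ofReal (ε * (ε / 2)) := by
          refine ENNReal.ofReal_le_ofReal ?_
          have h1 : 2 * C * L * (2 * (ε ^ 2 / (16 * C * L))) = ε ^ 2 / 4 := by field_simp; ring
          have h2 : 4 * C / L * (1 - 1 / 2)⁻¹ ≤ ε ^ 2 / 4 := by
            rw [div_le_iff₀ (by positivity)] at hL2
            have : 4 * C / L * (1 - 1 / 2)⁻¹ = 8 * C / L := by ring
            rw [this, div_le_iff₀ hL0]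
            nlinarith
          nlinarith
  have hM : μ ({x | ENNReal.ofReal ε < Smax f x} ∩ (⋃ j, Ω j)ᶜ) ≤ ENNReal.ofReal (ε / 2) := by
    have h1 := mul_meas_ge_le_lintegral (μ := μ.restrict (⋃ j, Ω j)ᶜ) (measurable_Smax f)
      (ENNReal.ofReal ε)
    have h2 := h1.trans hI
    rw [ENNReal.ofReal_mul hε.le, ENNReal.mul_le_mul_iff_right (by simpa using hε)
      ENNReal.ofReal_ne_top, Measure.restrict_apply' (MeasurableSet.iUnion hΩm).compl] at h2
    refine le_trans (measure_mono (inter_subset_inter_left _ fun x hx => ?_)) h2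
    exact le_of_lt (show ENNReal.ofReal ε < Smax f x from hx)
  calc μ {x | ENNReal.ofReal ε < Smax f x}
      ≤ μ (({x | ENNReal.ofReal ε < Smax f x} ∩ (⋃ j, Ω j)ᶜ) ∪ ⋃ j, Ω j) := by
        refine measure_mono fun x hx => ?_
        by_cases hx' : x ∈ ⋃ j, Ω j
        · exact Or.inr hx'
        · exact Or.inl ⟨hx, hx'⟩
    _ ≤ ENNReal.ofReal (ε / 2) + ENNReal.ofReal (ε / 2) :=
        (measure_union_le _ _).trans (add_le_add hM hU)
    _ = ENNReal.ofReal ε := by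
        rw [← ENNReal.ofReal_add (by positivity) (by positivity)]; congr 1; ring

end Crest.Agent.R100
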