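import Crest.Agent.R100.Induct
import Crest.Agent.R100.Scale
import Crest.Agent.R100.Transfer
import Crest.Agent.R100.Circle
import Crest.Agent.R100.Weak
import Crest.Agent.R100.Final

/-!
# R100/All: the chain  (helper28)
-/

set_option autoImplicit false
open MeasureTheory

namespace Crest.Agent.R100

theorem main {T : ℝ} [Fact (0 < T)] (f : AddCircle T → ℂ)
    (hf : AEStronglyMeasurable f AddCircle.haarAddCircle) (hl : LL f < ⊤) :
    ∀ᵐ x ∂AddCircle.haarAddCircle, Filter.Tendsto (fun N : ℕ => SN f N x) Filter.atTop
      (nhds (f x)) :=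
  final (weak_small (by norm_num)
    (circ_bound (by norm_num) (real_bound (by norm_num) (scale_bound dyadic_main)))) f hf hl

end Crest.Agent.R100
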