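import Crest.Agent.R100.Defs

/-!
# R100/Basic: trees, dyadic intervals, means  (helper28)
-/

set_option autoImplicit false
open MeasureTheory Set

namespace Crest.Agent.R100

/-! ### lengths, leaves -/

theorem len_pos (v : Nd) : 0 < len v := by unfold len; positivity

@[simp] theorem len_nil : len [] = 1 := by simp [len]

theorem len_cons (b : Bool) (v : Nd) : len (b :: v) = len v / 2 := by
  simp [len, pow_succ, div_eq_mul_inv]

theorem len_eq_of_le {u v : Nd} (h : v.length ≤ u.length) :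
    len u = len v * (1 / 2 : ℝ) ^ (u.length - v.length) := by
  unfold len; rw [← pow_add]; congr 1; omega

theorem len_le_of_le {u v : Nd} (h : v.length ≤ u.length) : len u ≤ len v := by
  unfold len; exact pow_le_pow_of_le_one (by norm_num) (by norm_num) h

theorem len_le_of_suffix {u v : Nd} (h : v <:+ u) : len u ≤ len v := len_le_of_le h.length_le

theorem len_le_one (v : Nd) : len v ≤ 1 := by
  simpa using len_le_of_suffix (List.nil_suffix (l := v))

theorem suffix_total {u v x : Nd} (hu : u <:+ x) (hv : v <:+ x) : u <:+ v ∨ v <:+ u :=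
  List.suffix_or_suffix_of_suffix hu hv

theorem suffix_of_le {u v x : Nd} (hu : u <:+ x) (hv : v <:+ x) (h : u.length ≤ v.length) :
    u <:+ v := List.suffix_of_suffix_length_le hu hv h

theorem suffix_eq_of_length {u v x : Nd} (hu : u <:+ x) (hv : v <:+ x)
    (h : u.length = v.length) : u = v :=
  (suffix_of_le hu hv h.le).eq_of_length h

/-- a strict descendant lies below one of the two children -/
theorem child_suffix {v u : Nd} (h : v <:+ u) (hne : v ≠ u) : ∃ b : Bool, (b :: v) <:+ u := by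
  obtain ⟨p, rfl⟩ := h
  rcases List.eq_nil_or_concat p with rfl | ⟨q, b, rfl⟩
  · simp at hne
  · exact ⟨b, ⟨q, by simp⟩⟩

theorem not_both_children {v x : Nd} (h0 : (false :: v) <:+ x) (h1 : (true :: v) <:+ x) :
    False := by
  have := suffix_eq_of_length h0 h1 (by simp)
  simp at this

theorem mem_below {n : ℕ} {v x : Nd} : x ∈ below n v ↔ x.length = v.length + n ∧ v <:+ x := by
  induction n generalizing v with
  | zero =>
    simp only [below, Finset.mem_singleton, add_zero]
    exact ⟨fun h => h ▸ ⟨rfl, List.suffix_refl _⟩, fun h => (h.2.eq_of_length h.1.symm).symm⟩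
  | succ n ih =>
    simp only [below, Finset.mem_union, ih, List.length_cons]
    constructor
    · rintro (⟨h1, h2⟩ | ⟨h1, h2⟩)
      · exact ⟨by omega, (List.suffix_cons _ _).trans h2⟩
      · exact ⟨by omega, (List.suffix_cons _ _).trans h2⟩
    · rintro ⟨h1, h2⟩
      obtain ⟨b, hb⟩ := child_suffix h2 (by rintro rfl; omega)
      cases b
      · exact Or.inl ⟨by omega, hb⟩
      · exact Or.inr ⟨by omega, hb⟩

theorem sum_below_succ {M : Type*} [AddCommMonoid M] (n : ℕ) (v : Nd) (φ : Nd → M) :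
    ∑ x ∈ below (n + 1) v, φ x =
      ∑ x ∈ below n (false :: v), φ x + ∑ x ∈ below n (true :: v), φ x := by
  rw [below, Finset.sum_union]
  rw [Finset.disjoint_left]
  intro x h0 h1
  exact not_both_children (mem_below.1 h0).2 (mem_below.1 h1).2

theorem sum_len_below (n : ℕ) (v : Nd) : ∑ x ∈ below n v, len x = len v := by
  induction n generalizing v with
  | zero => simp [below]
  | succ n ih => rw [sum_below_succ, ih, ih, len_cons, len_cons]; ring

theorem mem_lv {D : ℕ} {w x : Nd} (h : w.length ≤ D) :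
    x ∈ lv D w ↔ x.length = D ∧ w <:+ x := by
  rw [lv, mem_below, show w.length + (D - w.length) = D by omega]

theorem sum_lv_split {M : Type*} [AddCommMonoid M] {D : ℕ} {w : Nd} (h : w.length < D)
    (φ : Nd → M) :
    ∑ x ∈ lv D w, φ x = ∑ x ∈ lv D (false :: w), φ x + ∑ x ∈ lv D (true :: w), φ x := by
  unfold lv
  rw [show D - w.length = (D - (w.length + 1)) + 1 by omega, sum_below_succ]
  rfl

theorem sum_len_lv (D : ℕ) (w : Nd) : ∑ x ∈ lv D w, len x = len w := sum_len_below _ _

theorem lv_filter {D : ℕ} {w u : Nd} (hwu : w <:+ u) (hu : u.length ≤ D) :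
    (lv D w).filter (u <:+ ·) = lv D u := by
  ext x
  rw [Finset.mem_filter, mem_lv hu, mem_lv (hwu.length_le.trans hu)]
  exact ⟨fun h => ⟨h.1.1, h.2⟩, fun h => ⟨⟨h.1, hwu.trans h.2⟩, h.2⟩⟩

/-- pairwise incomparable nodes below `r` have total length at most `len r` -/
theorem sum_len_antichain {S : Finset Nd} {r : Nd} (hr : ∀ u ∈ S, r <:+ u)
    (hS : ∀ u ∈ S, ∀ u' ∈ S, u <:+ u' → u = u') : ∑ u ∈ S, len u ≤ len r := by
  classical
  obtain ⟨D, hD⟩ : ∃ D, r.length ≤ D ∧ ∀ u ∈ S, u.length ≤ D :=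
    ⟨max r.length (S.sup List.length), le_max_left _ _,
      fun u hu => (Finset.le_sup (f := List.length) hu).trans (le_max_right _ _)⟩
  have h1 : ∑ u ∈ S, len u = ∑ u ∈ S, ∑ x ∈ lv D u, len x :=
    Finset.sum_congr rfl fun u _ => (sum_len_lv D u).symm
  rw [h1, ← Finset.sum_biUnion, ← sum_len_lv D r]
  · refine Finset.sum_le_sum_of_subset_of_nonneg ?_ fun x _ _ => (len_pos x).le
    intro x hx
    obtain ⟨u, hu, hx⟩ := Finset.mem_biUnion.1 hx
    rw [mem_lv (hD.2 u hu)] at hx
    exact (mem_lv hD.1).2 ⟨hx.1, (hr u hu).trans hx.2⟩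
  · intro u hu u' hu' hne
    rw [Function.onFun, Finset.disjoint_left]
    intro x h h'
    rw [mem_lv (hD.2 u hu)] at h
    rw [mem_lv (hD.2 u' hu')] at h'
    rcases suffix_total h.2 h'.2 with k | k
    · exact hne (hS u hu u' hu' k)
    · exact hne (hS u' hu' u hu k).symm

/-- mean over leaves of the number of nodes of `S` above the leaf -/
theorem sum_lv_card {D : ℕ} {w : Nd} {S : Finset Nd} (hw : ∀ u ∈ S, w <:+ u)
    (hD : ∀ u ∈ S, u.length ≤ D) :
    ∑ x ∈ lv D w, len x * ((S.filter (· <:+ x)).card : ℝ) = ∑ u ∈ S, len u := by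
  classical
  have : ∀ x, len x * ((S.filter (· <:+ x)).card : ℝ) = ∑ u ∈ S, if u <:+ x then len x else 0 := by
    intro x; rw [← Finset.sum_filter, Finset.sum_const, nsmul_eq_mul, mul_comm]
  simp_rw [this]
  rw [Finset.sum_comm]
  refine Finset.sum_congr rfl fun u hu => ?_
  rw [← Finset.sum_filter, lv_filter (hw u hu) (hD u hu), sum_len_lv]

/-! ### signs -/

theorem abs_sg_le (v x : Nd) : |sg v x| ≤ 1 := by
  unfold sg; split_ifs <;> simp

theorem sg_eq_zero {v x : Nd} (h : ¬ v <:+ x) : sg v x = 0 := by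
  have : ∀ b c : Bool, ¬ (b :: c :: v) <:+ x := fun b c k =>
    h (((List.suffix_cons _ _).trans (List.suffix_cons _ _)).trans k)
  simp [sg, this]

theorem sg_of_suffix {v x : Nd} {b c : Bool} (h : (c :: b :: v) <:+ x) :
    sg v x = if b = c then 1 else -1 := by
  have key : ∀ b' c' : Bool, (c' :: b' :: v) <:+ x ↔ c' = c ∧ b' = b := by
    intro b' c'
    constructor
    · intro k
      have := suffix_eq_of_length k h (by simp)
      simpa using this
    · rintro ⟨rfl, rfl⟩; exact h
  simp only [sg, key]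
  cases b <;> cases c <;> simp

/-! ### intervals -/

theorem measurableSet_I (v : Nd) : MeasurableSet (I v) := measurableSet_Ico

theorem volume_I (v : Nd) : volume (I v) = ENNReal.ofReal (len v) := by simp [I]

theorem real_volume_I (v : Nd) : volume.real (I v) = len v := by
  simp [Measure.real, volume_I, (len_pos v).le]

theorem I_nil : I [] = Ico 0 1 := by simp [I, lft]

theorem I_false (v : Nd) : I (false :: v) = Ico (lft v) (lft v + len v / 2) := by
  simp [I, lft, len_cons]

theorem I_true (v : Nd) : I (true :: v) = Ico (lft v + len v / 2) (lft v + len v) := by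
  simp only [I, lft, len_cons, if_true]; congr 1; ring

theorem I_union (v : Nd) : I (false :: v) ∪ I (true :: v) = I v := by
  have := len_pos v
  rw [I_false, I_true, Ico_union_Ico_eq_Ico (by linarith) (by linarith)]; rfl

theorem I_disj (v : Nd) : Disjoint (I (false :: v)) (I (true :: v)) := by
  rw [I_false, I_true, Set.disjoint_left]
  intro y h1 h2
  exact absurd h1.2 (not_lt.2 h2.1)

theorem I_cons_sub (b : Bool) (v : Nd) : I (b :: v) ⊆ I v := by
  rw [← I_union v]; cases b
  · exact subset_union_left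
  · exact subset_union_right

theorem I_mono {u v : Nd} (h : v <:+ u) : I u ⊆ I v := by
  obtain ⟨p, rfl⟩ := h
  induction p with
  | nil => exact Subset.rfl
  | cons b p ih => exact (I_cons_sub b _).trans ih

theorem lft_mem (v : Nd) : lft v ∈ I v := ⟨le_rfl, by linarith [len_pos v]⟩

theorem abs_sub_le_len {v : Nd} {y y' : ℝ} (h : y ∈ I v) (h' : y' ∈ I v) : |y - y'| ≤ len v := by
  rw [abs_le]; constructor <;> linarith [h.1, h.2, h'.1, h'.2]

/-- intervals that meet are nested -/
theorem suffix_of_mem {u v : Nd} {y : ℝ} (hu : y ∈ I u) (hv : y ∈ I v)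
    (h : v.length ≤ u.length) : v <:+ u := by
  induction v with
  | nil => exact List.nil_suffix
  | cons b v ih =>
    have h1 : v <:+ u := ih (I_cons_sub b v hv) (by simp at h; omega)
    obtain ⟨c, hc⟩ := child_suffix h1 (by rintro rfl; simp at h)
    have hy := I_mono hc hu
    by_cases hbc : b = c
    · exact hbc ▸ hc
    · exfalso
      cases b <;> cases c
      · exact hbc rfl
      · exact Set.disjoint_left.1 (I_disj v) hv hy
      · exact Set.disjoint_left.1 (I_disj v) hy hv
      · exact hbc rfl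

theorem exists_below {v : Nd} {y : ℝ} (h : y ∈ I v) (n : ℕ) : ∃ x ∈ below n v, y ∈ I x := by
  induction n generalizing v with
  | zero => exact ⟨v, by simp [below], h⟩
  | succ n ih =>
    rw [← I_union v] at h
    rcases h with h | h
    · obtain ⟨x, hx, hy⟩ := ih h
      exact ⟨x, Finset.mem_union_left _ hx, hy⟩
    · obtain ⟨x, hx, hy⟩ := ih h
      exact ⟨x, Finset.mem_union_right _ hx, hy⟩

theorem integral_I_split {E : Type*} [NormedAddCommGroup E] [NormedSpace ℝ E] {v : Nd}
    {φ : ℝ → E} (h : IntegrableOn φ (I v)) :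
    ∫ y in I v, φ y = (∫ y in I (false :: v), φ y) + ∫ y in I (true :: v), φ y := by
  rw [← setIntegral_union (I_disj v) (measurableSet_I _) (h.mono_set (I_cons_sub _ _))
    (h.mono_set (I_cons_sub _ _)), I_union]

theorem integral_I_below {E : Type*} [NormedAddCommGroup E] [NormedSpace ℝ E] (n : ℕ) {v : Nd}
    {φ : ℝ → E} (h : IntegrableOn φ (I v)) :
    ∫ y in I v, φ y = ∑ x ∈ below n v, ∫ y in I x, φ y := by
  induction n generalizing v with
  | zero => simp [below]
  | succ n ih =>
    rw [sum_below_succ, integral_I_split h, ih (h.mono_set (I_cons_sub _ _)),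
      ih (h.mono_set (I_cons_sub _ _))]

/-! ### means -/

theorem len_mul_av (v : Nd) (φ : ℝ → ℂ) : (len v : ℂ) * av v φ = ∫ y in I v, φ y := by
  have : (len v : ℂ) ≠ 0 := by exact_mod_cast (len_pos v).ne'
  unfold av; push_cast; field_simp

theorem len_mul_avr (v : Nd) (φ : ℝ → ℝ) : len v * avr v φ = ∫ y in I v, φ y := by
  have := (len_pos v).ne'
  unfold avr; field_simp

theorem av_split {v : Nd} {φ : ℝ → ℂ} (h : IntegrableOn φ (I v)) :
    av v φ = (av (false :: v) φ + av (true :: v) φ) / 2 := by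
  have : (len v : ℂ) ≠ 0 := by exact_mod_cast (len_pos v).ne'
  unfold av
  rw [integral_I_split h, len_cons, len_cons]
  push_cast; field_simp

theorem avr_split {v : Nd} {φ : ℝ → ℝ} (h : IntegrableOn φ (I v)) :
    avr v φ = (avr (false :: v) φ + avr (true :: v) φ) / 2 := by
  have := (len_pos v).ne'
  unfold avr
  rw [integral_I_split h, len_cons, len_cons]
  field_simp

theorem avr_nonneg {v : Nd} {φ : ℝ → ℝ} (h : ∀ y, 0 ≤ φ y) : 0 ≤ avr v φ :=
  mul_nonneg (inv_nonneg.2 (len_pos v).le) (integral_nonneg h)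

theorem avr_mono {v : Nd} {φ ψ : ℝ → ℝ} (hφ : IntegrableOn φ (I v)) (hψ : IntegrableOn ψ (I v))
    (h : ∀ y ∈ I v, φ y ≤ ψ y) : avr v φ ≤ avr v ψ :=
  mul_le_mul_of_nonneg_left (setIntegral_mono_on hφ hψ (measurableSet_I v) h)
    (inv_nonneg.2 (len_pos v).le)

theorem avr_const (v : Nd) (c : ℝ) : avr v (fun _ => c) = c := by
  have := (len_pos v).ne'
  unfold avr
  rw [setIntegral_const, real_volume_I, smul_eq_mul]; field_simp

theorem avr_child_le {v : Nd} {φ : ℝ → ℝ} (h : IntegrableOn φ (I v)) (h0 : ∀ y, 0 ≤ φ y)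
    (b : Bool) : avr (b :: v) φ ≤ 2 * avr v φ := by
  have h1 := avr_split h
  have h2 := avr_nonneg (v := false :: v) h0
  have h3 := avr_nonneg (v := true :: v) h0
  cases b <;> linarith

theorem norm_av_le (v : Nd) (φ : ℝ → ℂ) : ‖av v φ‖ ≤ avr v (fun y => ‖φ y‖) := by
  unfold av avr
  rw [norm_mul, Complex.norm_real, Real.norm_of_nonneg (inv_nonneg.2 (len_pos v).le)]
  exact mul_le_mul_of_nonneg_left (norm_integral_le_integral_norm _) (inv_nonneg.2 (len_pos v).le)

/-! ### exponentials, bounded measurable functions -/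

@[simp] theorem norm_ex (ξ y : ℝ) : ‖ex ξ y‖ = 1 := Complex.norm_exp_ofReal_mul_I _

theorem ex_add (ξ η y : ℝ) : ex (ξ + η) y = ex ξ y * ex η y := by
  simp [ex, add_mul, Complex.exp_add]

theorem ex_add' (ξ y z : ℝ) : ex ξ (y + z) = ex ξ y * ex ξ z := by
  simp [ex, mul_add, add_mul, Complex.exp_add]

@[simp] theorem ex_zero (y : ℝ) : ex 0 y = 1 := by simp [ex]

theorem conj_ex (ξ y : ℝ) : (starRingEnd ℂ) (ex ξ y) = ex (-ξ) y := by
  unfold ex; rw [← Complex.exp_conj]; congr 1; simp

@[fun_prop] theorem continuous_ex (ξ : ℝ) : Continuous (ex ξ) := by unfold ex; fun_prop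

theorem norm_ex_sub_le (η y z : ℝ) : ‖ex η y - ex η z‖ ≤ |η| * |y - z| := by
  have h1 : ex η y - ex η z = ex η z * (ex η (y - z) - 1) := by
    rw [mul_sub, ← ex_add', mul_one]; congr 2; ring
  rw [h1, norm_mul, norm_ex, one_mul, ← abs_mul]
  unfold ex
  rw [mul_comm _ Complex.I]
  exact (Real.norm_exp_I_mul_ofReal_sub_one_le).trans (le_of_eq (Real.norm_eq_abs _))

/-- `|∫ₐᵇ e^{iηy} dy| ≤ 2/|η|` -/
theorem norm_integral_ex_le {η : ℝ} (hη : η ≠ 0) (v : Nd) :
    ‖∫ y in I v, ex η y‖ ≤ 2 / |η| := by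
  have hl := len_pos v
  have hc : (η : ℂ) * Complex.I ≠ 0 := mul_ne_zero (by exact_mod_cast hη) Complex.I_ne_zero
  have h1 : ∫ y in I v, ex η y =
      ∫ y in (lft v)..(lft v + len v), Complex.exp ((η : ℂ) * Complex.I * y) := by
    rw [intervalIntegral.integral_of_le (by linarith), I, integral_Ico_eq_integral_Ioc]
    congr 1; ext y; unfold ex; congr 1; push_cast; ring
  rw [h1, integral_exp_mul_complex hc, norm_div, norm_mul, Complex.norm_I, mul_one,
    Complex.norm_real, Real.norm_eq_abs]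
  gcongr
  refine (norm_sub_le _ _).trans ?_
  have : ∀ y : ℝ, ‖Complex.exp ((η : ℂ) * Complex.I * y)‖ = 1 := fun y => by
    rw [show (η : ℂ) * Complex.I * y = ((η * y : ℝ) : ℂ) * Complex.I by push_cast; ring]
    exact Complex.norm_exp_ofReal_mul_I _
  rw [this, this]; norm_num

theorem BM.integrableOn {F : ℝ → ℂ} (h : BM F) (v : Nd) : IntegrableOn F (I v) := by
  obtain ⟨hm, M, hM⟩ := h
  refine Measure.integrableOn_of_bounded (M := M) (by rw [volume_I]; exact ENNReal.ofReal_ne_top)
    hm.aestronglyMeasurable (Filter.Eventually.of_forall hM)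

theorem BM.integrableOn_norm {F : ℝ → ℂ} (h : BM F) (v : Nd) :
    IntegrableOn (fun y => ‖F y‖) (I v) := (h.integrableOn v).norm

theorem BM.mul {F F' : ℝ → ℂ} (h : BM F) (h' : BM F') : BM (fun y => F y * F' y) := by
  obtain ⟨hm, M, hM⟩ := h
  obtain ⟨hm', M', hM'⟩ := h'
  refine ⟨hm.mul hm', M * M', fun y => ?_⟩
  rw [norm_mul]
  exact mul_le_mul (hM y) (hM' y) (norm_nonneg _) ((norm_nonneg _).trans (hM y))

theorem BM.add {F F' : ℝ → ℂ} (h : BM F) (h' : BM F') : BM (fun y => F y + F' y) := by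
  obtain ⟨hm, M, hM⟩ := h
  obtain ⟨hm', M', hM'⟩ := h'
  exact ⟨hm.add hm', M + M', fun y => (norm_add_le _ _).trans (add_le_add (hM y) (hM' y))⟩

theorem BM.const (c : ℂ) : BM (fun _ => c) := ⟨measurable_const, ‖c‖, fun _ => le_rfl⟩

theorem BM.indicator {F : ℝ → ℂ} (h : BM F) {E : Set ℝ} (hE : MeasurableSet E) :
    BM (E.indicator F) := by
  obtain ⟨hm, M, hM⟩ := h
  exact ⟨hm.indicator hE, M, fun y => (norm_indicator_le_norm_self _ _).trans (hM y)⟩

theorem BM.integrableOn_sq {F : ℝ → ℂ} (h : BM F) (v : Nd) :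
    IntegrableOn (fun y => ‖F y‖ ^ 2) (I v) := by
  simpa [sq] using (h.mul h).integrableOn_norm v

theorem bm_ex (ξ : ℝ) : BM (ex ξ) := ⟨(continuous_ex ξ).measurable, 1, fun y => (norm_ex ξ y).le⟩

@[fun_prop] theorem continuous_tp (a : ℝ →₀ ℂ) : Continuous (tp a) := by unfold tp; fun_prop

theorem l1_nonneg (a : ℝ →₀ ℂ) : 0 ≤ l1 a := Finset.sum_nonneg fun _ _ => norm_nonneg _

theorem norm_tp_le (a : ℝ →₀ ℂ) (y : ℝ) : ‖tp a y‖ ≤ l1 a :=
  (norm_sum_le _ _).trans (le_of_eq (Finset.sum_congr rfl fun c _ => by simp))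

theorem bm_tp (a : ℝ →₀ ℂ) : BM (tp a) := ⟨(continuous_tp a).measurable, l1 a, norm_tp_le a⟩

theorem Model.bm {f : ℝ → ℂ} {H d : ℝ} {N : Finset Nd} {D : ℕ} (h : Model f H d N D) : BM f :=
  ⟨h.meas, _, h.bd⟩

/-- any finite family of exponentials is a `tp` -/
theorem exists_tp {ι : Type*} (s : Finset ι) (c : ι → ℂ) (ξ : ι → ℝ) :
    ∃ a : ℝ →₀ ℂ, l1 a ≤ ∑ i ∈ s, ‖c i‖ ∧ ∀ y, tp a y = ∑ i ∈ s, c i * ex (ξ i) y := by
  classical
  have tp_eq : ∀ (a : ℝ →₀ ℂ) y, tp a y = a.sum (fun c z => z * ex c y) := fun a y => rfl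
  induction s using Finset.induction_on with
  | empty => exact ⟨0, by simp [l1], by simp [tp]⟩
  | insert i s hi ih =>
    obtain ⟨a, h1, h2⟩ := ih
    refine ⟨Finsupp.single (ξ i) (c i) + a, ?_, fun y => ?_⟩
    · rw [Finset.sum_insert hi]
      have key : ∀ a b : ℝ →₀ ℂ, l1 (a + b) ≤ l1 a + l1 b := by
        intro a b
        have e : ∀ (z : ℝ →₀ ℂ) (S : Finset ℝ), z.support ⊆ S → l1 z = ∑ c ∈ S, ‖z c‖ := by
          intro z S hS
          refine Finset.sum_subset hS fun c _ hc => ?_
          simpa using hc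
        rw [e (a + b) (a.support ∪ b.support) Finsupp.support_add,
          e a (a.support ∪ b.support) Finset.subset_union_left,
          e b (a.support ∪ b.support) Finset.subset_union_right, ← Finset.sum_add_distrib]
        exact Finset.sum_le_sum fun c _ => norm_add_le _ _
      have h3 : l1 (Finsupp.single (ξ i) (c i)) ≤ ‖c i‖ := by
        by_cases hc : c i = 0
        · simp [hc, l1]
        · simp [l1, Finsupp.support_single _ hc]
      linarith [key (Finsupp.single (ξ i) (c i)) a]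
    · rw [Finset.sum_insert hi, ← h2, tp_eq, tp_eq,
        Finsupp.sum_add_index' (by simp) (by intros; ring), Finsupp.sum_single_index (by simp)]

theorem integrableOn_co {F : ℝ → ℂ} (h : BM F) (v : Nd) (ξ : ℝ) :
    IntegrableOn (fun y => F y * ex (-ξ) y) (I v) := (h.mul (bm_ex _)).integrableOn v

theorem norm_co_le (v : Nd) (F : ℝ → ℂ) (ξ : ℝ) : ‖co v F ξ‖ ≤ avr v (fun y => ‖F y‖) := by
  simpa [co] using norm_av_le v (fun y => F y * ex (-ξ) y)

theorem co_split {F : ℝ → ℂ} (h : BM F) (v : Nd) (ξ : ℝ) :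
    co v F ξ = (co (false :: v) F ξ + co (true :: v) F ξ) / 2 := av_split (integrableOn_co h v ξ)

theorem norm_dif_le {F : ℝ → ℂ} (h : BM F) (v : Nd) (ξ : ℝ) :
    ‖dif v F ξ‖ ≤ avr v (fun y => ‖F y‖) := by
  unfold dif
  rw [norm_div, avr_split (h.integrableOn_norm v), Complex.norm_two]
  gcongr
  exact (norm_sub_le _ _).trans (add_le_add (norm_co_le _ _ _) (norm_co_le _ _ _))

/-- changing the frequency by `η` changes a local coefficient by a phase, up to a small error -/
theorem co_shift {F : ℝ → ℂ} (h : BM F) (v : Nd) (ξ η y₀ W : ℝ)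
    (hW : ∀ y ∈ I v, |y - y₀| ≤ W) :
    ‖co v F (ξ + η) - ex (-η) y₀ * co v F ξ‖ ≤ |η| * W * avr v (fun y => ‖F y‖) := by
  have h1 : co v F (ξ + η) - ex (-η) y₀ * co v F ξ =
      av v (fun y => F y * ex (-ξ) y * (ex (-η) y - ex (-η) y₀)) := by
    unfold co av
    have e : ∀ y, F y * ex (-ξ) y * (ex (-η) y - ex (-η) y₀) =
        F y * ex (-(ξ + η)) y - ex (-η) y₀ * (F y * ex (-ξ) y) := by
      intro y; rw [neg_add, ex_add]; ring
    simp_rw [e]
    rw [integral_sub (integrableOn_co h v _) ((integrableOn_co h v _).const_mul _),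
      integral_const_mul]
    ring
  rw [h1]
  refine (norm_av_le _ _).trans ?_
  have h2 : |η| * W * avr v (fun y => ‖F y‖) = avr v (fun y => |η| * W * ‖F y‖) := by
    unfold avr; rw [integral_const_mul]; ring
  rw [h2]
  refine avr_mono ?_ ((h.integrableOn_norm v).const_mul _) fun y hy => ?_
  · refine ((h.mul (bm_ex _)).mul ⟨by fun_prop, 2, fun y => ?_⟩).integrableOn_norm v
    exact (norm_sub_le _ _).trans (by simp; norm_num)
  · rw [norm_mul, norm_mul, norm_ex, mul_one, mul_comm]
    refine mul_le_mul_of_nonneg_right ((norm_ex_sub_le _ _ _).trans ?_) (norm_nonneg _)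
    rw [abs_neg]
    exact mul_le_mul_of_nonneg_left (hW y hy) (abs_nonneg _)

/-! ### runs and segments -/

section run
variable {w : Nd} {R B : Finset Nd} {P : ℝ} {D : ℕ} {F : Nd → ℝ → ℂ} {τ G : ℝ} {n : ℕ}

theorem Run.mg (h : Run w R B P D F τ G n) (ξ : ℝ) : Mg R B (vl F ξ) := by
  intro v hv hb
  unfold vl
  rw [h.same v hv hb, h.same v hv hb]
  exact co_split (h.bm v) v ξ

theorem Run.gam_eq (h : Run w R B P D F τ G n) {v : Nd} (hv : v ∈ R) (hb : v ∉ B) (ξ : ℝ) :
    gam (vl F ξ) v = dif v (F v) ξ := by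
  unfold gam vl dif
  rw [h.same v hv hb, h.same v hv hb]

theorem Run.norm_vl_le (h : Run w R B P D F τ G n) {v : Nd} (hv : v ∈ R) (ξ : ℝ) :
    ‖vl F ξ v‖ ≤ τ := (norm_co_le _ _ _).trans (h.mean v hv)

theorem norm_gam_le_amp (val : Nd → ℂ) (v : Nd) : ‖gam val v‖ ≤ amp val v := by
  unfold gam amp
  rw [norm_div, Complex.norm_two]
  have := norm_sub_le (val (false :: v)) (val (true :: v))
  have h1 := le_max_left ‖val (false :: v)‖ ‖val (true :: v)‖
  have h2 := le_max_right ‖val (false :: v)‖ ‖val (true :: v)‖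
  linarith

theorem mem_seg {r u : Nd} : u ∈ seg R B r ↔
    u ∈ R ∧ r <:+ u ∧ ∀ z, r <:+ z → z <:+ u → z ≠ u → z ∉ B := by
  classical
  unfold seg; rw [Finset.mem_filter]

theorem self_mem_seg {r : Nd} (hr : r ∈ R) : r ∈ seg R B r :=
  mem_seg.2 ⟨hr, List.suffix_refl _, fun _ h1 h2 h3 =>
    absurd (h2.eq_of_length (le_antisymm h2.length_le h1.length_le)) h3⟩

theorem seg_trans {r u u' : Nd} (hu : u' ∈ seg R B r) (h1 : r <:+ u) (h2 : u <:+ u') :
    u' ∈ seg R B u := by
  rw [mem_seg] at hu ⊢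
  exact ⟨hu.1, h2, fun z k1 k2 k3 => hu.2.2 z (h1.trans k1) k2 k3⟩

theorem seg_of_break {r : Nd} (hr : r ∈ R) (hb : r ∈ B) : seg R B r = {r} := by
  ext u
  rw [Finset.mem_singleton]
  refine ⟨fun hu => ?_, fun h => by rw [h]; exact self_mem_seg hr⟩
  rw [mem_seg] at hu
  by_contra hne
  exact hu.2.2 r (List.suffix_refl _) hu.2.1 (Ne.symm hne) hb

theorem mem_seg_of_not_break {r u : Nd} (hr : r ∈ R) (hb : r ∉ B) :
    u ∈ seg R B r ↔ u = r ∨ u ∈ seg R B (false :: r) ∨ u ∈ seg R B (true :: r) := by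
  constructor
  · intro hu
    by_cases hne : r = u
    · exact Or.inl hne.symm
    obtain ⟨b, hb'⟩ := child_suffix (mem_seg.1 hu).2.1 hne
    have := seg_trans hu (List.suffix_cons b r) hb'
    cases b
    · exact Or.inr (Or.inl this)
    · exact Or.inr (Or.inr this)
  · have key : ∀ b : Bool, u ∈ seg R B (b :: r) → u ∈ seg R B r := by
      intro b hu
      rw [mem_seg] at hu ⊢
      refine ⟨hu.1, (List.suffix_cons b r).trans hu.2.1, fun z k1 k2 k3 => ?_⟩
      by_cases hz : r = z
      · exact hz ▸ hb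
      · refine hu.2.2 z (suffix_of_le hu.2.1 k2 ?_) k2 k3
        have := k1.length_le
        have h2 : r.length ≠ z.length := fun h => hz (k1.eq_of_length h)
        simp; omega
    rintro (rfl | h | h)
    · exact self_mem_seg hr
    · exact key _ h
    · exact key _ h

/-- induction over a run, from the bottom -/
theorem Shape.induct (h : Shape w R B P D) {p : Nd → Prop}
    (step : ∀ v ∈ R, (∀ b : Bool, b :: v ∈ R → p (b :: v)) → p v) : ∀ v ∈ R, p v := by
  have key : ∀ k, ∀ v ∈ R, D ≤ v.length + k → p v := by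
    intro k
    induction k with
    | zero => intro v hv hk; have := h.depth v hv; omega
    | succ k ih =>
      intro v hv hk
      exact step v hv fun b hb => ih _ hb (by simp; omega)
  exact fun v hv => key D v hv (by omega)

theorem sum_seg_of_not_break {M : Type*} [AddCommMonoid M] {r : Nd} (hr : r ∈ R) (hb : r ∉ B)
    (φ : Nd → M) : ∑ u ∈ seg R B r, φ u =
      φ r + (∑ u ∈ seg R B (false :: r), φ u + ∑ u ∈ seg R B (true :: r), φ u) := by
  classical
  have e : seg R B r = insert r (seg R B (false :: r) ∪ seg R B (true :: r)) := by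
    ext u; rw [mem_seg_of_not_break hr hb]; simp
  have hn : ∀ b : Bool, r ∉ seg R B (b :: r) := fun b k => by
    have := (mem_seg.1 k).2.1.length_le
    simp at this
  rw [e, Finset.sum_insert (by simp [hn]), Finset.sum_union]
  rw [Finset.disjoint_left]
  exact fun x h0 h1 => not_both_children (mem_seg.1 h0).2.1 (mem_seg.1 h1).2.1

/-- the break nodes of a segment partition its root: telescoping for a function that is additive
up to `e` at the non-break nodes -/
theorem Shape.seg_sum {M : Type*} [AddCommGroup M] (h : Shape w R B P D) (μ e : Nd → M)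
    (hμ : ∀ v ∈ R, v ∉ B → μ (false :: v) + μ (true :: v) = μ v + e v) :
    ∀ r ∈ R, ∑ u ∈ seg R B r with u ∈ B, μ u = μ r + ∑ u ∈ seg R B r with u ∉ B, e u := by
  classical
  refine h.induct fun r hr ih => ?_
  by_cases hb : r ∈ B
  · rw [seg_of_break hr hb]; simp [Finset.filter_singleton, hb]
  · rw [Finset.sum_filter, Finset.sum_filter, sum_seg_of_not_break hr hb,
      sum_seg_of_not_break hr hb, ← Finset.sum_filter, ← Finset.sum_filter, ← Finset.sum_filter,
      ← Finset.sum_filter, ih false (h.child r hr hb _), ih true (h.child r hr hb _)]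
    simp only [hb, if_false, not_false_eq_true, if_true, zero_add]
    have := hμ r hr hb
    rw [add_add_add_comm, this]; abel

theorem Run.F_seg (h : Run w R B P D F τ G n) :
    ∀ r ∈ R, ∀ u ∈ seg R B r, F u = F r := by
  refine h.toShape.induct fun r hr ih u hu => ?_
  by_cases hb : r ∈ B
  · rw [seg_of_break hr hb, Finset.mem_singleton] at hu; rw [hu]
  · rcases (mem_seg_of_not_break hr hb).1 hu with rfl | k | k
    · rfl
    · rw [ih false (h.child r hr hb _) u k, h.same r hr hb]
    · rw [ih true (h.child r hr hb _) u k, h.same r hr hb]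

end run

end Crest.Agent.R100
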