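import Crest.Agent.R100.Form

/-!
# R100/Build: construction of a run  (task)

Make `hclean` a total function `cl v E'` (`choose`, identity when the hypotheses fail).  Define by
structural recursion on the list `Ec [] = cl [] E`, `Ec (b :: v) = cl (b :: v) (if b :: v = w then E
else Ec v)`, and `Epre v = E` if `v = w` (or `v = []`), `Ec (tail v)` otherwise; all these sets are
measurable subsets of `E`.  `R = {v ∈ N : w <:+ v, ms f (Epre u) u ≤ 2m for all w <:+ u <:+ v}`,
`B = {v ∈ R : ∃ b, b :: v ∉ R ∨ Ec (b :: v) ≠ Ec v}`, exits = children `u ∉ R` of nodes of `R`.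
By induction from the bottom (on `D - |r|`), for `r ∈ R`:
* masses: `∑_{v ∈ R, r <:+ v} len v ms (Epre v \ Ec v) v + ∑_{exits u below r} len u ms (Epre u) u
   = len r ms (Epre r) r` (`ms_diff`, `ms_split`);
* pointwise: `Y (N below r) (Epre r) = Y (R below r) Ec + ∑_{v ∈ R below r} Y (N below v) (Epre v \ Ec v)
   + ∑_{exits u} Y (N below u) (Epre u)` (`Y_diff`; `N below r = {r} ∪ N below 0r ∪ N below 1r`).
  A neat way to get the last inequality without lists of exits: prove by induction, for `r ∈ R`, the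
  existence of the bound `∑_{x ∈ lv D r} len x ‖Y (N below r) (Epre r) x - Y (R below r) Ec x‖ ≤
  K len r ms (Epre r) r` (`sum_lv_split`; nodes below one child do not see leaves below the other,
  `sg_eq_zero`).  An exit is either `∉ N` (form `0`) or has `2m < ms` (`hexit`).
* Carleson: prove `∑_{v ∈ B, r <:+ v} len v ≤ 2 len r + (2c/m) len r ms (Ec r) r` for `r ∈ R` in the
  strengthened form `≤ 2·len r·1 + …` by charging a break node to an exit child (exits are an
  antichain: `sum_len_antichain`) or to a child with a removal (`m len u ≤ c len u ms(removed)`).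
-/

set_option autoImplicit false
open MeasureTheory Set

namespace Crest.Agent.R100

theorem Build_induct {R : Finset Nd} {D : ℕ} (h : ∀ v ∈ R, v.length + 2 ≤ D) {p : Nd → Prop}
    (step : ∀ v ∈ R, (∀ b : Bool, b :: v ∈ R → p (b :: v)) → p v) : ∀ v ∈ R, p v := by
  have key : ∀ k, ∀ v ∈ R, D ≤ v.length + k → p v := by
    intro k
    induction k with
    | zero => intro v hv hk; have := h v hv; omega
    | succ k ih =>
      intro v hv hk
      exact step v hv fun b hb => ih _ hb (by simp; omega)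
  exact fun v hv => key D v hv (by omega)

theorem Build_split {M : Type*} [AddCommMonoid M] (S : Finset Nd) (r : Nd) (φ : Nd → M) :
    ∑ v ∈ S with r <:+ v, φ v = (if r ∈ S then φ r else 0) +
      (∑ v ∈ S with (false :: r) <:+ v, φ v + ∑ v ∈ S with (true :: r) <:+ v, φ v) := by
  rw [← Finset.sum_ite_eq S r φ]
  simp only [Finset.sum_filter, ← Finset.sum_add_distrib]
  refine Finset.sum_congr rfl fun v _ => ?_
  have h0 : ∀ b : Bool, (b :: r) <:+ v → r <:+ v ∧ r ≠ v := fun b h =>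
    ⟨(List.suffix_cons _ _).trans h, by rintro rfl; simpa using h.length_le⟩
  by_cases h1 : (false :: r) <:+ v
  · have h2 : ¬ (true :: r) <:+ v := not_both_children h1
    simp [h1, h2, h0 _ h1]
  by_cases h2 : (true :: r) <:+ v
  · simp [h1, h2, h0 _ h2]
  by_cases h3 : r = v
  · subst h3
    simp [h1, h2]
  · have h4 : ¬ r <:+ v := fun h => by
      obtain ⟨b, hb⟩ := child_suffix h h3
      cases b
      · exact h1 hb
      · exact h2 hb
    simp [h1, h2, h3, h4]

theorem Build_Y_zero (S : Finset Nd) (F : Nd → ℝ → ℂ) {u x : Nd} (h : ¬ u <:+ x) (ξ : ℝ) :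
    Y (S.filter (u <:+ ·)) F x ξ = 0 :=
  Finset.sum_eq_zero fun v hv => by
    rw [sg_eq_zero fun k => h ((Finset.mem_filter.1 hv).2.trans k), Complex.ofReal_zero, zero_mul]

theorem Build_Y_split {S : Finset Nd} (F : Nd → ℝ → ℂ) {r : Nd} (h : r ∈ S) (x : Nd) (ξ : ℝ) :
    Y (S.filter (r <:+ ·)) F x ξ = (sg r x : ℂ) * dif r (F r) ξ +
      (Y (S.filter ((false :: r) <:+ ·)) F x ξ + Y (S.filter ((true :: r) <:+ ·)) F x ξ) := by
  unfold Y
  rw [Build_split, if_pos h]

theorem Build_sets (w : Nd) (E : Set ℝ) (cl : Nd → Set ℝ → Set ℝ) :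
    ∃ Ep : Nd → Set ℝ, Ep [] = E ∧
      ∀ b v, Ep (b :: v) = if b :: v = w then E else cl v (Ep v) :=
  ⟨fun v => List.rec E (fun b v A => if b :: v = w then E else cl v A) v, rfl, fun _ _ => rfl⟩

theorem build {f : ℝ → ℂ} {H d : ℝ} {N : Finset Nd} {D : ℕ} (hM : Model f H d N D)
    (fr : Nd → ℝ) {w : Nd} (hw : w ∈ N) {E : Set ℝ} (hE : MeasurableSet E) {m c K : ℝ}
    (hm : 0 < m) (hc : 0 ≤ c) (hK : 0 ≤ K) (hms : ms f E w ≤ m) (Good : Nd → Set ℝ → Prop)
    (hclean : ∀ v ∈ N, w <:+ v → ∀ E' ⊆ E, MeasurableSet E' → ms f E' v ≤ 2 * m →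
      ∃ E'' ⊆ E', MeasurableSet E'' ∧ Good v E'' ∧
        (E'' = E' ∨ m * len v ≤ c * (len v * ms f (E' \ E'') v)) ∧
        form f N D fr v (E' \ E'') ≤ K * (len v * ms f (E' \ E'') v))
    (hexit : ∀ u ∈ N, w <:+ u → ∀ E' ⊆ E, MeasurableSet E' → 2 * m < ms f E' u →
      form f N D fr u E' ≤ K * (len u * ms f E' u)) :
    ∃ (R B : Finset Nd) (Ec : Nd → Set ℝ), Shape w R B (2 + 4 * c) D ∧ R ⊆ N ∧
      (∀ v, MeasurableSet (Ec v) ∧ Ec v ⊆ E) ∧
      (∀ v ∈ R, v ∉ B → ∀ b : Bool, Ec (b :: v) = Ec v) ∧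
      (∀ v ∈ R, ms f (Ec v) v ≤ 2 * m ∧ Good v (Ec v)) ∧
      form f N D fr w E ≤ ∑ x ∈ lv D w, len x * ‖Y R (fun v => (Ec v).indicator f) x (fr x)‖ +
        K * (m * len w) := by
  classical
  have hf := hM.bm
  have hcl : ∀ (v : Nd) (E' : Set ℝ), ∃ E'' ⊆ E', (MeasurableSet E' → MeasurableSet E'') ∧
      (v ∈ N → w <:+ v → E' ⊆ E → MeasurableSet E' → ms f E' v ≤ 2 * m → Good v E'' ∧
        (E'' = E' ∨ m * len v ≤ c * (len v * ms f (E' \ E'') v)) ∧
        form f N D fr v (E' \ E'') ≤ K * (len v * ms f (E' \ E'') v)) := by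
    intro v E'
    by_cases h : v ∈ N ∧ w <:+ v ∧ E' ⊆ E ∧ MeasurableSet E' ∧ ms f E' v ≤ 2 * m
    · obtain ⟨E'', a1, a2, a3⟩ := hclean v h.1 h.2.1 E' h.2.2.1 h.2.2.2.1 h.2.2.2.2
      exact ⟨E'', a1, fun _ => a2, fun _ _ _ _ _ => a3⟩
    · exact ⟨E', subset_rfl, id, fun a1 a2 a3 a4 a5 => absurd ⟨a1, a2, a3, a4, a5⟩ h⟩
  choose cl hsub hmeas hcl using hcl
  obtain ⟨Ep, hnil, hcons⟩ := Build_sets w E cl
  obtain ⟨Ec, hEc⟩ : ∃ Ec : Nd → Set ℝ, ∀ v, Ec v = cl v (Ep v) := ⟨_, fun _ => rfl⟩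
  have hw0 : Ep w = E := by
    cases w with
    | nil => exact hnil
    | cons b v => rw [hcons, if_pos rfl]
  have hp : ∀ v, MeasurableSet (Ep v) ∧ Ep v ⊆ E := by
    intro v
    induction v with
    | nil => rw [hnil]; exact ⟨hE, subset_rfl⟩
    | cons b v ih =>
      rw [hcons]
      split_ifs
      · exact ⟨hE, subset_rfl⟩
      · exact ⟨hmeas _ _ ih.1, (hsub _ _).trans ih.2⟩
  have hcp : ∀ v, Ec v ⊆ Ep v := fun v => hEc v ▸ hsub _ _
  have hcm : ∀ v, MeasurableSet (Ec v) := fun v => hEc v ▸ hmeas _ _ (hp v).1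
  obtain ⟨R, hR⟩ : ∃ R : Finset Nd, ∀ v, v ∈ R ↔
      v ∈ N ∧ w <:+ v ∧ ∀ u, w <:+ u → u <:+ v → ms f (Ep u) u ≤ 2 * m :=
    ⟨N.filter _, fun _ => Finset.mem_filter⟩
  obtain ⟨B, hB⟩ : ∃ B : Finset Nd, ∀ v, v ∈ B ↔
      v ∈ R ∧ ∃ b : Bool, b :: v ∉ R ∨ Ec (b :: v) ≠ Ec v := ⟨R.filter _, fun _ => Finset.mem_filter⟩
  have hRN : R ⊆ N := fun v hv => ((hR v).1 hv).1
  have hRw : ∀ v ∈ R, w <:+ v := fun v hv => ((hR v).1 hv).2.1
  have hRm : ∀ v ∈ R, ms f (Ep v) v ≤ 2 * m := fun v hv =>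
    ((hR v).1 hv).2.2 v (hRw v hv) (List.suffix_refl _)
  have hRc : ∀ v ∈ R, ∀ u, w <:+ u → u <:+ v → u ∈ R := fun v hv u h1 h2 =>
    (hR u).2 ⟨hM.closed v (hRN hv) u h2, h1, fun z k1 k2 => ((hR v).1 hv).2.2 z k1 (k2.trans h2)⟩
  have hRd : ∀ v ∈ R, v.length + 2 ≤ D := fun v hv => hM.depth v (hRN hv)
  have hwR : w ∈ R := (hR w).2 ⟨hw, List.suffix_refl _, fun u h1 h2 => by
    rw [h2.eq_of_length (le_antisymm h2.length_le h1.length_le), hw0]
    linarith⟩
  have hch : ∀ v ∈ R, ∀ b : Bool, Ep (b :: v) = Ec v := fun v hv b => by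
    rw [hcons, if_neg, hEc]
    rintro rfl
    simpa using (hRw v hv).length_le
  have hgood : ∀ v ∈ R, Good v (Ec v) ∧
      (Ec v = Ep v ∨ m * len v ≤ c * (len v * ms f (Ep v \ Ec v) v)) ∧
      form f N D fr v (Ep v \ Ec v) ≤ K * (len v * ms f (Ep v \ Ec v) v) := fun v hv => by
    rw [hEc]
    exact hcl v _ (hRN hv) (hRw v hv) (hp v).2 (hp v).1 (hRm v hv)
  have hempty : ∀ {S : Finset Nd}, S ⊆ R → ∀ r ∈ R, ∀ b : Bool, b :: r ∉ R →
      S.filter ((b :: r) <:+ ·) = ∅ := fun hS r hr b hb =>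
    Finset.filter_eq_empty_iff.2 fun v hv k =>
      hb (hRc v (hS hv) _ ((hRw r hr).trans (List.suffix_cons _ _)) k)
  have hdiff : ∀ v, len v * ms f (Ep v) v =
      len v * ms f (Ec v) v + len v * ms f (Ep v \ Ec v) v := fun v => by
    rw [ms_diff hf (hp v).1 (hcm v) (hcp v), mul_add]
  have hnn : ∀ A v, 0 ≤ len v * ms f A v := fun A v => mul_nonneg (len_pos v).le (ms_nonneg _ _ _)
  have hBR : B ⊆ R := fun v hv => ((hB v).1 hv).1
  have hcarl : ∀ r ∈ R, m * ∑ v ∈ B with r <:+ v, len v ≤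
      2 * (m * len r) + 2 * (c * (len r * ms f (Ec r) r)) := by
    refine Build_induct hRd fun r hr ih => ?_
    have hl := mul_pos hm (len_pos r)
    have h1 : ∀ b : Bool, m * ∑ v ∈ B with (b :: r) <:+ v, len v ≤
        m * len r + 2 * (c * (len (b :: r) * ms f (Ec r) (b :: r))) ∧
        ((b :: r ∉ R ∨ Ec (b :: r) ≠ Ec r) → m * ∑ v ∈ B with (b :: r) <:+ v, len v ≤
          2 * (c * (len (b :: r) * ms f (Ec r) (b :: r)))) := by
      intro b
      by_cases hb : b :: r ∈ R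
      · have a1 := ih b hb
        have a2 := congrArg (c * ·) (hdiff (b :: r))
        have a3 := (hgood _ hb).2.1
        have a4 := mul_nonneg hc (hnn (Ep (b :: r) \ Ec (b :: r)) (b :: r))
        have a5 : m * len (b :: r) = m * len r / 2 := by rw [len_cons, mul_div_assoc]
        simp only [mul_add] at a2
        rw [hch r hr] at a2 a3 a4
        refine ⟨by linarith, fun h => ?_⟩
        have a6 := a3.resolve_left (h.resolve_left (not_not.2 hb))
        linarith
      · have a1 := mul_nonneg hc (hnn (Ec r) (b :: r))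
        rw [hempty hBR r hr b hb, Finset.sum_empty, mul_zero]
        exact ⟨by linarith, fun _ => by linarith⟩
    have h2 := congrArg (c * ·) (ms_split hf (hcm r) r)
    simp only [mul_add] at h2
    rw [Build_split, mul_add, mul_add]
    split_ifs with hb
    · obtain ⟨b, hb⟩ := ((hB r).1 hb).2
      cases b
      · linarith [(h1 false).2 hb, (h1 true).1]
      · linarith [(h1 false).1, (h1 true).2 hb]
    · linarith [(h1 false).1, (h1 true).1]
  obtain ⟨δ, hδ⟩ : ∃ δ : Nd → Nd → ℂ, ∀ r x, δ r x =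
      Y (N.filter (r <:+ ·)) (fun _ => (Ep r).indicator f) x (fr x) -
        Y (R.filter (r <:+ ·)) (fun v => (Ec v).indicator f) x (fr x) := ⟨_, fun _ _ => rfl⟩
  have hmain : ∀ r ∈ R, ∑ x ∈ lv D r, len x * ‖δ r x‖ ≤ K * (len r * ms f (Ep r) r) := by
    refine Build_induct hRd fun r hr ih => ?_
    have h1 : ∀ b : Bool, ∑ x ∈ lv D r, len x * ‖δ (b :: r) x‖ ≤
        K * (len (b :: r) * ms f (Ec r) (b :: r)) := by
      intro b
      have a1 : ∑ x ∈ lv D (b :: r), len x * ‖δ (b :: r) x‖ =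
          ∑ x ∈ lv D r, len x * ‖δ (b :: r) x‖ := by
        rw [← lv_filter (List.suffix_cons b r) (by have := hRd r hr; simp; omega)]
        refine Finset.sum_filter_of_ne fun x _ hx => by_contra fun k => hx ?_
        rw [hδ, Build_Y_zero _ _ k, Build_Y_zero _ _ k, sub_zero, norm_zero, mul_zero]
      rw [← a1, ← hch r hr b]
      by_cases hb : b :: r ∈ R
      · exact ih b hb
      have a2 : ∑ x ∈ lv D (b :: r), len x * ‖δ (b :: r) x‖ =
          form f N D fr (b :: r) (Ep (b :: r)) :=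
        Finset.sum_congr rfl fun x _ => by
          rw [hδ, hempty subset_rfl r hr b hb, Y.eq_def ∅, Finset.sum_empty, sub_zero]
      rw [a2]
      by_cases hN : b :: r ∈ N
      · have a3 := (hRw r hr).trans (List.suffix_cons b r)
        refine hexit _ hN a3 _ (hp _).2 (hp _).1 (not_le.1 fun k => hb ?_)
        refine (hR _).2 ⟨hN, a3, fun u k1 k2 => ?_⟩
        rcases List.suffix_cons_iff.1 k2 with rfl | k3
        · exact k
        · exact ((hR r).1 hr).2.2 u k1 k3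
      · rw [form_of_not_mem fr hM hN]
        exact mul_nonneg hK (hnn _ _)
    have h2 : ∀ x, δ r x = Y (N.filter (r <:+ ·)) (fun _ => (Ep r \ Ec r).indicator f) x (fr x) +
        (δ (false :: r) x + δ (true :: r) x) := fun x => by
      rw [hδ, hδ, hδ, hch r hr, hch r hr, Y_diff hf (hp r).1 (hcm r) (hcp r),
        Build_Y_split (fun _ => (Ec r).indicator f) (hRN hr), Build_Y_split _ hr]
      ring
    have h3 : ∑ x ∈ lv D r, len x * ‖δ r x‖ ≤ form f N D fr r (Ep r \ Ec r) +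
        (∑ x ∈ lv D r, len x * ‖δ (false :: r) x‖ + ∑ x ∈ lv D r, len x * ‖δ (true :: r) x‖) := by
      rw [form, ← Finset.sum_add_distrib, ← Finset.sum_add_distrib]
      refine Finset.sum_le_sum fun x _ => ?_
      rw [← mul_add, ← mul_add, h2]
      exact mul_le_mul_of_nonneg_left
        ((norm_add_le _ _).trans (add_le_add le_rfl (norm_add_le _ _))) (len_pos x).le
    have h4 := congrArg (K * ·) (ms_split hf (hcm r) r)
    have h5 := congrArg (K * ·) (hdiff r)
    simp only [mul_add] at h4 h5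
    linarith [h1 false, h1 true, (hgood r hr).2.2]
  have hcm2 : ∀ v ∈ R, ms f (Ec v) v ≤ 2 * m := fun v hv =>
    (ms_mono hf (hp v).1 (hcm v) (hcp v) v).trans (hRm v hv)
  have hnb : ∀ v ∈ R, v ∉ B → ∀ b : Bool, b :: v ∈ R ∧ Ec (b :: v) = Ec v := fun v hv hb b => by
    have := mt (hB v).2 hb
    push Not at this
    exact this hv b
  refine ⟨R, B, Ec, ⟨hwR, hRw, hRc, hBR, fun v hv hb b => (hnb v hv hb b).1, hRd, fun r hr => ?_⟩,
    hRN, fun v => ⟨hcm v, (hcp v).trans (hp v).2⟩, fun v hv hb b => (hnb v hv hb b).2,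
    fun v hv => ⟨hcm2 v hv, (hgood v hv).1⟩, ?_⟩
  · refine le_of_mul_le_mul_left ((hcarl r hr).trans ?_) hm
    have := mul_le_mul_of_nonneg_left
      (mul_le_mul_of_nonneg_left (hcm2 r hr) (len_pos r).le) hc
    linarith
  · have h1 := hmain w hwR
    have h2 := mul_le_mul_of_nonneg_left (mul_le_mul_of_nonneg_left hms (len_pos w).le) hK
    have h3 : form f N D fr w E ≤ ∑ x ∈ lv D w,
        len x * ‖Y R (fun v => (Ec v).indicator f) x (fr x)‖ + ∑ x ∈ lv D w, len x * ‖δ w x‖ := by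
      rw [form, ← Finset.sum_add_distrib]
      refine Finset.sum_le_sum fun x _ => ?_
      rw [← mul_add, hδ, hw0, Finset.filter_true_of_mem hRw]
      exact mul_le_mul_of_nonneg_left (norm_le_norm_add_norm_sub' _ _) (len_pos x).le
    rw [hw0] at h1
    linarith

end Crest.Agent.R100
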