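import Crest.Agent.R100.Basic

/-!
# R100/Extremal: the collision-free sub-family; selection of a cell  (task)

`extremal`: write `λ(Λ) = ∑ wt`, `μ(S) = ∑ μ`, `c(Λ,S) = ∑_{ℓ ∈ S} cor Λ ℓ ≤ λ μ`.  Among all
`Λ ⊆ Λ₀`, `S ⊆ L` maximise `J = c/(λ^{3/4} μ^{1/2})` (e.g. `λ^{3/4} = √λ √√λ`; `x/0 = 0`); then
`c(Λ,S) ≤ J* λ^{3/4} μ^{1/2}` for all pairs, `J* ≥ 3κ/4^{3/4} ≥ κ`, and for the maximiser
`λ* ≥ κ⁴`, `√μ* ≥ κ/√2`, `c* ≥ κ⁵/2`.  Let `h ℓ = λ{k ∈ Λ* : lev k ≤ ℓ}` (monotone) and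
`i ℓ = ⌊256 h ℓ/λ*⌋₊ ∈ {0,…,256}`.  For a nonempty class `S_i = {ℓ ∈ S* : i ℓ = i}` with minimum `α`
and maximum `β'` split `Λ*` into `lev ≤ α` (cost `≤ ν`, `hneg`), `α < lev ≤ β'` (weight `≤ λ*/256`),
`β' < lev`.  The middle parts give at most `J* (λ*/256)^{3/4} √257 √μ* ≤ c*/3`, the first parts
`257ν ≤ c*/3`; so some last part has `c ≥ c*/771`.

`cell`: the two end cells are `replicate g b ++ v`; any other `z ∈ below g v` has
`lft v + len z ≤ lft z`, `lft z + 2 len z ≤ lft v + len v` (induction on `g`).  If the end cells carry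
`φ`-mass `> θ m len v/2`, one of them works (`len z = len v/2^g`).  Otherwise the interior cells carry
`∑ ∫ φψ ≥ θ m len v/2`, while `∑_z (m len z + ∫_z φ) ≤ 3 m len v`.
-/

set_option autoImplicit false
open MeasureTheory Set

namespace Crest.Agent.R100

theorem extremal_rt4 {x : ℝ} (hx : 0 ≤ x) : √√x ^ 4 = x := by
  rw [show (4 : ℕ) = 2 * 2 from rfl, pow_mul, Real.sq_sqrt (Real.sqrt_nonneg _), Real.sq_sqrt hx]

/-- the maximiser of `c / (λ^{3/4} μ^{1/2})` -/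
theorem extremal_max {ι : Type*} (T : Finset ι) (c a b : ι → ℝ) (hc0 : ∀ i, 0 ≤ c i)
    (ha : ∀ i, 0 ≤ a i) (hb : ∀ i, 0 ≤ b i) (hle : ∀ i, c i ≤ a i ^ 4 * b i ^ 2) {κ : ℝ}
    (hκ : 0 < κ) {i₀ : ι} (hi₀ : i₀ ∈ T) (h0 : 3 * κ ≤ c i₀) (ha0 : a i₀ ^ 4 ≤ 4) (hb0 : b i₀ ≤ 1) :
    ∃ i ∈ T, ∃ J : ℝ, κ ≤ J ∧ c i = J * (a i ^ 3 * b i) ∧ 0 < a i ∧ 0 < b i ∧
      ∀ j ∈ T, c j ≤ J * (a j ^ 3 * b j) := by
  obtain ⟨i, hi, hmax⟩ := T.exists_max_image (fun i => c i / (a i ^ 3 * b i)) ⟨i₀, hi₀⟩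
  have hD : ∀ j, 0 ≤ a j ^ 3 * b j := fun j => mul_nonneg (pow_nonneg (ha j) _) (hb j)
  have hJ0 : 0 ≤ c i / (a i ^ 3 * b i) := div_nonneg (hc0 i) (hD i)
  have hall : ∀ j ∈ T, c j ≤ c i / (a i ^ 3 * b i) * (a j ^ 3 * b j) := by
    intro j hj
    rcases (hD j).eq_or_lt with h | h
    · have h1 : a j ^ 4 * b j ^ 2 = a j ^ 3 * b j * (a j * b j) := by ring
      have h2 := hle j
      rw [h1, ← h, zero_mul] at h2
      rw [← h, mul_zero]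
      exact h2
    · exact (div_le_iff₀ h).1 (hmax j hj)
  have h3 : a i₀ ^ 3 ≤ 3 := by
    refine le_of_pow_le_pow_left₀ (n := 4) (by norm_num) (by norm_num) ?_
    calc (a i₀ ^ 3) ^ 4 = (a i₀ ^ 4) ^ 3 := by ring
      _ ≤ 4 ^ 3 := pow_le_pow_left₀ (pow_nonneg (ha _) _) ha0 3
      _ ≤ _ := by norm_num
  have h4 : a i₀ ^ 3 * b i₀ ≤ 3 * 1 := mul_le_mul h3 hb0 (hb _) (by norm_num)
  have hJ : κ ≤ c i / (a i ^ 3 * b i) := by
    have := (hall i₀ hi₀).trans (mul_le_mul_of_nonneg_left h4 hJ0)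
    linarith
  have hne : a i ^ 3 * b i ≠ 0 := by
    intro h
    rw [h, div_zero] at hJ
    linarith
  refine ⟨i, hi, _, hJ, (div_mul_cancel₀ _ hne).symm, ?_, ?_, hall⟩
  · refine (ha i).lt_of_ne fun h => hne ?_
    rw [← h]
    simp
  · refine (hb i).lt_of_ne fun h => hne ?_
    rw [← h, mul_zero]

/-- splitting `Λ` for one class of levels -/
theorem extremal_class (Λ : Finset ℤ) (wt : ℤ → ℝ) (lev : ℤ → ℕ) (S : Finset ℕ)
    (cor : Finset ℤ → ℕ → ℝ)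
    (hsub : ∀ Λ Λ' ℓ, Disjoint Λ Λ' → cor (Λ ∪ Λ') ℓ ≤ cor Λ ℓ + cor Λ' ℓ) {ν w m : ℝ}
    (hν : 0 ≤ ν) (hm : 0 ≤ m)
    (hneg : ∀ α : ℕ, ∀ Λ' ⊆ Λ, (∀ k ∈ Λ', lev k ≤ α) → (∀ ℓ ∈ S, α ≤ ℓ) →
      S.Nonempty → ∑ ℓ ∈ S, cor Λ' ℓ ≤ ν)
    (hw : ∀ α ∈ S, ∀ β ∈ S, ∑ k ∈ Λ with lev k ≤ β, wt k ≤ ∑ k ∈ Λ with lev k ≤ α, wt k + w)
    (hmid : ∀ Λ' ⊆ Λ, ∑ k ∈ Λ', wt k ≤ w → ∑ ℓ ∈ S, cor Λ' ℓ ≤ m) :
    ∃ Λ' ⊆ Λ, (∀ k ∈ Λ', ∀ ℓ ∈ S, ℓ < lev k) ∧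
      ∑ ℓ ∈ S, cor Λ ℓ ≤ ν + m + ∑ ℓ ∈ S, cor Λ' ℓ := by
  rcases S.eq_empty_or_nonempty with rfl | hS
  · refine ⟨∅, Finset.empty_subset _, by simp, ?_⟩
    simp only [Finset.sum_empty]
    linarith
  have hαβ : S.min' hS ≤ S.max' hS := S.min'_le_max' hS
  set α := S.min' hS with hα
  set β := S.max' hS with hβ
  have e1 : Λ.filter (fun k => lev k ≤ α) ∪ Λ.filter (fun k => α < lev k ∧ lev k ≤ β) =
      Λ.filter (fun k => lev k ≤ β) := by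
    ext k
    simp only [Finset.mem_union, Finset.mem_filter]
    constructor
    · rintro (h | h)
      · exact ⟨h.1, h.2.trans hαβ⟩
      · exact ⟨h.1, h.2.2⟩
    · intro h
      by_cases hk : lev k ≤ α
      · exact Or.inl ⟨h.1, hk⟩
      · exact Or.inr ⟨h.1, not_le.1 hk, h.2⟩
  have d1 : Disjoint (Λ.filter (fun k => lev k ≤ α))
      (Λ.filter (fun k => α < lev k ∧ lev k ≤ β)) := by
    rw [Finset.disjoint_filter]
    intro k _ h1 h2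
    omega
  have e2 : Λ.filter (fun k => lev k ≤ β) ∪ Λ.filter (fun k => ¬ lev k ≤ β) = Λ :=
    Finset.filter_union_filter_not_eq _ _
  have d2 : Disjoint (Λ.filter (fun k => lev k ≤ β)) (Λ.filter (fun k => ¬ lev k ≤ β)) :=
    Finset.disjoint_filter_filter_not _ _ _
  refine ⟨Λ.filter (fun k => ¬ lev k ≤ β), Finset.filter_subset _ _, fun k hk ℓ hℓ => ?_, ?_⟩
  · have h1 := (Finset.mem_filter.1 hk).2
    have h2 : ℓ ≤ β := S.le_max' ℓ hℓ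
    omega
  have h1 := hneg α _ (Finset.filter_subset (fun k => lev k ≤ α) Λ)
    (fun k hk => (Finset.mem_filter.1 hk).2) (fun ℓ hℓ => S.min'_le ℓ hℓ) hS
  have h2 := hmid _ (Finset.filter_subset (fun k => α < lev k ∧ lev k ≤ β) Λ) (by
    have h3 := hw α (S.min'_mem hS) β (S.max'_mem hS)
    rw [← e1, Finset.sum_union d1] at h3
    linarith)
  have h4 : ∀ ℓ, cor Λ ℓ ≤ cor (Λ.filter (fun k => lev k ≤ α)) ℓ +
      cor (Λ.filter (fun k => α < lev k ∧ lev k ≤ β)) ℓ +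
      cor (Λ.filter (fun k => ¬ lev k ≤ β)) ℓ := by
    intro ℓ
    have h5 := hsub _ _ ℓ d1
    have h6 := hsub _ _ ℓ d2
    rw [e1] at h5
    rw [e2] at h6
    linarith
  have h7 := Finset.sum_le_sum (s := S) fun ℓ _ => h4 ℓ
  rw [Finset.sum_add_distrib, Finset.sum_add_distrib] at h7
  linarith

theorem extremal (Λ₀ : Finset ℤ) (wt : ℤ → ℝ) (hwt : ∀ k, 0 ≤ wt k) (hΛ : ∑ k ∈ Λ₀, wt k ≤ 4)
    (lev : ℤ → ℕ) (L : Finset ℕ) (μ : ℕ → ℝ) (hμ0 : ∀ ℓ, 0 ≤ μ ℓ) (hμ1 : ∑ ℓ ∈ L, μ ℓ ≤ 1)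
    (cor : Finset ℤ → ℕ → ℝ) (hc0 : ∀ Λ ℓ, 0 ≤ cor Λ ℓ)
    (hsub : ∀ Λ Λ' ℓ, Disjoint Λ Λ' → cor (Λ ∪ Λ') ℓ ≤ cor Λ ℓ + cor Λ' ℓ)
    (hle : ∀ Λ ℓ, cor Λ ℓ ≤ (∑ k ∈ Λ, wt k) * μ ℓ) {κ ν : ℝ} (hκ : 0 < κ)
    (h0 : 3 * κ ≤ ∑ ℓ ∈ L, cor Λ₀ ℓ)
    (hneg : ∀ α : ℕ, ∀ Λ ⊆ Λ₀, ∀ S ⊆ L, (∀ k ∈ Λ, lev k ≤ α) → (∀ ℓ ∈ S, α ≤ ℓ) →
      S.Nonempty → ∑ ℓ ∈ S, cor Λ ℓ ≤ ν)
    (hν : 1542 * ν ≤ κ ^ 5) :
    ∃ Λ ⊆ Λ₀, ∃ S ⊆ L, (∀ k ∈ Λ, ∀ ℓ ∈ S, ℓ < lev k) ∧ κ ^ 5 ≤ 1542 * ∑ ℓ ∈ S, cor Λ ℓ ∧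
      κ * √(∑ ℓ ∈ S, μ ℓ) * ∑ k ∈ Λ, wt k ≤ 1100 * ∑ ℓ ∈ S, cor Λ ℓ := by
  classical
  have hlam : ∀ Λ : Finset ℤ, 0 ≤ ∑ k ∈ Λ, wt k := fun Λ => Finset.sum_nonneg fun k _ => hwt k
  have hmu : ∀ S : Finset ℕ, 0 ≤ ∑ ℓ ∈ S, μ ℓ := fun S => Finset.sum_nonneg fun ℓ _ => hμ0 ℓ
  have hcle : ∀ (Λ : Finset ℤ) (S : Finset ℕ), ∑ ℓ ∈ S, cor Λ ℓ ≤
      √√(∑ k ∈ Λ, wt k) ^ 4 * √(∑ ℓ ∈ S, μ ℓ) ^ 2 := by
    intro Λ S
    rw [extremal_rt4 (hlam Λ), Real.sq_sqrt (hmu S), Finset.mul_sum]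
    exact Finset.sum_le_sum fun ℓ _ => hle Λ ℓ
  obtain ⟨⟨Λ, S⟩, hmem, J, hJ, hc, ha, hb, hall⟩ := extremal_max (Λ₀.powerset ×ˢ L.powerset)
    (fun x => ∑ ℓ ∈ x.2, cor x.1 ℓ) (fun x => √√(∑ k ∈ x.1, wt k)) (fun x => √(∑ ℓ ∈ x.2, μ ℓ))
    (fun x => Finset.sum_nonneg fun ℓ _ => hc0 _ ℓ) (fun x => Real.sqrt_nonneg _)
    (fun x => Real.sqrt_nonneg _) (fun x => hcle x.1 x.2) hκ (i₀ := (Λ₀, L)) (by simp) h0
    (by rw [extremal_rt4 (hlam Λ₀)]; exact hΛ) (Real.sqrt_le_one.2 hμ1)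
  simp only [Finset.mem_product, Finset.mem_powerset, Prod.forall, and_imp] at hmem hc ha hb hall
  obtain ⟨hΛs, hSs⟩ := hmem
  have ha4 := extremal_rt4 (hlam Λ)
  have hb2 := Real.sq_sqrt (hmu S)
  have hcab := hcle Λ S
  have hl4 : ∑ k ∈ Λ, wt k ≤ 4 :=
    (Finset.sum_le_sum_of_subset_of_nonneg hΛs fun k _ _ => hwt k).trans hΛ
  have hb1 : √(∑ ℓ ∈ S, μ ℓ) ≤ 1 :=
    Real.sqrt_le_one.2 ((Finset.sum_le_sum_of_subset_of_nonneg hSs fun ℓ _ _ => hμ0 ℓ).trans hμ1)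
  generalize √√(∑ k ∈ Λ, wt k) = a at hc ha ha4 hcab
  generalize hbdef : √(∑ ℓ ∈ S, μ ℓ) = b at hc hb hb2 hcab hb1
  have hJ0 : 0 < J := hκ.trans_le hJ
  have hlpos : 0 < ∑ k ∈ Λ, wt k := by rw [← ha4]; positivity
  have ha2 : 1000 * a ≤ 1415 := by
    refine le_of_pow_le_pow_left₀ (n := 4) (by norm_num) (by norm_num) ?_
    rw [mul_pow, ha4]
    linarith
  have hJab : J ≤ a * b := by
    refine le_of_mul_le_mul_right ?_ (show 0 < a ^ 3 * b by positivity)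
    rw [← hc]
    linarith
  have hκa : κ ≤ a := hJ.trans (hJab.trans (mul_le_of_le_one_right ha.le hb1))
  have hc5 : κ ^ 5 ≤ 2 * ∑ ℓ ∈ S, cor Λ ℓ := by
    have h1 : κ * (κ ^ 2 * κ) ≤ J * (a ^ 2 * (a * b)) :=
      mul_le_mul hJ (mul_le_mul (pow_le_pow_left₀ hκ.le hκa 2) (hJ.trans hJab) hκ.le
        (by positivity)) (by positivity) hJ0.le
    have h2 : κ * (κ * (κ ^ 2 * κ)) ≤ 2 * (κ * (κ ^ 2 * κ)) :=
      mul_le_mul_of_nonneg_right (by linarith) (by positivity)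
    rw [hc]
    linarith
  -- the classes
  let h : ℕ → ℝ := fun ℓ => ∑ k ∈ Λ with lev k ≤ ℓ, wt k
  have hh0 : ∀ ℓ, 0 ≤ h ℓ := fun ℓ => hlam _
  have hh1 : ∀ ℓ, h ℓ ≤ ∑ k ∈ Λ, wt k := fun ℓ =>
    Finset.sum_le_sum_of_subset_of_nonneg (Finset.filter_subset _ _) fun k _ _ => hwt k
  let idx : ℕ → ℕ := fun ℓ => ⌊256 * h ℓ / ∑ k ∈ Λ, wt k⌋₊
  have hidx : ∀ ℓ ∈ S, idx ℓ ∈ Finset.range 257 := by
    intro ℓ _
    rw [Finset.mem_range, Nat.lt_succ_iff]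
    refine Nat.floor_le_of_le ?_
    rw [div_le_iff₀ hlpos]
    have := hh1 ℓ
    push_cast
    linarith
  have hcl : ∀ i : ℕ, ∃ Λ' ⊆ Λ, (∀ k ∈ Λ', ∀ ℓ ∈ S.filter (idx · = i), ℓ < lev k) ∧
      ∑ ℓ ∈ S.filter (idx · = i), cor Λ ℓ ≤ κ ^ 5 / 1542 +
        J * (a / 4) ^ 3 * √(∑ ℓ ∈ S.filter (idx · = i), μ ℓ) +
          ∑ ℓ ∈ S.filter (idx · = i), cor Λ' ℓ := by
    intro i
    have hSi : S.filter (idx · = i) ⊆ L := (Finset.filter_subset _ _).trans hSs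
    refine extremal_class Λ wt lev _ cor hsub (w := (∑ k ∈ Λ, wt k) / 256) (by positivity)
      (by positivity) (fun α Λ' h1 h2 h3 h4 => ?_) (fun α hα β hβ => ?_) (fun Λ' h1 h2 => ?_)
    · have := hneg α Λ' (h1.trans hΛs) _ hSi h2 h3 h4
      linarith
    · have h1 := (Nat.floor_eq_iff (div_nonneg (by have := hh0 α; positivity) hlpos.le)).1
        (Finset.mem_filter.1 hα).2
      have h2 := (Nat.floor_eq_iff (div_nonneg (by have := hh0 β; positivity) hlpos.le)).1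
        (Finset.mem_filter.1 hβ).2
      have h3 := (le_div_iff₀ hlpos).1 h1.1
      have h4 := (div_lt_iff₀ hlpos).1 h2.2
      change h β ≤ h α + _
      linarith
    · refine (hall Λ' _ (h1.trans hΛs) hSi).trans ?_
      rw [mul_assoc]
      refine mul_le_mul_of_nonneg_left (mul_le_mul_of_nonneg_right
        (pow_le_pow_left₀ (Real.sqrt_nonneg _) ?_ 3) (Real.sqrt_nonneg _)) hJ0.le
      refine le_of_pow_le_pow_left₀ (n := 4) (by norm_num) (by positivity) ?_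
      rw [extremal_rt4 (hlam Λ'), div_pow, ha4]
      linarith
  choose Λ' hΛ' hlev hbd using hcl
  have hsum := Finset.sum_le_sum (s := Finset.range 257) fun i _ => hbd i
  rw [Finset.sum_fiberwise_of_maps_to hidx, Finset.sum_add_distrib, Finset.sum_add_distrib,
    ← Finset.mul_sum, Finset.sum_const, Finset.card_range, nsmul_eq_mul] at hsum
  have hcs : ∑ i ∈ Finset.range 257, √(∑ ℓ ∈ S.filter (idx · = i), μ ℓ) ≤ 17 * b := by
    refine le_of_pow_le_pow_left₀ (n := 2) (by norm_num) (by positivity) ?_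
    refine sq_sum_le_card_mul_sum_sq.trans ?_
    rw [Finset.sum_congr rfl fun i _ => Real.sq_sqrt (hmu _),
      Finset.sum_fiberwise_of_maps_to hidx, Finset.card_range, mul_pow, hb2]
    have := hmu S
    push_cast
    linarith
  have hcs' := mul_le_mul_of_nonneg_left hcs (show 0 ≤ J * (a / 4) ^ 3 by positivity)
  have hc0' : 0 ≤ J * (a ^ 3 * b) := by positivity
  obtain ⟨i, -, hi⟩ := Finset.exists_le_of_sum_le (s := Finset.range 257) (by simp)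
    (f := fun _ => (∑ ℓ ∈ S, cor Λ ℓ) / 771)
    (g := fun i => ∑ ℓ ∈ S.filter (idx · = i), cor (Λ' i) ℓ) (by
      rw [Finset.sum_const, Finset.card_range, nsmul_eq_mul]
      push_cast at hsum ⊢
      linarith)
  refine ⟨Λ' i, (hΛ' i).trans hΛs, S.filter (idx · = i), (Finset.filter_subset _ _).trans hSs,
    hlev i, by linarith, ?_⟩
  have h1 : √(∑ ℓ ∈ S.filter (idx · = i), μ ℓ) ≤ b := by
    rw [← hbdef]
    exact Real.sqrt_le_sqrt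
      (Finset.sum_le_sum_of_subset_of_nonneg (Finset.filter_subset _ _) fun ℓ _ _ => hμ0 ℓ)
  have h2 : ∑ k ∈ Λ' i, wt k ≤ a ^ 4 := by
    rw [ha4]
    exact Finset.sum_le_sum_of_subset_of_nonneg (hΛ' i) fun k _ _ => hwt k
  have h3 := mul_le_mul (mul_le_mul hJ h1 (Real.sqrt_nonneg _) hJ0.le) h2 (hlam _) (by positivity)
  have h4 := mul_le_mul_of_nonneg_left ha2 hc0'
  linarith

theorem extremal_ends {z v : Nd} (h : v <:+ z) : lft v ≤ lft z ∧ lft z + len z ≤ lft v + len v :=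
  (Ico_subset_Ico_iff (by linarith [len_pos z])).1 (I_mono h)

theorem extremal_left (g : ℕ) (v : Nd) :
    ∃ e : Nd, ∀ z ∈ below g v, z = e ∨ lft v + len z ≤ lft z := by
  induction g generalizing v with
  | zero => exact ⟨v, fun z hz => Or.inl (by simpa [below] using hz)⟩
  | succ g ih =>
    obtain ⟨e, he⟩ := ih (false :: v)
    refine ⟨e, fun z hz => ?_⟩
    rcases Finset.mem_union.1 hz with h | h
    · simpa [lft] using he z h
    · have h1 := (extremal_ends (mem_below.1 h).2).1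
      have h2 := len_le_of_suffix (mem_below.1 h).2
      simp only [lft, if_true, len_cons] at h1 h2
      exact Or.inr (by linarith)

theorem extremal_right (g : ℕ) (v : Nd) :
    ∃ e : Nd, ∀ z ∈ below g v, z = e ∨ lft z + 2 * len z ≤ lft v + len v := by
  induction g generalizing v with
  | zero => exact ⟨v, fun z hz => Or.inl (by simpa [below] using hz)⟩
  | succ g ih =>
    obtain ⟨e, he⟩ := ih (true :: v)
    refine ⟨e, fun z hz => ?_⟩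
    rcases Finset.mem_union.1 hz with h | h
    · have h1 := (extremal_ends (mem_below.1 h).2).2
      have h2 := len_le_of_suffix (mem_below.1 h).2
      simp only [lft, len_cons, Bool.false_eq_true, if_false] at h1 h2
      exact Or.inr (by linarith)
    · refine (he z h).imp_right fun h1 => ?_
      simp only [lft, if_true, len_cons] at h1
      linarith

theorem cell (v : Nd) (g : ℕ) {φ ψ : ℝ → ℝ} (hφ0 : ∀ y, 0 ≤ φ y) (hφ : IntegrableOn φ (I v))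
    (hψ : Continuous ψ) (hψ0 : ∀ y, 0 ≤ ψ y) (hψ1 : ∀ y, ψ y ≤ 1) {m θ : ℝ} (hm : 0 < m)
    (hθ : 0 < θ) (h2 : avr v φ ≤ 2 * m) (hc : θ * m ≤ avr v (fun y => φ y * ψ y))
    (hg : 8 ≤ θ * 2 ^ g) :
    ∃ z ∈ below g v, (2 * m ≤ avr z φ ∧ θ * m * len v ≤ 4 * ∫ y in I z, φ y) ∨
      (Ico (lft z + len z / 2 - len z) (lft z + len z / 2 + len z) ⊆ I v ∧
        θ * (m * len z + ∫ y in I z, φ y) ≤ 6 * ∫ y in I z, φ y * ψ y) := by
  classical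
  by_contra hcon
  simp only [not_exists, not_and, not_or, not_le] at hcon
  have hL := len_pos v
  have hint : IntegrableOn (fun y => φ y * ψ y) (I v) :=
    Integrable.mul_bdd (c := 1) hφ hψ.aestronglyMeasurable (Filter.Eventually.of_forall fun y => by
      rw [Real.norm_of_nonneg (hψ0 y)]
      exact hψ1 y)
  have hφz : ∀ z, 0 ≤ ∫ y in I z, φ y := fun z => integral_nonneg hφ0
  have hsmall : ∀ z ∈ below g v, ∫ y in I z, φ y * ψ y < θ * m * len v / 4 := by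
    intro z hz
    obtain ⟨hz1, hz2⟩ := mem_below.1 hz
    have h1 : ∫ y in I z, φ y * ψ y ≤ ∫ y in I z, φ y :=
      integral_mono (hint.mono_set (I_mono hz2)) (hφ.mono_set (I_mono hz2))
        fun y => mul_le_of_le_one_right (hφ0 y) (hψ1 y)
    by_cases h3 : 2 * m ≤ avr z φ
    · have := (hcon z hz).1 h3
      linarith
    · have h4 : len z * 2 ^ g = len v := by
        rw [len_eq_of_le hz2.length_le, hz1, Nat.add_sub_cancel_left, mul_assoc, ← mul_pow]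
        simp
      have h5 := len_mul_avr z φ
      have h6 := mul_lt_mul_of_pos_left (not_le.1 h3) (len_pos z)
      have h7 := mul_le_mul_of_nonneg_left hg (mul_pos hm (len_pos z)).le
      have h8 : m * len z * (θ * 2 ^ g) = θ * m * len v := by rw [← h4]; ring
      linarith
  obtain ⟨e0, he0⟩ := extremal_left g v
  obtain ⟨e1, he1⟩ := extremal_right g v
  have hpos : 0 < θ * m * len v / 4 := by positivity
  have hend : ∀ e : Nd, ∑ z ∈ below g v, (if z = e then ∫ y in I z, φ y * ψ y else 0) <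
      θ * m * len v / 4 := by
    intro e
    rw [Finset.sum_ite_eq']
    split_ifs with h
    · exact hsmall e h
    · exact hpos
  have hz : ∀ z ∈ below g v, ∫ y in I z, φ y * ψ y ≤
      (if z = e0 then ∫ y in I z, φ y * ψ y else 0) +
        (if z = e1 then ∫ y in I z, φ y * ψ y else 0) +
          θ / 6 * (m * len z + ∫ y in I z, φ y) := by
    intro z hz
    have h1 : 0 ≤ ∫ y in I z, φ y * ψ y := integral_nonneg fun y => mul_nonneg (hφ0 y) (hψ0 y)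
    have h3 : 0 ≤ θ / 6 * (m * len z + ∫ y in I z, φ y) := by
      have := len_pos z
      have := hφz z
      positivity
    split_ifs with k0 k1 k1
    · linarith
    · linarith
    · linarith
    · have h4 := (he0 z hz).resolve_left k0
      have h5 := (he1 z hz).resolve_left k1
      have h6 := len_pos z
      have h7 := (hcon z hz).2 (Ico_subset_Ico (by linarith) (by linarith))
      linarith
  have hsum := Finset.sum_le_sum hz
  rw [← integral_I_below g hint, Finset.sum_add_distrib, Finset.sum_add_distrib, ← Finset.mul_sum,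
    Finset.sum_add_distrib, ← Finset.mul_sum, sum_len_below, ← integral_I_below g hφ,
    ← len_mul_avr, ← len_mul_avr] at hsum
  have h1 := mul_le_mul_of_nonneg_left hc hL.le
  have h3 := mul_le_mul_of_nonneg_left (mul_le_mul_of_nonneg_left h2 hL.le) hθ.le
  have h4 := hend e0
  have h5 := hend e1
  linarith

end Crest.Agent.R100
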