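import Crest.Agent.R100.Basic

/-!
# R100/Lattice: lattice polynomials: Parseval, heavy cells, level sets  (task)

`lp_parseval`: expand; `∫_{c-r}^{c+r} ex((k-k')π/r) = 0` for `k ≠ k'` (`integral_exp_mul_complex`).
`sobolev`: `‖A y‖ ≤ ‖A y'‖ + ∫_{I u} ‖A'‖` (FTC), average in `y'`.
`heavy`: split `Λ` into the cells `{k : k / 2^α = j}`; on a cell write
`lp = ex(ζ) A`, `ζ = j 2^α π/r`, `A = ∑ ω k ex((k - j2^α)π/r)` (again a lattice polynomial, with
derivative coefficients of size `≤ (π/len u) ‖ω k‖`, `len u = r 2^{-α}`).  Then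
`∫_{I u} φ ‖A‖ ≤ H len u (avr u ‖A‖ + ∫_{I u} ‖A'‖)`, sum over `u` (`integral_I_below`),
Cauchy–Schwarz on `I z ⊆ [lft z - r, lft z + r)` and Parseval:
`≤ H √2 (1+π) r √(∑_cell ‖ω‖²)`; Cauchy–Schwarz over the cells.
`lp_window`: a window of length `2^ℓ/r` contains only `kπ/r` with `k` in at most two cells.
`level_set`: `c = ∫φψ`, `m = ∫φ > 0`, `t₀ = c/(2m)`; `ψ ≤ t₀ + ∑_{i<I} 2^{i+1} t₀ 1{2^i t₀ ≤ ψ}` once
`2^I t₀ > 1`; so some `ρ_i = ∫_{2^i t₀ ≤ ψ} φ ≥ m 4^{-i}/4`; `t = 2^i t₀`.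
-/

set_option autoImplicit false
open MeasureTheory Set Real

namespace Crest.Agent.R100

/-- lattice polynomial with frequencies `kπ/r` -/
noncomputable def lp (ω : ℤ → ℂ) (Λ : Finset ℤ) (r y : ℝ) : ℂ :=
  ∑ k ∈ Λ, ω k * ex (k * π / r) y

@[fun_prop] theorem continuous_lp (ω : ℤ → ℂ) (Λ : Finset ℤ) (r : ℝ) :
    Continuous (lp ω Λ r) := by unfold lp; fun_prop

theorem norm_lp_le (ω : ℤ → ℂ) (Λ : Finset ℤ) (r y : ℝ) : ‖lp ω Λ r y‖ ≤ ∑ k ∈ Λ, ‖ω k‖ :=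
  (norm_sum_le _ _).trans (le_of_eq (Finset.sum_congr rfl fun c _ => by simp))

theorem Lattice_intOn {E : Type*} [NormedAddCommGroup E] {f : ℝ → E} (hf : Continuous f)
    (a b : ℝ) : IntegrableOn f (Ico a b) :=
  (hf.continuousOn.integrableOn_compact isCompact_Icc).mono_set Ico_subset_Icc_self

theorem Lattice_int_ex (m : ℤ) (c : ℝ) {r : ℝ} (hr : 0 < r) :
    ∫ y in Ico (c - r) (c + r), ex (m * π / r) y = if m = 0 then ((2 * r : ℝ) : ℂ) else 0 := by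
  split_ifs with hm
  · subst hm
    simp only [Int.cast_zero, zero_mul, zero_div, ex_zero, integral_const, MeasurableSet.univ,
      measureReal_restrict_apply, univ_inter, Real.volume_real_Ico, Complex.real_smul, mul_one]
    rw [max_eq_left (by linarith)]
    congr 1
    ring
  · have hη : (m : ℝ) * π / r ≠ 0 :=
      div_ne_zero (mul_ne_zero (by exact_mod_cast hm) Real.pi_ne_zero) hr.ne'
    have hc : ((m * π / r : ℝ) : ℂ) * Complex.I ≠ 0 :=
      mul_ne_zero (by exact_mod_cast hη) Complex.I_ne_zero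
    have h1 : ∫ y in Ico (c - r) (c + r), ex (m * π / r) y =
        ∫ y in (c - r)..(c + r), Complex.exp (((m * π / r : ℝ) : ℂ) * Complex.I * y) := by
      rw [intervalIntegral.integral_of_le (by linarith), integral_Ico_eq_integral_Ioc]
      congr 1; ext y; unfold ex; congr 1; push_cast; ring
    have hr' : (r : ℂ) ≠ 0 := by exact_mod_cast hr.ne'
    have h2 : ((m * π / r : ℝ) : ℂ) * Complex.I * ((c + r : ℝ) : ℂ) =
        ((m * π / r : ℝ) : ℂ) * Complex.I * ((c - r : ℝ) : ℂ) + m * (2 * π * Complex.I) := by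
      push_cast
      field_simp
      ring
    rw [h1, integral_exp_mul_complex hc, h2, Complex.exp_add, Complex.exp_int_mul_two_pi_mul_I,
      mul_one, sub_self, zero_div]

theorem lp_parseval (ω : ℤ → ℂ) (Λ : Finset ℤ) (c : ℝ) {r : ℝ} (hr : 0 < r) :
    ∫ y in Ico (c - r) (c + r), ‖lp ω Λ r y‖ ^ 2 = 2 * r * ∑ k ∈ Λ, ‖ω k‖ ^ 2 := by
  apply Complex.ofReal_injective
  rw [← integral_complex_ofReal]
  have e : ∀ y, ((‖lp ω Λ r y‖ ^ 2 : ℝ) : ℂ) = ∑ k ∈ Λ, ∑ k' ∈ Λ,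
      ω k * (starRingEnd ℂ) (ω k') * ex (((k - k' : ℤ) : ℝ) * π / r) y := by
    intro y
    rw [Complex.ofReal_pow, ← Complex.mul_conj', lp, map_sum, Finset.sum_mul_sum]
    refine Finset.sum_congr rfl fun k _ => Finset.sum_congr rfl fun k' _ => ?_
    rw [map_mul, conj_ex, show (((k - k' : ℤ) : ℝ) * π / r) = k * π / r + -(k' * π / r) by
      push_cast; ring, ex_add]
    ring
  simp only [e]
  rw [integral_finsetSum _ fun k _ => Lattice_intOn (by fun_prop) _ _]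
  push_cast
  rw [Finset.mul_sum]
  refine Finset.sum_congr rfl fun k hk => ?_
  rw [integral_finsetSum _ fun k' _ => Lattice_intOn (by fun_prop) _ _]
  have e2 : ∀ k' ∈ Λ, ∫ y in Ico (c - r) (c + r),
      ω k * (starRingEnd ℂ) (ω k') * ex (((k : ℝ) - k') * π / r) y =
      if k = k' then ω k * (starRingEnd ℂ) (ω k') * (2 * r) else 0 := by
    intro k' _
    have := Lattice_int_ex (k - k') c hr
    push_cast at this
    rw [integral_const_mul, this]
    simp only [sub_eq_zero]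
    split_ifs <;> simp
  rw [Finset.sum_congr rfl e2, Finset.sum_ite_eq, if_pos hk, Complex.mul_conj', mul_comm]

theorem sobolev (u : Nd) {A A' : ℝ → ℂ} (hA : ∀ y, HasDerivAt A (A' y) y) (hA' : Continuous A')
    {y : ℝ} (hy : y ∈ I u) :
    ‖A y‖ ≤ avr u (fun y => ‖A y‖) + ∫ y in I u, ‖A' y‖ := by
  have hc : Continuous A := continuous_iff_continuousAt.2 fun y => (hA y).continuousAt
  have h1 : ∀ y' ∈ I u, ‖A y‖ - ∫ y in I u, ‖A' y‖ ≤ ‖A y'‖ := by
    intro y' hy'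
    have e := intervalIntegral.integral_eq_sub_of_hasDerivAt (a := y') (b := y)
      (fun x _ => hA x) (hA'.intervalIntegrable _ _)
    have h2 : ‖A y - A y'‖ ≤ ∫ y in I u, ‖A' y‖ := by
      rw [← e]
      refine intervalIntegral.norm_integral_le_integral_norm_uIoc.trans ?_
      exact setIntegral_mono_set (Lattice_intOn hA'.norm _ _)
        (Filter.Eventually.of_forall fun _ => norm_nonneg _)
        (uIoc_subset_uIcc.trans (ordConnected_Ico.uIcc_subset hy' hy)).eventuallyLE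
    linarith [norm_sub_norm_le (A y) (A y')]
  have h3 := avr_mono (v := u) (Lattice_intOn continuous_const _ _) (Lattice_intOn hc.norm _ _) h1
  rw [avr_const] at h3
  linarith

theorem Lattice_hasDerivAt_ex (ξ y : ℝ) : HasDerivAt (ex ξ) ((ξ : ℂ) * Complex.I * ex ξ y) y := by
  have h1 : HasDerivAt (fun y : ℝ => (((ξ * y : ℝ) : ℂ) * Complex.I)) ((ξ : ℂ) * Complex.I) y := by
    have := (((hasDerivAt_id y).const_mul ξ).ofReal_comp).mul_const Complex.I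
    simpa using this
  have h2 := h1.cexp
  rw [mul_comm] at h2
  exact h2

theorem Lattice_shift (ω : ℤ → ℂ) (Λ : Finset ℤ) (r y : ℝ) (m : ℤ) :
    ‖∑ k ∈ Λ, ω k * ex ((k - m) * π / r) y‖ = ‖lp ω Λ r y‖ := by
  have : ∑ k ∈ Λ, ω k * ex ((k - m) * π / r) y = lp ω Λ r y * ex (-(m * π / r)) y := by
    rw [lp, Finset.sum_mul]
    refine Finset.sum_congr rfl fun k _ => ?_
    rw [mul_assoc, ← ex_add]
    congr 2
    ring
  rw [this, norm_mul, norm_ex, mul_one]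

theorem Lattice_sob (ω : ℤ → ℂ) (Λ : Finset ℤ) (r : ℝ) (m : ℤ) (u : Nd) {y : ℝ} (hy : y ∈ I u) :
    ‖lp ω Λ r y‖ ≤ avr u (fun y => ‖lp ω Λ r y‖) +
      ∫ y in I u, ‖lp (fun k => ω k * ((((k - m) * π / r : ℝ) : ℂ) * Complex.I)) Λ r y‖ := by
  have h := sobolev u (A := fun y => ∑ k ∈ Λ, ω k * ex ((k - m) * π / r) y)
    (A' := fun y => ∑ k ∈ Λ, ω k * ((((k - m) * π / r : ℝ) : ℂ) * Complex.I) *
      ex ((k - m) * π / r) y)
    (fun y => HasDerivAt.fun_sum fun k _ => by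
      rw [mul_assoc]
      exact (Lattice_hasDerivAt_ex _ y).const_mul _) (by fun_prop) hy
  simp only [Lattice_shift] at h
  have e : ∀ y, ‖∑ k ∈ Λ, ω k * ((((k - m) * π / r : ℝ) : ℂ) * Complex.I) *
      ex ((k - m) * π / r) y‖ =
      ‖lp (fun k => ω k * ((((k - m) * π / r : ℝ) : ℂ) * Complex.I)) Λ r y‖ := fun y =>
    Lattice_shift _ Λ r y m
  simpa only [e] using h

theorem Lattice_L1 (ω : ℤ → ℂ) (Λ : Finset ℤ) (z : Nd) :
    ∫ y in I z, ‖lp ω Λ (len z) y‖ ≤ 17 / 12 * len z * √(∑ k ∈ Λ, ‖ω k‖ ^ 2) := by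
  have hr := len_pos z
  have hQ : 0 ≤ ∑ k ∈ Λ, ‖ω k‖ ^ 2 := Finset.sum_nonneg fun _ _ => sq_nonneg _
  rcases hQ.eq_or_lt with h0 | h0
  · have h1 : ∀ y, ‖lp ω Λ (len z) y‖ = 0 := fun y => by
      refine le_antisymm ((norm_lp_le _ _ _ _).trans (le_of_eq ?_)) (norm_nonneg _)
      refine Finset.sum_eq_zero fun k hk => ?_
      exact pow_eq_zero_iff two_ne_zero |>.1
        ((Finset.sum_eq_zero_iff_of_nonneg fun _ _ => sq_nonneg _).1 h0.symm k hk)
    simp only [h1, integral_zero]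
    positivity
  · set S := √(∑ k ∈ Λ, ‖ω k‖ ^ 2) with hS
    have hS0 : 0 < S := Real.sqrt_pos.2 h0
    have hSS : ∑ k ∈ Λ, ‖ω k‖ ^ 2 = S ^ 2 := (Real.sq_sqrt hQ).symm
    have hc : Continuous fun y => ‖lp ω Λ (len z) y‖ ^ 2 := by fun_prop
    have h1 : ∫ y in I z, ‖lp ω Λ (len z) y‖ ^ 2 ≤ 2 * len z * S ^ 2 := by
      rw [← hSS, ← lp_parseval ω Λ (lft z) hr]
      exact setIntegral_mono_set (Lattice_intOn hc _ _)
        (Filter.Eventually.of_forall fun _ => sq_nonneg _)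
        (Ico_subset_Ico_left (by linarith)).eventuallyLE
    have h2 : ∫ y in I z, ‖lp ω Λ (len z) y‖ ≤
        ∫ y in I z, ((3 * S)⁻¹ * ‖lp ω Λ (len z) y‖ ^ 2 + 3 / 4 * S) := by
      refine setIntegral_mono (Lattice_intOn (by fun_prop) _ _) (Lattice_intOn (by fun_prop) _ _)
        fun y => ?_
      have : ‖lp ω Λ (len z) y‖ * (3 * S) ≤ ‖lp ω Λ (len z) y‖ ^ 2 + 3 / 4 * S * (3 * S) := by
        nlinarith [sq_nonneg (‖lp ω Λ (len z) y‖ - 3 / 2 * S)]
      rw [← le_div_iff₀ (by positivity)] at this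
      refine this.trans (le_of_eq ?_)
      field_simp
    have i1 : IntegrableOn (fun y => (3 * S)⁻¹ * ‖lp ω Λ (len z) y‖ ^ 2) (I z) :=
      Lattice_intOn (by fun_prop) _ _
    have i2 : IntegrableOn (fun _ : ℝ => 3 / 4 * S) (I z) := Lattice_intOn (by fun_prop) _ _
    rw [integral_add i1 i2, integral_const_mul, setIntegral_const, real_volume_I, smul_eq_mul] at h2
    have h3 : (3 * S)⁻¹ * ∫ y in I z, ‖lp ω Λ (len z) y‖ ^ 2 ≤ (3 * S)⁻¹ * (2 * len z * S ^ 2) :=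
      mul_le_mul_of_nonneg_left h1 (by positivity)
    have h4 : (3 * S)⁻¹ * (2 * len z * S ^ 2) = 2 / 3 * (len z * S) := by field_simp
    linarith

theorem Lattice_mul_int {φ : ℝ → ℝ} {z u : Nd} (hφ : IntegrableOn φ (I z)) (hu : z <:+ u)
    {g : ℝ → ℝ} (hg : Continuous g) : IntegrableOn (fun y => φ y * g y) (I u) :=
  (hφ.mono_set (I_mono hu)).mul_continuousOn_of_subset hg.continuousOn (measurableSet_I u)
    isCompact_Icc Ico_subset_Icc_self

/-- one cell -/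
theorem Lattice_cell (ω : ℤ → ℂ) (Λ : Finset ℤ) (z : Nd) (α : ℕ) {φ : ℝ → ℝ} (hφ0 : ∀ y, 0 ≤ φ y)
    (hφ : IntegrableOn φ (I z)) {H : ℝ} (hH : 0 ≤ H) (U : Finset Nd) (hU : U ⊆ below α z)
    (hUH : ∀ u ∈ U, avr u φ ≤ H) (j : ℤ) (hj : ∀ k ∈ Λ, k / (2 : ℤ) ^ α = j) :
    ∑ u ∈ U, ∫ y in I u, φ y * ‖lp ω Λ (len z) y‖ ≤
      6 * H * len z * √(∑ k ∈ Λ, ‖ω k‖ ^ 2) := by
  have hr := len_pos z
  set ω' : ℤ → ℂ := fun k => ω k * ((((k - (j * 2 ^ α : ℤ)) * π / len z : ℝ) : ℂ) * Complex.I)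
    with hω'
  set ℓ : ℝ := len z * (1 / 2) ^ α with hℓ
  have hℓ0 : 0 < ℓ := by positivity
  have hc1 : Continuous fun y => ‖lp ω Λ (len z) y‖ := by fun_prop
  have hc2 : Continuous fun y => ‖lp ω' Λ (len z) y‖ := by fun_prop
  have h1 : ∀ u ∈ U, ∫ y in I u, φ y * ‖lp ω Λ (len z) y‖ ≤
      H * ((∫ y in I u, ‖lp ω Λ (len z) y‖) + ℓ * ∫ y in I u, ‖lp ω' Λ (len z) y‖) := by
    intro u hu
    obtain ⟨hl, hzu⟩ := mem_below.1 (hU hu)
    have hlen : len u = ℓ := by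
      rw [len_eq_of_le (u := u) (v := z) (by omega), hl, Nat.add_sub_cancel_left]
    set B := avr u (fun y => ‖lp ω Λ (len z) y‖) + ∫ y in I u, ‖lp ω' Λ (len z) y‖ with hB
    have hB0 : 0 ≤ B :=
      add_nonneg (avr_nonneg fun _ => norm_nonneg _) (integral_nonneg fun _ => norm_nonneg _)
    calc ∫ y in I u, φ y * ‖lp ω Λ (len z) y‖ ≤ ∫ y in I u, φ y * B :=
          setIntegral_mono_on (Lattice_mul_int hφ hzu hc1)
            (Lattice_mul_int hφ hzu continuous_const) (measurableSet_I u) fun y hy =>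
              mul_le_mul_of_nonneg_left (Lattice_sob ω Λ (len z) (j * 2 ^ α) u hy) (hφ0 y)
      _ = len u * avr u φ * B := by rw [integral_mul_const, len_mul_avr]
      _ ≤ len u * H * B :=
          mul_le_mul_of_nonneg_right (mul_le_mul_of_nonneg_left (hUH u hu) (len_pos u).le) hB0
      _ = _ := by
          rw [hB, ← len_mul_avr u fun y => ‖lp ω Λ (len z) y‖, hlen]
          ring
  have h2 : ∀ {g : ℝ → ℝ}, Continuous g → (∀ y, 0 ≤ g y) →
      ∑ u ∈ U, ∫ y in I u, g y ≤ ∫ y in I z, g y := fun hg hg0 => by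
    rw [integral_I_below α (Lattice_intOn hg _ _)]
    exact Finset.sum_le_sum_of_subset_of_nonneg hU fun _ _ _ => integral_nonneg hg0
  have h3 : ℓ * √(∑ k ∈ Λ, ‖ω' k‖ ^ 2) ≤ π * √(∑ k ∈ Λ, ‖ω k‖ ^ 2) := by
    rw [← Real.sqrt_sq hℓ0.le, ← Real.sqrt_sq Real.pi_pos.le, ← Real.sqrt_mul (sq_nonneg _),
      ← Real.sqrt_mul (sq_nonneg _), Finset.mul_sum, Finset.mul_sum]
    refine Real.sqrt_le_sqrt (Finset.sum_le_sum fun k hk => ?_)
    rw [← mul_pow, ← mul_pow]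
    refine pow_le_pow_left₀ (by positivity) ?_ 2
    have hp : (0 : ℤ) < 2 ^ α := by positivity
    have a1 : 0 ≤ k - j * 2 ^ α := by
      rw [← hj k hk]
      linarith [Int.ediv_mul_le k hp.ne']
    have a2 : k - j * 2 ^ α ≤ 2 ^ α := by
      rw [← hj k hk]
      linarith [Int.lt_ediv_add_one_mul_self k hp]
    have b1 : (0 : ℝ) ≤ k - (j * 2 ^ α : ℤ) := by exact_mod_cast a1
    have b2 : (k : ℝ) - (j * 2 ^ α : ℤ) ≤ 2 ^ α := by exact_mod_cast a2
    rw [hω']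
    simp only [norm_mul, Complex.norm_I, mul_one, Complex.norm_real, Real.norm_eq_abs]
    rw [abs_of_nonneg (div_nonneg (mul_nonneg b1 Real.pi_pos.le) hr.le)]
    calc ℓ * (‖ω k‖ * ((k - (j * 2 ^ α : ℤ)) * π / len z))
        ≤ ℓ * (‖ω k‖ * (2 ^ α * π / len z)) := by gcongr
      _ = π * ‖ω k‖ := by
          rw [hℓ, one_div, inv_pow]
          field_simp
  refine (Finset.sum_le_sum h1).trans ?_
  rw [← Finset.mul_sum, Finset.sum_add_distrib, ← Finset.mul_sum]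
  have h4 := (h2 hc1 fun _ => norm_nonneg _).trans (Lattice_L1 ω Λ z)
  have h5 := mul_le_mul_of_nonneg_left ((h2 hc2 fun _ => norm_nonneg _).trans (Lattice_L1 ω' Λ z))
    hℓ0.le
  have h6 := mul_le_mul_of_nonneg_left h3 (by positivity : 0 ≤ 17 / 12 * len z)
  have h7 : π * (len z * √(∑ k ∈ Λ, ‖ω k‖ ^ 2)) ≤ 3.15 * (len z * √(∑ k ∈ Λ, ‖ω k‖ ^ 2)) :=
    mul_le_mul_of_nonneg_right Real.pi_lt_d2.le (by positivity)
  have h8 : 0 ≤ len z * √(∑ k ∈ Λ, ‖ω k‖ ^ 2) := by positivity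
  rw [show 6 * H * len z * √(∑ k ∈ Λ, ‖ω k‖ ^ 2) = H * (6 * (len z * √(∑ k ∈ Λ, ‖ω k‖ ^ 2))) by ring]
  refine mul_le_mul_of_nonneg_left ?_ hH
  nlinarith

theorem heavy (ω : ℤ → ℂ) (Λ : Finset ℤ) (z : Nd) (α : ℕ) {φ : ℝ → ℝ} (hφ0 : ∀ y, 0 ≤ φ y)
    (hφ : IntegrableOn φ (I z)) {H K : ℝ} (hH : 0 ≤ H) (U : Finset Nd) (hU : U ⊆ below α z)
    (hUH : ∀ u ∈ U, avr u φ ≤ H) (hK : ((Λ.image (· / (2 : ℤ) ^ α)).card : ℝ) ≤ K) :
    ∑ u ∈ U, ∫ y in I u, φ y * ‖lp ω Λ (len z) y‖ ≤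
      6 * H * len z * √K * √(∑ k ∈ Λ, ‖ω k‖ ^ 2) := by
  have hr := len_pos z
  set J := Λ.image (· / (2 : ℤ) ^ α) with hJ
  have hmap : ∀ k ∈ Λ, k / (2 : ℤ) ^ α ∈ J := fun k hk => Finset.mem_image_of_mem _ hk
  have h1 : ∀ u ∈ U, ∫ y in I u, φ y * ‖lp ω Λ (len z) y‖ ≤
      ∑ j ∈ J, ∫ y in I u, φ y * ‖lp ω (Λ.filter fun k => k / (2 : ℤ) ^ α = j) (len z) y‖ := by
    intro u hu
    have hzu := (mem_below.1 (hU hu)).2
    rw [← integral_finsetSum _ fun j _ => Lattice_mul_int hφ hzu (by fun_prop)]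
    refine setIntegral_mono (Lattice_mul_int hφ hzu (by fun_prop))
      (integrable_finsetSum _ fun j _ => Lattice_mul_int hφ hzu (by fun_prop)) fun y => ?_
    simp only
    rw [← Finset.mul_sum]
    refine mul_le_mul_of_nonneg_left (le_trans (le_of_eq ?_) (norm_sum_le _ _)) (hφ0 y)
    unfold lp
    rw [Finset.sum_fiberwise_of_maps_to hmap]
  refine (Finset.sum_le_sum h1).trans ?_
  rw [Finset.sum_comm]
  refine (Finset.sum_le_sum fun j _ => Lattice_cell ω _ z α hφ0 hφ hH U hU hUH j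
    fun k hk => (Finset.mem_filter.1 hk).2).trans ?_
  rw [← Finset.mul_sum, mul_assoc (6 * H * len z)]
  refine mul_le_mul_of_nonneg_left ?_ (by positivity)
  have hK0 : 0 ≤ K := (Nat.cast_nonneg _).trans hK
  rw [← Real.sqrt_mul hK0]
  refine Real.le_sqrt_of_sq_le (sq_sum_le_card_mul_sum_sq.trans ?_)
  rw [Finset.sum_congr rfl fun j _ => Real.sq_sqrt (Finset.sum_nonneg fun _ _ => sq_nonneg _),
    Finset.sum_fiberwise_of_maps_to hmap]
  exact mul_le_mul_of_nonneg_right hK (Finset.sum_nonneg fun _ _ => sq_nonneg _)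

/-- the lattice polynomial as a `tp`, with its window masses -/
theorem lp_window (ω : ℤ → ℂ) (Λ : Finset ℤ) {r : ℝ} (hr : 0 < r) :
    ∃ a : ℝ →₀ ℂ, l1 a = ∑ k ∈ Λ, ‖ω k‖ ∧ (∀ y, tp a y = lp ω Λ r y) ∧
      ∀ (ℓ : ℕ) (κ : ℝ), 0 ≤ κ →
        (∀ j : ℤ, ∑ k ∈ Λ with k / (2 : ℤ) ^ ℓ = j, ‖ω k‖ ≤ κ) →
        ∀ ζ, win a ζ (r * (1 / 2) ^ ℓ)⁻¹ ≤ 2 * κ := by
  classical
  have hinj : Function.Injective fun k : ℤ => (k : ℝ) * π / r := fun k k' h => by
    simp only at h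
    rw [div_left_inj' hr.ne', mul_left_inj' Real.pi_ne_zero] at h
    exact_mod_cast h
  set b : ℤ →₀ ℂ := Finsupp.onFinset Λ (fun k => if k ∈ Λ then ω k else 0) fun k hk => by
    by_contra h
    exact hk (if_neg h) with hb
  set a : ℝ →₀ ℂ := Finsupp.embDomain ⟨_, hinj⟩ b with ha
  have key : ∀ {M : Type} [AddCommMonoid M] (g : ℝ → ℂ → M), (∀ c, g c 0 = 0) →
      ∑ c ∈ a.support, g c (a c) = ∑ k ∈ Λ, g (k * π / r) (ω k) := by
    intro M _ g hg
    rw [ha, Finsupp.support_embDomain, Finset.sum_map]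
    simp only [Finsupp.embDomain_apply_self]
    rw [Finset.sum_subset (s₂ := Λ) Finsupp.support_onFinset_subset fun k _ hk => by
      rw [Finsupp.notMem_support_iff.1 hk, hg]]
    refine Finset.sum_congr rfl fun k hk => ?_
    simp [hb, hk]
  refine ⟨a, key (fun _ x => ‖x‖) fun _ => norm_zero, fun y => key (fun c x => x * ex c y)
    fun _ => zero_mul _, fun ℓ κ hκ hj ζ => ?_⟩
  rw [win, Finset.sum_filter, key (fun c x => if ζ ≤ c ∧ c ≤ ζ + (r * (1 / 2) ^ ℓ)⁻¹ then ‖x‖ else 0)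
    fun _ => by simp]
  have h1 := hj (⌈ζ * r / π⌉ / 2 ^ ℓ)
  have h2 := hj (⌈ζ * r / π⌉ / 2 ^ ℓ + 1)
  rw [Finset.sum_filter] at h1 h2
  refine le_trans ?_ ((add_le_add h1 h2).trans (le_of_eq (by ring)))
  rw [← Finset.sum_add_distrib]
  refine Finset.sum_le_sum fun k _ => ?_
  have n0 := norm_nonneg (ω k)
  by_cases hc : ζ ≤ k * π / r ∧ k * π / r ≤ ζ + (r * (1 / 2) ^ ℓ)⁻¹
  · have hp : (0 : ℤ) < 2 ^ ℓ := by positivity
    have hπ := Real.pi_pos
    have a1 : ζ * r / π ≤ k := by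
      rw [div_le_iff₀ hπ, ← le_div_iff₀ hr]
      exact hc.1
    have a2 : (k : ℝ) ≤ ζ * r / π + 2 ^ ℓ := by
      have t1 := hc.2
      rw [div_le_iff₀ hr] at t1
      have t2 : (ζ + (r * (1 / 2) ^ ℓ)⁻¹) * r = ζ * r + 2 ^ ℓ := by
        rw [one_div, inv_pow]
        field_simp
      have t3 : (2 : ℝ) ^ ℓ ≤ 2 ^ ℓ * π :=
        le_mul_of_one_le_right (by positivity) (by linarith [Real.pi_gt_three])
      have t4 : (k : ℝ) - 2 ^ ℓ ≤ ζ * r / π := by
        rw [le_div_iff₀ hπ]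
        linarith
      linarith
    have b1 : ⌈ζ * r / π⌉ ≤ k := Int.ceil_le.2 a1
    have b2 : k ≤ ⌈ζ * r / π⌉ + 1 * 2 ^ ℓ := by
      have : (k : ℝ) ≤ (⌈ζ * r / π⌉ : ℝ) + 1 * 2 ^ ℓ := by linarith [Int.le_ceil (ζ * r / π)]
      exact_mod_cast this
    have c1 := Int.ediv_le_ediv hp b1
    have c2 := Int.ediv_le_ediv hp b2
    rw [Int.add_mul_ediv_right _ _ hp.ne'] at c2
    rw [if_pos hc]
    rcases (by omega : k / 2 ^ ℓ = ⌈ζ * r / π⌉ / 2 ^ ℓ ∨ k / 2 ^ ℓ = ⌈ζ * r / π⌉ / 2 ^ ℓ + 1) with e | e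
    · rw [if_pos e]
      split_ifs <;> linarith
    · rw [if_pos e]
      split_ifs <;> linarith
  · rw [if_neg hc]
    split_ifs <;> linarith

theorem Lattice_min (x t : ℝ) (n : ℕ) :
    min x (2 ^ n * t) ≤ t + ∑ i ∈ Finset.range n, if 2 ^ i * t ≤ x then 2 ^ i * t else 0 := by
  induction n with
  | zero => simp
  | succ n ih =>
    rw [Finset.sum_range_succ]
    split_ifs with h
    · rw [min_eq_right h] at ih
      have := min_le_right x (2 ^ (n + 1) * t)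
      rw [pow_succ] at this ⊢
      linarith
    · rw [min_eq_left (not_le.1 h).le] at ih
      linarith [min_le_left x (2 ^ (n + 1) * t)]

theorem level_set {A : Set ℝ} (hA : MeasurableSet A) {φ ψ : ℝ → ℝ} (hφ0 : ∀ y, 0 ≤ φ y)
    (hφ : IntegrableOn φ A) (hψ : Measurable ψ) (hψ0 : ∀ y, 0 ≤ ψ y) (hψ1 : ∀ y, ψ y ≤ 1)
    {κ M : ℝ} (hκ : 0 ≤ κ) (hM : 0 ≤ M) (h : κ * √(M * ∫ y in A, φ y) ≤ ∫ y in A, φ y * ψ y)
    (hpos : 0 < ∫ y in A, φ y * ψ y) :
    ∃ t, 0 < t ∧ t ≤ 1 ∧ κ * √M ≤ 4 * t * √(∫ y in A ∩ {y | t ≤ ψ y}, φ y) := by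
  by_contra hcon
  push Not at hcon
  set c := ∫ y in A, φ y * ψ y with hc
  set m := ∫ y in A, φ y with hm
  have hint : IntegrableOn (fun y => φ y * ψ y) A :=
    hφ.mul_bdd (c := 1) hψ.aestronglyMeasurable (Filter.Eventually.of_forall fun y => by
      rw [Real.norm_of_nonneg (hψ0 y)]
      exact hψ1 y)
  have hcm : c ≤ m := setIntegral_mono hint hφ fun y => mul_le_of_le_one_right (hφ0 y) (hψ1 y)
  have hm0 : 0 < m := hpos.trans_le hcm
  set t := c / (2 * m) with ht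
  have ht0 : 0 < t := by positivity
  have hct : c = 2 * m * t := by
    rw [ht]
    field_simp
  have hs0 : 0 < √m := Real.sqrt_pos.2 hm0
  have hss : √m * √m = m := Real.mul_self_sqrt hm0.le
  have hκM : κ * √M ≤ 2 * t * √m := by
    rw [Real.sqrt_mul hM] at h
    refine le_of_mul_le_mul_right ?_ hs0
    calc κ * √M * √m = κ * (√M * √m) := by ring
      _ ≤ 2 * m * t := hct ▸ h
      _ = 2 * t * √m * √m := by rw [mul_assoc (2 * t), hss]; ring
  have hmeas : ∀ s : ℝ, MeasurableSet {y | s ≤ ψ y} := fun s => measurableSet_le measurable_const hψ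
  have hρ : ∀ i : ℕ, 2 ^ i * t * ∫ y in A ∩ {y | 2 ^ i * t ≤ ψ y}, φ y ≤ t * m / 4 * (1 / 2) ^ i := by
    intro i
    by_cases h1 : 2 ^ i * t ≤ 1
    · have h2 := (hcon _ (by positivity) h1).trans_le hκM
      set ρ := ∫ y in A ∩ {y | 2 ^ i * t ≤ ψ y}, φ y
      have hρ0 : 0 ≤ ρ := integral_nonneg hφ0
      have h3 : 2 * 2 ^ i * √ρ ≤ √m := by
        refine le_of_mul_le_mul_left ?_ (by positivity : 0 < 2 * t)
        linarith
      have h4 := pow_le_pow_left₀ (by positivity) h3 2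
      rw [mul_pow, Real.sq_sqrt hρ0, Real.sq_sqrt hm0.le] at h4
      rw [one_div, inv_pow, ← div_eq_mul_inv, le_div_iff₀ (by positivity)]
      nlinarith
    · have : {y | 2 ^ i * t ≤ ψ y} = ∅ :=
        eq_empty_of_forall_notMem fun y hy => h1 (le_trans hy (hψ1 y))
      rw [this, inter_empty, setIntegral_empty, mul_zero]
      positivity
  obtain ⟨n, hn⟩ := pow_unbounded_of_one_lt (1 / t) (by norm_num : (1 : ℝ) < 2)
  rw [div_lt_iff₀ ht0] at hn
  have hi : ∀ i : ℕ, IntegrableOn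
      (fun y => 2 ^ i * t * {y | 2 ^ i * t ≤ ψ y}.indicator φ y) A := fun i =>
    (Integrable.indicator hφ (hmeas _)).const_mul _
  have h5 : c ≤ ∫ y in A, (t * φ y + ∑ i ∈ Finset.range n,
      2 ^ i * t * {y | 2 ^ i * t ≤ ψ y}.indicator φ y) := by
    refine setIntegral_mono hint ((hφ.const_mul t).add (integrable_finsetSum _ fun i _ => hi i))
      fun y => ?_
    have h6 := Lattice_min (ψ y) t n
    rw [min_eq_left ((hψ1 y).trans hn.le)] at h6
    refine (mul_le_mul_of_nonneg_left h6 (hφ0 y)).trans (le_of_eq ?_)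
    rw [mul_add, mul_comm (φ y) t, Finset.mul_sum]
    congr 1
    refine Finset.sum_congr rfl fun i _ => ?_
    simp only [indicator, mem_ofPred_eq]
    split_ifs <;> ring
  rw [integral_add (hφ.const_mul t) (integrable_finsetSum _ fun i _ => hi i), integral_const_mul,
    integral_finsetSum _ fun i _ => hi i] at h5
  simp only [integral_const_mul, setIntegral_indicator (hmeas _)] at h5
  have h7 := Finset.sum_le_sum fun i (_ : i ∈ Finset.range n) => hρ i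
  rw [← Finset.mul_sum] at h7
  have h8 := mul_le_mul_of_nonneg_left (sum_geometric_two_le n) (by positivity : 0 ≤ t * m / 4)
  have h9 : 0 < t * m := by positivity
  rw [← hm] at h5
  nlinarith

end Crest.Agent.R100
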