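import Crest.Agent.R100.Window
import Crest.Agent.R100.Lattice
import Crest.Agent.R100.Extremal

/-!
# R100/Cell: a correlated polynomial with small `L²` norm yields a piece  (task)

`φ = ‖E.indicator f‖`, `r = len z`, `c = lft z + r/2`, `M₀ = m r + ∫_{I z} φ`, `κ = θ/40`.
1. `window a c` with `η = θ/200`: `cos² ≥ 1/2` on `I z`, so `∫_{I z} φ ‖lp ω Λ₀ r‖ ≥ (θ/13) M₀ ≥ 3κ M₀`;
   `∑‖ω‖ ≤ 4`, `∑‖ω‖² ≤ ε²`.
2. `π* = 4·10²⁴ Q²² ε²`.  `k` is heavy at level `ℓ` if `∑_{k' ∈ Λ₀, k'/2^ℓ = k/2^ℓ} ‖ω k'‖ > π*`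
   (monotone in `ℓ`: cells are nested); `lev k` = least heavy level `≤ D`, else `D + 1`.
   Exit level sets: `O ℓ = {y ∈ I z : the node of generation ℓ below z containing y is in N, that of
   generation ℓ+1 is not}` = `⋃_{u ∈ below ℓ z, u ∈ N} I u \ ⋃_{u ∈ below (ℓ+1) z, u ∈ N} I u`; they
   partition `I z` for `ℓ ∈ L = range (D+1)` (`z ∈ N`, `closed`, `depth`).
   `μ ℓ = ∫_{O ℓ} φ / M₀`, `cor Λ ℓ = ∫_{O ℓ} φ ‖lp ω Λ r‖ / M₀`.  `hneg`: `heavy` with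
   `U = {u ∈ below α z, u ∈ N}`, `K = 4/π*`, `ν = 6 Q √(4/π*) ε = 6·10⁻¹² Q⁻¹⁰`, `κ⁵ ≥ Q⁻¹⁰/40⁵`.
3. `extremal` gives `Λ, S`; `λ = ∑_Λ‖ω‖ ≥ κ⁵/1542`.  `a'` from `lp_window (ω/λ) Λ`; `level_set` on
   `A = ⋃_{ℓ ∈ S} O ℓ` with `ψ = ‖tp a'‖`, `κ/1100`, `M₀`; `E' = E ∩ A ∩ {t' ≤ ‖tp a'‖}`.
   `free`: if `u ∈ N` below `z` meets `E'` at `y ∈ O ℓ`, then the generation of `u` is `≤ ℓ < lev k`
   for all `k ∈ Λ`, so all cells at that generation carry `≤ π*/λ`; `2π*/λ ≤ 10³⁷Q³²ε²`; also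
   `win ≤ l1 ≤ 1`.
4. Chebyshev: `∫_{E'} ‖f‖ ≤ e^d t'⁻² ∫_{[c-r,c+r)} ‖tp a'‖² = e^d t'⁻² 2r ∑‖ω‖²/λ²` (`lp_parseval`).
-/

set_option autoImplicit false
open MeasureTheory Set

namespace Crest.Agent.R100

/-! ### exit level sets -/

/-- points whose ancestor of generation `ℓ` below `z` lies in `N` -/
def Cell_A (N : Finset Nd) (z : Nd) (ℓ : ℕ) : Set ℝ := ⋃ u ∈ (below ℓ z).filter (· ∈ N), I u

/-- the exit level sets -/
def Cell_O (N : Finset Nd) (z : Nd) (ℓ : ℕ) : Set ℝ := Cell_A N z ℓ \ Cell_A N z (ℓ + 1)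

section sets
variable {N : Finset Nd} {z : Nd}

theorem Cell_mem_A {ℓ : ℕ} {y : ℝ} :
    y ∈ Cell_A N z ℓ ↔ ∃ u, u ∈ below ℓ z ∧ u ∈ N ∧ y ∈ I u := by
  simp [Cell_A, and_assoc]

theorem Cell_meas_A (ℓ : ℕ) : MeasurableSet (Cell_A N z ℓ) :=
  Finset.measurableSet_biUnion _ fun u _ => measurableSet_I u

theorem Cell_meas_O (ℓ : ℕ) : MeasurableSet (Cell_O N z ℓ) :=
  (Cell_meas_A ℓ).diff (Cell_meas_A _)

theorem Cell_A_sub (ℓ : ℕ) : Cell_A N z ℓ ⊆ I z := fun y hy => by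
  obtain ⟨u, hu, -, hy⟩ := Cell_mem_A.1 hy
  exact I_mono (mem_below.1 hu).2 hy

theorem Cell_O_sub (ℓ : ℕ) : Cell_O N z ℓ ⊆ I z := sdiff_subset.trans (Cell_A_sub ℓ)

theorem Cell_A_anti (hcl : ∀ v ∈ N, ∀ u, u <:+ v → u ∈ N) {ℓ ℓ' : ℕ} (h : ℓ ≤ ℓ') :
    Cell_A N z ℓ' ⊆ Cell_A N z ℓ := fun y hy => by
  obtain ⟨x, hx, hyx⟩ := exists_below (Cell_A_sub _ hy) ℓ
  obtain ⟨u, hu, huN, hy⟩ := Cell_mem_A.1 hy
  refine Cell_mem_A.2 ⟨x, hx, hcl u huN x (suffix_of_mem hy hyx ?_), hyx⟩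
  rw [(mem_below.1 hx).1, (mem_below.1 hu).1]
  omega

theorem Cell_O_disj (hcl : ∀ v ∈ N, ∀ u, u <:+ v → u ∈ N) (S : Finset ℕ) :
    Set.Pairwise (↑S) (Function.onFun Disjoint (Cell_O N z)) := by
  have key : ∀ ℓ ℓ', ℓ < ℓ' → Disjoint (Cell_O N z ℓ) (Cell_O N z ℓ') := fun ℓ ℓ' h =>
    Set.disjoint_left.2 fun y hy hy' => hy.2 (Cell_A_anti hcl h hy'.1)
  intro ℓ _ ℓ' _ hne
  rcases lt_or_gt_of_ne hne with h | h
  · exact key _ _ h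
  · exact (key _ _ h).symm

theorem Cell_O_cover {D : ℕ} (hz : z ∈ N) (hD : ∀ v ∈ N, v.length + 2 ≤ D) :
    (⋃ ℓ ∈ Finset.range (D + 1), Cell_O N z ℓ) = I z := by
  classical
  refine Subset.antisymm (iUnion₂_subset fun ℓ _ => Cell_O_sub ℓ) fun y hy => ?_
  have hex : ∃ ℓ, y ∉ Cell_A N z (ℓ + 1) := ⟨D, fun h => by
    obtain ⟨u, hu, huN, -⟩ := Cell_mem_A.1 h
    have := hD u huN
    rw [(mem_below.1 hu).1] at this
    omega⟩
  have hle : Nat.find hex ≤ D := Nat.find_min' hex fun h => by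
    obtain ⟨u, hu, huN, -⟩ := Cell_mem_A.1 h
    have := hD u huN
    rw [(mem_below.1 hu).1] at this
    omega
  refine mem_iUnion₂.2 ⟨Nat.find hex, Finset.mem_range.2 (by omega), ?_, Nat.find_spec hex⟩
  rcases h : Nat.find hex with _ | k
  · exact Cell_mem_A.2 ⟨z, by simp [below], hz, hy⟩
  · have := Nat.find_min hex (m := k) (by omega)
    exact not_not.1 this

theorem Cell_sum_O (hcl : ∀ v ∈ N, ∀ u, u <:+ v → u ∈ N) (S : Finset ℕ) {g : ℝ → ℝ}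
    (hg : IntegrableOn g (I z)) :
    ∑ ℓ ∈ S, ∫ y in Cell_O N z ℓ, g y = ∫ y in ⋃ ℓ ∈ S, Cell_O N z ℓ, g y :=
  (integral_biUnion_finset S (fun ℓ _ => Cell_meas_O ℓ) (Cell_O_disj hcl S)
    (fun ℓ _ => hg.mono_set (Cell_O_sub ℓ))).symm

theorem Cell_int_A (α : ℕ) {g : ℝ → ℝ} (hg : IntegrableOn g (I z)) :
    ∫ y in Cell_A N z α, g y = ∑ u ∈ (below α z).filter (· ∈ N), ∫ y in I u, g y := by
  refine integral_biUnion_finset _ (fun u _ => measurableSet_I u) ?_ fun u hu =>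
    hg.mono_set (I_mono (mem_below.1 (Finset.mem_filter.1 hu).1).2)
  intro u hu u' hu' hne
  refine Set.disjoint_left.2 fun y hy hy' => hne ?_
  have h1 := (mem_below.1 (Finset.mem_filter.1 hu).1).1
  have h2 := (mem_below.1 (Finset.mem_filter.1 hu').1).1
  exact suffix_eq_of_length (suffix_of_mem hy' hy (by omega)) (List.suffix_refl _) (by omega)

end sets

/-! ### heavy frequency cells -/

/-- the mass of a frequency cell -/
noncomputable def Cell_cm (ω : ℤ → ℂ) (Λ : Finset ℤ) (ℓ : ℕ) (j : ℤ) : ℝ :=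
  ∑ k ∈ Λ with k / (2 : ℤ) ^ ℓ = j, ‖ω k‖

theorem Cell_cm_mono (ω : ℤ → ℂ) (Λ : Finset ℤ) (k : ℤ) {ℓ ℓ' : ℕ} (h : ℓ ≤ ℓ') :
    Cell_cm ω Λ ℓ (k / 2 ^ ℓ) ≤ Cell_cm ω Λ ℓ' (k / 2 ^ ℓ') := by
  obtain ⟨i, rfl⟩ := Nat.exists_eq_add_of_le h
  refine Finset.sum_le_sum_of_subset_of_nonneg (fun k' hk' => ?_) fun _ _ _ => norm_nonneg _
  rw [Finset.mem_filter] at hk' ⊢
  refine ⟨hk'.1, ?_⟩
  rw [pow_add, ← Int.ediv_ediv_of_nonneg (by positivity), ← Int.ediv_ediv_of_nonneg (by positivity),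
    hk'.2]

theorem Cell_card_heavy (ω : ℤ → ℂ) {Λ₀ Λ : Finset ℤ} (α : ℕ) {p M : ℝ} (hp : 0 < p)
    (hM : ∑ k ∈ Λ₀, ‖ω k‖ ≤ M) (hh : ∀ k ∈ Λ, p < Cell_cm ω Λ₀ α (k / 2 ^ α)) :
    ((Λ.image (· / (2 : ℤ) ^ α)).card : ℝ) ≤ M / p := by
  rw [le_div_iff₀ hp]
  set T := Λ.image (· / (2 : ℤ) ^ α) with hT
  calc (T.card : ℝ) * p = ∑ j ∈ T, p := by simp
    _ ≤ ∑ j ∈ T, Cell_cm ω Λ₀ α j := Finset.sum_le_sum fun j hj => by
        obtain ⟨k, hk, rfl⟩ := Finset.mem_image.1 hj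
        exact (hh k hk).le
    _ = ∑ k ∈ Λ₀ with k / (2 : ℤ) ^ α ∈ T, ‖ω k‖ := by
        unfold Cell_cm
        exact Finset.sum_fiberwise_eq_sum_filter Λ₀ T (· / (2 : ℤ) ^ α) _
    _ ≤ ∑ k ∈ Λ₀, ‖ω k‖ :=
        Finset.sum_le_sum_of_subset_of_nonneg (Finset.filter_subset _ _) fun _ _ _ => norm_nonneg _
    _ ≤ M := hM

theorem Cell_cos {r x : ℝ} (hr : 0 < r) (hx : |x| ≤ r / 2) :
    1 / 2 ≤ Real.cos (Real.pi * x / (2 * r)) ^ 2 := by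
  have hpi := Real.pi_pos
  have h1 : |Real.pi * x / (2 * r)| ≤ Real.pi / 4 := by
    rw [abs_div, abs_mul, abs_of_pos hpi, abs_of_pos (by positivity : 0 < 2 * r),
      div_le_iff₀ (by positivity)]
    nlinarith
  have h2 := Real.cos_le_cos_of_nonneg_of_le_pi (abs_nonneg _) (by linarith) h1
  rw [Real.cos_abs, Real.cos_pi_div_four] at h2
  have h3 : (√2 / 2) ^ 2 = (1 / 2 : ℝ) := by
    rw [div_pow, Real.sq_sqrt (by norm_num)]; norm_num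
  rw [← h3]
  gcongr

theorem Cell_win_le (a : ℝ →₀ ℂ) (ζ W : ℝ) : win a ζ W ≤ l1 a := by
  unfold win l1
  exact Finset.sum_le_sum_of_subset_of_nonneg (Finset.filter_subset _ _) fun _ _ _ => norm_nonneg _

theorem Cell_le_exp {x X : ℝ} (hX : 0 < X) (h1 : x ≤ 1) (h2 : x ≤ X) :
    x ≤ Real.exp (-max 0 (-Real.log X)) := by
  rcases max_choice 0 (-Real.log X) with h | h <;> rw [h]
  · simpa using h1
  · rwa [neg_neg, Real.exp_log hX]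

theorem Cell_lp_union (ω : ℤ → ℂ) {Λ Λ' : Finset ℤ} (h : Disjoint Λ Λ') (r y : ℝ) :
    lp ω (Λ ∪ Λ') r y = lp ω Λ r y + lp ω Λ' r y := Finset.sum_union h

theorem Cell_int_lp {φ : ℝ → ℝ} {z : Nd} (hφ : IntegrableOn φ (I z)) (ω : ℤ → ℂ) (Λ : Finset ℤ)
    (r : ℝ) : IntegrableOn (fun y => φ y * ‖lp ω Λ r y‖) (I z) :=
  Integrable.mul_bdd hφ (continuous_lp ω Λ r).norm.aestronglyMeasurable
    (Filter.Eventually.of_forall fun y => by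
      rw [norm_norm]; exact norm_lp_le ω Λ r y)

/-- steps 2 and 3: the collision-free sub-family -/
theorem Cell_select {N : Finset Nd} {D : ℕ} (hcl : ∀ v ∈ N, ∀ u, u <:+ v → u ∈ N)
    (hD : ∀ v ∈ N, v.length + 2 ≤ D) {z : Nd} (hz : z ∈ N) {φ : ℝ → ℝ} (hφ0 : ∀ y, 0 ≤ φ y)
    (hφ : IntegrableOn φ (I z)) {H M₀ Q ε κ : ℝ} (hH0 : 0 ≤ H) (hdens : ∀ u ∈ N, z <:+ u → avr u φ ≤ H)
    (hM₀ : 0 < M₀) (hφM : ∫ y in I z, φ y ≤ M₀) (hQ : 1 ≤ Q) (hHM : H * len z ≤ Q * M₀)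
    (hε : 0 < ε) (hκ : 1 ≤ 40 * κ * Q ^ 2) (ω : ℤ → ℂ) (Λ₀ : Finset ℤ)
    (h1 : ∑ k ∈ Λ₀, ‖ω k‖ ≤ 4) (h2 : ∑ k ∈ Λ₀, ‖ω k‖ ^ 2 ≤ ε ^ 2)
    (hc : 3 * κ * M₀ ≤ ∫ y in I z, φ y * ‖lp ω Λ₀ (len z) y‖) :
    ∃ Λ ⊆ Λ₀, ∃ S : Finset ℕ,
      (∀ k ∈ Λ, ∀ ℓ ∈ S, ∀ g ≤ ℓ, Cell_cm ω Λ₀ g (k / 2 ^ g) ≤ 4 * 10 ^ 24 * Q ^ 22 * ε ^ 2) ∧
      κ ^ 5 ≤ 1542 * ∑ k ∈ Λ, ‖ω k‖ ∧
      0 < ∫ y in ⋃ ℓ ∈ S, Cell_O N z ℓ, φ y * ‖lp ω Λ (len z) y‖ ∧
      κ * √(M₀ * ∫ y in ⋃ ℓ ∈ S, Cell_O N z ℓ, φ y) * ∑ k ∈ Λ, ‖ω k‖ ≤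
        1100 * ∫ y in ⋃ ℓ ∈ S, Cell_O N z ℓ, φ y * ‖lp ω Λ (len z) y‖ := by
  classical
  have hQ0 : 0 < Q := by linarith
  have hκ0 : 0 < κ := by
    by_contra h
    have : 40 * κ * Q ^ 2 ≤ 0 := mul_nonpos_of_nonpos_of_nonneg (by linarith) (by positivity)
    linarith
  set p : ℝ := 4 * 10 ^ 24 * Q ^ 22 * ε ^ 2 with hp
  have hp0 : 0 < p := by positivity
  have hex : ∀ k : ℤ, ∃ ℓ, p < Cell_cm ω Λ₀ ℓ (k / 2 ^ ℓ) ∨ ℓ = D + 1 := fun k =>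
    ⟨D + 1, Or.inr rfl⟩
  have hint := fun Λ => Cell_int_lp hφ ω Λ (len z)
  have hcor0 : ∀ Λ y, 0 ≤ φ y * ‖lp ω Λ (len z) y‖ := fun Λ y => mul_nonneg (hφ0 y) (norm_nonneg _)
  have hle : ∀ (Λ : Finset ℤ) ℓ, (∫ y in Cell_O N z ℓ, φ y * ‖lp ω Λ (len z) y‖) / M₀ ≤
      (∑ k ∈ Λ, ‖ω k‖) * ((∫ y in Cell_O N z ℓ, φ y) / M₀) := by
    intro Λ ℓ
    rw [← mul_div_assoc, ← integral_const_mul]
    refine div_le_div_of_nonneg_right ?_ hM₀.le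
    refine setIntegral_mono ((hint Λ).mono_set (Cell_O_sub ℓ))
      (Integrable.const_mul (hφ.mono_set (Cell_O_sub ℓ)) _) fun y => ?_
    simp only
    rw [mul_comm]
    exact mul_le_mul_of_nonneg_right (norm_lp_le ω Λ _ y) (hφ0 y)
  have hμ1 : ∑ ℓ ∈ Finset.range (D + 1), (∫ y in Cell_O N z ℓ, φ y) / M₀ ≤ 1 := by
    rw [← Finset.sum_div, Cell_sum_O hcl _ hφ, Cell_O_cover hz hD, div_le_one hM₀]
    exact hφM
  have hμ0 : ∀ ℓ, 0 ≤ (∫ y in Cell_O N z ℓ, φ y) / M₀ := fun ℓ =>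
    div_nonneg (integral_nonneg hφ0) hM₀.le
  obtain ⟨Λ, hΛ, S, hS, hlev, hk5, hcs⟩ := extremal Λ₀ (fun k => ‖ω k‖) (fun k => norm_nonneg _) h1
    (fun k => Nat.find (hex k)) (Finset.range (D + 1))
    (fun ℓ => (∫ y in Cell_O N z ℓ, φ y) / M₀) hμ0 hμ1
    (fun Λ ℓ => (∫ y in Cell_O N z ℓ, φ y * ‖lp ω Λ (len z) y‖) / M₀)
    (fun Λ ℓ => div_nonneg (integral_nonneg (hcor0 Λ)) hM₀.le)
    (fun Λ Λ' ℓ hd => by
      rw [← add_div, ← integral_add ((hint Λ).mono_set (Cell_O_sub ℓ))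
        ((hint Λ').mono_set (Cell_O_sub ℓ))]
      refine div_le_div_of_nonneg_right ?_ hM₀.le
      refine setIntegral_mono ((hint _).mono_set (Cell_O_sub ℓ))
        (((hint Λ).mono_set (Cell_O_sub ℓ)).add ((hint Λ').mono_set (Cell_O_sub ℓ))) fun y => ?_
      simp only
      rw [← mul_add, Cell_lp_union ω hd]
      exact mul_le_mul_of_nonneg_left (norm_add_le _ _) (hφ0 y))
    hle (ν := 6 / 10 ^ 12 / Q ^ 10) hκ0
    (by
      rw [← Finset.sum_div, Cell_sum_O hcl _ (hint _), Cell_O_cover hz hD, le_div_iff₀ hM₀]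
      exact hc)
    (fun α Λ hΛ S hS hlev hα hne => by
      obtain ⟨ℓ₀, hℓ₀⟩ := hne
      have hαD : α ≤ D := by
        have := hα ℓ₀ hℓ₀
        have := Finset.mem_range.1 (hS hℓ₀)
        omega
      have hh : ∀ k ∈ Λ, p < Cell_cm ω Λ₀ α (k / 2 ^ α) := fun k hk => by
        have h3 := hlev k hk
        rcases Nat.find_spec (hex k) with h4 | h4
        · exact h4.trans_le (Cell_cm_mono ω Λ₀ k h3)
        · omega
      have hK := Cell_card_heavy ω α hp0 h1 hh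
      have hv := heavy ω Λ z α hφ0 hφ hH0 ((below α z).filter (· ∈ N)) (Finset.filter_subset _ _)
        (fun u hu => hdens u (Finset.mem_filter.1 hu).2
          (mem_below.1 (Finset.mem_filter.1 hu).1).2) hK
      rw [← Cell_int_A α (hint Λ)] at hv
      rw [← Finset.sum_div, Cell_sum_O hcl _ (hint _), div_le_iff₀ hM₀]
      have h5 : ∫ y in ⋃ ℓ ∈ S, Cell_O N z ℓ, φ y * ‖lp ω Λ (len z) y‖ ≤
          ∫ y in Cell_A N z α, φ y * ‖lp ω Λ (len z) y‖ :=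
        setIntegral_mono_set ((hint Λ).mono_set (Cell_A_sub α))
          (Filter.Eventually.of_forall (hcor0 Λ))
          (LE.le.eventuallyLE (iUnion₂_subset fun ℓ hℓ =>
            sdiff_subset.trans (Cell_A_anti hcl (hα ℓ hℓ))))
      have h6 : √(4 / p) = 1 / (10 ^ 12 * Q ^ 11 * ε) := by
        rw [Real.sqrt_eq_iff_mul_self_eq (by positivity) (by positivity), hp]
        field_simp
      have h7 : √(∑ k ∈ Λ, ‖ω k‖ ^ 2) ≤ ε := by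
        rw [Real.sqrt_le_left hε.le]
        exact (Finset.sum_le_sum_of_subset_of_nonneg hΛ fun _ _ _ => by positivity).trans h2
      refine h5.trans (hv.trans ?_)
      rw [h6]
      calc 6 * H * len z * (1 / (10 ^ 12 * Q ^ 11 * ε)) * √(∑ k ∈ Λ, ‖ω k‖ ^ 2)
          = 6 * (H * len z) * (1 / (10 ^ 12 * Q ^ 11 * ε)) * √(∑ k ∈ Λ, ‖ω k‖ ^ 2) := by ring
        _ ≤ 6 * (Q * M₀) * (1 / (10 ^ 12 * Q ^ 11 * ε)) * ε := by gcongr
        _ = 6 / 10 ^ 12 / Q ^ 10 * M₀ := by field_simp)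
    (by
      have h3 : 1 ≤ (40 * κ * Q ^ 2) ^ 5 := one_le_pow₀ hκ
      have h4 : 0 < Q ^ 10 := by positivity
      rw [← mul_div_assoc, div_le_iff₀ h4]
      have h5 : (40 * κ * Q ^ 2) ^ 5 = 40 ^ 5 * (κ ^ 5 * Q ^ 10) := by ring
      rw [h5] at h3
      norm_num at h3 ⊢
      linarith)
  have hμS : ∑ ℓ ∈ S, (∫ y in Cell_O N z ℓ, φ y) / M₀ ≤ 1 :=
    (Finset.sum_le_sum_of_subset_of_nonneg hS fun ℓ _ _ => hμ0 ℓ).trans hμ1
  have hCl : ∑ ℓ ∈ S, (∫ y in Cell_O N z ℓ, φ y * ‖lp ω Λ (len z) y‖) / M₀ ≤ ∑ k ∈ Λ, ‖ω k‖ := by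
    calc _ ≤ ∑ ℓ ∈ S, (∑ k ∈ Λ, ‖ω k‖) * ((∫ y in Cell_O N z ℓ, φ y) / M₀) :=
          Finset.sum_le_sum fun ℓ _ => hle Λ ℓ
      _ = (∑ k ∈ Λ, ‖ω k‖) * ∑ ℓ ∈ S, (∫ y in Cell_O N z ℓ, φ y) / M₀ := by rw [Finset.mul_sum]
      _ ≤ (∑ k ∈ Λ, ‖ω k‖) * 1 := by gcongr
      _ = _ := mul_one _
  refine ⟨Λ, hΛ, S, fun k hk ℓ hℓ g hg => ?_, by linarith, ?_, ?_⟩
  · have h3 := hlev k hk ℓ hℓ
    have h4 := Nat.find_min (hex k) (m := g) (by omega)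
    exact not_lt.1 fun h => h4 (Or.inl h)
  · rw [← Finset.sum_div, Cell_sum_O hcl _ (hint _)] at hk5
    have h3 : 0 < κ ^ 5 := by positivity
    have h4 : 0 < (∫ y in ⋃ ℓ ∈ S, Cell_O N z ℓ, φ y * ‖lp ω Λ (len z) y‖) / M₀ := by linarith
    exact (div_pos_iff_of_pos_right hM₀).1 h4
  · rw [← Finset.sum_div, ← Finset.sum_div, Cell_sum_O hcl _ (hint _), Cell_sum_O hcl _ hφ] at hcs
    set J := ∫ y in ⋃ ℓ ∈ S, Cell_O N z ℓ, φ y with hJ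
    have h3 : √(M₀ * J) = M₀ * √(J / M₀) := by
      rw [show M₀ * J = M₀ ^ 2 * (J / M₀) by field_simp, Real.sqrt_mul (by positivity),
        Real.sqrt_sq hM₀.le]
    rw [← mul_div_assoc, le_div_iff₀ hM₀] at hcs
    rw [h3]
    linarith

theorem piece_of_cell {f : ℝ → ℂ} {H d : ℝ} {N : Finset Nd} {D : ℕ} (hM : Model f H d N D)
    {z : Nd} (hz : z ∈ N) {E : Set ℝ} (hE : MeasurableSet E) (a : ℝ →₀ ℂ) (ha : l1 a ≤ 1)
    {m θ ε Q : ℝ} (hm : 0 < m) (hε : 0 < ε) (hQ : 1 ≤ Q) (hH : H ≤ Q * m) (hθ : 1 ≤ θ * Q ^ 2)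
    (h2 : (2 * len z)⁻¹ * ∫ y in Ico (lft z + len z / 2 - len z) (lft z + len z / 2 + len z),
      ‖tp a y‖ ^ 2 ≤ ε ^ 2)
    (hc : θ * (m * len z + ∫ y in I z, ‖E.indicator f y‖) ≤
      6 * ∫ y in I z, ‖E.indicator f y‖ * ‖tp a y‖) :
    ∃ E' ⊆ E ∩ I z, ∃ (a' : ℝ →₀ ℂ) (t' : ℝ),
      Piece N z E' a' (max 0 (-Real.log (10 ^ 37 * Q ^ 32 * ε ^ 2))) t' ∧
      θ * √m ≤ 200000 * t' * √(ms f E' z) ∧
      ms f E' z * t' ^ 2 ≤ 2 * Real.exp d * (10 ^ 37 * Q ^ 32 * ε ^ 2) := by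
  classical
  have hQ0 : 0 < Q := by linarith
  have hθ0 : 0 < θ := by
    by_contra h
    have : θ * Q ^ 2 ≤ 0 := mul_nonpos_of_nonpos_of_nonneg (by linarith) (by positivity)
    linarith
  set r := len z with hr
  have hr0 : 0 < r := len_pos z
  set c := lft z + r / 2 with hcdef
  set φ : ℝ → ℝ := fun y => ‖E.indicator f y‖ with hφdef
  have hφ0 : ∀ y, 0 ≤ φ y := fun y => norm_nonneg _
  have hφf : ∀ y, φ y ≤ ‖f y‖ := fun y => norm_indicator_le_norm_self f y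
  have hφI : ∀ u, IntegrableOn φ (I u) := fun u => (hM.bm.indicator hE).integrableOn_norm u
  have hφ := hφI z
  have hJ0 : 0 ≤ ∫ y in I z, φ y := integral_nonneg hφ0
  set M₀ := m * r + ∫ y in I z, φ y with hM₀
  have hmr : 0 < m * r := by positivity
  have hM0 : 0 < M₀ := by linarith
  have hH0 : 0 ≤ H := (avr_nonneg fun y => norm_nonneg _).trans (hM.dens z hz)
  have hIc : ∀ y ∈ I z, |y - c| ≤ r / 2 := fun y hy => by
    have h1 := hy.1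
    have h2 := hy.2
    rw [abs_le]
    constructor <;> linarith
  obtain ⟨Λ₀, ω, hw1, hw2, hw3⟩ := window a c hr0 (show 0 < θ / 200 by positivity)
  have hc' : 3 * (θ / 40) * M₀ ≤ ∫ y in I z, φ y * ‖lp ω Λ₀ r y‖ := by
    have hi1 : IntegrableOn (fun y => φ y * ‖tp a y‖) (I z) :=
      Integrable.mul_bdd hφ (continuous_tp a).norm.aestronglyMeasurable
        (Filter.Eventually.of_forall fun y => by rw [norm_norm]; exact norm_tp_le a y)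
    have h3 : ∫ y in I z, (1 / 2 * (φ y * ‖tp a y‖) - θ / 200 * φ y) ≤
        ∫ y in I z, φ y * ‖lp ω Λ₀ r y‖ := by
      refine setIntegral_mono_on ((hi1.const_mul _).sub (hφ.const_mul _))
        (Cell_int_lp hφ ω Λ₀ r) (measurableSet_I z) fun y hy => ?_
      have h4 := hw3 y ((hIc y hy).trans (by linarith))
      have h5 := Cell_cos hr0 (hIc y hy)
      have h6 := norm_sub_norm_le
        (((Real.cos (Real.pi * (y - c) / (2 * r)) ^ 2 : ℝ) : ℂ) * tp a y) (lp ω Λ₀ r y)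
      rw [norm_mul, Complex.norm_real, Real.norm_eq_abs, abs_of_nonneg (by positivity)] at h6
      have h7 : 1 / 2 * ‖tp a y‖ - θ / 200 ≤ ‖lp ω Λ₀ r y‖ := by
        have : 1 / 2 * ‖tp a y‖ ≤ Real.cos (Real.pi * (y - c) / (2 * r)) ^ 2 * ‖tp a y‖ := by
          gcongr
        unfold lp at h6 ⊢
        linarith
      nlinarith [hφ0 y]
    rw [integral_sub (hi1.const_mul _) (hφ.const_mul _), integral_const_mul,
      integral_const_mul] at h3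
    have h4 : θ * ∫ y in I z, φ y ≤ θ * M₀ := by gcongr; linarith
    have h5 : 0 < θ * M₀ := by positivity
    linarith
  obtain ⟨Λ, hΛ, S, hlight, hk5, hpos, hcs⟩ := Cell_select hM.closed hM.depth hz hφ0 hφ hH0
    (fun u hu _ => (avr_mono (hφI u) (hM.bm.integrableOn_norm u) fun y _ => hφf y).trans
      (hM.dens u hu)) hM0 (by linarith) hQ
    (by
      calc H * len z ≤ Q * m * r := by gcongr
        _ = Q * (m * r) := by ring
        _ ≤ Q * M₀ := by gcongr; linarith) hε (κ := θ / 40) (by linarith) ω Λ₀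
    (by linarith) (hw2.trans h2) hc'
  set lam := ∑ k ∈ Λ, ‖ω k‖ with hlam
  have hκ5 : 0 < (θ / 40) ^ 5 := by positivity
  have hlam0 : 0 < lam := by linarith
  have hlaminv : 1 ≤ 2 * 10 ^ 11 * Q ^ 10 * lam := by
    have h3 : 1 ≤ (θ * Q ^ 2) ^ 5 := one_le_pow₀ hθ
    have h4 : (θ * Q ^ 2) ^ 5 = 40 ^ 5 * (θ / 40) ^ 5 * Q ^ 10 := by ring
    have h5 : 40 ^ 5 * (θ / 40) ^ 5 * Q ^ 10 ≤ 40 ^ 5 * (1542 * lam) * Q ^ 10 := by gcongr
    have h6 : 0 ≤ Q ^ 10 * lam := by positivity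
    nlinarith
  set A := ⋃ ℓ ∈ S, Cell_O N z ℓ with hA
  have hAm : MeasurableSet A := Finset.measurableSet_biUnion _ fun ℓ _ => Cell_meas_O ℓ
  have hAI : A ⊆ I z := iUnion₂_subset fun ℓ _ => Cell_O_sub ℓ
  have hn : ∀ k, ‖ω k / (lam : ℂ)‖ = ‖ω k‖ / lam := fun k => by
    rw [norm_div, Complex.norm_real, Real.norm_eq_abs, abs_of_pos hlam0]
  obtain ⟨a', ha1, ha2, ha3⟩ := lp_window (fun k => ω k / (lam : ℂ)) Λ hr0
  have ha1' : l1 a' = 1 := by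
    rw [ha1]
    simp only [hn]
    rw [← Finset.sum_div, div_self hlam0.ne']
  have hψ : ∀ y, ‖tp a' y‖ = ‖lp ω Λ r y‖ / lam := fun y => by
    have : tp a' y = lp ω Λ r y / (lam : ℂ) := by
      rw [ha2]
      unfold lp
      rw [Finset.sum_div]
      exact Finset.sum_congr rfl fun k _ => by ring
    rw [this, norm_div, Complex.norm_real, Real.norm_eq_abs, abs_of_pos hlam0]
  have hψm : Measurable fun y => ‖tp a' y‖ := (continuous_tp a').norm.measurable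
  have hψ1 : ∀ y, ‖tp a' y‖ ≤ 1 := fun y => ha1' ▸ norm_tp_le a' y
  have hint : ∫ y in A, φ y * ‖tp a' y‖ = (∫ y in A, φ y * ‖lp ω Λ r y‖) / lam := by
    rw [← integral_div]
    simp only [hψ, mul_div_assoc]
  obtain ⟨t, ht0, ht1, ht⟩ := level_set hAm hφ0 (hφ.mono_set hAI) hψm (fun y => norm_nonneg _) hψ1
    (κ := θ / 40 / 1100) (M := M₀) (by positivity) hM0.le
    (by
      rw [hint, le_div_iff₀ hlam0]
      linarith)
    (by rw [hint]; exact div_pos hpos hlam0)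
  set T := A ∩ {y | t ≤ ‖tp a' y‖} with hT
  have hTm : MeasurableSet T := hAm.inter (measurableSet_le measurable_const hψm)
  have hTI : T ⊆ I z := inter_subset_left.trans hAI
  set J := ∫ y in T, φ y with hJ
  have hJ0' : 0 ≤ J := integral_nonneg hφ0
  have hms : ms f (E ∩ T) z = r⁻¹ * J := by
    unfold ms avr
    congr 1
    have : (fun y => ‖(E ∩ T).indicator f y‖) = T.indicator φ := by
      funext y
      by_cases hy : y ∈ T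
      · rw [indicator_of_mem hy, hφdef]
        by_cases hy' : y ∈ E
        · simp [hy, hy']
        · simp [hy']
      · simp [hy]
    rw [this, setIntegral_indicator hTm, inter_eq_self_of_subset_right hTI]
  set X := 10 ^ 37 * Q ^ 32 * ε ^ 2 with hX
  have hX0 : 0 < X := by positivity
  refine ⟨E ∩ T, inter_subset_inter_right _ hTI, a', t,
    ⟨hE.inter hTm, ha1'.le, ht0, ht1, le_max_left _ _, fun y hy => hy.2.2, ?_⟩, ?_, ?_⟩
  · rintro u hu hzu ⟨y, hy, hyu⟩ ζ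
    obtain ⟨ℓ, hℓ, hyO⟩ := mem_iUnion₂.1 hy.2.1
    have hlen := hzu.length_le
    set g := u.length - z.length with hg
    have hyA : y ∈ Cell_A N z g := Cell_mem_A.2 ⟨u, mem_below.2 ⟨by omega, hzu⟩, hu, hyu⟩
    have hgl : g ≤ ℓ := by
      by_contra hcon
      exact hyO.2 (Cell_A_anti hM.closed (by omega) hyA)
    have hw := ha3 g (4 * 10 ^ 24 * Q ^ 22 * ε ^ 2 / lam) (by positivity) (fun j => by
      simp only [hn]
      rw [← Finset.sum_div]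
      refine div_le_div_of_nonneg_right ?_ hlam0.le
      rcases (Λ.filter fun k => k / (2 : ℤ) ^ g = j).eq_empty_or_nonempty with h | ⟨k, hk⟩
      · rw [h, Finset.sum_empty]; positivity
      · rw [Finset.mem_filter] at hk
        refine le_trans ?_ (hlight k hk.1 ℓ hℓ g hgl)
        rw [hk.2]
        exact Finset.sum_le_sum_of_subset_of_nonneg (Finset.filter_subset_filter _ hΛ)
          fun _ _ _ => norm_nonneg _) ζ
    rw [hr, ← len_eq_of_le hlen] at hw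
    refine Cell_le_exp hX0 (ha1' ▸ Cell_win_le a' ζ _) (hw.trans ?_)
    rw [← mul_div_assoc, div_le_iff₀ hlam0, hX]
    have h3 : 0 ≤ Q ^ 22 * ε ^ 2 := by positivity
    have h4 : Q ^ 22 * ε ^ 2 * 1 ≤ Q ^ 22 * ε ^ 2 * (2 * 10 ^ 11 * Q ^ 10 * lam) := by gcongr
    have h5 : 0 ≤ Q ^ 22 * ε ^ 2 * (Q ^ 10 * lam) := by positivity
    nlinarith
  · have h3 : √J = √r * √(ms f (E ∩ T) z) := by
      rw [← Real.sqrt_mul hr0.le, hms, ← mul_assoc, mul_inv_cancel₀ hr0.ne', one_mul]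
    have h4 : √m * √r ≤ √M₀ := by
      rw [← Real.sqrt_mul hm.le]
      exact Real.sqrt_le_sqrt (by linarith)
    have h5 : 0 < √r := Real.sqrt_pos.2 hr0
    rw [h3] at ht
    have h6 : θ * (√m * √r) ≤ θ * √M₀ := by gcongr
    have h7 : 0 ≤ t * (√r * √(ms f (E ∩ T) z)) := by positivity
    refine le_of_mul_le_mul_right ?_ h5
    nlinarith
  · have hsq : IntegrableOn (fun y => ‖tp a' y‖ ^ 2) (Ico (c - r) (c + r)) :=
      ((continuous_tp a').norm.pow 2).integrableOn_Icc.mono_set Ico_subset_Icc_self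
    have hTs : T ⊆ Ico (c - r) (c + r) := fun y hy => by
      have := abs_le.1 (hIc y (hTI hy))
      constructor <;> linarith
    have h3 : J * t ^ 2 ≤ Real.exp d * ∫ y in T, ‖tp a' y‖ ^ 2 := by
      rw [hJ, ← integral_mul_const, ← integral_const_mul]
      refine setIntegral_mono_on ((hφ.mono_set hTI).mul_const _)
        ((hsq.mono_set hTs).const_mul _) hTm fun y hy => ?_
      have h4 : t ≤ ‖tp a' y‖ := hy.2
      have h5 := (hφf y).trans (hM.bd y)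
      have h6 := hφ0 y
      gcongr
    have h4 : ∫ y in T, ‖tp a' y‖ ^ 2 ≤ ∫ y in Ico (c - r) (c + r), ‖tp a' y‖ ^ 2 :=
      setIntegral_mono_set hsq (Filter.Eventually.of_forall fun y => by positivity)
        hTs.eventuallyLE
    have h5 : ∫ y in Ico (c - r) (c + r), ‖tp a' y‖ ^ 2 ≤ 2 * r * X := by
      simp only [ha2]
      rw [lp_parseval _ _ _ hr0]
      gcongr
      simp only [hn, div_pow]
      rw [← Finset.sum_div, div_le_iff₀ (by positivity)]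
      have h6 : ∑ k ∈ Λ, ‖ω k‖ ^ 2 ≤ ε ^ 2 :=
        (Finset.sum_le_sum_of_subset_of_nonneg hΛ fun _ _ _ => by positivity).trans (hw2.trans h2)
      refine h6.trans ?_
      have h7 : 1 ≤ (2 * 10 ^ 11 * Q ^ 10 * lam) ^ 2 := one_le_pow₀ hlaminv
      have h8 : Q ^ 20 ≤ Q ^ 32 := pow_le_pow_right₀ hQ (by norm_num)
      have h9 : Q ^ 20 * lam ^ 2 ≤ Q ^ 32 * lam ^ 2 := by gcongr
      have h10 : 1 ≤ 10 ^ 37 * (Q ^ 32 * lam ^ 2) := by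
        have : 0 ≤ Q ^ 32 * lam ^ 2 := by positivity
        nlinarith
      calc ε ^ 2 = ε ^ 2 * 1 := (mul_one _).symm
        _ ≤ ε ^ 2 * (10 ^ 37 * (Q ^ 32 * lam ^ 2)) := by gcongr
        _ = X * lam ^ 2 := by rw [hX]; ring
    rw [hms, mul_assoc, inv_mul_le_iff₀ hr0]
    calc J * t ^ 2 ≤ Real.exp d * (2 * r * X) := h3.trans (by gcongr; exact h4.trans h5)
      _ = _ := by ring

end Crest.Agent.R100
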