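import Crest.Agent.R100.Level

/-!
# R100/Core: the form of a run  (task)

`sum_reg` with `J` such that `D 2^{-J} ≤ 1`, `level_le` at `β_j = τ 2^{-(j+1)}`, and
`∑_j β_j ≤ τ`, `∑_j β_j log(τ/β_j) ≤ 2τ`, `∑_j β_j log⁺(2B₀/β_j) ≤ 14 B₀` (`core_num`: terms with
`β_j ≥ 2B₀` vanish; otherwise `log y ≤ 2√y`, a geometric sum; any proof of a bound `≤ 10⁷·…` that
keeps the final constant is fine).
`Y_quo`: `E.indicator f = m · quo · tp a` (on `E` the polynomial does not vanish), linearity of `co`,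
`ex c y * ex (-ξ) y = ex (-(ξ - c)) y`.
-/

set_option autoImplicit false
open MeasureTheory Set

namespace Crest.Agent.R100

theorem Core_small {A : ℝ} (hA : 0 < A) (J : ℕ) : ∀ τ : ℝ, 0 < τ → τ ≤ 2 * A →
    ∑ j ∈ Finset.range J, τ * (1 / 2) ^ (j + 1) * max 0 (Real.log (A / (τ * (1 / 2) ^ (j + 1)))) ≤
      τ * (Real.log (A / τ) + 2) := by
  have hl2 : Real.log 2 ≤ 1 := by
    have := Real.log_le_sub_one_of_pos (show (0 : ℝ) < 2 by norm_num)
    linarith
  have hhalf : ∀ τ : ℝ, 0 < τ → Real.log (A / (τ / 2)) = Real.log (A / τ) + Real.log 2 := by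
    intro τ hτ
    rw [← Real.log_mul (div_pos hA hτ).ne' two_ne_zero]
    congr 1
    field_simp
  have hnn : ∀ τ : ℝ, 0 < τ → τ ≤ 2 * A → 0 ≤ Real.log (A / (τ / 2)) := fun τ hτ h =>
    Real.log_nonneg ((one_le_div (by positivity)).2 (by linarith))
  induction J with
  | zero =>
    intro τ hτ h
    have h1 := hnn τ hτ h
    rw [hhalf τ hτ] at h1
    rw [Finset.sum_range_zero]
    exact mul_nonneg hτ.le (by linarith)
  | succ J ih =>
    intro τ hτ h
    have h1 := ih (τ / 2) (by positivity) (by linarith)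
    rw [Finset.sum_range_succ']
    have e : ∀ j : ℕ, τ * (1 / 2) ^ (j + 1 + 1) = τ / 2 * (1 / 2) ^ (j + 1) := fun j => by ring
    have e0 : τ * (1 / 2) ^ (0 + 1) = τ / 2 := by ring
    simp only [e, e0]
    rw [max_eq_right (hnn τ hτ h)]
    rw [hhalf τ hτ] at h1 ⊢
    nlinarith

theorem Core_all {A : ℝ} (hA : 0 < A) (J : ℕ) : ∀ τ : ℝ, 0 < τ →
    ∑ j ∈ Finset.range J, τ * (1 / 2) ^ (j + 1) * max 0 (Real.log (A / (τ * (1 / 2) ^ (j + 1)))) ≤
      3 * A := by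
  induction J with
  | zero =>
    intro τ _
    rw [Finset.sum_range_zero]
    positivity
  | succ J ih =>
    intro τ hτ
    rcases le_total τ (2 * A) with h | h
    · refine (Core_small hA _ τ hτ h).trans ?_
      have h1 := mul_le_mul_of_nonneg_left (Real.log_le_sub_one_of_pos (div_pos hA hτ)) hτ.le
      have h2 : τ * (A / τ - 1) = A - τ := by field_simp
      rw [h2] at h1
      linarith
    · have h1 := ih (τ / 2) (by positivity)
      rw [Finset.sum_range_succ']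
      have e : ∀ j : ℕ, τ * (1 / 2) ^ (j + 1 + 1) = τ / 2 * (1 / 2) ^ (j + 1) := fun j => by ring
      have e0 : τ * (1 / 2) ^ (0 + 1) = τ / 2 := by ring
      simp only [e, e0]
      have h2 : Real.log (A / (τ / 2)) ≤ 0 :=
        Real.log_nonpos (by positivity) ((div_le_one (by positivity)).2 (by linarith))
      rw [max_eq_left h2]
      linarith

theorem Core_geom (J : ℕ) : ∑ j ∈ Finset.range J, (1 / 2 : ℝ) ^ (j + 1) = 1 - (1 / 2) ^ J := by
  induction J with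
  | zero => simp
  | succ J ih => rw [Finset.sum_range_succ, ih]; ring

theorem Core_geom' (J : ℕ) : ∑ j ∈ Finset.range J, (1 / 2 : ℝ) ^ (j + 1) * ((j : ℝ) + 1) =
    2 - ((J : ℝ) + 2) * (1 / 2) ^ J := by
  induction J with
  | zero => simp
  | succ J ih => rw [Finset.sum_range_succ, ih]; push_cast; ring

theorem core_num {τ : ℝ} (hτ : 0 < τ) (J : ℕ) :
    ∑ j ∈ Finset.range J, τ * (1 / 2) ^ (j + 1) *
      max 0 (Real.log (2 * B0 / (τ * (1 / 2) ^ (j + 1)))) ≤ 14 * B0 := by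
  have hB : (0 : ℝ) < B0 := by unfold B0; positivity
  have := Core_all (A := 2 * B0) (by positivity) J τ hτ
  linarith

theorem core {w : Nd} {R B : Finset Nd} {P : ℝ} {D : ℕ} {F : Nd → ℝ → ℂ} {τ G : ℝ} {n : ℕ}
    (h : Run w R B P D F τ G n) (hP : 0 ≤ P) (hG : 0 ≤ G) (hn : 1 ≤ n) (hτ : 1 ≤ τ)
    (a : ℝ →₀ ℂ) (ha : l1 a ≤ 1)
    (hw : ∀ v ∈ R, (∃ y ∈ I v, F v y ≠ 0) → ∀ ζ, win a ζ (len v)⁻¹ ≤ Real.exp (-G))
    (fr : Nd → ℝ) :
    ∑ x ∈ lv D w, len x * ∑ c ∈ a.support, ‖a c‖ * ‖Y (R \ B) F x (fr x - c)‖ ≤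
      10 ^ 12 * (n + τ * (1 + P + Real.log (2 + G + n))) * len w := by
  have hτ0 : 0 < τ := by linarith
  have hn' : (1 : ℝ) ≤ n := by exact_mod_cast hn
  set L := Real.log (2 + G + n) with hL
  have hL0 : 0 ≤ L := Real.log_nonneg (by linarith)
  have hlw := (len_pos w).le
  have hD : (D : ℝ) * (τ * (1 / 2) ^ D) ≤ τ := by
    have h1 : (D : ℝ) ≤ 2 ^ D := by exact_mod_cast Nat.lt_two_pow_self.le
    have h2 : (D : ℝ) * (τ * (1 / 2) ^ D) = τ * (D / 2 ^ D) := by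
      rw [one_div, inv_pow]; ring
    rw [h2]
    exact mul_le_of_le_one_right hτ0.le ((div_le_one (by positivity)).2 h1)
  set T : ℕ → Nd → ℝ → ℝ := fun j x c =>
    ‖∑ v ∈ reg R B F (τ * (1 / 2) ^ (j + 1)) x (fr x - c),
      (sg v x : ℂ) * gam (vl F (fr x - c)) v‖ with hT
  have h1 : ∑ x ∈ lv D w, len x * ∑ c ∈ a.support, ‖a c‖ * ‖Y (R \ B) F x (fr x - c)‖ ≤
      ∑ x ∈ lv D w, (len x * τ +
        ∑ j ∈ Finset.range D, len x * ∑ c ∈ a.support, ‖a c‖ * T j x c) := by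
    refine Finset.sum_le_sum fun x _ => ?_
    rw [← Finset.mul_sum, ← mul_add]
    refine mul_le_mul_of_nonneg_left ?_ (len_pos x).le
    rw [Finset.sum_comm]
    have h2 : ∑ c ∈ a.support, ‖a c‖ * τ ≤ τ := by
      rw [← Finset.sum_mul]
      exact mul_le_of_le_one_left hτ0.le ha
    refine le_trans ?_ (add_le_add_left h2 _)
    rw [← Finset.sum_add_distrib]
    refine Finset.sum_le_sum fun c _ => ?_
    rw [← Finset.mul_sum, ← mul_add]
    refine mul_le_mul_of_nonneg_left ?_ (norm_nonneg _)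
    exact (sum_reg h hτ0 x (fr x - c) D).trans (add_le_add_left hD _)
  refine h1.trans ?_
  rw [Finset.sum_add_distrib, ← Finset.sum_mul, sum_len_lv, Finset.sum_comm]
  have h3 : ∀ j ∈ Finset.range D, ∑ x ∈ lv D w, len x * ∑ c ∈ a.support, ‖a c‖ * T j x c ≤
      10 ^ 4 * len w * (τ * (1 + P + L) * (1 / 2) ^ (j + 1) +
        τ * ((1 / 2) ^ (j + 1) * ((j : ℝ) + 1)) + n * (τ * (1 / 2) ^ (j + 1) *
          max 0 (Real.log (2 * B0 / (τ * (1 / 2) ^ (j + 1)))))) := by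
    intro j _
    have hβ : 0 < τ * (1 / 2) ^ (j + 1) := by positivity
    have hβτ : τ * (1 / 2) ^ (j + 1) ≤ τ :=
      mul_le_of_le_one_right hτ0.le (pow_le_one₀ (by norm_num) (by norm_num))
    refine (level_le h hP hG hn hβ hβτ a ha hw fr).trans ?_
    have hlog : Real.log (τ / (τ * (1 / 2) ^ (j + 1))) ≤ (j : ℝ) + 1 := by
      have e : τ / (τ * (1 / 2) ^ (j + 1)) = 2 ^ (j + 1) := by
        rw [one_div, inv_pow]; field_simp
      have hl2 : Real.log 2 ≤ 1 := by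
        have := Real.log_le_sub_one_of_pos (show (0 : ℝ) < 2 by norm_num)
        linarith
      rw [e, Real.log_pow]
      push_cast
      exact mul_le_of_le_one_right (by positivity) hl2
    have h4 := mul_le_mul_of_nonneg_left hlog (mul_nonneg hβ.le hlw)
    rw [← hL]
    nlinarith
  have h5 := Finset.sum_le_sum h3
  rw [← Finset.mul_sum, Finset.sum_add_distrib, Finset.sum_add_distrib, ← Finset.mul_sum,
    ← Finset.mul_sum, ← Finset.mul_sum, Core_geom, Core_geom'] at h5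
  have h6 := core_num hτ0 D
  have hX : τ ≤ τ * (1 + P + L) := le_mul_of_one_le_right hτ0.le (by linarith)
  have h7 : τ * (1 + P + L) * (1 - (1 / 2) ^ D) ≤ τ * (1 + P + L) :=
    mul_le_of_le_one_right (by linarith) (by
      have : (0 : ℝ) ≤ (1 / 2) ^ D := by positivity
      linarith)
  have h8 : τ * (2 - ((D : ℝ) + 2) * (1 / 2) ^ D) ≤ τ * 2 :=
    mul_le_mul_of_nonneg_left (by
      have : (0 : ℝ) ≤ ((D : ℝ) + 2) * (1 / 2) ^ D := by positivity
      linarith) hτ0.le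
  have h9 := mul_le_mul_of_nonneg_left h6 (show (0 : ℝ) ≤ n by positivity)
  have h10 := mul_le_mul_of_nonneg_left (add_le_add (add_le_add h7 h8) h9)
    (show (0 : ℝ) ≤ 10 ^ 4 * len w by positivity)
  have h11 : τ + 10 ^ 4 * (τ * (1 + P + L) + τ * 2 + n * (14 * B0)) ≤
      10 ^ 12 * (n + τ * (1 + P + L)) := by
    unfold B0
    nlinarith
  have h12 := mul_le_mul_of_nonneg_right h11 hlw
  nlinarith

theorem Core_norm_quo_le {f : ℝ → ℂ} {E : Set ℝ} {a : ℝ →₀ ℂ} {t m : ℝ}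
    (ht : 0 < t) (hm : 0 < m) (hlow : ∀ y ∈ E, t ≤ ‖tp a y‖) (y : ℝ) :
    ‖quo f E a m y‖ ≤ (m * t)⁻¹ * ‖E.indicator f y‖ := by
  unfold quo
  by_cases hy : y ∈ E
  · rw [norm_div, norm_mul, Complex.norm_real, Real.norm_of_nonneg hm.le, ← div_eq_inv_mul]
    exact div_le_div_of_nonneg_left (norm_nonneg _) (mul_pos hm ht)
      (mul_le_mul_of_nonneg_left (hlow y hy) hm.le)
  · simp [hy]

theorem bm_quo {f : ℝ → ℂ} (hf : BM f) {E : Set ℝ} (hE : MeasurableSet E) {a : ℝ →₀ ℂ} {t m : ℝ}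
    (ht : 0 < t) (hm : 0 < m) (hlow : ∀ y ∈ E, t ≤ ‖tp a y‖) : BM (quo f E a m) := by
  obtain ⟨M, hM⟩ := (hf.indicator hE).2
  refine ⟨(hf.indicator hE).1.div (measurable_const.mul (bm_tp a).1), (m * t)⁻¹ * M, fun y => ?_⟩
  exact (Core_norm_quo_le ht hm hlow y).trans
    (mul_le_mul_of_nonneg_left (hM y) (by positivity))

theorem norm_quo_le {f : ℝ → ℂ} {E : Set ℝ} {a : ℝ →₀ ℂ} {t m : ℝ}
    (ht : 0 < t) (hm : 0 < m) (hlow : ∀ y ∈ E, t ≤ ‖tp a y‖) (y : ℝ) :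
    ‖quo f E a m y‖ ≤ (m * t)⁻¹ * ‖E.indicator f y‖ := by
  exact Core_norm_quo_le ht hm hlow y

theorem Core_co_quo {f : ℝ → ℂ} (hf : BM f) {E : Set ℝ} (hE : MeasurableSet E) {a : ℝ →₀ ℂ}
    {t m : ℝ} (ht : 0 < t) (hm : 0 < m) (hlow : ∀ y ∈ E, t ≤ ‖tp a y‖) (u : Nd) (ξ : ℝ) :
    co u (E.indicator f) ξ = m * ∑ c ∈ a.support, a c * co u (quo f E a m) (ξ - c) := by
  have hq := bm_quo hf hE ht hm hlow
  have key : ∀ y, E.indicator f y * ex (-ξ) y =
      ∑ c ∈ a.support, (m * a c) * (quo f E a m y * ex (-(ξ - c)) y) := by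
    intro y
    have h1 : E.indicator f y = m * tp a y * quo f E a m y := by
      unfold quo
      by_cases hy : y ∈ E
      · have h2 : tp a y ≠ 0 := norm_pos_iff.1 (ht.trans_le (hlow y hy))
        have h3 : (m : ℂ) ≠ 0 := by exact_mod_cast hm.ne'
        field_simp
      · simp [hy]
    rw [h1]
    conv_lhs => unfold tp
    rw [Finset.mul_sum, Finset.sum_mul, Finset.sum_mul]
    refine Finset.sum_congr rfl fun c _ => ?_
    rw [show -(ξ - c) = c + -ξ by ring, ex_add]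
    ring
  unfold co av
  simp only [key]
  rw [integral_finsetSum _ fun c _ => (integrableOn_co hq u (ξ - c)).const_mul _,
    Finset.mul_sum, Finset.mul_sum]
  refine Finset.sum_congr rfl fun c _ => ?_
  rw [integral_const_mul]
  ring

theorem Y_quo {f : ℝ → ℂ} (hf : BM f) (S : Finset Nd) (E : Nd → Set ℝ)
    (hE : ∀ v, MeasurableSet (E v)) {a : ℝ →₀ ℂ} {t m : ℝ} (ht : 0 < t) (hm : 0 < m)
    (hlow : ∀ v, ∀ y ∈ E v, t ≤ ‖tp a y‖) (x : Nd) (ξ : ℝ) :
    Y S (fun v => (E v).indicator f) x ξ =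
      m * ∑ c ∈ a.support, a c * Y S (fun v => quo f (E v) a m) x (ξ - c) := by
  unfold Y dif
  simp only [Core_co_quo hf (hE _) ht hm (hlow _), Finset.mul_sum]
  rw [Finset.sum_comm]
  refine Finset.sum_congr rfl fun v _ => ?_
  rw [← Finset.sum_sub_distrib, Finset.sum_div, Finset.mul_sum]
  refine Finset.sum_congr rfl fun c _ => ?_
  ring

end Crest.Agent.R100
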