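import Crest.Agent.R100.Gram

/-!
# R100/Count: the number of separated large wave packets in a run  (task)

`seg_count`: let `S = ∑ len p.1`, `Ψ = ∑_p 1_{I p.1} η_p ex(-p.2)` with unimodular `η_p` such that
`η_p vl F p.2 p.1 = ‖vl F p.2 p.1‖`.  Then `β S ≤ ‖∫_{I r} F r Ψ‖` (`Run.F_seg`, `len_mul_av`).  Split
`∫_{I r} = ∑_{u ∈ seg ∩ B} ∫_{I u}` (`Shape.seg_sum`, `e = 0`).  On a break node `u` of the segment `Ψ`
is the trigonometric polynomial `∑_{p.1 <:+ u} η_p ex(-p.2)` (a member of the segment whose interval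
meets `I u` is an ancestor of `u`); `exists_tp` and `NoProfit` at `u` with `β/2` give
`‖∫_{I u} FΨ‖ ≤ (β/2) len u (#{p : p.1 <:+ u} + √X √(avr u ‖Ψ‖²))`.  Sum over `u`:
`∑_u len u #{…} = S` (again `seg_sum`, or: the `u` below `p.1` form an antichain), Cauchy–Schwarz:
`S ≤ √X √(len r) √(∫‖Ψ‖²)`, then `gram`.
`boot`: `1 + log M ≤ 6 M^{1/6}` gives `M ≤ (216 Z)²`, then substitute.
`count`: let `M = max 1 (max_{r ∈ R} ∑_{p ∈ T, p.1 ∈ seg r} len p.1 / len r)`; `seg_count` for
`T.filter (p.1 ∈ seg r)` (`seg_trans` gives `hM`), `boot` with `Z = 7000ρ⁴(1+X)`, so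
`M ≤ 2·10⁸ ρ⁷ (1+X)(1+log(1+X))³`.  Every `u ∈ R` lies in `seg r` for `r = w` or a child `r ∈ R` of a
break node; these roots have total length `≤ (1 + P) len w` (`carl`).
-/

set_option autoImplicit false
open MeasureTheory Set

namespace Crest.Agent.R100

section aux
variable {w : Nd} {R B : Finset Nd} {P : ℝ} {D : ℕ}

theorem count_bm_sum {ι : Type*} (s : Finset ι) {φ : ι → ℝ → ℂ} (h : ∀ i ∈ s, BM (φ i)) :
    BM (fun y => ∑ i ∈ s, φ i y) := by
  classical
  induction s using Finset.induction_on with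
  | empty => simpa using BM.const 0
  | insert i s hi ih =>
    simp_rw [Finset.sum_insert hi]
    exact (h i (Finset.mem_insert_self _ _)).add
      (ih fun j hj => h j (Finset.mem_insert_of_mem hj))

theorem count_integral_seg {E : Type*} [NormedAddCommGroup E] [NormedSpace ℝ E]
    (h : Shape w R B P D) {φ : ℝ → E} (hφ : ∀ v, IntegrableOn φ (I v)) {r : Nd} (hr : r ∈ R) :
    ∑ u ∈ seg R B r with u ∈ B, ∫ y in I u, φ y = ∫ y in I r, φ y := by
  have := h.seg_sum (fun u => ∫ y in I u, φ y) (fun _ => 0)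
    (fun v _ _ => by rw [add_zero, integral_I_split (hφ v)]) r hr
  simpa using this

theorem count_len_seg (h : Shape w R B P D) {r : Nd} (hr : r ∈ R) :
    ∑ u ∈ seg R B r with u ∈ B, len u = len r := by
  have := h.seg_sum len (fun _ => 0)
    (fun v _ _ => by rw [len_cons, len_cons]; ring) r hr
  simpa using this

theorem count_mem_iff {r u v : Nd} (hu : u ∈ seg R B r) (hb : u ∈ B) (hv : v ∈ seg R B r)
    {y : ℝ} (hy : y ∈ I u) : y ∈ I v ↔ v <:+ u := by
  refine ⟨fun hyv => ?_, fun k => I_mono k hy⟩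
  by_cases hl : v.length ≤ u.length
  · exact suffix_of_mem hy hyv hl
  · exfalso
    have k : u <:+ v := suffix_of_mem hyv hy (by omega)
    exact (mem_seg.1 hv).2.2 u (mem_seg.1 hu).2.1 k (by rintro rfl; omega) hb

theorem count_root (h : Shape w R B P D) : ∀ u ∈ R,
    u ∈ seg R B w ∨ ∃ v ∈ B, ∃ b : Bool, u ∈ seg R B (b :: v) := by
  intro u
  induction u with
  | nil =>
    intro hu
    have : w = [] := List.suffix_nil.1 (h.sub _ hu)
    exact Or.inl (by rw [this]; exact self_mem_seg hu)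
  | cons b v ih =>
    intro hu
    by_cases hw : w = b :: v
    · exact Or.inl (hw ▸ self_mem_seg h.root)
    have hwv : w <:+ v := by
      rcases List.suffix_cons_iff.1 (h.sub _ hu) with k | k
      · exact absurd k hw
      · exact k
    have hv : v ∈ R := h.closed _ hu v hwv (List.suffix_cons b v)
    by_cases hb : v ∈ B
    · exact Or.inr ⟨v, hb, b, self_mem_seg hu⟩
    have key : ∀ r, v ∈ seg R B r → b :: v ∈ seg R B r := by
      intro r hr
      rw [mem_seg] at hr ⊢
      refine ⟨hu, hr.2.1.trans (List.suffix_cons b v), fun z k1 k2 k3 => ?_⟩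
      rcases List.suffix_cons_iff.1 k2 with k | k
      · exact absurd k k3
      · by_cases hz : z = v
        · exact hz ▸ hb
        · exact hr.2.2 z k1 k hz
    rcases ih hv with k | ⟨v', hv', b', k⟩
    · exact Or.inl (key _ k)
    · exact Or.inr ⟨v', hv', b', key _ k⟩

end aux

theorem seg_count {w : Nd} {R B : Finset Nd} {P : ℝ} {D : ℕ} {F : Nd → ℝ → ℂ} {τ G : ℝ} {n : ℕ}
    (h : Run w R B P D F τ G n) {β : ℝ} (hβ : 0 < β) (hβτ : β ≤ τ) {r : Nd} (hr : r ∈ R)
    (T : Finset (Nd × ℝ)) (hT : ∀ p ∈ T, p.1 ∈ seg R B r ∧ β < ‖vl F p.2 p.1‖)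
    (hsep : ∀ p ∈ T, ∀ q ∈ T, p ≠ q → p.1 <:+ q.1 → 8 * τ ≤ β * (|p.2 - q.2| * len q.1))
    {M : ℝ} (hM1 : 1 ≤ M)
    (hM : ∀ p ∈ T, ∑ q ∈ T with p.1 <:+ q.1, len q.1 ≤ M * len p.1) :
    ∑ p ∈ T, len p.1 ≤
      7000 * (τ / β) ^ 4 * (Real.exp G * (2 * B0 / β) ^ n) * (1 + Real.log M) ^ 3 * len r := by
  classical
  choose c hc1 hc2 using Complex.exists_norm_eq_mul_self
  set η : Nd × ℝ → ℂ := fun p => c (vl F p.2 p.1) with hη
  have hη1 : ∀ p, ‖η p‖ = 1 := fun p => hc1 _
  have hG := gram h hβ hβτ hr T hT hsep hM1 hM η (fun p => (hη1 p).le)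
  set Ψ : ℝ → ℂ := fun y => ∑ p ∈ T, (I p.1).indicator (fun y => η p * ex (-p.2) y) y with hΨ
  set S := ∑ p ∈ T, len p.1 with hS
  set X := Real.exp G * (2 * B0 / β) ^ n with hX
  set C := 7000 * (τ / β) ^ 4 * (1 + Real.log M) ^ 3 with hC
  have hS0 : 0 ≤ S := Finset.sum_nonneg fun p _ => (len_pos _).le
  have hB0 : 0 < B0 := by unfold B0; positivity
  have hX0 : 0 ≤ X := by positivity
  have hlog : 0 ≤ Real.log M := Real.log_nonneg hM1
  have hC0 : 0 ≤ C := by positivity
  have hbp : ∀ p : Nd × ℝ, BM ((I p.1).indicator (fun y => η p * ex (-p.2) y)) := fun p =>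
    ((BM.const _).mul (bm_ex _)).indicator (measurableSet_I _)
  have hbΨ : BM Ψ := count_bm_sum T fun p _ => hbp p
  -- step 1
  have h1 : β * S ≤ ‖∫ y in I r, F r y * Ψ y‖ := by
    have e1 : ∫ y in I r, F r y * Ψ y = ((∑ p ∈ T, len p.1 * ‖vl F p.2 p.1‖ : ℝ) : ℂ) := by
      simp only [hΨ, Finset.mul_sum]
      rw [integral_finsetSum _ fun p _ => ((h.bm r).mul (hbp p)).integrableOn r]
      push_cast
      refine Finset.sum_congr rfl fun p hp => ?_
      have hp1 := (hT p hp).1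
      have e2 : ∀ y, F r y * (I p.1).indicator (fun y => η p * ex (-p.2) y) y =
          (I p.1).indicator (fun y => η p * (F r y * ex (-p.2) y)) y := by
        intro y
        by_cases hy : y ∈ I p.1
        · simp only [indicator_of_mem hy]; ring
        · simp only [indicator_of_notMem hy, mul_zero]
      simp_rw [e2]
      rw [setIntegral_indicator (measurableSet_I _),
        inter_eq_self_of_subset_right (I_mono (mem_seg.1 hp1).2.1), integral_const_mul,
        ← len_mul_av, hc2]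
      unfold vl co
      rw [h.F_seg r hr _ hp1]
      simp only [hη, vl, co, h.F_seg r hr _ hp1]
      ring
    rw [e1, Complex.norm_real, Real.norm_eq_abs, hS, Finset.mul_sum]
    refine le_trans (Finset.sum_le_sum fun p hp => ?_) (le_abs_self _)
    rw [mul_comm]
    exact mul_le_mul_of_nonneg_left (hT p hp).2.le (len_pos _).le
  -- step 2: one break node
  have h2 : ∀ u ∈ (seg R B r).filter (· ∈ B), ‖∫ y in I u, F r y * Ψ y‖ ≤
      β / 2 * (∑ p ∈ T, (if p.1 <:+ u then len u else 0) +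
        √X * (√(len u) * √(∫ y in I u, ‖Ψ y‖ ^ 2))) := by
    intro u hu
    rw [Finset.mem_filter] at hu
    obtain ⟨a, ha1, ha2⟩ := exists_tp (T.filter (·.1 <:+ u)) η (fun p => -p.2)
    have e1 : ∀ y ∈ I u, Ψ y = tp a y := by
      intro y hy
      rw [ha2, Finset.sum_filter]
      refine Finset.sum_congr rfl fun p hp => ?_
      have := count_mem_iff hu.1 hu.2 (hT p hp).1 hy
      by_cases k : p.1 <:+ u
      · rw [if_pos k, indicator_of_mem (this.2 k)]
      · rw [if_neg k, indicator_of_notMem (fun k' => k (this.1 k'))]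
    have hn := h.nop u (mem_seg.1 hu.1).1 (β / 2) (by positivity) a
    have e2 : ∫ y in I u, F r y * Ψ y = (len u : ℂ) * av u (fun y => F u y * tp a y) := by
      rw [len_mul_av, h.F_seg r hr u hu.1]
      exact setIntegral_congr_fun (measurableSet_I u) fun y hy => by simp only [e1 y hy]
    have e3 : ∫ y in I u, ‖Ψ y‖ ^ 2 = len u * avr u (fun y => ‖tp a y‖ ^ 2) := by
      rw [len_mul_avr]
      exact setIntegral_congr_fun (measurableSet_I u) fun y hy => by simp only [e1 y hy]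
    have e4 : B0 / (β / 2) = 2 * B0 / β := by field_simp
    have hl := len_pos u
    rw [e4, ← hX] at hn
    rw [e2, e3, norm_mul, Complex.norm_real, Real.norm_of_nonneg hl.le, Real.sqrt_mul hl.le,
      ← mul_assoc (√(len u)), Real.mul_self_sqrt hl.le]
    have e5 : len u * l1 a ≤ ∑ p ∈ T, (if p.1 <:+ u then len u else 0) := by
      rw [← Finset.sum_filter]
      refine (mul_le_mul_of_nonneg_left ha1 hl.le).trans (le_of_eq ?_)
      rw [Finset.mul_sum]
      exact Finset.sum_congr rfl fun p _ => by rw [hη1, mul_one]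
    calc len u * ‖av u fun y => F u y * tp a y‖
        ≤ len u * (β / 2 * (l1 a + √X * √(avr u fun y => ‖tp a y‖ ^ 2))) :=
          mul_le_mul_of_nonneg_left hn hl.le
      _ = β / 2 * (len u * l1 a + √X * (len u * √(avr u fun y => ‖tp a y‖ ^ 2))) := by ring
      _ ≤ _ := by gcongr
  -- step 3: sum
  have h3 : ∑ u ∈ seg R B r with u ∈ B, ∑ p ∈ T, (if p.1 <:+ u then len u else 0) ≤ S := by
    rw [Finset.sum_comm]
    refine Finset.sum_le_sum fun p hp => ?_
    rw [← Finset.sum_filter]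
    refine sum_len_antichain (fun u hu => (Finset.mem_filter.1 hu).2) fun u hu u' hu' k => ?_
    simp only [Finset.mem_filter] at hu hu'
    by_contra hne
    exact (mem_seg.1 hu'.1.1).2.2 u (mem_seg.1 hu.1.1).2.1 k hne hu.1.2
  have h4 : ∑ u ∈ seg R B r with u ∈ B, √(len u) * √(∫ y in I u, ‖Ψ y‖ ^ 2) ≤
      √(len r) * √(C * S) := by
    refine (Real.sum_sqrt_mul_sqrt_le _ (fun u => (len_pos u).le)
      (fun u => integral_nonneg fun y => by positivity)).trans ?_
    rw [count_len_seg h.toShape hr, count_integral_seg h.toShape hbΨ.integrableOn_sq hr]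
    gcongr
  have h5 : β * S ≤ β / 2 * (S + √X * (√(len r) * √(C * S))) := by
    refine h1.trans ?_
    rw [← count_integral_seg h.toShape ((h.bm r).mul hbΨ).integrableOn hr]
    refine (norm_sum_le _ _).trans ((Finset.sum_le_sum h2).trans ?_)
    rw [← Finset.mul_sum, Finset.sum_add_distrib, ← Finset.mul_sum]
    gcongr
  have h6 : S ≤ √(X * (len r * (C * S))) := by
    rw [Real.sqrt_mul hX0, Real.sqrt_mul (len_pos r).le]
    nlinarith
  have hlr := len_pos r
  have h7 : S ^ 2 ≤ X * (len r * (C * S)) := (Real.le_sqrt hS0 (by positivity)).1 h6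
  have h8 : S ≤ X * (len r * C) := by
    rcases hS0.eq_or_lt with k | k
    · rw [← k]; positivity
    · refine le_of_mul_le_mul_right ?_ k
      nlinarith
  refine h8.trans (le_of_eq ?_)
  rw [hC]; ring

theorem boot {M Z : ℝ} (hM : 1 ≤ M) (hZ : 1 ≤ Z) (h : M ≤ Z * (1 + Real.log M) ^ 3) :
    M ≤ Z * (1 + 2 * Real.log (216 * Z)) ^ 3 := by
  have hlog : 0 ≤ Real.log M := Real.log_nonneg hM
  set t := Real.exp (Real.log M / 6) with ht
  have ht0 : 0 < t := Real.exp_pos _
  have h1 : 1 + Real.log M ≤ 6 * t := by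
    have := Real.add_one_le_exp (Real.log M / 6)
    linarith
  have h2 : t ^ 6 = M := by
    rw [ht, ← Real.exp_nat_mul, show ((6 : ℕ) : ℝ) * (Real.log M / 6) = Real.log M by
      push_cast; ring, Real.exp_log (by linarith)]
  have h3 : t ^ 3 * t ^ 3 ≤ 216 * Z * t ^ 3 := by
    calc t ^ 3 * t ^ 3 = M := by rw [← h2]; ring
      _ ≤ Z * (1 + Real.log M) ^ 3 := h
      _ ≤ Z * (6 * t) ^ 3 := by gcongr
      _ = _ := by ring
  have h4 : t ^ 3 ≤ 216 * Z := le_of_mul_le_mul_right h3 (by positivity)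
  have h5 : M ≤ (216 * Z) ^ 2 := by
    calc M = (t ^ 3) ^ 2 := by rw [← h2]; ring
      _ ≤ _ := by gcongr
  have h6 : Real.log M ≤ 2 * Real.log (216 * Z) := by
    have := Real.log_le_log (by linarith) h5
    rwa [Real.log_pow, Nat.cast_ofNat] at this
  refine h.trans ?_
  gcongr

theorem count {w : Nd} {R B : Finset Nd} {P : ℝ} {D : ℕ} {F : Nd → ℝ → ℂ} {τ G : ℝ} {n : ℕ}
    (h : Run w R B P D F τ G n) (hP : 0 ≤ P) {β : ℝ} (hβ : 0 < β) (hβτ : β ≤ τ)
    (T : Finset (Nd × ℝ)) (hT : ∀ p ∈ T, p.1 ∈ R ∧ β < ‖vl F p.2 p.1‖)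
    (hsep : ∀ p ∈ T, ∀ q ∈ T, p ≠ q → p.1 <:+ q.1 → 8 * τ ≤ β * (|p.2 - q.2| * len q.1)) :
    ∑ p ∈ T, len p.1 ≤ 10 ^ 10 * (τ / β) ^ 8 * (1 + Real.exp G * (2 * B0 / β) ^ n) *
      (1 + Real.log (1 + Real.exp G * (2 * B0 / β) ^ n)) ^ 3 * (1 + P) * len w := by
  classical
  set A : Nd → ℝ := fun r => ∑ p ∈ T with p.1 ∈ seg R B r, len p.1 with hA
  obtain ⟨r₀, hr₀, hmax⟩ := Finset.exists_max_image R (fun r => A r / len r) ⟨w, h.root⟩
  set M := max 1 (A r₀ / len r₀) with hMdef
  have hM1 : 1 ≤ M := le_max_left _ _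
  have hAM : ∀ r ∈ R, A r ≤ M * len r := fun r hr =>
    (div_le_iff₀ (len_pos r)).1 ((hmax r hr).trans (le_max_right _ _))
  set X := Real.exp G * (2 * B0 / β) ^ n with hX
  have hB0 : 0 < B0 := by unfold B0; positivity
  have hX0 : 0 ≤ X := by positivity
  set ρ := τ / β with hρ
  have hρ1 : 1 ≤ ρ := (one_le_div hβ).2 hβτ
  have hlog : 0 ≤ Real.log M := Real.log_nonneg hM1
  have h1 : A r₀ ≤ 7000 * ρ ^ 4 * X * (1 + Real.log M) ^ 3 * len r₀ := by
    refine seg_count h hβ hβτ hr₀ (T.filter (·.1 ∈ seg R B r₀))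
      (fun p hp => ⟨(Finset.mem_filter.1 hp).2, (hT p (Finset.mem_filter.1 hp).1).2⟩)
      (fun p hp q hq => hsep p (Finset.mem_filter.1 hp).1 q (Finset.mem_filter.1 hq).1) hM1
      fun p hp => ?_
    rw [Finset.mem_filter] at hp
    refine le_trans ?_ (hAM p.1 (hT p hp.1).1)
    refine Finset.sum_le_sum_of_subset_of_nonneg ?_ fun q _ _ => (len_pos _).le
    intro q hq
    simp only [Finset.mem_filter] at hq ⊢
    exact ⟨hq.1.1, seg_trans hq.1.2 (mem_seg.1 hp.2).2.1 hq.2⟩
  set Z := 7000 * ρ ^ 4 * (1 + X) with hZ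
  have hρ4 : 1 ≤ ρ ^ 4 := one_le_pow₀ hρ1
  have hZ1 : 1 ≤ Z := by rw [hZ]; nlinarith
  have h2 : M ≤ Z * (1 + Real.log M) ^ 3 := by
    refine max_le ?_ ?_
    · exact one_le_mul_of_one_le_of_one_le hZ1 (one_le_pow₀ (by linarith))
    · rw [div_le_iff₀ (len_pos _)]
      refine h1.trans ?_
      have := len_pos r₀
      rw [hZ]
      gcongr
      linarith
  have h3 := boot hM1 hZ1 h2
  set L := Real.log (1 + X) with hL
  have hL0 : 0 ≤ L := Real.log_nonneg (by linarith)
  have h4 : Real.log (216 * Z) ≤ 21 + 4 * (ρ - 1) + L := by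
    have e : 216 * Z ≤ 2 ^ 21 * (ρ ^ 4 * (1 + X)) := by
      rw [hZ]
      have : 0 ≤ ρ ^ 4 * (1 + X) := by positivity
      nlinarith
    refine (Real.log_le_log (by positivity) e).trans ?_
    rw [Real.log_mul (by positivity) (by positivity), Real.log_mul (by positivity) (by positivity),
      Real.log_pow, Real.log_pow]
    have k1 : Real.log 2 ≤ 1 := by
      have := Real.log_le_sub_one_of_pos (show (0 : ℝ) < 2 by norm_num); linarith
    have k2 : Real.log ρ ≤ ρ - 1 := Real.log_le_sub_one_of_pos (by linarith)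
    push_cast
    linarith
  have h5 : 1 + 2 * Real.log (216 * Z) ≤ 43 * ρ * (1 + L) := by nlinarith
  have h5' : 0 ≤ 1 + 2 * Real.log (216 * Z) := by
    have := Real.log_nonneg (show 1 ≤ 216 * Z by linarith); linarith
  have h6 : M ≤ 10 ^ 10 * ρ ^ 8 * (1 + X) * (1 + L) ^ 3 := by
    calc M ≤ Z * (43 * ρ * (1 + L)) ^ 3 := h3.trans (by gcongr)
      _ = (7000 * 43 ^ 3) * (ρ ^ 7 * 1) * (1 + X) * (1 + L) ^ 3 := by rw [hZ]; ring
      _ ≤ 10 ^ 10 * (ρ ^ 7 * ρ) * (1 + X) * (1 + L) ^ 3 := by gcongr; norm_num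
      _ = _ := by ring
  have hAM' : ∀ v ∈ B, ∀ b : Bool, A (b :: v) ≤ M * len (b :: v) := by
    intro v hv b
    by_cases k : b :: v ∈ R
    · exact hAM _ k
    · have : A (b :: v) = 0 := by
        refine Finset.sum_eq_zero fun p hp => ?_
        have hp' := mem_seg.1 (Finset.mem_filter.1 hp).2
        exact absurd (h.closed _ hp'.1 _ ((h.sub v (h.brk hv)).trans (List.suffix_cons b v))
          hp'.2.1) k
      rw [this]
      have := len_pos (b :: v)
      positivity
  have h7 : ∑ p ∈ T, len p.1 ≤ A w + ∑ v ∈ B, ∑ b : Bool, A (b :: v) := by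
    simp only [hA, Finset.sum_filter]
    have e : ∑ v ∈ B, ∑ b : Bool, ∑ p ∈ T, (if p.1 ∈ seg R B (b :: v) then len p.1 else 0) =
        ∑ p ∈ T, ∑ v ∈ B, ∑ b : Bool, (if p.1 ∈ seg R B (b :: v) then len p.1 else 0) := by
      rw [Finset.sum_comm (s := T)]
      exact Finset.sum_congr rfl fun v _ => Finset.sum_comm
    rw [e, ← Finset.sum_add_distrib]
    refine Finset.sum_le_sum fun p hp => ?_
    have hnn : ∀ r, 0 ≤ (if p.1 ∈ seg R B r then len p.1 else 0) := fun r => by
      split_ifs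
      · exact (len_pos _).le
      · exact le_rfl
    rcases count_root h.toShape p.1 (hT p hp).1 with k | ⟨v, hv, b, k⟩
    · rw [if_pos k]
      exact le_add_of_nonneg_right
        (Finset.sum_nonneg fun v _ => Finset.sum_nonneg fun b _ => hnn _)
    · refine le_trans ?_ (le_add_of_nonneg_left (hnn _))
      refine le_trans ?_ (Finset.single_le_sum
        (f := fun v => ∑ b : Bool, (if p.1 ∈ seg R B (b :: v) then len p.1 else 0))
        (fun v _ => Finset.sum_nonneg fun b _ => hnn _) hv)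
      refine le_trans ?_ (Finset.single_le_sum
        (f := fun b : Bool => (if p.1 ∈ seg R B (b :: v) then len p.1 else 0))
        (fun b _ => hnn _) (Finset.mem_univ b))
      simp only [if_pos k, le_refl]
  have h8 : ∑ v ∈ B, len v ≤ P * len w := by
    have := h.carl w h.root
    rwa [Finset.filter_true_of_mem fun v hv => h.sub v (h.brk hv)] at this
  have h9 : ∑ v ∈ B, ∑ b : Bool, A (b :: v) ≤ M * ∑ v ∈ B, len v := by
    rw [Finset.mul_sum]
    refine Finset.sum_le_sum fun v hv => ?_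
    have k0 := hAM' v hv false
    have k1 := hAM' v hv true
    rw [len_cons] at k0 k1
    rw [Fintype.sum_bool]
    linarith
  have hw := len_pos w
  calc ∑ p ∈ T, len p.1 ≤ M * len w + M * (P * len w) :=
        h7.trans (add_le_add (hAM w h.root) (h9.trans (by gcongr)))
    _ = M * (1 + P) * len w := by ring
    _ ≤ _ := by gcongr

end Crest.Agent.R100
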