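import Mathlib

/-!
# Row 100 (a.e. convergence of Fourier series in `L log L`): definitions  (FROZEN, owner helper28)

## Overview of the proof
`Final` ⇐ `Weak` (small `L log L` norm ⇒ small maximal partial sums) ⇐ `Circle` ⇐ `Transfer`
(Dirichlet kernel = average of dyadic shifts, `Kernel`) ⇐ `Main.dyadic_main` (dyadic model on `[0,1)`).

Dyadic model.  Nodes are lists of bits (head = last step), `v <:+ u` means `u ⊆ v`.
`Y S F x ξ = ∑_{v ∈ S} sg v x * dif v (F v) ξ` is the dyadic shift of `F e^{-iξ·}` at the leaf `x`.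
`dyadic_main`: if `‖f‖ ≤ e^d`, mean `≤ 1`, and only nodes with mean `≤ H` are used, then the mean over
leaves of `‖Y x (N x)‖` is `≤ C (d + H^c)` for EVERY choice of frequencies `N x`.

A *piece* is a set `E`, a trigonometric polynomial `Φ = tp a` (the "hider") with `l1 a ≤ 1`,
`‖Φ‖ ≥ t` on `E`, and frequency windows of length `1/|u|` carrying `l1`-mass `≤ e^{-G}` at every node
`u` met by `E`.  Write `f 1_E = F Φ`.  If `F` has *no profit* at all nodes of a *run*, the form of
the run is `≤ C n` (`Core`).  Otherwise a sub-piece with a better value `G - n log (1/t)` can be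
extracted (`Extract`).  The rank `(n/2) log (2H/m) + d - value` drops by `n/4` at each step
(`Induct`).
-/

set_option autoImplicit false
open MeasureTheory Set

namespace Crest.Agent.R100

/-- dyadic nodes; `b :: v` is the left (`false`) or right (`true`) half of `v` -/
abbrev Nd := List Bool

/-- length of a node -/
noncomputable def len (v : Nd) : ℝ := (1 / 2 : ℝ) ^ v.length

/-- left end point of a node -/
noncomputable def lft : Nd → ℝ
  | [] => 0
  | b :: v => lft v + if b then len v / 2 else 0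

/-- the interval of a node -/
def I (v : Nd) : Set ℝ := Ico (lft v) (lft v + len v)

/-- descendants of `v` exactly `n` generations below `v` -/
def below : ℕ → Nd → Finset Nd
  | 0, v => {v}
  | n + 1, v => below n (false :: v) ∪ below n (true :: v)

/-- the leaves (nodes of depth `D`) below `w` -/
def lv (D : ℕ) (w : Nd) : Finset Nd := below (D - w.length) w

/-- the sign of the dyadic shift: `+,-,-,+` on the four quarters of `v`, `0` outside `v` -/
def sg (v x : Nd) : ℝ :=
  if (false :: false :: v) <:+ x ∨ (true :: true :: v) <:+ x then 1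
  else if (false :: true :: v) <:+ x ∨ (true :: false :: v) <:+ x then -1 else 0

/-- `e^{iξy}` -/
noncomputable def ex (ξ y : ℝ) : ℂ := Complex.exp (((ξ * y : ℝ) : ℂ) * Complex.I)

/-- mean over a node (complex) -/
noncomputable def av (v : Nd) (φ : ℝ → ℂ) : ℂ := ((len v)⁻¹ : ℝ) * ∫ y in I v, φ y

/-- mean over a node (real) -/
noncomputable def avr (v : Nd) (φ : ℝ → ℝ) : ℝ := (len v)⁻¹ * ∫ y in I v, φ y

/-- local Fourier coefficient -/
noncomputable def co (v : Nd) (F : ℝ → ℂ) (ξ : ℝ) : ℂ := av v (fun y => F y * ex (-ξ) y)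

/-- Haar coefficient of `F e^{-iξ·}` -/
noncomputable def dif (v : Nd) (F : ℝ → ℂ) (ξ : ℝ) : ℂ :=
  (co (false :: v) F ξ - co (true :: v) F ξ) / 2

/-- the dyadic shift over the node set `S`, at the leaf `x` and the frequency `ξ` -/
noncomputable def Y (S : Finset Nd) (F : Nd → ℝ → ℂ) (x : Nd) (ξ : ℝ) : ℂ :=
  ∑ v ∈ S, (sg v x : ℂ) * dif v (F v) ξ

/-- trigonometric polynomial with real frequencies -/
noncomputable def tp (a : ℝ →₀ ℂ) (y : ℝ) : ℂ := ∑ c ∈ a.support, a c * ex c y

/-- its Wiener norm -/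
noncomputable def l1 (a : ℝ →₀ ℂ) : ℝ := ∑ c ∈ a.support, ‖a c‖

open Classical in
/-- the Wiener mass in the frequency window `[ζ, ζ + W]` -/
noncomputable def win (a : ℝ →₀ ℂ) (ζ W : ℝ) : ℝ :=
  ∑ c ∈ a.support with (ζ ≤ c ∧ c ≤ ζ + W), ‖a c‖

/-- bounded measurable functions -/
def BM (F : ℝ → ℂ) : Prop := Measurable F ∧ ∃ M : ℝ, ∀ y, ‖F y‖ ≤ M

/-- the numerical constant `B₀` of the no-profit condition -/
def B0 : ℝ := 10 ^ 6

/-- no profit at the node `v` -/
def NoProfit (v : Nd) (F : ℝ → ℂ) (G : ℝ) (n : ℕ) : Prop :=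
  ∀ β : ℝ, 0 < β → ∀ a : ℝ →₀ ℂ, ‖av v (fun y => F y * tp a y)‖ ≤
    β * (l1 a + √(Real.exp G * (B0 / β) ^ n) * √(avr v (fun y => ‖tp a y‖ ^ 2)))

/-- the shape of a run: a finite subtree `R` with root `w`, break nodes `B ⊆ R` (Carleson constant
`P`); both children of a non-break node belong to the run -/
structure Shape (w : Nd) (R B : Finset Nd) (P : ℝ) (D : ℕ) : Prop where
  root : w ∈ R
  sub : ∀ v ∈ R, w <:+ v
  closed : ∀ v ∈ R, ∀ u, w <:+ u → u <:+ v → u ∈ R
  brk : B ⊆ R
  child : ∀ v ∈ R, v ∉ B → ∀ b : Bool, b :: v ∈ R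
  depth : ∀ v ∈ R, v.length + 2 ≤ D
  carl : ∀ u ∈ R, ∑ v ∈ B with u <:+ v, len v ≤ P * len u

/-- a run: functions `F v`, unchanged across non-break nodes, with local means `≤ τ`, no profit -/
structure Run (w : Nd) (R B : Finset Nd) (P : ℝ) (D : ℕ) (F : Nd → ℝ → ℂ) (τ G : ℝ) (n : ℕ) :
    Prop extends Shape w R B P D where
  bm : ∀ v, BM (F v)
  same : ∀ v ∈ R, v ∉ B → ∀ b : Bool, F (b :: v) = F v
  mean : ∀ v ∈ R, avr v (fun y => ‖F v y‖) ≤ τ
  nop : ∀ v ∈ R, NoProfit v (F v) G n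

/-- half difference of the values at the children -/
noncomputable def gam (val : Nd → ℂ) (v : Nd) : ℂ := (val (false :: v) - val (true :: v)) / 2

/-- larger of the values at the children -/
noncomputable def amp (val : Nd → ℂ) (v : Nd) : ℝ := max ‖val (false :: v)‖ ‖val (true :: v)‖

/-- martingale property at the non-break nodes -/
def Mg (R B : Finset Nd) (val : Nd → ℂ) : Prop :=
  ∀ v ∈ R, v ∉ B → val v = (val (false :: v) + val (true :: v)) / 2

/-- the martingale of local Fourier coefficients of a run -/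
noncomputable def vl (F : Nd → ℝ → ℂ) (ξ : ℝ) (v : Nd) : ℂ := co v (F v) ξ

/-- number of break nodes above `x` -/
def nb (B : Finset Nd) (x : Nd) : ℕ := (B.filter (· <:+ x)).card

open Classical in
/-- the segment below `r`: nodes of the run joined to `r` through non-break nodes -/
noncomputable def seg (R B : Finset Nd) (r : Nd) : Finset Nd :=
  R.filter (fun u => r <:+ u ∧ ∀ z, r <:+ z → z <:+ u → z ≠ u → z ∉ B)

/-- the data of the dyadic model -/
structure Model (f : ℝ → ℂ) (H d : ℝ) (N : Finset Nd) (D : ℕ) : Prop where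
  meas : Measurable f
  bd : ∀ y, ‖f y‖ ≤ Real.exp d
  closed : ∀ v ∈ N, ∀ u, u <:+ v → u ∈ N
  dens : ∀ v ∈ N, avr v (fun y => ‖f y‖) ≤ H
  depth : ∀ v ∈ N, v.length + 2 ≤ D

/-- mean of `‖f‖ 1_E` over a node -/
noncomputable def ms (f : ℝ → ℂ) (E : Set ℝ) (v : Nd) : ℝ :=
  avr v (fun y => ‖E.indicator f y‖)

/-- a piece below the node `w` -/
structure Piece (N : Finset Nd) (w : Nd) (E : Set ℝ) (a : ℝ →₀ ℂ) (G t : ℝ) : Prop where
  meas : MeasurableSet E
  l1 : l1 a ≤ 1
  tpos : 0 < t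
  tle : t ≤ 1
  Gnn : 0 ≤ G
  low : ∀ y ∈ E, t ≤ ‖tp a y‖
  free : ∀ u ∈ N, w <:+ u → (E ∩ I u).Nonempty → ∀ ζ, win a ζ (len u)⁻¹ ≤ Real.exp (-G)

open Classical in
/-- the quantity to be bounded: the nodes of `N` below `w`, applied to `f 1_E` -/
noncomputable def form (f : ℝ → ℂ) (N : Finset Nd) (D : ℕ) (fr : Nd → ℝ) (w : Nd) (E : Set ℝ) :
    ℝ :=
  ∑ x ∈ lv D w, len x * ‖Y (N.filter (w <:+ ·)) (fun _ => E.indicator f) x (fr x)‖

/-- the normalised quotient `f 1_E / (m Φ)` -/
noncomputable def quo (f : ℝ → ℂ) (E : Set ℝ) (a : ℝ →₀ ℂ) (m : ℝ) (y : ℝ) : ℂ :=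
  E.indicator f y / (m * tp a y)

end Crest.Agent.R100
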