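import Crest.Agent.R100.Exp

/-!
# R100/Epoch: counting epochs, one exponential weight per top  (task)

`sum_starts`: Bellman induction (`Shape.induct`).  Let `α = 1/(9β²)`, `C = τ²/(9β²) + 2`,
`U_out b = C - α‖b‖²`, `U_in b = C - max (α‖b‖²) 2` (both in `[0, C]` for `‖b‖ ≤ τ`),
`Bk v = ∑_{z ∈ B, v <:+ z} len z`.  Claim for `v ∈ R` below `u`:
`∑_{e ∈ starts, v <:+ e} len e ≤ len v * U(val v) + C * Bk v`, with `U = U_in` if `InE v`, else `U_out`.
Transition: `InE (b :: v) ↔ (InE v ∨ Low v) ∧ (v ∉ B → amp val v ≤ 6β)`.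
* `v ∈ B`: children cost `≤ C len v` in total, paid by `Bk v = len v + Bk (0v) + Bk (1v)` (children
  outside `R` contribute nothing: `closed`).
* `v ∉ B`: `val v` = mean of the children (`Mg`), `‖val v‖² ≤` mean of `‖child‖²`.
  not `InE`, `Low` (a start): `1 + C - 2 ≤ C - α‖val v‖²`.  not `InE`, not `Low`: concavity of `U_out`.
  `InE`, `amp ≤ 6β`: concavity of `U_in`.  `InE`, `amp > 6β`: mean of `‖child‖² ≥ 18β²`.
`epoch_exp`: `E x = 1 + ∑_{e ∈ starts, e <:+ x} E_e x` (`exp_start`, `lv_filter`).  If the node set is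
nonempty let `v₁` be its shortest element; take the shortest `e` with `u <:+ e <:+ v₁`, `Low e` and
`amp ≤ 6β` at all non-break `z`, `e <:+ z <:+ v₁`: it is a start.  The sum is the difference of the
sums of `exp_start` for `k₂` and for `|v₁|`.
-/

set_option autoImplicit false
open MeasureTheory Set

namespace Crest.Agent.R100

/-- low non-break node -/
def Low (B : Finset Nd) (val : Nd → ℂ) (β : ℝ) (v : Nd) : Prop := v ∉ B ∧ amp val v ≤ 3 * β

/-- `v` lies in an epoch started strictly above it -/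
def InE (B : Finset Nd) (val : Nd → ℂ) (β : ℝ) (u v : Nd) : Prop :=
  ∃ e, u <:+ e ∧ e <:+ v ∧ e ≠ v ∧ Low B val β e ∧
    ∀ z, e <:+ z → z <:+ v → z ≠ v → z ∉ B → amp val z ≤ 6 * β

open Classical in
/-- the starting nodes of epochs below `u` -/
noncomputable def starts (R B : Finset Nd) (val : Nd → ℂ) (β : ℝ) (u : Nd) : Finset Nd :=
  R.filter (fun v => u <:+ v ∧ Low B val β v ∧ ¬ InE B val β u v)

theorem mem_starts {R B : Finset Nd} {val : Nd → ℂ} {β : ℝ} {u v : Nd} :
    v ∈ starts R B val β u ↔ v ∈ R ∧ u <:+ v ∧ Low B val β v ∧ ¬ InE B val β u v := by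
  classical
  unfold starts; rw [Finset.mem_filter]

theorem inE_cons {B : Finset Nd} {val : Nd → ℂ} {β : ℝ} {u v : Nd} (huv : u <:+ v) (b : Bool) :
    InE B val β u (b :: v) ↔ (InE B val β u v ∨ Low B val β v) ∧ (v ∉ B → amp val v ≤ 6 * β) := by
  have hne : ∀ z : Nd, z <:+ v → z ≠ b :: v := fun z hz k => by
    have := hz.length_le
    simp [k] at this
  constructor
  · rintro ⟨e, h1, h2, h3, h4, h5⟩
    have h6 : e <:+ v := (List.suffix_cons_iff.1 h2).resolve_left h3
    refine ⟨?_, h5 v h6 (List.suffix_cons b v) (hne v (List.suffix_refl v))⟩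
    by_cases hev : e = v
    · exact Or.inr (hev ▸ h4)
    · exact Or.inl ⟨e, h1, h6, hev, h4, fun z k1 k2 _ =>
        h5 z k1 (k2.trans (List.suffix_cons b v)) (hne z k2)⟩
  · rintro ⟨⟨e, h1, h2, h3, h4, h5⟩ | h1, h6⟩
    · refine ⟨e, h1, h2.trans (List.suffix_cons b v), hne e h2, h4, fun z k1 k2 k3 k4 => ?_⟩
      by_cases hz : z = v
      · subst hz; exact h6 k4
      · exact h5 z k1 ((List.suffix_cons_iff.1 k2).resolve_left k3) hz k4
    · refine ⟨v, huv, List.suffix_cons b v, hne v (List.suffix_refl v), h1,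
        fun z k1 k2 k3 k4 => ?_⟩
      have k5 : z <:+ v := (List.suffix_cons_iff.1 k2).resolve_left k3
      obtain rfl := k5.eq_of_length (le_antisymm k5.length_le k1.length_le)
      exact h6 k4

theorem epoch_split (S : Finset Nd) (v : Nd) (φ : Nd → ℝ) :
    ∑ e ∈ S with v <:+ e, φ e = (if v ∈ S then φ v else 0) +
      (∑ e ∈ S with (false :: v) <:+ e, φ e + ∑ e ∈ S with (true :: v) <:+ e, φ e) := by
  rw [← Finset.sum_ite_eq' S v φ]
  simp only [Finset.sum_filter, ← Finset.sum_add_distrib]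
  refine Finset.sum_congr rfl fun e _ => ?_
  by_cases hev : e = v
  · subst hev
    have : ∀ b : Bool, ¬ (b :: e) <:+ e := fun b k => by simpa using k.length_le
    simp [this]
  · by_cases h : v <:+ e
    · obtain ⟨b, hb⟩ := child_suffix h (Ne.symm hev)
      cases b
      · simp [h, hev, hb, show ¬ (true :: v) <:+ e from not_both_children hb]
      · simp [h, hev, hb, show ¬ (false :: v) <:+ e from fun k => not_both_children k hb]
    · have : ∀ b : Bool, ¬ (b :: v) <:+ e := fun b k => h ((List.suffix_cons b v).trans k)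
      simp [h, hev, this]

theorem sum_starts {w : Nd} {R B : Finset Nd} {P : ℝ} {D : ℕ} (h : Shape w R B P D)
    {val : Nd → ℂ} (hm : Mg R B val) {β τ : ℝ} (hβ : 0 < β) (hτ : ∀ v ∈ R, ‖val v‖ ≤ τ)
    {u : Nd} (hu : u ∈ R) :
    ∑ e ∈ starts R B val β u, len e ≤ (τ ^ 2 / (9 * β ^ 2) + 2) * (1 + P) * len u := by
  classical
  set α : ℝ := 1 / (9 * β ^ 2) with hα
  have hα0 : 0 < α := by positivity
  have hαβ : α * β ^ 2 = 1 / 9 := by rw [hα]; field_simp
  have hC : τ ^ 2 / (9 * β ^ 2) = α * τ ^ 2 := by rw [hα]; ring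
  rw [hC]
  have hC0 : 0 ≤ α * τ ^ 2 := by positivity
  set C := α * τ ^ 2 + 2 with hCdef
  set A : Nd → ℝ := fun v => ∑ e ∈ starts R B val β u with v <:+ e, len e with hA
  set Bk : Nd → ℝ := fun v => ∑ z ∈ B with v <:+ z, len z with hBk
  set U : Nd → ℝ := fun v =>
    if InE B val β u v then C - max (α * ‖val v‖ ^ 2) 2 else C - α * ‖val v‖ ^ 2 with hU
  have U1 : ∀ v, U v ≤ C - α * ‖val v‖ ^ 2 := fun v => by
    simp only [hU]
    split_ifs
    · linarith [le_max_left (α * ‖val v‖ ^ 2) 2]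
    · exact le_rfl
  have U2 : ∀ v, InE B val β u v → U v ≤ C - 2 := fun v hv => by
    simp only [hU, if_pos hv]
    linarith [le_max_right (α * ‖val v‖ ^ 2) 2]
  have U3 : ∀ v ∈ R, 0 ≤ U v := fun v hv => by
    have h1 : α * ‖val v‖ ^ 2 ≤ α * τ ^ 2 := by
      gcongr
      exact hτ v hv
    simp only [hU]
    split_ifs
    · have : max (α * ‖val v‖ ^ 2) 2 ≤ C := max_le (by linarith) (by linarith)
      linarith
    · linarith
  have B0 : ∀ v, 0 ≤ Bk v := fun v => Finset.sum_nonneg fun z _ => (len_pos z).le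
  have key : ∀ v ∈ R, u <:+ v → A v ≤ len v * U v + C * Bk v := by
    refine h.induct fun v hv ih huv => ?_
    have hA1 := epoch_split (starts R B val β u) v len
    have hB1 := epoch_split B v len
    change A v = _ + (A _ + A _) at hA1
    change Bk v = _ + (Bk _ + Bk _) at hB1
    have hl := len_pos v
    have ih' := fun b hb => ih b hb (huv.trans (List.suffix_cons b v))
    simp only [len_cons] at ih'
    by_cases hb : v ∈ B
    · have h1 : ∀ b : Bool, A (b :: v) ≤ len v / 2 * C + C * Bk (b :: v) := by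
        intro b
        by_cases hc : b :: v ∈ R
        · refine (ih' b hc).trans (add_le_add (mul_le_mul_of_nonneg_left ?_ (by linarith)) le_rfl)
          have : 0 ≤ α * ‖val (b :: v)‖ ^ 2 := by positivity
          linarith [U1 (b :: v)]
        · have : A (b :: v) = 0 := Finset.sum_eq_zero fun e he => by
            rw [Finset.mem_filter, mem_starts] at he
            exact absurd (h.closed e he.1.1 _ ((h.sub v hv).trans (List.suffix_cons b v)) he.2) hc
          rw [this]
          have := B0 (b :: v)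
          positivity
      rw [if_neg fun k => (mem_starts.1 k).2.2.1.1 hb] at hA1
      rw [if_pos hb] at hB1
      have := mul_nonneg hl.le (U3 v hv)
      rw [hA1, hB1]
      linarith [h1 false, h1 true]
    · rw [if_neg hb] at hB1
      have i0 := ih' false (h.child v hv hb _)
      have i1 := ih' true (h.child v hv hb _)
      have hmean : α * ‖val v‖ ^ 2 ≤
          (α * ‖val (false :: v)‖ ^ 2 + α * ‖val (true :: v)‖ ^ 2) / 2 := by
        have h1 : ‖val v‖ ≤ (‖val (false :: v)‖ + ‖val (true :: v)‖) / 2 := by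
          rw [hm v hv hb, norm_div, Complex.norm_two]
          linarith [norm_add_le (val (false :: v)) (val (true :: v))]
        have h2 := pow_le_pow_left₀ (norm_nonneg _) h1 2
        have h3 : ‖val v‖ ^ 2 ≤ (‖val (false :: v)‖ ^ 2 + ‖val (true :: v)‖ ^ 2) / 2 := by
          nlinarith [sq_nonneg (‖val (false :: v)‖ - ‖val (true :: v)‖)]
        nlinarith
      suffices hs : (if v ∈ starts R B val β u then (1 : ℝ) else 0) +
          (U (false :: v) + U (true :: v)) / 2 ≤ U v by
        have h1 := mul_le_mul_of_nonneg_left hs hl.le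
        rw [hA1, hB1]
        split_ifs at h1 ⊢ <;> linarith
      have u0 := U1 (false :: v)
      have u1 := U1 (true :: v)
      by_cases hin : InE B val β u v
      · rw [if_neg fun k => (mem_starts.1 k).2.2.2 hin]
        have h2 : (U (false :: v) + U (true :: v)) / 2 ≤ C - 2 := by
          by_cases ha : amp val v ≤ 6 * β
          · linarith [U2 _ ((inE_cons huv false).2 ⟨Or.inl hin, fun _ => ha⟩),
              U2 _ ((inE_cons huv true).2 ⟨Or.inl hin, fun _ => ha⟩)]
          · have h3 : ∀ t : ℝ, 6 * β < t → 4 ≤ α * t ^ 2 := fun t ht => by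
              have := pow_le_pow_left₀ (by positivity) ht.le 2
              nlinarith
            have p0 : 0 ≤ α * ‖val (false :: v)‖ ^ 2 := by positivity
            have p1 : 0 ≤ α * ‖val (true :: v)‖ ^ 2 := by positivity
            rcases lt_max_iff.1 (not_le.1 ha) with k | k <;> linarith [h3 _ k]
        simp only [hU, if_pos hin] at h2 ⊢
        simp only [hU] at u0 u1
        rcases max_cases (α * ‖val v‖ ^ 2) 2 with k | k <;> rw [k.1] <;> linarith
      · have hUv : U v = C - α * ‖val v‖ ^ 2 := by simp only [hU, if_neg hin]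
        rw [hUv]
        split_ifs with hs
        · have hlow := (mem_starts.1 hs).2.2.1
          have ha : amp val v ≤ 6 * β := by linarith [hlow.2]
          have h3 : ∀ t : ℝ, 0 ≤ t → t ≤ 3 * β → α * t ^ 2 ≤ 1 := fun t h0 ht => by
            have := pow_le_pow_left₀ h0 ht 2
            nlinarith
          linarith [U2 _ ((inE_cons huv false).2 ⟨Or.inr hlow, fun _ => ha⟩),
            U2 _ ((inE_cons huv true).2 ⟨Or.inr hlow, fun _ => ha⟩),
            h3 _ (norm_nonneg _) ((le_max_left _ _).trans hlow.2),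
            h3 _ (norm_nonneg _) ((le_max_right _ _).trans hlow.2)]
        · linarith
  have h1 := key u hu (List.suffix_refl u)
  have h2 : A u = ∑ e ∈ starts R B val β u, len e := by
    simp only [hA]
    rw [Finset.filter_true_of_mem fun e he => (mem_starts.1 he).2.1]
  have h3 : C * Bk u ≤ C * (P * len u) := mul_le_mul_of_nonneg_left (h.carl u hu) (by linarith)
  have h4 : len u * U u ≤ len u * C := by
    refine mul_le_mul_of_nonneg_left ?_ (len_pos u).le
    have : 0 ≤ α * ‖val u‖ ^ 2 := by positivity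
    linarith [U1 u]
  rw [← h2]
  linarith

theorem epoch_start {B : Finset Nd} {val : Nd → ℂ} {β : ℝ} {u v : Nd} (n : ℕ) :
    ∀ e : Nd, e.length ≤ n → (u <:+ e ∧ e <:+ v ∧ Low B val β e ∧
      ∀ z, e <:+ z → z <:+ v → z ∉ B → amp val z ≤ 6 * β) →
    ∃ e : Nd, (u <:+ e ∧ e <:+ v ∧ Low B val β e ∧
      ∀ z, e <:+ z → z <:+ v → z ∉ B → amp val z ≤ 6 * β) ∧ ¬ InE B val β u e := by
  induction n using Nat.strong_induction_on with
  | _ n ih =>
    intro e hn he
    by_cases hin : InE B val β u e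
    · obtain ⟨e', h1, h2, h3, h4, h5⟩ := hin
      have h6 : e'.length < e.length :=
        lt_of_le_of_ne h2.length_le fun k => h3 (h2.eq_of_length k)
      refine ih e'.length (by omega) e' le_rfl ⟨h1, h2.trans he.2.1, h4, fun z k1 k2 k3 => ?_⟩
      rcases suffix_total he.2.1 k2 with k | k
      · exact he.2.2.2 z k k2 k3
      · by_cases hz : z = e
        · exact he.2.2.2 z (hz ▸ List.suffix_refl z) k2 k3
        · exact h5 z k1 k hz k3
    · exact ⟨e, he, hin⟩

theorem epoch_exp {w : Nd} {R B : Finset Nd} {P : ℝ} {D : ℕ} (h : Shape w R B P D) (hP : 0 ≤ P)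
    {val : Nd → ℂ} (hm : Mg R B val) {β τ : ℝ} (hβ : 0 < β) (hτ : ∀ v ∈ R, ‖val v‖ ≤ τ)
    {u : Nd} (hu : u ∈ R) :
    ∃ E : Nd → ℝ, (∀ x, 1 ≤ E x) ∧
      ∑ x ∈ lv D u, len x * E x ≤ 9 * (τ ^ 2 / (9 * β ^ 2) + 2) * (1 + P) * len u ∧
      ∀ x ∈ lv D u, ∀ k₁ k₂ : ℕ, u.length ≤ k₁ →
        (∀ v ∈ R, v ∉ B → v <:+ x → k₁ ≤ v.length → v.length < k₂ → amp val v ≤ 3 * β) →
        ‖∑ v ∈ R with (v ∉ B ∧ v <:+ x ∧ k₁ ≤ v.length ∧ v.length < k₂),
            (sg v x : ℂ) * gam val v‖ ≤ 200 * β * (Real.log (E x) + 1 + nb B x) := by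
  choose! Ef h1 h2 h3 using fun e (he : e ∈ R) => exp_start h hm hβ he
  have hS : ∀ x, ∀ e ∈ (starts R B val β u).filter (· <:+ x), 0 ≤ Ef e x := fun x e he =>
    zero_le_one.trans (h1 e (mem_starts.1 (Finset.mem_filter.1 he).1).1 x)
  have hE : ∀ x, (1 : ℝ) ≤ 1 + ∑ e ∈ starts R B val β u with e <:+ x, Ef e x := fun x =>
    le_add_of_nonneg_right (Finset.sum_nonneg (hS x))
  refine ⟨fun x => 1 + ∑ e ∈ starts R B val β u with e <:+ x, Ef e x, hE, ?_, ?_⟩
  · have e1 : ∑ x ∈ lv D u, len x * (1 + ∑ e ∈ starts R B val β u with e <:+ x, Ef e x) =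
        len u + ∑ e ∈ starts R B val β u, ∑ x ∈ lv D e, len x * Ef e x := by
      simp only [mul_add, mul_one, Finset.sum_add_distrib, sum_len_lv, Finset.mul_sum]
      congr 1
      simp only [Finset.sum_filter]
      rw [Finset.sum_comm]
      refine Finset.sum_congr rfl fun e he => ?_
      have := h.depth e (mem_starts.1 he).1
      rw [← Finset.sum_filter, lv_filter (mem_starts.1 he).2.1 (by omega)]
    have e2 : ∑ e ∈ starts R B val β u, ∑ x ∈ lv D e, len x * Ef e x ≤
        8 * ∑ e ∈ starts R B val β u, len e := by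
      rw [Finset.mul_sum]
      exact Finset.sum_le_sum fun e he => h2 e (mem_starts.1 he).1
    have e3 := sum_starts h hm hβ hτ hu
    have e4 : len u ≤ (τ ^ 2 / (9 * β ^ 2) + 2) * (1 + P) * len u := by
      refine le_mul_of_one_le_left (len_pos u).le (one_le_mul_of_one_le_of_one_le ?_ (by linarith))
      have : 0 ≤ τ ^ 2 / (9 * β ^ 2) := by positivity
      linarith
    rw [e1]
    linarith
  · intro x hx k₁ k₂ hk hlow
    have huD : u.length ≤ D := by have := h.depth u hu; omega
    rw [mem_lv huD] at hx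
    rcases (R.filter fun v => v ∉ B ∧ v <:+ x ∧ k₁ ≤ v.length ∧ v.length < k₂).eq_empty_or_nonempty
      with hT | hT
    · rw [hT, Finset.sum_empty, norm_zero]
      have := Real.log_nonneg (hE x)
      positivity
    obtain ⟨v₁, hv₁, hmin⟩ := Finset.exists_min_image _ List.length hT
    simp only [Finset.mem_filter] at hv₁ hmin
    obtain ⟨hR, hB, hvx, hk1, hk2⟩ := hv₁
    have huv : u <:+ v₁ := suffix_of_le hx.2 hvx (by omega)
    have hl : Low B val β v₁ := ⟨hB, hlow v₁ hR hB hvx hk1 hk2⟩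
    obtain ⟨e, ⟨he1, he2, he3, he4⟩, he5⟩ := epoch_start (u := u) v₁.length v₁ le_rfl
      ⟨huv, List.suffix_refl v₁, hl, fun z k1 k2 _ => by
        rw [k2.eq_of_length (le_antisymm k2.length_le k1.length_le)]
        linarith [hl.2]⟩
    have heR : e ∈ R := h.closed v₁ hR e ((h.sub u hu).trans he1) he2
    have hxe : x ∈ lv D e := (mem_lv (by have := h.depth e heR; omega)).2 ⟨hx.1, he2.trans hvx⟩
    have hc : ∀ v ∈ R, v ∉ B → e <:+ v → v <:+ x → v.length < k₂ → amp val v ≤ 6 * β := by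
      intro v k1 k2 k3 k4 k5
      rcases le_total v.length v₁.length with k | k
      · exact he4 v k3 (suffix_of_le k4 hvx k) k2
      · linarith [hlow v k1 k2 k4 (by omega) k5]
    have s2 := h3 e heR x hxe k₂ hc
    have s1 := h3 e heR x hxe v₁.length fun v k1 k2 k3 k4 k5 => hc v k1 k2 k3 k4 (by omega)
    have e1 : ∑ v ∈ R with (v ∉ B ∧ v <:+ x ∧ k₁ ≤ v.length ∧ v.length < k₂),
        (sg v x : ℂ) * gam val v =
        ∑ v ∈ R with (v ∉ B ∧ e <:+ v ∧ v <:+ x ∧ v.length < k₂), (sg v x : ℂ) * gam val v -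
        ∑ v ∈ R with (v ∉ B ∧ e <:+ v ∧ v <:+ x ∧ v.length < v₁.length),
          (sg v x : ℂ) * gam val v := by
      simp only [Finset.sum_filter, ← Finset.sum_sub_distrib]
      refine Finset.sum_congr rfl fun v hv => ?_
      by_cases k : v ∉ B ∧ v <:+ x ∧ k₁ ≤ v.length ∧ v.length < k₂
      · have k1 := hmin v ⟨hv, k⟩
        rw [if_pos k, if_pos ⟨k.1, he2.trans (suffix_of_le hvx k.2.1 k1), k.2.1, k.2.2.2⟩,
          if_neg fun k' => absurd k'.2.2.2 (not_lt.2 k1), sub_zero]
      · rw [if_neg k]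
        by_cases k' : v ∉ B ∧ e <:+ v ∧ v <:+ x ∧ v.length < k₂
        · have k1 : v.length < v₁.length := by
            by_contra k2
            exact k ⟨k'.1, k'.2.2.1, by omega, k'.2.2.2⟩
          rw [if_pos k', if_pos ⟨k'.1, k'.2.1, k'.2.2.1, k1⟩, sub_self]
        · rw [if_neg k', if_neg fun k'' => k' ⟨k''.1, k''.2.1, k''.2.2.1, by omega⟩, sub_self]
    have e2 : Real.log (Ef e x) ≤
        Real.log (1 + ∑ e ∈ starts R B val β u with e <:+ x, Ef e x) := by
      refine Real.log_le_log (zero_lt_one.trans_le (h1 e heR x)) ?_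
      have := Finset.single_le_sum (hS x)
        (Finset.mem_filter.2 ⟨mem_starts.2 ⟨heR, he1, he3, he5⟩, he2.trans hvx⟩)
      linarith
    rw [e1]
    refine (norm_sub_le _ _).trans ?_
    nlinarith

end Crest.Agent.R100
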