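import Crest.Agent.R100.Basic

/-!
# R100/Exp: exponential supermartingale of one epoch  (task)

`doob`: induct on `D - |v|` with the Bellman function `√S + M/√S` (`S ≥ 1`, `S ≥ M` = running
maximum): claim for every `v` below `e` and every `s ≥ max 1 (M v)`: there is `S` on leaves with
`S x ≥ s`, `S x ≥ M v'` for `v <:+ v' <:+ x`, and `∑_{x ∈ lv D v} len x √(S x) ≤ len v (√s + M v/√s)`.
Step: for a child `u` use `s' = max s (M u)`; `√s' + M u/√s' ≤ √s + M u/√s` (if `M u > s`:
`2√(M u) ≤ √s + M u/√s`, AM-GM).  (Or define `S x` explicitly as a `Finset.sup'`/fold.)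

`exp_start`: put `λ = 1/(288β²)`, `θ = 1/(24β)` (so `θ² = λ/2`, `36λβ² = 1/8`).  A node `v` is *alive*
if `v ∈ R`, `e <:+ v` and `amp val z ≤ 6β` for all `z ∉ B` with `e <:+ z <:+ v`; *active* = alive and
`∉ B`.  For a node `v` below `e` and `η ∈ {1,-1,I,-I}` put
`Ŷ v = ∑_{z active, |z|+2 ≤ |v|, z <:+ v} sg z v * gam val z`,
`q v = ‖gam val (parent v)‖²` if `v ≠ e` and the parent is active, else `0`,
`ψ v = λ‖val v‖²` if active, `0` if alive and in `B`, `1/8` if not alive,
`n v` = number of `z ∈ B` with `e <:+ z <:+ v`,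
`M v = exp (θ Re(η Ŷ v) + θ² q v - ψ v - n v / 8)`.  Then `M e ≤ 1` and `M` is a supermartingale:
`Ŷ (b :: v) = Ŷ v ± γ'` (opposite signs for the two `b`, `sg_of_suffix`; `γ'` = `gam` of the parent of
`v` if it is active, else `0`).  If `v` is active, `val (b::v) = val v ± gam val v` (`Mg`),
`‖val (b::v)‖, ‖val v‖ ≤ 6β`, and in all three cases for the child
`ψ (b::v) + (n (b::v) - n v)/8 ≥ λ‖val (b::v)‖²`; then use
`cosh x ≤ exp (x²/2)` (`Real.cosh_le_exp_half_sq`), `(x₁+x₂)²/2 ≤ x₁²+x₂²`,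
`144λ²β² + θ² ≤ λ`.  If `v` is not active: `ψ (b::v) + Δn/8 ≥ ψ v` (a child of a dead node is dead;
for `v ∈ B` alive `ψ v = 0`), `q (b::v) = 0`.
Take `E = ∑_η √(S^η)`.  For the conclusion use the ancestor `v` of `x` of depth
`min (k+1) D` (at least `|e|`; nodes of `R` have depth `≤ D-2`): `θ Re(ηŶ) ≤ log S^η + 1/8 + nb/8`,
`log S^η ≤ 2 log E`, `‖Ŷ‖ ≤ |Re| + |Im|`.
-/

set_option autoImplicit false
open MeasureTheory Set

namespace Crest.Agent.R100

theorem Exp_doob {e : Nd} (M : Nd → ℝ) (h0 : ∀ v, 0 ≤ M v)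
    (hs : ∀ v, e <:+ v → M (false :: v) + M (true :: v) ≤ 2 * M v) (n : ℕ) :
    ∀ v, e <:+ v → ∀ s : ℝ, 1 ≤ s → M v ≤ s → ∃ S : Nd → ℝ, (∀ x, s ≤ S x) ∧
      ∑ x ∈ below n v, len x * √(S x) ≤ len v * (√s + M v / √s) ∧
      ∀ x ∈ below n v, ∀ u, v <:+ u → u <:+ x → M u ≤ S x := by
  classical
  induction n with
  | zero =>
    intro v _ s h1 h2
    refine ⟨fun _ => s, fun _ => le_rfl, ?_, fun x hx u k1 k2 => ?_⟩
    · rw [below, Finset.sum_singleton]
      exact mul_le_mul_of_nonneg_left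
        (le_add_of_nonneg_right (div_nonneg (h0 v) (Real.sqrt_nonneg _))) (len_pos v).le
    · rw [below, Finset.mem_singleton] at hx
      subst hx
      rw [k2.eq_of_length (le_antisymm k2.length_le k1.length_le)]
      exact h2
  | succ n ih =>
    intro v hv s h1 h2
    have hq : 0 < √s := Real.sqrt_pos.2 (by linarith)
    have key : ∀ m : ℝ, √(max s m) + m / √(max s m) ≤ √s + m / √s := by
      intro m
      rcases le_total m s with h | h
      · rw [max_eq_left h]
      · rw [max_eq_right h, Real.div_sqrt, ← sub_le_iff_le_add', le_div_iff₀ hq]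
        nlinarith [Real.mul_self_sqrt (show 0 ≤ m by linarith), sq_nonneg (√m - √s)]
    have ih' := fun b : Bool => ih (b :: v) (hv.trans (List.suffix_cons _ _)) (max s (M (b :: v)))
      (h1.trans (le_max_left _ _)) (le_max_right _ _)
    choose S a b c using ih'
    have e0 : ∀ x ∈ below n (false :: v),
        (if (false :: v) <:+ x then S false x else S true x) = S false x :=
      fun x hx => if_pos (mem_below.1 hx).2
    have e1 : ∀ x ∈ below n (true :: v),
        (if (false :: v) <:+ x then S false x else S true x) = S true x :=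
      fun x hx => if_neg fun k => not_both_children k (mem_below.1 hx).2
    have hge : ∀ x, s ≤ if (false :: v) <:+ x then S false x else S true x := fun x => by
      split_ifs
      · exact (le_max_left _ _).trans (a false x)
      · exact (le_max_left _ _).trans (a true x)
    refine ⟨fun x => if (false :: v) <:+ x then S false x else S true x, hge, ?_,
      fun x hx u k1 k2 => ?_⟩
    · rw [sum_below_succ,
        Finset.sum_congr (s₁ := below n (false :: v)) (g := fun x => len x * √(S false x)) rfl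
          fun x hx => by simp only [e0 x hx],
        Finset.sum_congr (s₁ := below n (true :: v)) (g := fun x => len x * √(S true x)) rfl
          fun x hx => by simp only [e1 x hx]]
      have hl : 0 ≤ len v / 2 := by linarith [len_pos v]
      have b0 := (b false).trans (mul_le_mul_of_nonneg_left (key _) (len_pos _).le)
      have b1 := (b true).trans (mul_le_mul_of_nonneg_left (key _) (len_pos _).le)
      rw [len_cons] at b0 b1
      have b2 := mul_le_mul_of_nonneg_left (div_le_div_of_nonneg_right (hs v hv) hq.le) hl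
      rw [add_div, mul_div_assoc] at b2
      linarith
    · by_cases huv : v = u
      · exact huv ▸ h2.trans (hge x)
      · obtain ⟨d, hd⟩ := child_suffix k1 huv
        have hx' : x ∈ below n (d :: v) :=
          mem_below.2 ⟨by rw [(mem_below.1 hx).1, List.length_cons]; omega, hd.trans k2⟩
        cases d
        · simp only [e0 x hx']
          exact c false x hx' u hd k2
        · simp only [e1 x hx']
          exact c true x hx' u hd k2

theorem doob {e : Nd} {D : ℕ} (hD : e.length ≤ D) (M : Nd → ℝ) (h0 : ∀ v, 0 ≤ M v)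
    (hs : ∀ v, e <:+ v → M (false :: v) + M (true :: v) ≤ 2 * M v) (h1 : M e ≤ 1) :
    ∃ S : Nd → ℝ, (∀ x, 1 ≤ S x) ∧ ∑ x ∈ lv D e, len x * √(S x) ≤ 2 * len e ∧
      ∀ x ∈ lv D e, ∀ v, e <:+ v → v <:+ x → M v ≤ S x := by
  obtain ⟨S, h2, h3, h4⟩ := Exp_doob M h0 hs (D - e.length) e (List.suffix_refl _) 1 le_rfl h1
  refine ⟨S, h2, h3.trans ?_, h4⟩
  rw [Real.sqrt_one, div_one, mul_comm]
  exact mul_le_mul_of_nonneg_right (by linarith) (len_pos e).le

/-- sign of a bit -/
def Exp_s (c : Bool) : ℝ := if c then 1 else -1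

/-- the next increment -/
noncomputable def Exp_d (g : Nd → ℂ) : Nd → ℂ
  | [] => 0
  | b :: z => (Exp_s b : ℂ) * g z

/-- the shifted martingale -/
noncomputable def Exp_Y (g : Nd → ℂ) : Nd → ℂ
  | [] => 0
  | c :: v => Exp_Y g v + (Exp_s c : ℂ) * Exp_d g v

theorem Exp_norm_d (g : Nd → ℂ) (b : Bool) (z : Nd) : ‖Exp_d g (b :: z)‖ = ‖g z‖ := by
  cases b <;> simp [Exp_d, Exp_s]

open Classical in
theorem Exp_Y_sum (R : Finset Nd) {g : Nd → ℂ} (hg : ∀ z, z ∉ R → g z = 0) (x : Nd) :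
    ∀ v, v <:+ x → Exp_Y g v =
      ∑ z ∈ R, if z <:+ x ∧ z.length + 2 ≤ v.length then (sg z x : ℂ) * g z else 0 := by
  intro v hv
  induction v with
  | nil => simp [Exp_Y]
  | cons c v ih =>
    rw [Exp_Y, ih ((List.suffix_cons _ _).trans hv)]
    cases v with
    | nil => simp [Exp_d]
    | cons b y =>
      have hy : y <:+ x := ((List.suffix_cons _ _).trans (List.suffix_cons _ _)).trans hv
      have e : (Exp_s c : ℂ) * Exp_d g (b :: y) =
          ∑ z ∈ R, if z = y then (sg z x : ℂ) * g z else 0 := by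
        rw [Finset.sum_ite_eq', sg_of_suffix hv, Exp_d]
        split_ifs with h1 h2
        · subst h2
          cases b <;> simp [Exp_s]
        · cases b <;> cases c <;> simp [Exp_s] at h2 ⊢
        · rw [hg y h1, mul_zero, mul_zero]
      rw [e, ← Finset.sum_add_distrib]
      refine Finset.sum_congr rfl fun z _ => ?_
      simp only [List.length_cons]
      by_cases hz : z = y
      · subst hz
        rw [if_neg (by omega), if_pos rfl, if_pos ⟨hy, le_rfl⟩, zero_add]
      · rw [if_neg hz, add_zero]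
        refine if_congr (and_congr_right fun h1 => ⟨fun h2 => by omega, fun h2 => ?_⟩) rfl rfl
        have : z.length ≠ y.length := fun h3 => hz (suffix_eq_of_length h1 hy h3)
        omega

theorem Exp_two {a t A y₀ y₁ : ℝ} (h0 : y₀ ≤ a - t) (h1 : y₁ ≤ a + t) (h : a + t ^ 2 / 2 ≤ A) :
    Real.exp y₀ + Real.exp y₁ ≤ 2 * Real.exp A := by
  have e : Real.exp (a - t) + Real.exp (a + t) = 2 * (Real.exp a * Real.cosh t) := by
    rw [Real.cosh_eq, sub_eq_add_neg, Real.exp_add, Real.exp_add]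
    ring
  have h2 := mul_le_mul_of_nonneg_left (Real.cosh_le_exp_half_sq t) (Real.exp_pos a).le
  rw [← Real.exp_add] at h2
  linarith [Real.exp_le_exp.2 h0, Real.exp_le_exp.2 h1, Real.exp_le_exp.2 h]

theorem Exp_nb_mono (B : Finset Nd) {v x : Nd} (h : v <:+ x) : nb B v ≤ nb B x :=
  Finset.card_le_card fun _ hz =>
    Finset.mem_filter.2 ⟨(Finset.mem_filter.1 hz).1, (Finset.mem_filter.1 hz).2.trans h⟩

theorem Exp_nb_succ {B : Finset Nd} {c : Bool} {v : Nd} (h : c :: v ∈ B) :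
    nb B v + 1 ≤ nb B (c :: v) := by
  refine Finset.card_lt_card ⟨fun _ hz => Finset.mem_filter.2 ⟨(Finset.mem_filter.1 hz).1,
    (Finset.mem_filter.1 hz).2.trans (List.suffix_cons _ _)⟩, fun k => ?_⟩
  have := (Finset.mem_filter.1 (k (Finset.mem_filter.2 ⟨h, List.suffix_refl _⟩))).2.length_le
  simp at this

/-- alive nodes -/
def Exp_alive (R B : Finset Nd) (val : Nd → ℂ) (β : ℝ) (e v : Nd) : Prop :=
  v ∈ R ∧ e <:+ v ∧ ∀ z, z ∉ B → e <:+ z → z <:+ v → amp val z ≤ 6 * β

open Classical in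
/-- `gam` at the active nodes -/
noncomputable def Exp_g (R B : Finset Nd) (val : Nd → ℂ) (β : ℝ) (e v : Nd) : ℂ :=
  if Exp_alive R B val β e v ∧ v ∉ B then gam val v else 0

open Classical in
/-- the potential -/
noncomputable def Exp_psi (R B : Finset Nd) (val : Nd → ℂ) (β : ℝ) (e v : Nd) : ℝ :=
  if Exp_alive R B val β e v then (if v ∈ B then 0 else 2 * (1 / (24 * β)) ^ 2 * ‖val v‖ ^ 2)
  else 1 / 8

theorem Exp_psi_nonneg (R B : Finset Nd) (val : Nd → ℂ) (β : ℝ) (e v : Nd) :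
    0 ≤ Exp_psi R B val β e v := by
  unfold Exp_psi
  split_ifs <;> positivity

theorem Exp_small {β r : ℝ} (hβ : 0 < β) (h0 : 0 ≤ r) (h : r ≤ 6 * β) :
    2 * (1 / (24 * β)) ^ 2 * r ^ 2 ≤ 1 / 8 := by
  refine (mul_le_mul_of_nonneg_left (pow_le_pow_left₀ h0 h 2) (by positivity)).trans_eq ?_
  field_simp
  norm_num

theorem Exp_eta {w : Nd} {R B : Finset Nd} {P : ℝ} {D : ℕ} (h : Shape w R B P D)
    {val : Nd → ℂ} (hm : Mg R B val) {β : ℝ} (hβ : 0 < β) {e : Nd} (he : e ∈ R) {η : ℂ}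
    (hη : ‖η‖ = 1) :
    ∃ S : Nd → ℝ, (∀ x, 1 ≤ S x) ∧ ∑ x ∈ lv D e, len x * √(S x) ≤ 2 * len e ∧
      ∀ x ∈ lv D e, ∀ v, e <:+ v → v <:+ x → (η * Exp_Y (Exp_g R B val β e) v).re ≤
        24 * β * (Real.log (S x) + 1 / 8 + nb B x / 8) := by
  classical
  set g := Exp_g R B val β e with hg
  set ψ := Exp_psi R B val β e with hψ
  set θ := 1 / (24 * β) with hθ
  have hθ0 : 0 < θ := by positivity
  have hθβ : 24 * β * θ = 1 := by rw [hθ]; field_simp
  have hψ0 : ∀ v, 0 ≤ ψ v := Exp_psi_nonneg R B val β e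
  have hval : ∀ v, Exp_alive R B val β e v → v ∉ B →
      (∀ c, ‖val (c :: v)‖ ≤ 6 * β) ∧ ‖val v‖ ≤ 6 * β := by
    intro v h1 h2
    have h3 := h1.2.2 v h2 h1.2.1 (List.suffix_refl _)
    have h4 : ‖val (false :: v)‖ ≤ 6 * β := (le_max_left _ _).trans h3
    have h5 : ‖val (true :: v)‖ ≤ 6 * β := (le_max_right _ _).trans h3
    refine ⟨fun c => by cases c <;> assumption, ?_⟩
    rw [hm v h1.1 h2, norm_div, Complex.norm_two]
    linarith [norm_add_le (val (false :: v)) (val (true :: v))]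
  have hψ1 : ∀ v, ψ v ≤ 1 / 8 := by
    intro v
    simp only [hψ, Exp_psi]
    split_ifs with h1 h2
    · norm_num
    · exact Exp_small hβ (norm_nonneg _) (hval v h1 h2).2
    · exact le_rfl
  set L : Nd → ℝ := fun v => θ * (η * Exp_Y g v).re + θ ^ 2 * ‖Exp_d g v‖ ^ 2 - ψ v - nb B v / 8
    with hL
  have hLc : ∀ c v, L (c :: v) = θ * (η * Exp_Y g v).re + Exp_s c * (θ * (η * Exp_d g v).re) +
      θ ^ 2 * ‖g v‖ ^ 2 - (ψ (c :: v) + nb B (c :: v) / 8) := by
    intro c v
    simp only [hL, Exp_Y, Exp_norm_d]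
    rw [mul_add η, mul_left_comm η, Complex.add_re, Complex.re_ofReal_mul]
    ring
  have hx1 : ∀ v, (θ * (η * Exp_d g v).re) ^ 2 ≤ θ ^ 2 * ‖Exp_d g v‖ ^ 2 := by
    intro v
    rw [mul_pow]
    refine mul_le_mul_of_nonneg_left ?_ (sq_nonneg _)
    have := Complex.abs_re_le_norm (η * Exp_d g v)
    rw [norm_mul, hη, one_mul] at this
    exact sq_le_sq' (abs_le.1 this).1 (abs_le.1 this).2
  have hs : ∀ v, e <:+ v →
      Real.exp (L (false :: v)) + Real.exp (L (true :: v)) ≤ 2 * Real.exp (L v) := by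
    intro v hv
    have hn : ∀ c, (nb B v : ℝ) ≤ nb B (c :: v) := fun c => by
      exact_mod_cast Exp_nb_mono B (List.suffix_cons c v)
    by_cases ha : Exp_alive R B val β e v ∧ v ∉ B
    · obtain ⟨h1, h2⟩ := hval v ha.1 ha.2
      have hgv : g v = gam val v := if_pos ha
      have hψv : ψ v = 2 * θ ^ 2 * ‖val v‖ ^ 2 := by
        simp only [hψ, Exp_psi, if_pos ha.1, if_neg ha.2, hθ]
      have hc : ∀ c, 2 * θ ^ 2 * ‖val (c :: v)‖ ^ 2 + nb B v / 8 ≤
          ψ (c :: v) + nb B (c :: v) / 8 := by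
        intro c
        have h3 := Exp_small hβ (norm_nonneg _) (h1 c)
        have h4 := hn c
        simp only [hψ, Exp_psi]
        split_ifs with h5 h6
        · have : (nb B v : ℝ) + 1 ≤ nb B (c :: v) := by exact_mod_cast Exp_nb_succ h6
          linarith
        · linarith
        · linarith
      have e0 : val (false :: v) = val v + gam val v := by
        rw [hm v ha.1.1 ha.2, gam]
        ring
      have e1 : val (true :: v) = val v - gam val v := by
        rw [hm v ha.1.1 ha.2, gam]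
        ring
      have c0 := hc false
      have c1 := hc true
      rw [e0, norm_add_sq_real] at c0
      rw [e1, norm_sub_sq_real] at c1
      set r : ℝ := inner ℝ (val v) (gam val v) with hr
      have hr2 : r ^ 2 ≤ (6 * β) ^ 2 * ‖gam val v‖ ^ 2 := by
        have h3 := (abs_real_inner_le_norm (val v) (gam val v)).trans
          (mul_le_mul_of_nonneg_right h2 (norm_nonneg _))
        rw [← mul_pow]
        exact sq_le_sq' (abs_le.1 h3).1 (abs_le.1 h3).2
      have hr3 : (4 * θ ^ 2 * r) ^ 2 ≤ θ ^ 2 * ‖gam val v‖ ^ 2 := by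
        calc (4 * θ ^ 2 * r) ^ 2 = 16 * θ ^ 4 * r ^ 2 := by ring
          _ ≤ 16 * θ ^ 4 * ((6 * β) ^ 2 * ‖gam val v‖ ^ 2) :=
            mul_le_mul_of_nonneg_left hr2 (by positivity)
          _ = (24 * β * θ) ^ 2 * (θ ^ 2 * ‖gam val v‖ ^ 2) := by ring
          _ = _ := by rw [hθβ, one_pow, one_mul]
      refine Exp_two (a := θ * (η * Exp_Y g v).re - θ ^ 2 * ‖gam val v‖ ^ 2 -
        2 * θ ^ 2 * ‖val v‖ ^ 2 - nb B v / 8) (t := θ * (η * Exp_d g v).re + 4 * θ ^ 2 * r) ?_ ?_ ?_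
      · rw [hLc, hgv, Exp_s, if_neg Bool.false_ne_true]
        linarith
      · rw [hLc, hgv, Exp_s, if_pos rfl]
        linarith
      · simp only [hL, hψv]
        nlinarith [hx1 v, sq_nonneg (θ * (η * Exp_d g v).re - 4 * θ ^ 2 * r)]
    · have hgv : g v = 0 := if_neg ha
      have hc : ∀ c, ψ v ≤ ψ (c :: v) := by
        intro c
        by_cases h1 : Exp_alive R B val β e v
        · have h2 : v ∈ B := by_contra fun h2 => ha ⟨h1, h2⟩
          have : ψ v = 0 := by simp only [hψ, Exp_psi, if_pos h1, if_pos h2]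
          rw [this]
          exact hψ0 _
        · have h2 : ¬ Exp_alive R B val β e (c :: v) := fun k => h1
            ⟨h.closed _ k.1 v ((h.sub e he).trans hv) (List.suffix_cons _ _), hv,
              fun z k1 k2 k3 => k.2.2 z k1 k2 (k3.trans (List.suffix_cons _ _))⟩
          simp only [hψ, Exp_psi, if_neg h1, if_neg h2, le_refl]
      refine Exp_two (a := θ * (η * Exp_Y g v).re - ψ v - nb B v / 8)
        (t := θ * (η * Exp_d g v).re) ?_ ?_ ?_
      · rw [hLc, hgv, Exp_s, if_neg Bool.false_ne_true, norm_zero]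
        linarith [hc false, hn false]
      · rw [hLc, hgv, Exp_s, if_pos rfl, norm_zero]
        linarith [hc true, hn true]
      · simp only [hL]
        nlinarith [hx1 v, sq_nonneg (θ * (η * Exp_d g v).re)]
  have hg0 : ∀ z, z.length < e.length → g z = 0 := fun z hz =>
    if_neg fun k => absurd k.1.2.1.length_le (by omega)
  have h1 : Real.exp (L e) ≤ 1 := by
    rw [Real.exp_le_one_iff]
    have y0 : Exp_Y g e = 0 := by
      rw [Exp_Y_sum R (g := g) (fun z hz => if_neg fun k => hz k.1.1) e e (List.suffix_refl _)]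
      refine Finset.sum_eq_zero fun z _ => ?_
      split_ifs with h2
      · rw [hg0 z (by omega), mul_zero]
      · rfl
    have d0 : Exp_d g e = 0 := by
      rcases he' : e with _ | ⟨b, z⟩
      · rfl
      · rw [Exp_d, hg0 z (by rw [he']; simp), mul_zero]
    simp only [hL, y0, d0, mul_zero, Complex.zero_re, norm_zero]
    have : (0 : ℝ) ≤ nb B e := Nat.cast_nonneg _
    linarith [hψ0 e]
  have heD := h.depth e he
  obtain ⟨S, a, b, c⟩ := doob (D := D) (by omega) (fun v => Real.exp (L v))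
    (fun v => (Real.exp_pos _).le) hs h1
  refine ⟨S, a, b, fun x hx v k1 k2 => ?_⟩
  have h2 : L v ≤ Real.log (S x) := (Real.le_log_iff_exp_le (by linarith [a x])).2 (c x hx v k1 k2)
  have h3 : (nb B v : ℝ) ≤ nb B x := by exact_mod_cast Exp_nb_mono B k2
  have h4 : θ * (η * Exp_Y g v).re ≤ Real.log (S x) + 1 / 8 + nb B x / 8 := by
    simp only [hL] at h2
    have : 0 ≤ θ ^ 2 * ‖Exp_d g v‖ ^ 2 := by positivity
    linarith [hψ1 v]
  have h5 := mul_le_mul_of_nonneg_left h4 (show 0 ≤ 24 * β by positivity)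
  rwa [← mul_assoc, hθβ, one_mul] at h5

theorem exp_start {w : Nd} {R B : Finset Nd} {P : ℝ} {D : ℕ} (h : Shape w R B P D)
    {val : Nd → ℂ} (hm : Mg R B val) {β : ℝ} (hβ : 0 < β) {e : Nd} (he : e ∈ R) :
    ∃ E : Nd → ℝ, (∀ x, 1 ≤ E x) ∧ ∑ x ∈ lv D e, len x * E x ≤ 8 * len e ∧
      ∀ x ∈ lv D e, ∀ k : ℕ,
        (∀ v ∈ R, v ∉ B → e <:+ v → v <:+ x → v.length < k → amp val v ≤ 6 * β) →
        ‖∑ v ∈ R with (v ∉ B ∧ e <:+ v ∧ v <:+ x ∧ v.length < k), (sg v x : ℂ) * gam val v‖ ≤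
          100 * β * (Real.log (E x) + 1 + nb B x) := by
  classical
  obtain ⟨S₁, a1, b1, c1⟩ := Exp_eta h hm hβ he (η := 1) (by simp)
  obtain ⟨S₂, a2, b2, c2⟩ := Exp_eta h hm hβ he (η := -1) (by simp)
  obtain ⟨S₃, a3, b3, c3⟩ := Exp_eta h hm hβ he (η := Complex.I) (by simp)
  obtain ⟨S₄, a4, b4, c4⟩ := Exp_eta h hm hβ he (η := -Complex.I) (by simp)
  have r1 := fun x => Real.one_le_sqrt.2 (a1 x)
  have r2 := fun x => Real.one_le_sqrt.2 (a2 x)
  have r3 := fun x => Real.one_le_sqrt.2 (a3 x)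
  have r4 := fun x => Real.one_le_sqrt.2 (a4 x)
  refine ⟨fun x => √(S₁ x) + √(S₂ x) + √(S₃ x) + √(S₄ x),
    fun x => by linarith [r1 x, r2 x, r3 x, r4 x], ?_, fun x hx k hk => ?_⟩
  · simp only [mul_add, Finset.sum_add_distrib]
    linarith
  have heD := h.depth e he
  obtain ⟨hxD, hex⟩ := (mem_lv (by omega)).1 hx
  set v := x.drop (D - min (max (k + 1) e.length) D) with hv
  have hvx : v <:+ x := List.drop_suffix _ _
  have hvl : v.length = min (max (k + 1) e.length) D := by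
    rw [hv, List.length_drop]
    omega
  have hev : e <:+ v := suffix_of_le hex hvx (by omega)
  have hY : ∑ z ∈ R with (z ∉ B ∧ e <:+ z ∧ z <:+ x ∧ z.length < k), (sg z x : ℂ) * gam val z =
      Exp_Y (Exp_g R B val β e) v := by
    rw [Exp_Y_sum R (g := Exp_g R B val β e) (fun z hz => if_neg fun k => hz k.1.1) x v hvx,
      Finset.sum_filter]
    refine Finset.sum_congr rfl fun z hz => ?_
    have hzD := h.depth z hz
    unfold Exp_g
    by_cases hc : z ∉ B ∧ e <:+ z ∧ z <:+ x ∧ z.length < k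
    · obtain ⟨h1, h2, h3, h4⟩ := hc
      have h5 : Exp_alive R B val β e z := ⟨hz, h2, fun z' k1 k2 k3 =>
        hk z' (h.closed z hz z' ((h.sub e he).trans k2) k3) k1 k2 (k3.trans h3)
          (lt_of_le_of_lt k3.length_le h4)⟩
      rw [if_pos ⟨h1, h2, h3, h4⟩, if_pos ⟨h3, by omega⟩, if_pos ⟨h5, h1⟩]
    · rw [if_neg hc]
      split_ifs with h1 h2
      · have := h2.1.2.1.length_le
        exact absurd ⟨h2.2, h2.1.2.1, h1.1, by omega⟩ hc
      · rw [mul_zero]
      · rfl
  rw [hY]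
  set Y := Exp_Y (Exp_g R B val β e) v
  set E := √(S₁ x) + √(S₂ x) + √(S₃ x) + √(S₄ x) with hE
  have hl : ∀ s : ℝ, 1 ≤ s → √s ≤ E → Real.log s ≤ 2 * Real.log E := by
    intro s h1 h2
    have h3 := Real.log_le_log (Real.sqrt_pos.2 (by linarith)) h2
    rw [Real.log_sqrt (by linarith)] at h3
    linarith
  have l1 := hl _ (a1 x) (by linarith [r1 x, r2 x, r3 x, r4 x])
  have l2 := hl _ (a2 x) (by linarith [r1 x, r2 x, r3 x, r4 x])
  have l3 := hl _ (a3 x) (by linarith [r1 x, r2 x, r3 x, r4 x])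
  have l4 := hl _ (a4 x) (by linarith [r1 x, r2 x, r3 x, r4 x])
  have l0 : 0 ≤ Real.log E := Real.log_nonneg (by linarith [r1 x, r2 x, r3 x, r4 x])
  have d1 := c1 x hx v hev hvx
  have d2 := c2 x hx v hev hvx
  have d3 := c3 x hx v hev hvx
  have d4 := c4 x hx v hev hvx
  simp only [one_mul, neg_mul, Complex.neg_re, Complex.I_mul_re, neg_neg] at d1 d2 d3 d4
  have hn : (0 : ℝ) ≤ nb B x := Nat.cast_nonneg _
  have key : ∀ t s : ℝ, t ≤ 24 * β * (s + 1 / 8 + nb B x / 8) → s ≤ 2 * Real.log E →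
      t ≤ 50 * β * (Real.log E + 1 + nb B x) := by
    intro t s h1 h2
    refine h1.trans ?_
    nlinarith [mul_le_mul_of_nonneg_left h2 hβ.le, mul_nonneg hβ.le l0, mul_nonneg hβ.le hn]
  have e1 : |Y.re| ≤ 50 * β * (Real.log E + 1 + nb B x) :=
    abs_le.2 ⟨by linarith [key _ _ d2 l2], key _ _ d1 l1⟩
  have e2 : |Y.im| ≤ 50 * β * (Real.log E + 1 + nb B x) :=
    abs_le.2 ⟨by linarith [key _ _ d3 l3], key _ _ d4 l4⟩
  linarith [Complex.norm_le_abs_re_add_abs_im Y]

end Crest.Agent.R100
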