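import Crest.Agent.R100.Cell
import Crest.Agent.R100.Core

/-!
# R100/Extract: profit yields a better sub-piece  (task)

From `¬ NoProfit` get `β`, `a₀`; normalise by `s = l1 a₀ + X ‖tp a₀‖₂ > 0` (`X² = e^G (B₀/β)^n`; use
`exists_tp` or `s⁻¹ • a₀`): `l1 ≤ 1`, `avr v ‖Ψ‖² ≤ ε² := X⁻²`, `β < ‖av v (quo · Ψ)‖`, hence
(`norm_quo_le`) `θ m < avr v (φ ‖Ψ‖)` with `θ = tβ`, `φ = ‖E.indicator f‖`.  Cauchy–Schwarz
(`φ² ≤ e^d φ`): `θ² m² < 2 m e^d ε²`, so `hβ` gives `1 ≤ Qβ`, `1 ≤ θQ²`.  Apply `cell`.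
First alternative: `E' = E ∩ I z`.  Second alternative: if `z ∉ N` take `E' = E ∩ I z`
(`∫_{I z} φ ≥ θ m len z/6`); otherwise `piece_of_cell` with `ε'² = 2^{g-1} ε² ≤ 8Q²ε²` (use
`ε' = √8 Q ε`).  Mass: `√m' ≥ θ√m/200000` as `t' ≤ 1`.  Logarithms: `log(B₀/200000) = log 5 ≥ 1`,
`m' ≤ e^d`.
-/

set_option autoImplicit false
open MeasureTheory Set

namespace Crest.Agent.R100

theorem Piece.mono {N : Finset Nd} {w z : Nd} {E E' : Set ℝ} {a : ℝ →₀ ℂ} {G t : ℝ}
    (h : Piece N w E a G t) (hz : w <:+ z) (hE : E' ⊆ E) (hm : MeasurableSet E') :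
    Piece N z E' a G t :=
  ⟨hm, h.l1, h.tpos, h.tle, h.Gnn, fun y hy => h.low y (hE hy), fun u hu hzu hne =>
    h.free u hu (hz.trans hzu) (hne.mono (inter_subset_inter_left _ hE))⟩

theorem Extract_B0_pos : 0 < B0 := by unfold B0; norm_num

/-- normalisation of a profitable polynomial -/
theorem Extract_norm {v : Nd} {F : ℝ → ℂ} {G : ℝ} {n : ℕ} (h : ¬ NoProfit v F G n) :
    ∃ β : ℝ, 0 < β ∧ ∃ b : ℝ →₀ ℂ, l1 b ≤ 1 ∧
      avr v (fun y => ‖tp b y‖ ^ 2) ≤ Real.exp (-G) * (β / B0) ^ n ∧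
      β < ‖av v (fun y => F y * tp b y)‖ := by
  unfold NoProfit at h
  push Not at h
  obtain ⟨β, hβ, a, ha⟩ := h
  have hB := Extract_B0_pos
  obtain ⟨X2, hX2⟩ : ∃ X2, X2 = Real.exp G * (B0 / β) ^ n := ⟨_, rfl⟩
  obtain ⟨A, hA⟩ : ∃ A, A = avr v (fun y => ‖tp a y‖ ^ 2) := ⟨_, rfl⟩
  rw [← hX2, ← hA] at ha
  have hXpos : 0 < X2 := by rw [hX2]; positivity
  have hA0 : 0 ≤ A := by rw [hA]; exact avr_nonneg fun y => by positivity
  obtain ⟨s, hs⟩ : ∃ s, s = l1 a + √X2 * √A := ⟨_, rfl⟩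
  rw [← hs] at ha
  have hl := l1_nonneg a
  have hp : 0 ≤ √X2 * √A := by positivity
  have hs0 : 0 < s := by
    by_contra hn
    have h1 : l1 a = 0 := by linarith
    have h2 : ∀ y, tp a y = 0 := fun y => norm_le_zero_iff.1 (h1 ▸ norm_tp_le a y)
    have h3 : s = 0 := by linarith
    simp [h2, h3, av] at ha
  obtain ⟨b, hb1, hb2⟩ := exists_tp a.support (fun c => ((s⁻¹ : ℝ) : ℂ) * a c) id
  have hb3 : ∀ y, tp b y = ((s⁻¹ : ℝ) : ℂ) * tp a y := fun y => by
    rw [hb2, tp, Finset.mul_sum]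
    exact Finset.sum_congr rfl fun c _ => by simp [mul_assoc]
  have hsi : 0 < s⁻¹ := inv_pos.2 hs0
  have hn : ‖((s⁻¹ : ℝ) : ℂ)‖ = s⁻¹ := by rw [Complex.norm_real, Real.norm_of_nonneg hsi.le]
  refine ⟨β, hβ, b, hb1.trans ?_, ?_, ?_⟩
  · simp only [norm_mul, hn]
    rw [← Finset.mul_sum, ← l1, inv_mul_le_iff₀ hs0]
    linarith
  · have e1 : avr v (fun y => ‖tp b y‖ ^ 2) = s⁻¹ ^ 2 * A := by
      rw [hA]
      unfold avr
      simp only [hb3, norm_mul, hn, mul_pow]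
      rw [integral_const_mul]
      ring
    have e2 : Real.exp (-G) * (β / B0) ^ n = X2⁻¹ := by
      rw [hX2, mul_inv, ← Real.exp_neg, ← inv_pow, inv_div]
    have h1 : X2 * A ≤ s ^ 2 := by
      have : (√X2 * √A) ^ 2 ≤ s ^ 2 := pow_le_pow_left₀ hp (by linarith) 2
      rwa [mul_pow, Real.sq_sqrt hXpos.le, Real.sq_sqrt hA0] at this
    rw [e1, e2, inv_pow, inv_mul_le_iff₀ (by positivity), ← div_eq_mul_inv, le_div_iff₀ hXpos]
    linarith
  · have e1 : av v (fun y => F y * tp b y) = ((s⁻¹ : ℝ) : ℂ) * av v (fun y => F y * tp a y) := by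
      unfold av
      simp only [hb3, mul_left_comm (F _)]
      rw [integral_const_mul]
      ring
    rw [e1, norm_mul, hn, lt_inv_mul_iff₀ hs0]
    linarith

theorem Extract_avr_lin {v : Nd} {φ ψ : ℝ → ℝ} (hφ : IntegrableOn φ (I v))
    (hψ : IntegrableOn ψ (I v)) (p q : ℝ) :
    avr v (fun y => p * φ y + q * ψ y) = p * avr v φ + q * avr v ψ := by
  unfold avr
  rw [integral_add (hφ.const_mul p) (hψ.const_mul q), integral_const_mul, integral_const_mul]
  ring

theorem Extract_ms_inter (f : ℝ → ℂ) (E : Set ℝ) (z : Nd) : ms f (E ∩ I z) z = ms f E z := by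
  unfold ms avr
  congr 1
  refine setIntegral_congr_fun (measurableSet_I z) fun y hy => ?_
  by_cases h : y ∈ E
  · simp [h, hy]
  · simp [h]

theorem Extract_len {g : ℕ} {v z : Nd} (hz : z ∈ below g v) : len v = 2 ^ g * len z := by
  unfold len
  rw [(mem_below.1 hz).1, pow_add, one_div, inv_pow (2 : ℝ) g]
  field_simp

theorem Extract_log {G t β m m' t' Q d : ℝ} {n : ℕ} (ht : 0 < t) (hβ : 0 < β) (hm : 0 < m)
    (hm' : 0 < m') (ht' : 0 < t') (ht1 : t' ≤ 1) (hQ : 1 ≤ Q) (hmd : m' ≤ Real.exp d) {A : ℝ}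
    (hA : A = 10 ^ 37 * Q ^ 32 * (8 * Q ^ 2 * (Real.exp (-G) * (β / B0) ^ n)))
    (h1 : t * β * √m ≤ 200000 * t' * √m') (h2 : m' * t' ^ 2 ≤ 2 * Real.exp d * A) :
    max 0 (-Real.log A) ≤ d + Real.log (2 / m') + 2 * Real.log (1 / t') ∧
      G - n * Real.log (1 / t) + n - Real.log (10 ^ 38 * Q ^ 34) + n / 2 * Real.log (m / m') ≤
        max 0 (-Real.log A) - n * Real.log (1 / t') := by
  have hB := Extract_B0_pos
  have hQ0 : 0 < Q := by linarith
  have hA0 : 0 < A := by rw [hA]; positivity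
  have l2 : 0 < Real.log 2 := Real.log_pos one_lt_two
  have lt' : Real.log t' ≤ 0 := Real.log_nonpos ht'.le ht1
  have lm' : Real.log m' ≤ d := by rwa [Real.log_le_iff_le_exp hm']
  rw [Real.log_div two_ne_zero hm'.ne', one_div, one_div, Real.log_inv, Real.log_inv,
    Real.log_div hm.ne' hm'.ne']
  constructor
  · refine max_le (by linarith) ?_
    have := Real.log_le_log (by positivity) h2
    rw [Real.log_mul hm'.ne' (by positivity), Real.log_pow, Real.log_mul (by positivity) hA0.ne',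
      Real.log_mul two_ne_zero (Real.exp_pos d).ne', Real.log_exp] at this
    push_cast at this
    linarith
  · have k1 : Real.log A ≤ Real.log (10 ^ 38 * Q ^ 34) - G + n * (Real.log β - Real.log B0) := by
      have : A ≤ 10 ^ 38 * Q ^ 34 * (Real.exp (-G) * (β / B0) ^ n) := by
        rw [hA]
        have : 0 ≤ Q ^ 34 * (Real.exp (-G) * (β / B0) ^ n) := by positivity
        nlinarith
      have := Real.log_le_log hA0 this
      rw [Real.log_mul (by positivity) (by positivity),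
        Real.log_mul (Real.exp_pos _).ne' (by positivity), Real.log_exp, Real.log_pow,
        Real.log_div hβ.ne' hB.ne'] at this
      linarith
    have k2 : Real.log t + Real.log β + Real.log m / 2 ≤
        Real.log 200000 + Real.log t' + Real.log m' / 2 := by
      have := Real.log_le_log (by positivity) h1
      rwa [Real.log_mul (by positivity) (by positivity), Real.log_mul ht.ne' hβ.ne',
        Real.log_mul (by positivity) (by positivity), Real.log_mul (by positivity) ht'.ne',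
        Real.log_sqrt hm.le, Real.log_sqrt hm'.le] at this
    have k3 : Real.log 200000 + 1 ≤ Real.log B0 := by
      have e : B0 = 200000 * 5 := by unfold B0; norm_num
      have : 1 ≤ Real.log 5 := by
        rw [Real.le_log_iff_exp_le (by norm_num)]
        linarith [Real.exp_one_lt_d9]
      rw [e, Real.log_mul (by norm_num) (by norm_num)]
      linarith
    have k4 : (n : ℝ) * (2 * Real.log t + 2 + (Real.log m - Real.log m')) ≤
        n * (2 * (Real.log B0 - Real.log β + Real.log t')) :=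
      mul_le_mul_of_nonneg_left (by linarith) (Nat.cast_nonneg n)
    have k5 := le_max_right 0 (-Real.log A)
    have k6 : (n : ℝ) / 2 * (Real.log m - Real.log m') = n * (Real.log m - Real.log m') / 2 := by
      ring
    rw [k6]
    generalize Real.log (10 ^ 38 * Q ^ 34) = L at *
    linarith

theorem extract {f : ℝ → ℂ} {H d : ℝ} {N : Finset Nd} {D : ℕ} (hM : Model f H d N D)
    {v : Nd} {E : Set ℝ} {a : ℝ →₀ ℂ} {G t m Q : ℝ} {n g : ℕ} (hp : Piece N v E a G t)
    (hm : 0 < m) (hms : ms f E v ≤ 2 * m) (hQ : 1 ≤ Q) (hH : H ≤ Q * m) (ht : 1 ≤ Q * t)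
    (hβ : ∀ β : ℝ, 0 < β → t ^ 2 * β ^ 2 * m < 2 * Real.exp d * (β / B0) ^ n → 1 ≤ Q * β)
    (hg : 8 * Q ^ 2 ≤ 2 ^ g) (hg' : 2 ^ g ≤ 16 * Q ^ 2)
    (hnp : ¬ NoProfit v (quo f E a m) G n) :
    ∃ z ∈ below g v, ∃ E' ⊆ E ∩ I z, MeasurableSet E' ∧
      m * len v ≤ 10 ^ 12 * Q ^ 6 * (len z * ms f E' z) ∧
      (z ∉ N ∨ 2 * m ≤ ms f E' z ∨ ∃ (a' : ℝ →₀ ℂ) (G' t' : ℝ), Piece N z E' a' G' t' ∧
        G' ≤ d + Real.log (2 / ms f E' z) + 2 * Real.log (1 / t') ∧
        G - n * Real.log (1 / t) + n - Real.log (10 ^ 38 * Q ^ 34) +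
          n / 2 * Real.log (m / ms f E' z) ≤ G' - n * Real.log (1 / t')) := by
  obtain ⟨β, hβ0, b, hb1, hb2, hb3⟩ := Extract_norm hnp
  obtain ⟨e2, he2⟩ : ∃ e2, e2 = Real.exp (-G) * (β / B0) ^ n := ⟨_, rfl⟩
  have hB := Extract_B0_pos
  have he0 : 0 < e2 := by rw [he2]; positivity
  rw [← he2] at hb2
  have ht0 := hp.tpos
  have hQ0 : 0 < Q := by linarith
  have hbm : BM (E.indicator f) := hM.bm.indicator hp.meas
  have hφi : ∀ u, IntegrableOn (fun y => ‖E.indicator f y‖) (I u) := hbm.integrableOn_norm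
  have hφψ : ∀ u, IntegrableOn (fun y => ‖E.indicator f y‖ * ‖tp b y‖) (I u) := fun u => by
    simpa only [norm_mul] using (hbm.mul (bm_tp b)).integrableOn_norm u
  have hψ1 : ∀ y, ‖tp b y‖ ≤ 1 := fun y => (norm_tp_le b y).trans hb1
  have hφd : ∀ y, ‖E.indicator f y‖ ≤ Real.exp d := fun y =>
    (norm_indicator_le_norm_self _ _).trans (hM.bd y)
  obtain ⟨θ, hθ⟩ : ∃ θ, θ = t * β := ⟨_, rfl⟩
  have hθ0 : 0 < θ := by rw [hθ]; positivity
  -- correlation
  have hc : θ * m < avr v (fun y => ‖E.indicator f y‖ * ‖tp b y‖) := by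
    have h1 : avr v (fun y => ‖quo f E a m y * tp b y‖) ≤
        avr v (fun y => (m * t)⁻¹ * (‖E.indicator f y‖ * ‖tp b y‖)) := by
      refine avr_mono (((bm_quo hM.bm hp.meas ht0 hm hp.low).mul (bm_tp b)).integrableOn_norm v)
        ((hφψ v).const_mul _) fun y _ => ?_
      rw [norm_mul, ← mul_assoc]
      exact mul_le_mul_of_nonneg_right (norm_quo_le ht0 hm hp.low y) (norm_nonneg _)
    have h2 : avr v (fun y => (m * t)⁻¹ * (‖E.indicator f y‖ * ‖tp b y‖)) =
        (m * t)⁻¹ * avr v (fun y => ‖E.indicator f y‖ * ‖tp b y‖) := by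
      unfold avr
      rw [integral_const_mul]
      ring
    have h3 := hb3.trans_le ((norm_av_le _ _).trans (h1.trans h2.le))
    rw [lt_inv_mul_iff₀ (by positivity)] at h3
    rw [hθ]
    linarith
  -- Cauchy–Schwarz
  have hD := Real.exp_pos d
  have hcs : θ ^ 2 * m < 2 * Real.exp d * e2 := by
    have h1 : avr v (fun y => ‖E.indicator f y‖ * ‖tp b y‖) ≤
        avr v (fun y => θ / 4 * ‖E.indicator f y‖ + Real.exp d / θ * ‖tp b y‖ ^ 2) := by
      refine avr_mono (hφψ v) (((hφi v).const_mul _).add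
        (((bm_tp b).integrableOn_sq v).const_mul _)) fun y _ => ?_
      have p0 := norm_nonneg (E.indicator f y)
      have p1 := hφd y
      generalize ‖E.indicator f y‖ = p at p0 p1
      generalize ‖tp b y‖ = q
      have e : θ / 4 * p + Real.exp d / θ * q ^ 2 - p * q =
          (p * (q - θ / 2) ^ 2 + (Real.exp d - p) * q ^ 2) / θ := by
        field_simp
        ring
      have : 0 ≤ (p * (q - θ / 2) ^ 2 + (Real.exp d - p) * q ^ 2) / θ :=
        div_nonneg (add_nonneg (by positivity) (mul_nonneg (by linarith) (by positivity))) hθ0.le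
      linarith
    rw [Extract_avr_lin (hφi v) ((bm_tp b).integrableOn_sq v)] at h1
    have h2 : θ / 4 * avr v (fun y => ‖E.indicator f y‖) ≤ θ / 4 * (2 * m) :=
      mul_le_mul_of_nonneg_left hms (by positivity)
    have h3 : Real.exp d / θ * avr v (fun y => ‖tp b y‖ ^ 2) ≤ Real.exp d / θ * e2 :=
      mul_le_mul_of_nonneg_left hb2 (by positivity)
    have h4 : θ * m / 2 < Real.exp d * e2 / θ := by
      have : Real.exp d / θ * e2 = Real.exp d * e2 / θ := by ring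
      linarith
    rw [lt_div_iff₀ hθ0] at h4
    linarith
  have hQβ : 1 ≤ Q * β := by
    refine hβ β hβ0 ?_
    have h1 : e2 ≤ (β / B0) ^ n := by
      rw [he2]
      exact mul_le_of_le_one_left (by positivity) (Real.exp_le_one_iff.2 (by linarith [hp.Gnn]))
    have h2 : 2 * Real.exp d * e2 ≤ 2 * Real.exp d * (β / B0) ^ n :=
      mul_le_mul_of_nonneg_left h1 (by positivity)
    rw [hθ, mul_pow] at hcs
    linarith
  have hθQ : 1 ≤ θ * Q ^ 2 := by
    have := one_le_mul_of_one_le_of_one_le ht hQβ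
    rw [hθ]
    linarith
  have hg8 : 8 ≤ θ * 2 ^ g := by
    have := mul_le_mul_of_nonneg_left hg hθ0.le
    linarith
  obtain ⟨z, hz, hcell⟩ := cell v g (φ := fun y => ‖E.indicator f y‖) (ψ := fun y => ‖tp b y‖)
    (fun y => norm_nonneg _) (hφi v) (continuous_tp b).norm (fun y => norm_nonneg _) hψ1 hm hθ0
    hms hc.le hg8
  have hlz := len_pos z
  have hlv := len_pos v
  have hlen : len v ≤ 16 * Q ^ 2 * len z := by
    rw [Extract_len hz]
    exact mul_le_mul_of_nonneg_right hg' hlz.le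
  have hmsE : len z * ms f (E ∩ I z) z = ∫ y in I z, ‖E.indicator f y‖ := by
    rw [Extract_ms_inter]
    exact len_mul_avr _ _
  obtain ⟨J, hJ⟩ : ∃ J, J = ∫ y in I z, ‖E.indicator f y‖ := ⟨_, rfl⟩
  have hJ0 : 0 ≤ J := by rw [hJ]; exact integral_nonneg fun y => norm_nonneg _
  have hQ2 : Q ^ 2 ≤ Q ^ 6 := pow_le_pow_right₀ hQ (by norm_num)
  have hQ4 : Q ^ 4 ≤ Q ^ 6 := pow_le_pow_right₀ hQ (by norm_num)
  have hQ6 : 0 ≤ Q ^ 6 * J := by positivity
  have hmeas : MeasurableSet (E ∩ I z) := hp.meas.inter (measurableSet_I z)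
  refine ⟨z, hz, ?_⟩
  rcases hcell with ⟨h1, h2⟩ | ⟨h1, h2⟩
  · refine ⟨E ∩ I z, Subset.rfl, hmeas, ?_, Or.inr (Or.inl ?_)⟩
    · rw [hmsE, ← hJ]
      rw [← hJ] at h2
      have k1 : m * len v ≤ θ * Q ^ 2 * (m * len v) := le_mul_of_one_le_left (by positivity) hθQ
      have k2 := mul_le_mul_of_nonneg_left h2 (sq_nonneg Q)
      have k3 := mul_le_mul_of_nonneg_right hQ2 hJ0
      nlinarith
    · rw [Extract_ms_inter]
      exact h1
  by_cases hzN : z ∈ N
  swap
  · refine ⟨E ∩ I z, Subset.rfl, hmeas, ?_, Or.inl hzN⟩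
    have k0 : ∫ y in I z, ‖E.indicator f y‖ * ‖tp b y‖ ≤ J := by
      rw [hJ]
      exact setIntegral_mono_on (hφψ z) (hφi z) (measurableSet_I z) fun y _ =>
        mul_le_of_le_one_right (norm_nonneg _) (hψ1 y)
    rw [hmsE, ← hJ]
    rw [← hJ] at h2
    have k1 : θ * (m * len z) ≤ 6 * J := by nlinarith [mul_nonneg hθ0.le hJ0]
    have k2 : m * len z ≤ θ * Q ^ 2 * (m * len z) := le_mul_of_one_le_left (by positivity) hθQ
    have k3 := mul_le_mul_of_nonneg_left k1 (sq_nonneg Q)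
    have k4 : m * len z ≤ 6 * Q ^ 2 * J := by linarith
    have k5 := mul_le_mul_of_nonneg_left hlen hm.le
    have k6 := mul_le_mul_of_nonneg_left k4 (show 0 ≤ 16 * Q ^ 2 by positivity)
    have k7 := mul_le_mul_of_nonneg_right hQ4 hJ0
    nlinarith
  have hε2 : √(8 * Q ^ 2 * e2) ^ 2 = 8 * Q ^ 2 * e2 := Real.sq_sqrt (by positivity)
  have hL2 : (2 * len z)⁻¹ * ∫ y in Ico (lft z + len z / 2 - len z) (lft z + len z / 2 + len z),
      ‖tp b y‖ ^ 2 ≤ √(8 * Q ^ 2 * e2) ^ 2 := by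
    have k1 : ∫ y in Ico (lft z + len z / 2 - len z) (lft z + len z / 2 + len z), ‖tp b y‖ ^ 2 ≤
        ∫ y in I v, ‖tp b y‖ ^ 2 :=
      setIntegral_mono_set ((bm_tp b).integrableOn_sq v)
        (Filter.Eventually.of_forall fun y => by positivity) h1.eventuallyLE
    rw [← len_mul_avr] at k1
    have k2 := mul_le_mul_of_nonneg_left hb2 hlv.le
    have k3 := mul_le_mul_of_nonneg_right hlen he0.le
    rw [hε2, inv_mul_le_iff₀ (by positivity)]
    linarith
  obtain ⟨E', hE', a', t', hP, k1, k2⟩ := piece_of_cell hM hzN hp.meas b hb1 hm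
    (Real.sqrt_pos.2 (by positivity)) hQ hH hθQ hL2 h2
  rw [hε2] at hP k2
  obtain ⟨m', hm'⟩ : ∃ m', m' = ms f E' z := ⟨_, rfl⟩
  rw [← hm'] at k1 k2
  have ht'0 := hP.tpos
  have ht'1 := hP.tle
  have hm'0 : 0 < m' := by
    have : 0 < θ * √m := by positivity
    by_contra hn
    rw [Real.sqrt_eq_zero'.2 (not_lt.1 hn), mul_zero] at k1
    linarith
  have hmd : m' ≤ Real.exp d := by
    rw [hm', ← avr_const z (Real.exp d)]
    exact avr_mono ((hM.bm.indicator hP.meas).integrableOn_norm z)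
      (integrableOn_const (by rw [volume_I]; exact ENNReal.ofReal_ne_top)) fun y _ =>
        (norm_indicator_le_norm_self _ _).trans (hM.bd y)
  refine ⟨E', hE', hP.meas, ?_, Or.inr (Or.inr ⟨a', _, t', hP, ?_⟩)⟩
  · rw [← hm']
    have k3 : (θ * √m) ^ 2 ≤ (200000 * √m') ^ 2 := by
      refine pow_le_pow_left₀ (by positivity) (k1.trans ?_) 2
      exact mul_le_mul_of_nonneg_right (by linarith) (Real.sqrt_nonneg _)
    rw [mul_pow, mul_pow, Real.sq_sqrt hm.le, Real.sq_sqrt hm'0.le] at k3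
    have k4 : m ≤ (θ * Q ^ 2) ^ 2 * m := le_mul_of_one_le_left hm.le (one_le_pow₀ hθQ)
    have k5 := mul_le_mul_of_nonneg_left k3 (show 0 ≤ Q ^ 4 by positivity)
    have k6 : m ≤ 200000 ^ 2 * Q ^ 4 * m' := by linarith
    have k7 := mul_le_mul k6 hlen hlv.le (by positivity)
    have k8 : 0 ≤ Q ^ 6 * (len z * m') := by positivity
    linarith
  · rw [← hm']
    exact Extract_log ht0 hβ0 hm hm'0 ht'0 ht'1 hQ hmd (by rw [he2]) (hθ ▸ k1) k2

end Crest.Agent.R100
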