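import Crest.Agent.R100.Basic

/-!
# R100/Form: elementary properties of `ms` and `form`  (task)

`form_descend`: split the nodes `u ∈ N` below `v` into `z <:+ u`, proper ancestors of `z` (at most
`g`, one of each depth; each costs `∑_x len x |sg u x| ‖dif‖ ≤ len u · avr u ‖1_E f‖ = len z · ms f E z`,
`sum_sg_le`, `norm_dif_le`) and nodes incomparable with `z` (`dif = 0`, `suffix_of_mem`).  If `v ∉ N`
the form vanishes; if no node of `N` lies below `z` the last term is `0`, otherwise use `lv_filter`.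
-/

set_option autoImplicit false
open MeasureTheory Set

namespace Crest.Agent.R100

section
variable {f : ℝ → ℂ} {H d : ℝ} {N : Finset Nd} {D : ℕ} (fr : Nd → ℝ)

theorem ms_nonneg (f : ℝ → ℂ) (E : Set ℝ) (v : Nd) : 0 ≤ ms f E v :=
  avr_nonneg fun _ => norm_nonneg _

theorem ms_mono (hf : BM f) {E E' : Set ℝ} (hE : MeasurableSet E) (hE' : MeasurableSet E')
    (h : E' ⊆ E) (v : Nd) : ms f E' v ≤ ms f E v := by
  exact avr_mono ((hf.indicator hE').integrableOn_norm v) ((hf.indicator hE).integrableOn_norm v)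
    fun y _ => norm_indicator_le_of_subset h f y

theorem ms_le_avr (hf : BM f) {E : Set ℝ} (hE : MeasurableSet E) (v : Nd) :
    ms f E v ≤ avr v (fun y => ‖f y‖) := by
  exact avr_mono ((hf.indicator hE).integrableOn_norm v) (hf.integrableOn_norm v)
    fun y _ => norm_indicator_le_norm_self f y

theorem ms_diff (hf : BM f) {E E' : Set ℝ} (hE : MeasurableSet E) (hE' : MeasurableSet E')
    (h : E' ⊆ E) (v : Nd) : ms f E v = ms f E' v + ms f (E \ E') v := by
  unfold ms avr
  rw [← mul_add, ← integral_add ((hf.indicator hE').integrableOn_norm v)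
    ((hf.indicator (hE.diff hE')).integrableOn_norm v)]
  congr 2
  funext y
  by_cases h1 : y ∈ E'
  · simp [h1, h h1]
  · by_cases h2 : y ∈ E <;> simp [h1, h2]

theorem ms_split (hf : BM f) {E : Set ℝ} (hE : MeasurableSet E) (v : Nd) :
    len v * ms f E v = len (false :: v) * ms f E (false :: v) + len (true :: v) * ms f E (true :: v) := by
  unfold ms
  rw [len_mul_avr, len_mul_avr, len_mul_avr,
    integral_I_split ((hf.indicator hE).integrableOn_norm v)]

theorem ms_of_subset {E : Set ℝ} {v z : Nd} (hE : E ⊆ I z) (hz : v <:+ z) :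
    len v * ms f E v = len z * ms f E z := by
  unfold ms
  rw [len_mul_avr, len_mul_avr]
  refine setIntegral_eq_of_subset_of_forall_sdiff_eq_zero (measurableSet_I v) (I_mono hz)
    fun y hy => ?_
  rw [indicator_of_notMem fun h => hy.2 (hE h), norm_zero]

theorem form_nonneg (w : Nd) (E : Set ℝ) : 0 ≤ form f N D fr w E :=
  Finset.sum_nonneg fun x _ => mul_nonneg (len_pos x).le (norm_nonneg _)

theorem form_of_not_mem (hM : Model f H d N D) {w : Nd} (hw : w ∉ N) (E : Set ℝ) :
    form f N D fr w E = 0 := by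
  unfold form
  refine Finset.sum_eq_zero fun x _ => ?_
  rw [Finset.filter_eq_empty_iff.2 fun u hu h => hw (hM.closed u hu w h)]
  simp [Y]

theorem form_empty (w : Nd) : form f N D fr w ∅ = 0 := by
  simp [form, Y, dif, co, av]

theorem Y_diff (hf : BM f) {E E' : Set ℝ} (hE : MeasurableSet E) (hE' : MeasurableSet E')
    (h : E' ⊆ E) (S : Finset Nd) (x : Nd) (ξ : ℝ) :
    Y S (fun _ => E.indicator f) x ξ =
      Y S (fun _ => E'.indicator f) x ξ + Y S (fun _ => (E \ E').indicator f) x ξ := by
  have hco : ∀ v, co v (E.indicator f) ξ =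
      co v (E'.indicator f) ξ + co v ((E \ E').indicator f) ξ := by
    intro v
    unfold co av
    rw [← mul_add, ← integral_add (integrableOn_co (hf.indicator hE') v ξ)
      (integrableOn_co (hf.indicator (hE.diff hE')) v ξ)]
    congr 2
    funext y
    by_cases h1 : y ∈ E'
    · simp [h1, h h1]
    · by_cases h2 : y ∈ E <;> simp [h1, h2]
  unfold Y dif
  rw [← Finset.sum_add_distrib]
  refine Finset.sum_congr rfl fun v _ => ?_
  rw [hco, hco]
  ring

theorem form_diff_le (hf : BM f) {E E' : Set ℝ} (hE : MeasurableSet E) (hE' : MeasurableSet E')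
    (h : E' ⊆ E) (w : Nd) : form f N D fr w E ≤ form f N D fr w E' + form f N D fr w (E \ E') := by
  unfold form
  rw [← Finset.sum_add_distrib]
  refine Finset.sum_le_sum fun x _ => ?_
  rw [Y_diff hf hE hE' h, ← mul_add]
  exact mul_le_mul_of_nonneg_left (norm_add_le _ _) (len_pos x).le

/-- one node costs at most its length times a bound for the coefficient -/
theorem sum_sg_le {w u : Nd} (hwu : w <:+ u) (hu : u.length ≤ D) {c : ℝ} (hc : 0 ≤ c)
    (φ : Nd → ℂ) (hφ : ∀ x, ‖φ x‖ ≤ c) :
    ∑ x ∈ lv D w, len x * ‖(sg u x : ℂ) * φ x‖ ≤ len u * c := by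
  rw [← sum_len_lv D u, ← lv_filter hwu hu, Finset.sum_mul, Finset.sum_filter]
  refine Finset.sum_le_sum fun x _ => ?_
  split_ifs with hx
  · refine mul_le_mul_of_nonneg_left ?_ (len_pos x).le
    rw [norm_mul, Complex.norm_real, Real.norm_eq_abs]
    exact (mul_le_mul (abs_sg_le u x) (hφ x) (norm_nonneg _) zero_le_one).trans_eq (one_mul c)
  · rw [sg_eq_zero hx]
    simp

theorem Form_dif_zero {u z : Nd} {E : Set ℝ} (hEz : E ⊆ I z) (h1 : ¬ z <:+ u) (h2 : ¬ u <:+ z)
    (ξ : ℝ) : dif u (E.indicator f) ξ = 0 := by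
  have hco : ∀ b : Bool, co (b :: u) (E.indicator f) ξ = 0 := by
    intro b
    unfold co av
    rw [setIntegral_eq_zero_of_forall_eq_zero, mul_zero]
    intro y hy
    have hy' : y ∉ E := fun h => by
      rcases le_total z.length u.length with k | k
      · exact h1 (suffix_of_mem (I_cons_sub b u hy) (hEz h) k)
      · exact h2 (suffix_of_mem (hEz h) (I_cons_sub b u hy) k)
    rw [indicator_of_notMem hy', zero_mul]
  unfold dif
  rw [hco, hco]
  simp

theorem form_descend (hM : Model f H d N D) {v z : Nd} {g : ℕ} (hz : z ∈ below g v) {E : Set ℝ}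
    (hE : MeasurableSet E) (hEz : E ⊆ I z) :
    form f N D fr v E ≤ g * (len z * ms f E z) + form f N D fr z E := by
  classical
  obtain ⟨hzl, hvz⟩ := mem_below.1 hz
  have hF := hM.bm.indicator hE
  obtain ⟨S₂, hS₂⟩ : ∃ S₂ : Finset Nd, ∀ u, u ∈ S₂ ↔ u ∈ N ∧ v <:+ u ∧ u <:+ z ∧ u ≠ z :=
    ⟨N.filter fun u => v <:+ u ∧ u <:+ z ∧ u ≠ z, fun u => Finset.mem_filter⟩
  have hsplit : ∀ x ξ, Y (N.filter (v <:+ ·)) (fun _ => E.indicator f) x ξ =
      Y S₂ (fun _ => E.indicator f) x ξ + Y (N.filter (z <:+ ·)) (fun _ => E.indicator f) x ξ := by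
    intro x ξ
    unfold Y
    rw [← Finset.sum_union]
    · symm
      refine Finset.sum_subset (fun u hu => ?_) fun u hu hu' => ?_
      · rcases Finset.mem_union.1 hu with h | h
        · exact Finset.mem_filter.2 ⟨((hS₂ u).1 h).1, ((hS₂ u).1 h).2.1⟩
        · exact Finset.mem_filter.2 ⟨(Finset.mem_filter.1 h).1, hvz.trans (Finset.mem_filter.1 h).2⟩
      · obtain ⟨huN, hvu⟩ := Finset.mem_filter.1 hu
        rw [Finset.mem_union, not_or, hS₂, Finset.mem_filter] at hu'
        have h1 : ¬ z <:+ u := fun h => hu'.2 ⟨huN, h⟩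
        have h2 : ¬ u <:+ z := fun h => hu'.1 ⟨huN, hvu, h, fun e => h1 (e ▸ List.suffix_refl _)⟩
        rw [Form_dif_zero hEz h1 h2, mul_zero]
    · rw [Finset.disjoint_left]
      intro u h h'
      obtain ⟨_, _, h1, h2⟩ := (hS₂ u).1 h
      have h3 := (Finset.mem_filter.1 h').2
      exact h2 (h1.eq_of_length (le_antisymm h1.length_le h3.length_le))
  have hcard : S₂.card ≤ g := by
    have h := Finset.card_le_card_of_injOn (s := S₂) (t := Finset.Ico v.length (v.length + g))
      List.length (fun u hu => by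
        obtain ⟨_, h1, h2, h3⟩ := (hS₂ u).1 hu
        have h4 : u.length ≠ z.length := fun e => h3 (h2.eq_of_length e)
        have h5 := h1.length_le
        have h6 := h2.length_le
        simp only [Finset.coe_Ico, mem_Ico]
        omega)
      (fun u hu u' hu' e => suffix_eq_of_length ((hS₂ u).1 hu).2.2.1 ((hS₂ u').1 hu').2.2.1 e)
    simpa using h
  have hA : ∑ x ∈ lv D v, len x * ‖Y S₂ (fun _ => E.indicator f) x (fr x)‖ ≤
      g * (len z * ms f E z) := by
    have h1 : ∑ x ∈ lv D v, len x * ‖Y S₂ (fun _ => E.indicator f) x (fr x)‖ ≤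
        ∑ x ∈ lv D v, ∑ u ∈ S₂, len x * ‖(sg u x : ℂ) * dif u (E.indicator f) (fr x)‖ := by
      refine Finset.sum_le_sum fun x _ => ?_
      rw [← Finset.mul_sum]
      exact mul_le_mul_of_nonneg_left (norm_sum_le _ _) (len_pos x).le
    rw [Finset.sum_comm] at h1
    refine h1.trans ((Finset.sum_le_card_nsmul _ _ (len z * ms f E z) fun u hu => ?_).trans ?_)
    · obtain ⟨h2, h3, h4, _⟩ := (hS₂ u).1 hu
      rw [← ms_of_subset hEz h4]
      exact sum_sg_le h3 (by have := hM.depth u h2; omega) (ms_nonneg f E u)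
        (fun x => dif u (E.indicator f) (fr x)) fun x => norm_dif_le hF u _
    · rw [nsmul_eq_mul]
      exact mul_le_mul_of_nonneg_right (by exact_mod_cast hcard)
        (mul_nonneg (len_pos z).le (ms_nonneg f E z))
  have hB : ∑ x ∈ lv D v, len x * ‖Y (N.filter (z <:+ ·)) (fun _ => E.indicator f) x (fr x)‖ ≤
      form f N D fr z E := by
    rcases (N.filter (z <:+ ·)).eq_empty_or_nonempty with h | ⟨u, hu⟩
    · refine le_trans (le_of_eq ?_) (form_nonneg fr z E)
      rw [h]
      simp [Y]
    · obtain ⟨h1, h2⟩ := Finset.mem_filter.1 hu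
      have h3 : z.length ≤ D := by
        have := hM.depth u h1
        have := h2.length_le
        omega
      unfold form
      rw [← lv_filter hvz h3, Finset.sum_filter]
      refine le_of_eq (Finset.sum_congr rfl fun x _ => ?_)
      split_ifs with hx
      · congr!
      · unfold Y
        rw [Finset.sum_eq_zero, norm_zero, mul_zero]
        intro u' hu'
        rw [sg_eq_zero fun k => hx ((Finset.mem_filter.1 hu').2.trans k)]
        simp
  refine le_trans ?_ (add_le_add hA hB)
  unfold form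
  rw [← Finset.sum_add_distrib]
  refine Finset.sum_le_sum fun x _ => ?_
  rw [← mul_add]
  refine mul_le_mul_of_nonneg_left ?_ (len_pos x).le
  refine le_trans (le_of_eq ?_) (norm_add_le _ _)
  rw [← hsplit]

end

end Crest.Agent.R100
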