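import Crest.Agent.R100.Sparse

/-!
# R100/Gram: almost orthogonality of separated large wave packets  (task)

Expand the square: `∫ ‖∑ φ_p‖² = ∑_{p,q} ∫ φ_p conj φ_q ≤ ∑_{p,q} ‖∫_{I p ∩ I q} ex (q.2 - p.2)‖`.
Diagonal: `len p.1`.  Incomparable nodes: `0` (`suffix_of_mem`).  For `p ≠ q`, `p.1 <:+ q.1`:
`≤ 2/|p.2 - q.2| = 2 len q.1 / k`, `k = |p.2 - q.2| len q.1 ≥ 8ρ ≥ 8`, `ρ = τ/β`
(`norm_integral_ex_le`).  So it suffices to bound, for fixed `p`, `∑_{q ≠ p, p.1 <:+ q.1} 2 len q.1/k`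
by `(2 + 4(1 + log M)·24 (g+1)² ρ²) len p.1`:
* `k > M`: `≤ (2/M) ∑ len q.1 ≤ 2 len p.1` (`hM`);
* `k ≤ M`: group by the node `u = q.1`, which lies in the filter of `sparse` (root `p.1`, `seg_trans`,
  `ξ = p.2`); for a fixed node the numbers `(q.2 - p.2) len u` are `1`-separated with modulus in
  `[1, M]`, so `∑ 1/k ≤ 2 (1 + log M)` (`sep_sum`: inject into `± ⌊k⌋`, `harmonic_le_one_add_log`).
Take `g` minimal with `4ρM ≤ 2^g` (so `2^g ≤ 8ρM`, `g + 1 ≤ 6ρ(1 + log M)`).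
Total `1 + 2(2 + 96·36 ρ⁴(1+log M)³) ≤ 7000 ρ⁴ (1+log M)³`.
-/

set_option autoImplicit false
open MeasureTheory Set

namespace Crest.Agent.R100

theorem Gram_pos {ι : Type*} (K : Finset ι) (a : ι → ℝ) {M : ℝ} (hM : 1 ≤ M)
    (h1 : ∀ k ∈ K, 1 ≤ a k ∧ a k ≤ M)
    (hsep : ∀ k ∈ K, ∀ k' ∈ K, k ≠ k' → 1 ≤ |a k - a k'|) :
    ∑ k ∈ K, (a k)⁻¹ ≤ 1 + Real.log M := by
  classical
  have hinj : Set.InjOn (fun k => ⌊a k⌋₊) K := by
    intro k hk k' hk' e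
    by_contra hne
    have h2 := hsep k hk k' hk' hne
    have h3 := Nat.floor_le (zero_le_one.trans (h1 k hk).1)
    have h4 := Nat.floor_le (zero_le_one.trans (h1 k' hk').1)
    have h5 := Nat.lt_floor_add_one (a k)
    have h6 := Nat.lt_floor_add_one (a k')
    have e' : (⌊a k⌋₊ : ℝ) = ⌊a k'⌋₊ := by exact_mod_cast e
    have : |a k - a k'| < 1 := abs_lt.2 ⟨by linarith, by linarith⟩
    linarith
  have h2 : ∑ k ∈ K, (a k)⁻¹ ≤ ∑ k ∈ K, ((⌊a k⌋₊ : ℝ))⁻¹ := by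
    refine Finset.sum_le_sum fun k hk => inv_anti₀ ?_ (Nat.floor_le (zero_le_one.trans (h1 k hk).1))
    exact_mod_cast Nat.floor_pos.2 (h1 k hk).1
  have h3 : ∑ k ∈ K, ((⌊a k⌋₊ : ℝ))⁻¹ = ∑ j ∈ K.image fun k => ⌊a k⌋₊, ((j : ℝ))⁻¹ :=
    (Finset.sum_image (f := fun j : ℕ => ((j : ℝ))⁻¹) hinj).symm
  have h4 : ∑ j ∈ K.image fun k => ⌊a k⌋₊, ((j : ℝ))⁻¹ ≤ ∑ j ∈ Finset.Icc 1 ⌊M⌋₊, ((j : ℝ))⁻¹ := by
    refine Finset.sum_le_sum_of_subset_of_nonneg (fun j hj => ?_) fun j _ _ => by positivity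
    obtain ⟨k, hk, rfl⟩ := Finset.mem_image.1 hj
    exact Finset.mem_Icc.2 ⟨Nat.floor_pos.2 (h1 k hk).1, Nat.floor_le_floor (h1 k hk).2⟩
  have h5 := harmonic_le_one_add_log ⌊M⌋₊
  rw [harmonic_eq_sum_Icc] at h5
  push_cast at h5
  have h6 : Real.log (⌊M⌋₊ : ℝ) ≤ Real.log M :=
    Real.log_le_log (by exact_mod_cast Nat.floor_pos.2 hM) (Nat.floor_le (by linarith))
  linarith

theorem Gram_sep {ι : Type*} (K : Finset ι) (a : ι → ℝ) {M : ℝ} (hM : 1 ≤ M)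
    (h1 : ∀ k ∈ K, 1 ≤ |a k| ∧ |a k| ≤ M)
    (hsep : ∀ k ∈ K, ∀ k' ∈ K, k ≠ k' → 1 ≤ |a k - a k'|) :
    ∑ k ∈ K, |a k|⁻¹ ≤ 2 * (1 + Real.log M) := by
  classical
  rw [← Finset.sum_filter_add_sum_filter_not K (fun k => 0 ≤ a k)]
  have e1 := Gram_pos (K.filter fun k => 0 ≤ a k) (fun k => |a k|) hM
    (fun k hk => h1 k (Finset.mem_filter.1 hk).1) (fun k hk k' hk' hne => by
      obtain ⟨hk1, hk2⟩ := Finset.mem_filter.1 hk
      obtain ⟨hk1', hk2'⟩ := Finset.mem_filter.1 hk'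
      rw [abs_of_nonneg hk2, abs_of_nonneg hk2']
      exact hsep k hk1 k' hk1' hne)
  have e2 := Gram_pos (K.filter fun k => ¬ 0 ≤ a k) (fun k => |a k|) hM
    (fun k hk => h1 k (Finset.mem_filter.1 hk).1) (fun k hk k' hk' hne => by
      obtain ⟨hk1, hk2⟩ := Finset.mem_filter.1 hk
      obtain ⟨hk1', hk2'⟩ := Finset.mem_filter.1 hk'
      rw [abs_of_neg (not_le.1 hk2), abs_of_neg (not_le.1 hk2'), neg_sub_neg, abs_sub_comm]
      exact hsep k hk1 k' hk1' hne)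
  linarith

theorem sep_sum (K : Finset ℝ) {M : ℝ} (hM : 1 ≤ M) (h1 : ∀ k ∈ K, 1 ≤ |k| ∧ |k| ≤ M)
    (hsep : ∀ k ∈ K, ∀ k' ∈ K, k ≠ k' → 1 ≤ |k - k'|) :
    ∑ k ∈ K, |k|⁻¹ ≤ 2 * (1 + Real.log M) := by
  exact Gram_sep K id hM h1 hsep

/-- the wave packet -/
noncomputable def Gram_φ (η : Nd × ℝ → ℂ) (p : Nd × ℝ) (y : ℝ) : ℂ :=
  (I p.1).indicator (fun y => η p * ex (-p.2) y) y

theorem Gram_bm (η : Nd × ℝ → ℂ) (p q : Nd × ℝ) :
    (fun y => Gram_φ η p y * starRingEnd ℂ (Gram_φ η q y)) =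
      (I p.1 ∩ I q.1).indicator fun y => η p * starRingEnd ℂ (η q) * ex (q.2 - p.2) y := by
  funext y
  by_cases hp : y ∈ I p.1 <;> by_cases hq : y ∈ I q.1 <;>
    simp only [Gram_φ, indicator, mem_inter_iff, hp, hq, if_true, if_false, and_true, and_false,
      map_zero, mul_zero, zero_mul, map_mul, conj_ex, neg_neg]
  rw [sub_eq_add_neg, ex_add]
  ring

theorem Gram_int (η : Nd × ℝ → ℂ) (p q : Nd × ℝ) (r : Nd) :
    IntegrableOn (fun y => Gram_φ η p y * starRingEnd ℂ (Gram_φ η q y)) (I r) := by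
  rw [Gram_bm]
  exact (((BM.const _).mul (bm_ex _)).indicator
    ((measurableSet_I _).inter (measurableSet_I _))).integrableOn r

theorem Gram_pair {η : Nd × ℝ → ℂ} (hη : ∀ p, ‖η p‖ ≤ 1) {p q : Nd × ℝ} {r : Nd}
    (hp : r <:+ p.1) :
    ‖∫ y in I r, Gram_φ η p y * starRingEnd ℂ (Gram_φ η q y)‖ ≤
      ‖∫ y in I p.1 ∩ I q.1, ex (q.2 - p.2) y‖ := by
  rw [Gram_bm, setIntegral_indicator ((measurableSet_I _).inter (measurableSet_I _)),
    inter_eq_right.2 (inter_subset_left.trans (I_mono hp)), integral_const_mul, norm_mul, norm_mul,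
    Complex.norm_conj]
  exact mul_le_of_le_one_left (norm_nonneg _) (mul_le_one₀ (hη p) (norm_nonneg _) (hη q))

theorem Gram_expand (η : Nd × ℝ → ℂ) (T : Finset (Nd × ℝ)) (r : Nd) :
    ∫ y in I r, ‖∑ p ∈ T, Gram_φ η p y‖ ^ 2 ≤
      ∑ p ∈ T, ∑ q ∈ T, ‖∫ y in I r, Gram_φ η p y * starRingEnd ℂ (Gram_φ η q y)‖ := by
  have e1 : ∀ y, ((‖∑ p ∈ T, Gram_φ η p y‖ ^ 2 : ℝ) : ℂ) =
      ∑ p ∈ T, ∑ q ∈ T, Gram_φ η p y * starRingEnd ℂ (Gram_φ η q y) := fun y => by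
    rw [← Finset.sum_mul_sum, ← map_sum, Complex.mul_conj, Complex.normSq_eq_norm_sq]
  have e2 : ((∫ y in I r, ‖∑ p ∈ T, Gram_φ η p y‖ ^ 2 : ℝ) : ℂ) =
      ∑ p ∈ T, ∑ q ∈ T, ∫ y in I r, Gram_φ η p y * starRingEnd ℂ (Gram_φ η q y) := by
    rw [← integral_complex_ofReal]
    simp only [e1]
    rw [integral_finsetSum _ fun p _ => integrable_finsetSum _ fun q _ => Gram_int η p q r]
    exact Finset.sum_congr rfl fun p _ => integral_finsetSum _ fun q _ => Gram_int η p q r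
  refine (le_abs_self _).trans ?_
  rw [← Real.norm_eq_abs, ← Complex.norm_real, e2]
  exact (norm_sum_le _ _).trans (Finset.sum_le_sum fun p _ => norm_sum_le _ _)

open Classical in
/-- the off-diagonal bound -/
noncomputable def Gram_d (p q : Nd × ℝ) : ℝ := if p ≠ q ∧ p.1 <:+ q.1 then 2 / |p.2 - q.2| else 0

theorem Gram_d_nonneg (p q : Nd × ℝ) : 0 ≤ Gram_d p q := by
  unfold Gram_d
  split_ifs <;> positivity

open Classical in
theorem Gram_le {p q : Nd × ℝ} (h1 : p ≠ q → p.1 <:+ q.1 → p.2 ≠ q.2)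
    (h2 : q ≠ p → q.1 <:+ p.1 → q.2 ≠ p.2) :
    ‖∫ y in I p.1 ∩ I q.1, ex (q.2 - p.2) y‖ ≤
      (if p = q then len p.1 else 0) + Gram_d p q + Gram_d q p := by
  have d1 := Gram_d_nonneg p q
  have d2 := Gram_d_nonneg q p
  by_cases e : p = q
  · subst e
    have := len_pos p.1
    have h3 : ‖∫ y in I p.1 ∩ I p.1, ex (p.2 - p.2) y‖ = len p.1 := by
      simp [real_volume_I, abs_of_pos this]
    rw [h3, if_pos rfl]
    linarith
  rw [if_neg e, zero_add]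
  by_cases a1 : p.1 <:+ q.1
  · rw [inter_eq_right.2 (I_mono a1)]
    have h3 := norm_integral_ex_le (sub_ne_zero.2 (h1 e a1).symm) q.1
    have h4 : Gram_d p q = 2 / |q.2 - p.2| := by rw [Gram_d, if_pos ⟨e, a1⟩, abs_sub_comm]
    linarith
  by_cases a2 : q.1 <:+ p.1
  · rw [inter_eq_left.2 (I_mono a2)]
    have h3 := norm_integral_ex_le (sub_ne_zero.2 (h2 (Ne.symm e) a2)) p.1
    have h4 : Gram_d q p = 2 / |q.2 - p.2| := by rw [Gram_d, if_pos ⟨Ne.symm e, a2⟩]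
    linarith
  have : I p.1 ∩ I q.1 = ∅ := by
    refine eq_empty_of_forall_notMem fun y hy => ?_
    rcases le_total p.1.length q.1.length with h | h
    · exact a1 (suffix_of_mem hy.2 hy.1 h)
    · exact a2 (suffix_of_mem hy.1 hy.2 h)
  rw [this]
  simp only [Measure.restrict_empty, integral_zero_measure, norm_zero]
  linarith

theorem Gram_row {w : Nd} {R B : Finset Nd} {P : ℝ} {D : ℕ} {F : Nd → ℝ → ℂ} {τ G : ℝ} {n : ℕ}
    (h : Run w R B P D F τ G n) {β : ℝ} (hβ : 0 < β) (hβτ : β ≤ τ) {r : Nd}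
    (T : Finset (Nd × ℝ)) (hT : ∀ p ∈ T, p.1 ∈ seg R B r ∧ β < ‖vl F p.2 p.1‖)
    (hsep : ∀ p ∈ T, ∀ q ∈ T, p ≠ q → p.1 <:+ q.1 → 8 * τ ≤ β * (|p.2 - q.2| * len q.1))
    {M : ℝ} (hM1 : 1 ≤ M) {p : Nd × ℝ} (hp : p ∈ T)
    (hM : ∑ q ∈ T with p.1 <:+ q.1, len q.1 ≤ M * len p.1) {g : ℕ} (hg : 4 * τ * M ≤ β * 2 ^ g) :
    ∑ q ∈ T, Gram_d p q ≤
      (2 + 4 * (1 + Real.log M) * (24 * (g + 1) ^ 2 * (τ / β) ^ 2)) * len p.1 := by
  classical
  have hsep' : ∀ p ∈ T, ∀ q ∈ T, p ≠ q → p.1 <:+ q.1 → 1 ≤ |p.2 - q.2| * len q.1 := by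
    intro p hp q hq h1 h2
    have := hsep p hp q hq h1 h2
    by_contra h3
    have : β * (|p.2 - q.2| * len q.1) ≤ β * 1 := mul_le_mul_of_nonneg_left (not_le.1 h3).le hβ.le
    linarith
  have hL : 0 ≤ Real.log M := Real.log_nonneg hM1
  set Q := T.filter fun q => p ≠ q ∧ p.1 <:+ q.1 with hQ
  have e1 : ∑ q ∈ T, Gram_d p q = ∑ q ∈ Q, 2 * len q.1 * |(q.2 - p.2) * len q.1|⁻¹ := by
    rw [hQ, Finset.sum_filter]
    refine Finset.sum_congr rfl fun q _ => ?_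
    unfold Gram_d
    split_ifs
    · have := len_pos q.1
      rw [abs_mul, abs_of_pos this, abs_sub_comm, mul_inv, div_eq_mul_inv]
      field_simp
    · rfl
  have habs : ∀ q : Nd × ℝ, |(q.2 - p.2) * len q.1| = |p.2 - q.2| * len q.1 := fun q => by
    rw [abs_mul, abs_of_pos (len_pos q.1), abs_sub_comm]
  rw [e1, ← Finset.sum_filter_add_sum_filter_not Q fun q => |(q.2 - p.2) * len q.1| ≤ M, add_comm,
    add_mul]
  refine add_le_add ?_ ?_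
  · have h1 : ∑ q ∈ Q with ¬ |(q.2 - p.2) * len q.1| ≤ M, 2 * len q.1 * |(q.2 - p.2) * len q.1|⁻¹ ≤
        ∑ q ∈ T with p.1 <:+ q.1, 2 * M⁻¹ * len q.1 := by
      refine le_trans (Finset.sum_le_sum fun q hq => ?_)
        (Finset.sum_le_sum_of_subset_of_nonneg (fun q hq => ?_) fun q _ _ => ?_)
      · have h2 := inv_anti₀ (by linarith) (not_le.1 (Finset.mem_filter.1 hq).2).le
        have := len_pos q.1
        nlinarith
      · have h2 := Finset.mem_filter.1 (Finset.mem_filter.1 hq).1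
        exact Finset.mem_filter.2 ⟨h2.1, h2.2.2⟩
      · have := len_pos q.1
        positivity
    rw [← Finset.mul_sum] at h1
    have h2 : 2 * M⁻¹ * (M * len p.1) = 2 * len p.1 := by field_simp
    have h3 := mul_le_mul_of_nonneg_left hM (by positivity : 0 ≤ 2 * M⁻¹)
    linarith
  · set Q2 := Q.filter fun q => |(q.2 - p.2) * len q.1| ≤ M with hQ2
    have hmem : ∀ q ∈ Q2, q ∈ T ∧ p ≠ q ∧ p.1 <:+ q.1 ∧ |(q.2 - p.2) * len q.1| ≤ M := by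
      intro q hq
      have h1 := Finset.mem_filter.1 hq
      have h2 := Finset.mem_filter.1 h1.1
      exact ⟨h2.1, h2.2.1, h2.2.2, h1.2⟩
    rw [← Finset.sum_fiberwise_of_maps_to (g := Prod.fst) (t := Q2.image Prod.fst)
      fun q hq => Finset.mem_image_of_mem _ hq]
    have h1 : ∀ u ∈ Q2.image Prod.fst,
        ∑ q ∈ Q2 with q.1 = u, 2 * len q.1 * |(q.2 - p.2) * len q.1|⁻¹ ≤
          4 * (1 + Real.log M) * len u := by
      intro u _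
      have h2 := Gram_sep (Q2.filter fun q => q.1 = u) (fun q => (q.2 - p.2) * len q.1) hM1
        (fun q hq => by
          obtain ⟨a1, a2, a3, a4⟩ := hmem q (Finset.mem_filter.1 hq).1
          exact ⟨by rw [habs]; exact hsep' p hp q a1 a2 a3, a4⟩)
        (fun q hq q' hq' hne => by
          obtain ⟨b1, b2⟩ := Finset.mem_filter.1 hq
          obtain ⟨b1', b2'⟩ := Finset.mem_filter.1 hq'
          have h3 := hsep' q (hmem q b1).1 q' (hmem q' b1').1 hne (by rw [b2, b2'])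
          rw [b2, b2', ← sub_mul, abs_mul, abs_of_pos (len_pos u), sub_sub_sub_cancel_right]
          rwa [b2'] at h3)
      have h3 : ∑ q ∈ Q2 with q.1 = u, 2 * len q.1 * |(q.2 - p.2) * len q.1|⁻¹ =
          2 * len u * ∑ q ∈ Q2 with q.1 = u, |(q.2 - p.2) * len q.1|⁻¹ := by
        rw [Finset.mul_sum]
        exact Finset.sum_congr rfl fun q hq => by rw [(Finset.mem_filter.1 hq).2]
      have := len_pos u
      rw [h3]
      nlinarith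
    refine (Finset.sum_le_sum h1).trans ?_
    rw [← Finset.mul_sum, mul_assoc (4 * (1 + Real.log M))]
    refine mul_le_mul_of_nonneg_left ?_ (by positivity)
    have hp' := mem_seg.1 (hT p hp).1
    refine le_trans (Finset.sum_le_sum_of_subset_of_nonneg (fun u hu => ?_)
      fun u _ _ => (len_pos u).le) (sparse h hp'.1 p.2 hβ hβτ hg)
    obtain ⟨q, hq, rfl⟩ := Finset.mem_image.1 hu
    obtain ⟨a1, a2, a3, a4⟩ := hmem q hq
    rw [habs] at a4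
    refine Finset.mem_filter.2 ⟨seg_trans (hT q a1).1 hp'.2.1 a3, q.2, ?_, ?_, (hT q a1).2⟩
    · rw [abs_sub_comm]; exact hsep p hp q a1 a2 a3
    · rwa [abs_sub_comm]

theorem Gram_g {ρ M : ℝ} (hρ : 1 ≤ ρ) (hM : 1 ≤ M) :
    ∃ g : ℕ, 4 * ρ * M ≤ 2 ^ g ∧ (g : ℝ) + 1 ≤ 6 * ρ * (1 + Real.log M) := by
  have h0 : 1 ≤ 4 * ρ * M := by nlinarith
  obtain ⟨k, h1, h2⟩ := exists_nat_pow_near h0 (one_lt_two (α := ℝ))
  refine ⟨k + 1, h2.le, ?_⟩
  have h3 := Real.log_le_log (by positivity) h1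
  rw [Real.log_pow, Real.log_mul (by positivity) (by positivity),
    Real.log_mul (by positivity) (by positivity), show (4 : ℝ) = 2 ^ 2 by norm_num,
    Real.log_pow] at h3
  have h4 := Real.log_le_sub_one_of_pos (by linarith : 0 < ρ)
  have h5 := Real.log_two_gt_d9
  have h6 := Real.log_two_lt_d9
  have hL : 0 ≤ Real.log M := Real.log_nonneg hM
  have hk : (0 : ℝ) ≤ k := Nat.cast_nonneg k
  push_cast at h3 ⊢
  nlinarith [mul_nonneg (sub_nonneg.2 hρ) hL, mul_nonneg hk (sub_nonneg.2 h5.le)]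

theorem gram {w : Nd} {R B : Finset Nd} {P : ℝ} {D : ℕ} {F : Nd → ℝ → ℂ} {τ G : ℝ} {n : ℕ}
    (h : Run w R B P D F τ G n) {β : ℝ} (hβ : 0 < β) (hβτ : β ≤ τ) {r : Nd} (hr : r ∈ R)
    (T : Finset (Nd × ℝ)) (hT : ∀ p ∈ T, p.1 ∈ seg R B r ∧ β < ‖vl F p.2 p.1‖)
    (hsep : ∀ p ∈ T, ∀ q ∈ T, p ≠ q → p.1 <:+ q.1 → 8 * τ ≤ β * (|p.2 - q.2| * len q.1))
    {M : ℝ} (hM1 : 1 ≤ M)
    (hM : ∀ p ∈ T, ∑ q ∈ T with p.1 <:+ q.1, len q.1 ≤ M * len p.1)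
    (η : Nd × ℝ → ℂ) (hη : ∀ p, ‖η p‖ ≤ 1) :
    ∫ y in I r, ‖∑ p ∈ T, (I p.1).indicator (fun y => η p * ex (-p.2) y) y‖ ^ 2 ≤
      7000 * (τ / β) ^ 4 * (1 + Real.log M) ^ 3 * ∑ p ∈ T, len p.1 := by
  classical
  have hρ : 1 ≤ τ / β := (one_le_div hβ).2 hβτ
  obtain ⟨g, hg1, hg2⟩ := Gram_g hρ hM1
  have hg : 4 * τ * M ≤ β * 2 ^ g := by
    have := mul_le_mul_of_nonneg_left hg1 hβ.le
    rwa [show β * (4 * (τ / β) * M) = 4 * τ * M by field_simp] at this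
  have hL : 0 ≤ Real.log M := Real.log_nonneg hM1
  have hne : ∀ p ∈ T, ∀ q ∈ T, p ≠ q → p.1 <:+ q.1 → p.2 ≠ q.2 := by
    intro p hp q hq h1 h2 e
    have := hsep p hp q hq h1 h2
    rw [e, sub_self, abs_zero, zero_mul, mul_zero] at this
    linarith
  refine (Gram_expand η T r).trans ?_
  have h1 : ∑ p ∈ T, ∑ q ∈ T, ‖∫ y in I r, Gram_φ η p y * starRingEnd ℂ (Gram_φ η q y)‖ ≤
      ∑ p ∈ T, ∑ q ∈ T, ((if p = q then len p.1 else 0) + Gram_d p q + Gram_d q p) :=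
    Finset.sum_le_sum fun p hp => Finset.sum_le_sum fun q hq =>
      (Gram_pair hη (mem_seg.1 (hT p hp).1).2.1).trans (by
        convert Gram_le (hne p hp q hq) (hne q hq p hp))
  simp only [Finset.sum_add_distrib] at h1
  rw [Finset.sum_comm (f := fun p q => Gram_d q p)] at h1
  have h2 : ∑ p ∈ T, ∑ q ∈ T, (if p = q then len p.1 else 0) = ∑ p ∈ T, len p.1 :=
    Finset.sum_congr rfl fun p hp => by rw [Finset.sum_ite_eq, if_pos hp]
  have h3 := Finset.sum_le_sum fun p (hp : p ∈ T) => Gram_row h hβ hβτ T hT hsep hM1 hp (hM p hp) hg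
  rw [← Finset.mul_sum] at h3
  have h4 : 0 ≤ ∑ p ∈ T, len p.1 := Finset.sum_nonneg fun p _ => (len_pos _).le
  rw [h2] at h1
  generalize τ / β = ρ at *
  generalize Real.log M = L at *
  have h5 : ((g : ℝ) + 1) ^ 2 ≤ (6 * ρ * (1 + L)) ^ 2 := pow_le_pow_left₀ (by positivity) hg2 2
  have h6 : 4 * (1 + L) * (24 * ((g : ℝ) + 1) ^ 2 * ρ ^ 2) ≤
      4 * (1 + L) * (24 * (6 * ρ * (1 + L)) ^ 2 * ρ ^ 2) := by gcongr
  have h7 : 1 ≤ ρ ^ 4 * (1 + L) ^ 3 :=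
    one_le_mul_of_one_le_of_one_le (one_le_pow₀ hρ) (one_le_pow₀ (by linarith))
  have h8 : 1 + 2 * (2 + 4 * (1 + L) * (24 * ((g : ℝ) + 1) ^ 2 * ρ ^ 2)) ≤
      7000 * ρ ^ 4 * (1 + L) ^ 3 := by nlinarith
  have h9 := mul_le_mul_of_nonneg_right h8 h4
  linarith

end Crest.Agent.R100
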