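import Crest.Agent.R100.Basic

/-!
# R100/Stmts: the chain of statements from the dyadic model to the circle  (FROZEN)
-/

set_option autoImplicit false
open MeasureTheory Set

namespace Crest.Agent.R100

/-- the bound in the dyadic model -/
def DyBound (C : ℝ) (c : ℕ) : Prop :=
  ∀ (f : ℝ → ℂ) (H d : ℝ) (N : Finset Nd) (D : ℕ) (fr : Nd → ℝ), Model f H d N D → 2 ≤ H →
    1 ≤ d → avr [] (fun y => ‖f y‖) ≤ 1 →
    ∑ x ∈ below D [], len x * ‖Y N (fun _ => f) x (fr x)‖ ≤ C * (d + H ^ c)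

/-- `+,-,-,+` on the quarters of `[0,1)` -/
noncomputable def sf (z : ℝ) : ℝ :=
  if 0 ≤ z ∧ z < 1 / 4 then 1 else if 1 / 4 ≤ z ∧ z < 3 / 4 then -1
  else if 3 / 4 ≤ z ∧ z < 1 then 1 else 0

/-- the Haar function of `[0,1)` -/
noncomputable def hf (z : ℝ) : ℝ :=
  if 0 ≤ z ∧ z < 1 / 2 then 1 else if 1 / 2 ≤ z ∧ z < 1 then -1 else 0

/-- all nodes of depth `< D` -/
def nodes (D : ℕ) : Finset Nd := (Finset.range D).biUnion (fun k => below k [])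

/-- the kernel of the dyadic shift of depth `D` on the root interval `[a, a + ℓ)` -/
noncomputable def KK (D : ℕ) (ℓ a x y : ℝ) : ℝ :=
  ∑ v ∈ nodes D, (ℓ * len v)⁻¹ * sf ((x - a - ℓ * lft v) / (ℓ * len v)) *
    hf ((y - a - ℓ * lft v) / (ℓ * len v))

/-- points at which the (uncentred) maximal function of `f` is at most `lam` -/
def GoodPt (f : ℝ → ℂ) (lam x : ℝ) : Prop :=
  ∀ p q : ℝ, p ≤ x → x < q → ∫ y in Ico p q, ‖f y‖ ≤ lam * (q - p)

/-- the bound for one grid -/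
def ScaleBound (C : ℝ) (c : ℕ) : Prop :=
  ∀ (f : ℝ → ℂ) (δ H d ℓ a : ℝ) (D : ℕ) (S : Set ℝ) (Ξ : Finset ℝ), 0 < δ → 2 ≤ H → 1 ≤ d →
    0 < ℓ → Measurable f → Integrable f → (∀ y, ‖f y‖ ≤ δ * Real.exp d) →
    ∫ y, ‖f y‖ ≤ δ * ℓ → MeasurableSet S → (∀ x ∈ S, GoodPt f (H * δ) x) →
    ∫⁻ x in S, ⨆ ξ ∈ Ξ, ‖∫ y, f y * ex (-ξ) y * (KK D ℓ a x y : ℂ)‖ₑ ≤
      ENNReal.ofReal (ℓ * δ * C * (d + H ^ c))

/-- the bound for the kernel `sin (ξu)/u` on the line -/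
def RealBound (C : ℝ) (c : ℕ) : Prop :=
  ∀ (f : ℝ → ℂ) (δ H d T : ℝ) (S : Set ℝ) (Ξ : Finset ℝ), 0 < δ → 2 ≤ H → 1 ≤ d →
    0 < T → Measurable f → Integrable f → (∀ y, ‖f y‖ ≤ δ * Real.exp d) →
    ∫ y, ‖f y‖ ≤ δ * T → MeasurableSet S → S ⊆ Ico 0 T → (∀ x ∈ S, GoodPt f (H * δ) x) →
    ∫⁻ x in S, ⨆ ξ ∈ Ξ, ‖∫ y, f y * ((Real.sin (ξ * (x - y)) / (x - y) : ℝ) : ℂ)‖ₑ ≤
      ENNReal.ofReal (T * δ * C * (d + H ^ c))

/-- symmetric partial sums -/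
noncomputable def SN {T : ℝ} [Fact (0 < T)] (f : AddCircle T → ℂ) (N : ℕ) (x : AddCircle T) : ℂ :=
  ∑ k ∈ Finset.Icc (-(N : ℤ)) N, fourierCoeff f k • fourier k x

/-- the maximal partial sum -/
noncomputable def Smax {T : ℝ} [Fact (0 < T)] (f : AddCircle T → ℂ) (x : AddCircle T) : ENNReal :=
  ⨆ N : ℕ, ‖SN f N x‖ₑ

/-- the bound on the circle -/
def CircBound (T : ℝ) [Fact (0 < T)] (C : ℝ) (c : ℕ) : Prop :=
  ∀ (f : AddCircle T → ℂ) (δ H d : ℝ), 0 < δ → 2 ≤ H → 1 ≤ d → Measurable f →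
    (∀ y, ‖f y‖ ≤ δ * Real.exp d) → ∫ y, ‖f y‖ ∂AddCircle.haarAddCircle ≤ δ →
    ∃ Ω : Set (AddCircle T), MeasurableSet Ω ∧
      AddCircle.haarAddCircle Ω ≤ ENNReal.ofReal (C / H) ∧
      ∫⁻ x in Ωᶜ, Smax f x ∂AddCircle.haarAddCircle ≤ ENNReal.ofReal (δ * C * (d + H ^ c))

/-- the `L log L` functional of the statement -/
noncomputable def LL {T : ℝ} [Fact (0 < T)] (f : AddCircle T → ℂ) : ENNReal :=
  ∫⁻ x, ‖f x‖ₑ * ENNReal.ofReal (Real.log (2 + ‖f x‖)) ∂AddCircle.haarAddCircle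

/-- small `L log L` functional ⇒ small maximal partial sums -/
def WeakSmall (T : ℝ) [Fact (0 < T)] : Prop :=
  ∀ ε : ℝ, 0 < ε → ∃ η : ℝ, 0 < η ∧ ∀ f : AddCircle T → ℂ, Measurable f →
    LL f ≤ ENNReal.ofReal η →
    AddCircle.haarAddCircle {x | ENNReal.ofReal ε < Smax f x} ≤ ENNReal.ofReal ε

theorem continuous_SN {T : ℝ} [Fact (0 < T)] (f : AddCircle T → ℂ) (N : ℕ) :
    Continuous (SN f N) := by
  unfold SN; fun_prop

theorem measurable_Smax {T : ℝ} [Fact (0 < T)] (f : AddCircle T → ℂ) : Measurable (Smax f) :=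
  Measurable.iSup fun N => (continuous_SN f N).measurable.enorm

theorem measurable_sf : Measurable sf := by
  unfold sf
  refine Measurable.ite ?_ measurable_const (Measurable.ite ?_ measurable_const
    (Measurable.ite ?_ measurable_const measurable_const)) <;> exact measurableSet_Ico

theorem measurable_hf : Measurable hf := by
  unfold hf
  refine Measurable.ite ?_ measurable_const (Measurable.ite ?_ measurable_const
    measurable_const) <;> exact measurableSet_Ico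

theorem mem_nodes {D : ℕ} {v : Nd} : v ∈ nodes D ↔ v.length < D := by
  simp [nodes, mem_below]

end Crest.Agent.R100
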