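import Crest.Agent.R100.Num
import Crest.Agent.R100.Extract
import Crest.Agent.R100.Build
import Crest.Agent.R100.Stmts

/-!
# R100/Induct: the induction on the rank and the dyadic theorem  (helper28)
-/

set_option autoImplicit false
open MeasureTheory Set

namespace Crest.Agent.R100

section
variable {f : ℝ → ℂ} {H d Q : ℝ} {N : Finset Nd} {D n g : ℕ}

/-- the induction hypothesis -/
def IH (f : ℝ → ℂ) (H d : ℝ) (N : Finset Nd) (D n : ℕ) (fr : Nd → ℝ) (k : ℕ) : Prop :=
  ∀ (w : Nd) (E : Set ℝ) (a : ℝ →₀ ℂ) (G t m : ℝ), Piece N w E a G t → St H d n m G t →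
    ms f E w ≤ m → rk H d n m G t ≤ k * (n / 4) →
    form f N D fr w E ≤ 10 ^ 13 * n * k * (m * len w)

theorem ms_le_H (hM : Model f H d N D) {E : Set ℝ} (hE : MeasurableSet E) {u : Nd} (hu : u ∈ N) :
    ms f E u ≤ H := (ms_le_avr hM.bm hE u).trans (hM.dens u hu)

theorem exit_le (hM : Model f H d N D) {fr : Nd → ℝ} {k : ℕ} (ih : IH f H d N D n fr k)
    {u : Nd} {E : Set ℝ} {a : ℝ →₀ ℂ} {G t m : ℝ} (hp : Piece N u E a G t)
    (s : St H d n m G t) (hr : rk H d n m G t ≤ (k + 1 : ℕ) * (n / 4)) (hu : u ∈ N)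
    (h2 : 2 * m ≤ ms f E u) :
    form f N D fr u E ≤ 10 ^ 13 * n * k * (len u * ms f E u) := by
  obtain ⟨s', hr'⟩ := s.up h2 (ms_le_H hM hp.meas hu)
  have := ih u E a G t _ hp s' le_rfl (by push_cast at hr; linarith)
  rwa [mul_comm (ms f E u)] at this

theorem remove_one (hM : Model f H d N D) (hP : Par H d Q n g) {fr : Nd → ℝ} {k : ℕ}
    (ih : IH f H d N D n fr k) {v : Nd} {E : Set ℝ} {a : ℝ →₀ ℂ} {G t m : ℝ}
    (hp : Piece N v E a G t) (s : St H d n m G t) (hr : rk H d n m G t ≤ (k + 1 : ℕ) * (n / 4))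
    (h2 : ms f E v ≤ 2 * m) (hnp : ¬ NoProfit v (quo f E a m) G n) :
    ∃ E₁ ⊆ E, MeasurableSet E₁ ∧ m * len v ≤ 10 ^ 12 * Q ^ 6 * (len v * ms f E₁ v) ∧
      form f N D fr v E₁ ≤ (10 ^ 13 * n * k + g) * (len v * ms f E₁ v) := by
  have hH : H ≤ Q * m := by linarith [s.hH hP, hP.H2]
  obtain ⟨z, hz, E₁, hE₁, hm₁, hmass, halt⟩ := extract hM hp s.m0 h2 hP.Q1 hH (s.ht hP)
    (s.hβ hP) hP.g1 hP.g2 hnp
  have hvz : v <:+ z := (mem_below.1 hz).2
  have hsub : E₁ ⊆ E := hE₁.trans inter_subset_left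
  have hIz : E₁ ⊆ I z := hE₁.trans inter_subset_right
  have heq : len v * ms f E₁ v = len z * ms f E₁ z := ms_of_subset hIz hvz
  refine ⟨E₁, hsub, hm₁, by rw [heq]; exact hmass, ?_⟩
  have hd := form_descend fr hM hz hm₁ hIz
  have h0 : 0 ≤ len z * ms f E₁ z := mul_nonneg (len_pos z).le (ms_nonneg _ _ _)
  have key : form f N D fr z E₁ ≤ 10 ^ 13 * n * k * (len z * ms f E₁ z) := by
    by_cases hzN : z ∈ N
    · rcases halt with h | h | ⟨a', G', t', hp', hG', hgain⟩
      · exact absurd hzN h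
      · exact exit_le hM ih (hp.mono hvz hsub hm₁) s hr hzN h
      · have hm' : m ≤ 10 ^ 12 * Q ^ 6 * ms f E₁ z := by
          have h1 : len z * ms f E₁ z ≤ len v * ms f E₁ z :=
            mul_le_mul_of_nonneg_right (len_le_of_suffix hvz) (ms_nonneg _ _ _)
          have hQ := hP.Q1
          have h3 : m * len v ≤ 10 ^ 12 * Q ^ 6 * ms f E₁ z * len v := by
            calc m * len v ≤ 10 ^ 12 * Q ^ 6 * (len z * ms f E₁ z) := hmass
              _ ≤ 10 ^ 12 * Q ^ 6 * (len v * ms f E₁ z) := by gcongr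
              _ = 10 ^ 12 * Q ^ 6 * ms f E₁ z * len v := by ring
          exact le_of_mul_le_mul_right h3 (len_pos v)
        obtain ⟨s', hr'⟩ := s.ext hP hm' (ms_le_H hM hm₁ hzN) hp'.tpos hp'.tle hp'.Gnn hG' hgain
        have := ih z E₁ a' G' t' _ hp' s' le_rfl (by push_cast at hr; linarith)
        rwa [mul_comm (ms f E₁ z)] at this
    · rw [form_of_not_mem fr hM hzN]; positivity
  rw [heq]; linarith

theorem clean (hM : Model f H d N D) (hP : Par H d Q n g) {fr : Nd → ℝ} {k : ℕ}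
    (ih : IH f H d N D n fr k) {v : Nd} {a : ℝ →₀ ℂ} {G t m : ℝ} (s : St H d n m G t)
    (hr : rk H d n m G t ≤ (k + 1 : ℕ) * (n / 4)) (j : ℕ) :
    ∀ E : Set ℝ, Piece N v E a G t → ms f E v ≤ 2 * m →
      10 ^ 12 * Q ^ 6 * ms f E v < j * m →
      ∃ E'' ⊆ E, MeasurableSet E'' ∧ NoProfit v (quo f E'' a m) G n ∧
        (E'' = E ∨ m * len v ≤ 10 ^ 12 * Q ^ 6 * (len v * ms f (E \ E'') v)) ∧
        form f N D fr v (E \ E'') ≤ (10 ^ 13 * n * k + g) * (len v * ms f (E \ E'') v) := by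
  have hQ := hP.Q1
  induction j with
  | zero =>
    intro E _ _ h
    have : 0 ≤ 10 ^ 12 * Q ^ 6 * ms f E v := mul_nonneg (by positivity) (ms_nonneg _ _ _)
    simp only [Nat.cast_zero, zero_mul] at h
    linarith
  | succ j ihj =>
    intro E hp h2 hj
    by_cases hnp : NoProfit v (quo f E a m) G n
    · refine ⟨E, Subset.rfl, hp.meas, hnp, Or.inl rfl, ?_⟩
      rw [Set.sdiff_self, form_empty]
      exact mul_nonneg (by positivity) (mul_nonneg (len_pos v).le (ms_nonneg _ _ _))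
    obtain ⟨E₁, hsub, hm₁, hmass, hform⟩ := remove_one hM hP ih hp s hr h2 hnp
    have hmd : MeasurableSet (E \ E₁) := hp.meas.diff hm₁
    have e1 := ms_diff hM.bm hp.meas hm₁ hsub v
    have hm1 : m ≤ 10 ^ 12 * Q ^ 6 * ms f E₁ v := by
      refine le_of_mul_le_mul_right ?_ (len_pos v)
      calc m * len v ≤ _ := hmass
        _ = _ := by ring
    obtain ⟨E'', hsub', hm'', hnp'', -, hform''⟩ := ihj (E \ E₁)
      (hp.mono (List.suffix_refl _) sdiff_subset hmd)
      (by linarith [ms_nonneg f E₁ v]) (by push_cast at hj; rw [e1] at hj; linarith)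
    have hE₁ : E₁ ⊆ E \ E'' := fun y hy => ⟨hsub hy, fun h => (hsub' h).2 hy⟩
    have hmd' : MeasurableSet (E \ E'') := hp.meas.diff hm''
    have e2 : (E \ E'') \ E₁ = (E \ E₁) \ E'' := by
      ext y; simp only [mem_sdiff]; tauto
    have e3 := ms_diff hM.bm hmd' hm₁ hE₁ v
    have e4 := form_diff_le (N := N) (D := D) fr hM.bm hmd' hm₁ hE₁ v
    rw [e2] at e3 e4
    refine ⟨E'', hsub'.trans sdiff_subset, hm'', hnp'', Or.inr ?_, ?_⟩
    · refine hmass.trans ?_
      have := ms_nonneg f ((E \ E₁) \ E'') v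
      have := len_pos v
      gcongr
      linarith
    · rw [e3, mul_add (len v), mul_add]
      linarith

theorem Y_split {R B : Finset Nd} (hB : B ⊆ R) (F : Nd → ℝ → ℂ) (x : Nd) (ξ : ℝ) :
    Y R F x ξ = Y (R \ B) F x ξ + Y B F x ξ := by
  unfold Y; rw [Finset.sum_sdiff hB]

theorem step (hM : Model f H d N D) (hP : Par H d Q n g) {fr : Nd → ℝ} {k : ℕ}
    (ih : IH f H d N D n fr k) : IH f H d N D n fr (k + 1) := by
  intro w E a G t m hp s hms hr
  have hQ := hP.Q1
  have m0 := s.m0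
  have t0 := s.t0
  have hlw := len_pos w
  by_cases hw : w ∈ N
  swap
  · rw [form_of_not_mem fr hM hw]; positivity
  obtain ⟨R, B, Ec, hS, hRN, hEc, hsame, hgood, hform⟩ := build hM fr hw hp.meas
    (c := 10 ^ 12 * Q ^ 6) (K := 10 ^ 13 * n * k + g) m0 (by positivity) (by positivity) hms
    (fun v E' => NoProfit v (quo f E' a m) G n)
    (by
      intro v _ hwv E' hE' hm' h2
      obtain ⟨j, hj⟩ := exists_nat_gt (10 ^ 12 * Q ^ 6 * ms f E' v / m)
      rw [div_lt_iff₀ m0] at hj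
      exact clean hM hP ih s hr j E' (hp.mono hwv hE' hm') h2 hj)
    (by
      intro u hu hwu E' hE' hm' h2
      have := exit_le hM ih (hp.mono hwu hE' hm') s hr hu h2.le
      have h0 : 0 ≤ len u * ms f E' u := mul_nonneg (len_pos u).le (ms_nonneg _ _ _)
      have : (0 : ℝ) ≤ g * (len u * ms f E' u) := by positivity
      linarith)
  have hlow : ∀ v, ∀ y ∈ Ec v, t ≤ ‖tp a y‖ := fun v y hy => hp.low y ((hEc v).2 hy)
  have hrun : Run w R B (2 + 4 * (10 ^ 12 * Q ^ 6)) D (fun v => quo f (Ec v) a m) (2 / t) G n :=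
    { hS with
      bm := fun v => bm_quo hM.bm (hEc v).1 t0 m0 (hlow v)
      same := fun v hv hb b => by rw [hsame v hv hb b]
      mean := fun v hv => by
        have h1 : avr v (fun y => ‖quo f (Ec v) a m y‖) ≤
            avr v (fun y => (m * t)⁻¹ * ‖(Ec v).indicator f y‖) :=
          avr_mono ((bm_quo hM.bm (hEc v).1 t0 m0 (hlow v)).integrableOn_norm v)
            (((hM.bm.indicator (hEc v).1).integrableOn_norm v).const_mul _)
            fun y _ => norm_quo_le t0 m0 (hlow v) y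
        have h2 : avr v (fun y => (m * t)⁻¹ * ‖(Ec v).indicator f y‖) =
            (m * t)⁻¹ * ms f (Ec v) v := by
          unfold ms avr; rw [integral_const_mul]; ring
        have h3 : (m * t)⁻¹ * ms f (Ec v) v ≤ (m * t)⁻¹ * (2 * m) := by
          gcongr; exact (hgood v hv).1
        have h4 : (m * t)⁻¹ * (2 * m) = 2 / t := by field_simp
        linarith
      nop := fun v hv => (hgood v hv).2 }
  have hτ : 1 ≤ 2 / t := by rw [le_div_iff₀ t0]; linarith [s.t1]
  have hcore := core hrun (by positivity) s.G0 hP.n1 hτ a hp.l1 (by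
    rintro v hv ⟨y, hy, hne⟩
    refine hp.free v (hRN hv) (hS.sub v hv) ⟨y, ?_, hy⟩
    by_contra hyE
    apply hne
    have : y ∉ Ec v := fun h => hyE ((hEc v).2 h)
    simp [quo, this]) fr
  have h1 : ∑ x ∈ lv D w, len x * ‖Y (R \ B) (fun v => (Ec v).indicator f) x (fr x)‖ ≤
      m * ∑ x ∈ lv D w, len x * ∑ c ∈ a.support, ‖a c‖ *
        ‖Y (R \ B) (fun v => quo f (Ec v) a m) x (fr x - c)‖ := by
    rw [Finset.mul_sum]
    refine Finset.sum_le_sum fun x _ => ?_
    rw [Y_quo hM.bm _ Ec (fun v => (hEc v).1) t0 m0 hlow, norm_mul, Complex.norm_real,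
      Real.norm_of_nonneg m0.le, mul_left_comm]
    have := len_pos x
    gcongr
    exact (norm_sum_le _ _).trans (le_of_eq (Finset.sum_congr rfl fun c _ => norm_mul _ _))
  have h2 : ∑ x ∈ lv D w, len x * ‖Y B (fun v => (Ec v).indicator f) x (fr x)‖ ≤
      (2 + 4 * (10 ^ 12 * Q ^ 6)) * len w * (2 * m) := by
    calc ∑ x ∈ lv D w, len x * ‖Y B (fun v => (Ec v).indicator f) x (fr x)‖
        ≤ ∑ x ∈ lv D w, ∑ v ∈ B, len x * ‖(sg v x : ℂ) * dif v ((Ec v).indicator f) (fr x)‖ := by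
          refine Finset.sum_le_sum fun x _ => ?_
          rw [← Finset.mul_sum]
          exact mul_le_mul_of_nonneg_left (norm_sum_le _ _) (len_pos x).le
      _ = ∑ v ∈ B, ∑ x ∈ lv D w, len x * ‖(sg v x : ℂ) * dif v ((Ec v).indicator f) (fr x)‖ :=
          Finset.sum_comm
      _ ≤ ∑ v ∈ B, len v * (2 * m) := by
          refine Finset.sum_le_sum fun v hv => ?_
          have hvR := hS.brk hv
          exact sum_sg_le (hS.sub v hvR) (by have := hS.depth v hvR; omega) (by positivity) _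
            fun x => (norm_dif_le (hM.bm.indicator (hEc v).1) v _).trans (hgood v hvR).1
      _ ≤ (2 + 4 * (10 ^ 12 * Q ^ 6)) * len w * (2 * m) := by
          rw [← Finset.sum_mul]
          gcongr
          have := hS.carl w hS.root
          rwa [Finset.filter_true_of_mem fun v hv => hS.sub v (hS.brk hv)] at this
  have h3 : ∑ x ∈ lv D w, len x * ‖Y R (fun v => (Ec v).indicator f) x (fr x)‖ ≤
      ∑ x ∈ lv D w, len x * ‖Y (R \ B) (fun v => (Ec v).indicator f) x (fr x)‖ +
        ∑ x ∈ lv D w, len x * ‖Y B (fun v => (Ec v).indicator f) x (fr x)‖ := by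
    rw [← Finset.sum_add_distrib]
    refine Finset.sum_le_sum fun x _ => ?_
    rw [Y_split hS.brk, ← mul_add]
    exact mul_le_mul_of_nonneg_left (norm_add_le _ _) (len_pos x).le
  have h4 := mul_le_mul_of_nonneg_left hcore m0.le
  have h5 := mul_le_mul_of_nonneg_right (s.cost hP) (mul_nonneg m0.le hlw.le)
  push_cast
  nlinarith [h1, h2, h3, h4, h5, hform]

theorem ih_all (hM : Model f H d N D) (hP : Par H d Q n g) (fr : Nd → ℝ) (k : ℕ) :
    IH f H d N D n fr k := by
  induction k with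
  | zero =>
    intro w E a G t m _ s _ hr
    have := s.rk_pos hP
    have := hP.n100
    simp only [Nat.cast_zero, zero_mul] at hr
    linarith
  | succ k ih => exact step hM hP ih

end

theorem root_piece (N : Finset Nd) : Piece N [] univ (Finsupp.single 0 1) 0 1 := by
  have h1 : l1 (Finsupp.single (0 : ℝ) (1 : ℂ)) = 1 := by simp [l1]
  refine ⟨MeasurableSet.univ, h1.le, one_pos, le_rfl, le_rfl, fun y _ => by simp [tp],
    fun u _ _ _ ζ => ?_⟩
  rw [neg_zero, Real.exp_zero, ← h1]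
  exact Finset.sum_le_sum_of_subset_of_nonneg (Finset.filter_subset _ _) fun _ _ _ => norm_nonneg _

theorem dyadic_main : DyBound (10 ^ 38) 29 := by
  intro f H d N D fr hM hH hd h1
  obtain ⟨Q, n, g, k, hP, hr, hb⟩ := exists_par hH hd
  have := ih_all hM hP fr k [] univ _ 0 1 1 (root_piece N) (St.root hP) (by simpa [ms] using h1) hr
  simp only [form, lv, List.length_nil, Nat.sub_zero, List.nil_suffix, Finset.filter_true,
    indicator_univ, len_nil, mul_one] at this
  exact this.trans hb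

end Crest.Agent.R100
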