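import Crest.Agent.R100.Stmts

/-!
# R100/Kernel: the average of the dyadic shifts; the Hardy–Littlewood inequality  (task)

`kernel_avg`: `φ u = ∫ sf (z + u) hf z dz` (`|φ| ≤ 1`, measurable/continuous, `0` for `|u| ≥ 1`),
`Φ w = ∫₀ʷ φ`.  For `|w| ≥ 1`, Fubini: `Φ w = ∫ hf z (Sg (z+w) - Sg z) dz = -∫ hf Sg = -1/8` with `Sg` the
primitive of `sf` (`z`, `1/2 - z`, `z - 1` on the three pieces, `0` outside `[0,1]`).  (Or compute `φ`
explicitly.)  For one node, substituting in `a`: `∫ (ℓ len v)⁻¹ sf(..) hf(..) da = φ((x-y)/(ℓ len v))`;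
there are `2^k` nodes of depth `k` (`sum_len_below`).  With `u = x - y ≠ 0`:
`∫_T^{2T} ℓ⁻² 2^k φ(u 2^k/ℓ) dℓ = (Φ(u 2^k/T) - Φ(u 2^k/(2T)))/u` (derivative of `ℓ ↦ -Φ(u2^k/ℓ)/u`, or
a substitution); telescope over `k < D`.
`hl`: the bad set is contained in the open set `Ω = ⋃ {ball x r : ∫_{closedBall x r} ‖f‖ > lam·r…}`;
use `Vitali.exists_disjoint_subfamily_covering_enlargement_closedBall` (radii are bounded by
`∫‖f‖/lam`): if `x ∈ [p,q)` is bad then `closedBall x (q-p)` has integral `> lam (q-p)`.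
Take `toMeasurable`.
-/

set_option autoImplicit false
open MeasureTheory Set

namespace Crest.Agent.R100

theorem Kernel_abs_sf (z : ℝ) : |sf z| ≤ 1 := by
  unfold sf
  split_ifs <;> simp

theorem Kernel_abs_hf (z : ℝ) : |hf z| ≤ 1 := by
  unfold hf
  split_ifs <;> simp

theorem Kernel_sum_nodes (D : ℕ) (ψ : ℕ → ℝ) :
    ∑ v ∈ nodes D, ψ v.length = ∑ k ∈ Finset.range D, 2 ^ k * ψ k := by
  unfold nodes
  rw [Finset.sum_biUnion]
  · refine Finset.sum_congr rfl fun k _ => ?_
    have h := sum_len_below k []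
    rw [len_nil] at h
    calc ∑ v ∈ below k [], ψ v.length = ∑ v ∈ below k [], len v * (2 ^ k * ψ k) := by
          refine Finset.sum_congr rfl fun v hv => ?_
          have h1 : v.length = k := by simpa using (mem_below.1 hv).1
          unfold len
          rw [h1, ← mul_assoc, ← mul_pow]
          norm_num
      _ = 2 ^ k * ψ k := by rw [← Finset.sum_mul, h, one_mul]
  · intro i _ j _ hij
    refine Finset.disjoint_left.2 fun v h1 h2 => hij ?_
    have h3 := (mem_below.1 h1).1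
    have h4 := (mem_below.1 h2).1
    omega

/-- second primitive of the Dirac mass -/
noncomputable def Kernel_p2 (t : ℝ) : ℝ := ∫ s in (0 : ℝ)..t, max s 0

theorem Kernel_p2_deriv (t : ℝ) : HasDerivAt Kernel_p2 (max t 0) t :=
  (Continuous.integral_hasStrictDerivAt (f := fun s : ℝ => max s 0) (by fun_prop) 0 t).hasDerivAt

theorem Kernel_p2_of_nonneg {t : ℝ} (h : 0 ≤ t) : Kernel_p2 t = t ^ 2 / 2 := by
  unfold Kernel_p2
  rw [intervalIntegral.integral_congr (g := fun s => s), integral_id]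
  · ring
  · intro s hs
    rw [uIcc_of_le h] at hs
    exact max_eq_left hs.1

theorem Kernel_p2_of_nonpos {t : ℝ} (h : t ≤ 0) : Kernel_p2 t = 0 := by
  unfold Kernel_p2
  rw [intervalIntegral.integral_congr (g := fun _ => 0), intervalIntegral.integral_zero]
  intro s hs
  rw [uIcc_of_ge h] at hs
  exact max_eq_right hs.2

/-- the primitive of `sf` -/
noncomputable def Kernel_Sg (t : ℝ) : ℝ :=
  max t 0 - 2 * max (t - 1 / 4) 0 + 2 * max (t - 3 / 4) 0 - max (t - 1) 0

/-- the primitive of `Sg` -/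
noncomputable def Kernel_S2 (t : ℝ) : ℝ :=
  Kernel_p2 t - 2 * Kernel_p2 (t - 1 / 4) + 2 * Kernel_p2 (t - 3 / 4) - Kernel_p2 (t - 1)

noncomputable def Kernel_phi (s : ℝ) : ℝ := 2 * Kernel_Sg (s + 1 / 2) - Kernel_Sg s - Kernel_Sg (s + 1)

noncomputable def Kernel_Phi (s : ℝ) : ℝ :=
  2 * Kernel_S2 (s + 1 / 2) - Kernel_S2 s - Kernel_S2 (s + 1) - 1 / 8

theorem Kernel_continuous_Sg : Continuous Kernel_Sg := by
  unfold Kernel_Sg
  fun_prop

theorem Kernel_continuous_phi : Continuous Kernel_phi := by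
  have := Kernel_continuous_Sg
  unfold Kernel_phi
  fun_prop

theorem Kernel_abs_Sg (t : ℝ) : |Kernel_Sg t| ≤ 1 / 4 := by
  unfold Kernel_Sg
  rw [abs_le]
  simp only [max_def]
  constructor <;> split_ifs <;> linarith

theorem Kernel_abs_phi (s : ℝ) : |Kernel_phi s| ≤ 1 := by
  have h1 := abs_le.1 (Kernel_abs_Sg (s + 1 / 2))
  have h2 := abs_le.1 (Kernel_abs_Sg s)
  have h3 := abs_le.1 (Kernel_abs_Sg (s + 1))
  unfold Kernel_phi
  rw [abs_le]
  constructor <;> linarith [h1.1, h1.2, h2.1, h2.2, h3.1, h3.2]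

theorem Kernel_S2_deriv (t : ℝ) : HasDerivAt Kernel_S2 (Kernel_Sg t) t :=
  (((Kernel_p2_deriv t).sub (((Kernel_p2_deriv _).comp_sub_const t (1 / 4)).const_mul 2)).add
    (((Kernel_p2_deriv _).comp_sub_const t (3 / 4)).const_mul 2)).sub
    ((Kernel_p2_deriv _).comp_sub_const t 1)

theorem Kernel_Phi_deriv (s : ℝ) : HasDerivAt Kernel_Phi (Kernel_phi s) s :=
  (((((Kernel_S2_deriv _).comp_add_const s (1 / 2)).const_mul 2).sub (Kernel_S2_deriv s)).sub
    ((Kernel_S2_deriv _).comp_add_const s 1)).sub_const (1 / 8)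

theorem Kernel_S2_of_nonpos {t : ℝ} (h : t ≤ 0) : Kernel_S2 t = 0 := by
  unfold Kernel_S2
  rw [Kernel_p2_of_nonpos h, Kernel_p2_of_nonpos (by linarith), Kernel_p2_of_nonpos (by linarith),
    Kernel_p2_of_nonpos (by linarith)]
  ring

theorem Kernel_S2_of_one_le {t : ℝ} (h : 1 ≤ t) : Kernel_S2 t = 0 := by
  unfold Kernel_S2
  rw [Kernel_p2_of_nonneg (by linarith), Kernel_p2_of_nonneg (by linarith),
    Kernel_p2_of_nonneg (by linarith), Kernel_p2_of_nonneg (by linarith)]
  ring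

theorem Kernel_Phi_zero : Kernel_Phi 0 = 0 := by
  unfold Kernel_Phi
  rw [Kernel_S2_of_nonpos le_rfl, Kernel_S2_of_one_le (t := 0 + 1) (by norm_num)]
  unfold Kernel_S2
  rw [Kernel_p2_of_nonneg (by norm_num), Kernel_p2_of_nonneg (by norm_num),
    Kernel_p2_of_nonpos (by norm_num), Kernel_p2_of_nonpos (by norm_num)]
  norm_num

theorem Kernel_Phi_far {w : ℝ} (h : 1 ≤ |w|) : Kernel_Phi w = -1 / 8 := by
  unfold Kernel_Phi
  rcases le_abs'.1 h with h | h
  · rw [Kernel_S2_of_nonpos (by linarith), Kernel_S2_of_nonpos (by linarith),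
      Kernel_S2_of_nonpos (by linarith)]
    norm_num
  · rw [Kernel_S2_of_one_le (by linarith), Kernel_S2_of_one_le (by linarith),
      Kernel_S2_of_one_le (by linarith)]
    norm_num

theorem Kernel_abs_Phi (w : ℝ) : |Kernel_Phi w| ≤ |w| := by
  have h := convex_univ.norm_image_sub_le_of_norm_hasDerivWithin_le (f := Kernel_Phi)
    (f' := Kernel_phi) (C := 1) (fun x _ => (Kernel_Phi_deriv x).hasDerivWithinAt)
    (fun x _ => Kernel_abs_phi x) (mem_univ 0) (mem_univ w)
  simpa [Kernel_Phi_zero] using h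

theorem Kernel_max_deriv (c t : ℝ) :
    HasDerivWithinAt (fun t => max (t - c) 0) (if c ≤ t then 1 else 0) (Ioi t) t := by
  split_ifs with h
  · refine ((hasDerivAt_id t).sub_const c).hasDerivWithinAt.congr (fun y hy => ?_) ?_
    · exact max_eq_left (by have : t < y := hy; linarith)
    · exact max_eq_left (by linarith)
  · refine ((hasDerivAt_const t (0 : ℝ)).congr_of_eventuallyEq ?_).hasDerivWithinAt
    filter_upwards [Iio_mem_nhds (not_le.1 h)] with y hy
    exact max_eq_right (by have : y < c := hy; linarith)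

theorem Kernel_Sg_deriv (t : ℝ) : HasDerivWithinAt Kernel_Sg (sf t) (Ioi t) t := by
  have h := (((Kernel_max_deriv 0 t).sub ((Kernel_max_deriv (1 / 4) t).const_mul 2)).add
    ((Kernel_max_deriv (3 / 4) t).const_mul 2)).sub (Kernel_max_deriv 1 t)
  have e : sf t = (if 0 ≤ t then 1 else 0) - 2 * (if 1 / 4 ≤ t then 1 else 0) +
      2 * (if 3 / 4 ≤ t then 1 else 0) - (if 1 ≤ t then 1 else 0) := by
    unfold sf
    rcases lt_or_ge t 0 with h0 | h0
    · rw [if_neg (fun h => by linarith [h.1]), if_neg (fun h => by linarith [h.1]),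
        if_neg (fun h => by linarith [h.1]), if_neg (by linarith), if_neg (by linarith),
        if_neg (by linarith), if_neg (by linarith)]
      norm_num
    rcases lt_or_ge t (1 / 4) with h1 | h1
    · rw [if_pos ⟨h0, h1⟩, if_pos h0, if_neg (by linarith), if_neg (by linarith),
        if_neg (by linarith)]
      norm_num
    rcases lt_or_ge t (3 / 4) with h2 | h2
    · rw [if_neg (fun h => by linarith [h.2]), if_pos ⟨h1, h2⟩, if_pos h0, if_pos h1,
        if_neg (by linarith), if_neg (by linarith)]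
      norm_num
    rcases lt_or_ge t 1 with h3 | h3
    · rw [if_neg (fun h => by linarith [h.2]), if_neg (fun h => by linarith [h.2]),
        if_pos ⟨h2, h3⟩, if_pos h0, if_pos h1, if_pos h2, if_neg (by linarith)]
      norm_num
    · rw [if_neg (fun h => by linarith [h.2]), if_neg (fun h => by linarith [h.2]),
        if_neg (fun h => by linarith [h.2]), if_pos h0, if_pos h1, if_pos h2, if_pos h3]
      norm_num
  rw [e]
  refine h.congr (fun y _ => ?_) ?_ <;> simp [Kernel_Sg]

theorem Kernel_ii_sf (a b : ℝ) : IntervalIntegrable sf volume a b :=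
  (intervalIntegrable_const (c := (1 : ℝ))).mono_fun' measurable_sf.aestronglyMeasurable
    (Filter.Eventually.of_forall Kernel_abs_sf)

theorem Kernel_integral_sf (a b s : ℝ) :
    ∫ z in a..b, sf (z + s) = Kernel_Sg (s + b) - Kernel_Sg (s + a) := by
  rw [intervalIntegral.integral_comp_add_right, add_comm a, add_comm b]
  exact intervalIntegral.integral_eq_sub_of_hasDeriv_right Kernel_continuous_Sg.continuousOn
    (fun t _ => Kernel_Sg_deriv t) (Kernel_ii_sf _ _)

theorem Kernel_split (s : ℝ) : (fun z => sf (z + s) * hf z) = fun z =>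
    (Ico 0 (1 / 2)).indicator (fun z => sf (z + s)) z -
      (Ico (1 / 2) 1).indicator (fun z => sf (z + s)) z := by
  funext z
  unfold hf
  by_cases h1 : 0 ≤ z ∧ z < 1 / 2
  · rw [if_pos h1, indicator_of_mem (show z ∈ Ico 0 (1 / 2) from h1),
      indicator_of_notMem (fun h => by linarith [h.1, h1.2])]
    ring
  · rw [if_neg h1, indicator_of_notMem (show z ∉ Ico 0 (1 / 2) from h1)]
    by_cases h2 : 1 / 2 ≤ z ∧ z < 1
    · rw [if_pos h2, indicator_of_mem (show z ∈ Ico (1 / 2) 1 from h2)]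
      ring
    · rw [if_neg h2, indicator_of_notMem (show z ∉ Ico (1 / 2) 1 from h2)]
      ring

theorem Kernel_int_ind (s a b : ℝ) : Integrable ((Ico a b).indicator fun z => sf (z + s)) := by
  rw [integrable_indicator_iff measurableSet_Ico]
  exact Measure.integrableOn_of_bounded (M := 1) measure_Ico_lt_top.ne
    (measurable_sf.comp (measurable_add_const s)).aestronglyMeasurable
    (Filter.Eventually.of_forall fun z => Kernel_abs_sf _)

theorem Kernel_integrable (s : ℝ) : Integrable fun z => sf (z + s) * hf z := by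
  rw [Kernel_split]
  exact (Kernel_int_ind s _ _).sub (Kernel_int_ind s _ _)

theorem Kernel_integral (s : ℝ) : ∫ z, sf (z + s) * hf z = Kernel_phi s := by
  rw [Kernel_split, integral_sub (Kernel_int_ind s _ _) (Kernel_int_ind s _ _),
    integral_indicator measurableSet_Ico, integral_indicator measurableSet_Ico,
    integral_Ico_eq_integral_Ioc, integral_Ico_eq_integral_Ioc,
    ← intervalIntegral.integral_of_le (by norm_num), ← intervalIntegral.integral_of_le (by norm_num),
    Kernel_integral_sf, Kernel_integral_sf, add_zero]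
  unfold Kernel_phi
  ring

theorem Kernel_node_eq {l : ℝ} (c x y : ℝ) :
    (fun a => l⁻¹ * sf ((x - a - c) / l) * hf ((y - a - c) / l)) =
      fun a => l⁻¹ * (fun b => sf (b / l + (x - y) / l) * hf (b / l)) (y - c - a) := by
  funext a
  have h1 : (x - a - c) / l = (y - c - a) / l + (x - y) / l := by ring
  have h2 : (y - a - c) / l = (y - c - a) / l := by ring
  rw [h1, h2, mul_assoc]

theorem Kernel_node_integrable {l : ℝ} (hl : 0 < l) (c x y : ℝ) :
    Integrable fun a => l⁻¹ * sf ((x - a - c) / l) * hf ((y - a - c) / l) := by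
  rw [Kernel_node_eq]
  exact (((Kernel_integrable ((x - y) / l)).comp_div hl.ne').comp_sub_left (y - c)).const_mul _

theorem Kernel_node_integral {l : ℝ} (hl : 0 < l) (c x y : ℝ) :
    ∫ a, l⁻¹ * sf ((x - a - c) / l) * hf ((y - a - c) / l) = Kernel_phi ((x - y) / l) := by
  rw [Kernel_node_eq, integral_const_mul, integral_sub_left_eq_self
    (fun b => sf (b / l + (x - y) / l) * hf (b / l)) volume (y - c),
    Measure.integral_comp_div (fun z => sf (z + (x - y) / l) * hf z) l, Kernel_integral,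
    abs_of_pos hl, smul_eq_mul, ← mul_assoc, inv_mul_cancel₀ hl.ne', one_mul]

theorem Kernel_integral_KK (D : ℕ) {ℓ : ℝ} (hℓ : 0 < ℓ) (x y : ℝ) :
    ∫ a, KK D ℓ a x y = ∑ k ∈ Finset.range D, 2 ^ k * Kernel_phi ((x - y) * 2 ^ k / ℓ) := by
  unfold KK
  rw [integral_finsetSum _ fun v _ => Kernel_node_integrable (mul_pos hℓ (len_pos v)) _ x y,
    ← Kernel_sum_nodes D fun k => Kernel_phi ((x - y) * 2 ^ k / ℓ)]
  refine Finset.sum_congr rfl fun v _ => ?_
  rw [Kernel_node_integral (mul_pos hℓ (len_pos v))]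
  congr 1
  unfold len
  rw [one_div, inv_pow]
  field_simp

theorem Kernel_scale {T u : ℝ} (hT : 0 < T) (hu : u ≠ 0) (m : ℝ) :
    IntervalIntegrable (fun ℓ => (ℓ ^ 2)⁻¹ * (m * Kernel_phi (u * m / ℓ))) volume T (2 * T) ∧
    ∫ ℓ in T..2 * T, (ℓ ^ 2)⁻¹ * (m * Kernel_phi (u * m / ℓ)) =
      (Kernel_Phi (u * m / T) - Kernel_Phi (u * m / (2 * T))) / u := by
  have hpos : ∀ ℓ ∈ uIcc T (2 * T), ℓ ≠ 0 := by
    intro ℓ h
    rw [uIcc_of_le (by linarith)] at h
    linarith [h.1]
  have hi : IntervalIntegrable (fun ℓ => (ℓ ^ 2)⁻¹ * (m * Kernel_phi (u * m / ℓ))) volume T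
      (2 * T) := by
    refine ContinuousOn.intervalIntegrable ?_
    refine ((continuousOn_id.pow 2).inv₀ fun ℓ h => pow_ne_zero 2 (hpos ℓ h)).mul
      (continuousOn_const.mul (Kernel_continuous_phi.comp_continuousOn
        (continuousOn_const.div continuousOn_id hpos)))
  refine ⟨hi, ?_⟩
  rw [intervalIntegral.integral_eq_sub_of_hasDerivAt (f := fun ℓ => -Kernel_Phi (u * m / ℓ) / u)
    (fun ℓ h => ?_) hi]
  · ring
  · have h0 := hpos ℓ h
    have h1 : HasDerivAt (fun ℓ : ℝ => u * m / ℓ) (u * m * (-(ℓ ^ 2)⁻¹)) ℓ := by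
      simpa only [div_eq_mul_inv] using (hasDerivAt_inv h0).const_mul (u * m)
    refine (((Kernel_Phi_deriv _).comp ℓ h1).neg.div_const u).congr_deriv ?_
    field_simp

theorem abs_KK_le (D : ℕ) {ℓ : ℝ} (hℓ : 0 < ℓ) (a x y : ℝ) : |KK D ℓ a x y| ≤ 4 ^ D / ℓ := by
  unfold KK
  refine (Finset.abs_sum_le_sum_abs _ _).trans ?_
  have h1 : ∀ v ∈ nodes D, |(ℓ * len v)⁻¹ * sf ((x - a - ℓ * lft v) / (ℓ * len v)) *
      hf ((y - a - ℓ * lft v) / (ℓ * len v))| ≤ (fun k : ℕ => (2 : ℝ) ^ k / ℓ) v.length := by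
    intro v _
    have h2 : (ℓ * len v)⁻¹ = (2 : ℝ) ^ v.length / ℓ := by
      unfold len
      rw [one_div, inv_pow]
      field_simp
    have h3 : (0 : ℝ) ≤ 2 ^ v.length / ℓ := by positivity
    rw [abs_mul, abs_mul, h2, abs_of_nonneg h3, mul_assoc]
    exact mul_le_of_le_one_right h3
      (mul_le_one₀ (Kernel_abs_sf _) (abs_nonneg _) (Kernel_abs_hf _))
  refine (Finset.sum_le_sum h1).trans ?_
  rw [Kernel_sum_nodes D fun k => (2 : ℝ) ^ k / ℓ]
  simp only [← mul_div_assoc, ← Finset.sum_div]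
  refine div_le_div_of_nonneg_right ?_ hℓ.le
  induction D with
  | zero => simp
  | succ D ih =>
    have h4 : (2 : ℝ) ^ D * 2 ^ D = 4 ^ D := by
      rw [← mul_pow]
      norm_num
    have h5 : (0 : ℝ) ≤ 4 ^ D := by positivity
    have h6 := ih fun v hv => h1 v (mem_nodes.2 ((mem_nodes.1 hv).trans (Nat.lt_succ_self D)))
    rw [Finset.sum_range_succ, pow_succ, h4]
    linarith

theorem KK_eq_zero (D : ℕ) {ℓ : ℝ} (hℓ : 0 < ℓ) {a x : ℝ} (y : ℝ) (h : x ∉ Ico a (a + ℓ)) :
    KK D ℓ a x y = 0 := by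
  refine Finset.sum_eq_zero fun v _ => ?_
  have hl : 0 < ℓ * len v := mul_pos hℓ (len_pos v)
  have h1 : sf ((x - a - ℓ * lft v) / (ℓ * len v)) = 0 := by
    by_contra h0
    have h2 : 0 ≤ (x - a - ℓ * lft v) / (ℓ * len v) ∧ (x - a - ℓ * lft v) / (ℓ * len v) < 1 := by
      unfold sf at h0
      split_ifs at h0 with h1 h2 h3
      · exact ⟨h1.1, by linarith [h1.2]⟩
      · exact ⟨by linarith [h2.1], by linarith [h2.2]⟩
      · exact ⟨by linarith [h3.1], h3.2⟩
      · exact absurd rfl h0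
    rw [le_div_iff₀ hl, div_lt_iff₀ hl] at h2
    have h3 : (x - a) / ℓ ∈ I v := by
      constructor
      · rw [le_div_iff₀ hℓ]
        linarith [h2.1]
      · rw [div_lt_iff₀ hℓ]
        linarith [h2.2]
    have h4 := I_mono (List.nil_suffix (l := v)) h3
    rw [I_nil, mem_Ico, le_div_iff₀ hℓ, div_lt_iff₀ hℓ] at h4
    exact h ⟨by linarith [h4.1], by linarith [h4.2]⟩
  rw [h1, mul_zero, zero_mul]

theorem measurable_KK (D : ℕ) :
    Measurable (fun p : (ℝ × ℝ) × (ℝ × ℝ) => KK D p.1.1 p.1.2 p.2.1 p.2.2) := by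
  unfold KK
  refine Finset.measurable_sum _ fun v _ => ?_
  exact (Measurable.mul (by fun_prop) (measurable_sf.comp (by fun_prop))).mul
    (measurable_hf.comp (by fun_prop))

theorem kernel_avg : ∃ Φ : ℝ → ℝ, Continuous Φ ∧ (∀ w, |Φ w| ≤ |w|) ∧ (∀ w, |Φ w| ≤ 1) ∧
    (∀ w, 1 ≤ |w| → Φ w = -1 / 8) ∧
    ∀ (T : ℝ) (D : ℕ) (x y : ℝ), 0 < T → x ≠ y →
      ∫ ℓ in Ioc T (2 * T), (ℓ ^ 2)⁻¹ * ∫ a, KK D ℓ a x y =
        (Φ ((x - y) * 2 ^ D / (2 * T)) - Φ ((x - y) / (2 * T))) / (x - y) := by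
  refine ⟨Kernel_Phi, continuous_iff_continuousAt.2 fun w => (Kernel_Phi_deriv w).continuousAt,
    Kernel_abs_Phi, fun w => ?_, fun w => Kernel_Phi_far, fun T D x y hT hxy => ?_⟩
  · rcases le_total |w| 1 with h | h
    · exact (Kernel_abs_Phi w).trans h
    · rw [Kernel_Phi_far h, abs_le]
      constructor <;> norm_num
  · have hu : x - y ≠ 0 := sub_ne_zero.2 hxy
    rw [setIntegral_congr_fun measurableSet_Ioc (g := fun ℓ => ∑ k ∈ Finset.range D,
      (ℓ ^ 2)⁻¹ * (2 ^ k * Kernel_phi ((x - y) * 2 ^ k / ℓ))) fun ℓ h => by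
        simp only [Kernel_integral_KK D (hT.trans h.1), Finset.mul_sum],
      ← intervalIntegral.integral_of_le (by linarith),
      intervalIntegral.integral_finsetSum fun k _ => (Kernel_scale hT hu _).1]
    simp only [(Kernel_scale hT hu _).2, ← Finset.sum_div]
    congr 1
    have h := Finset.sum_range_sub (fun k => Kernel_Phi ((x - y) * 2 ^ k / (2 * T))) D
    rw [pow_zero, mul_one] at h
    rw [← h]
    refine Finset.sum_congr rfl fun k _ => ?_
    congr 2
    rw [pow_succ]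
    field_simp

theorem hl {f : ℝ → ℂ} (hf : Integrable f) {lam : ℝ} (hlam : 0 < lam) :
    ∃ Ω : Set ℝ, MeasurableSet Ω ∧ volume Ω ≤ ENNReal.ofReal (10 * (∫ y, ‖f y‖) / lam) ∧
      ∀ x ∉ Ω, GoodPt f lam x := by
  have key : ∀ x, ∃ r : ℝ, ¬ GoodPt f lam x →
      0 < r ∧ lam * r < ∫ y in Metric.closedBall x r, ‖f y‖ := by
    intro x
    by_cases h : GoodPt f lam x
    · exact ⟨0, fun h' => absurd h h'⟩
    · unfold GoodPt at h
      push Not at h
      obtain ⟨p, q, h1, h2, h3⟩ := h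
      refine ⟨q - p, fun _ => ⟨by linarith, h3.trans_le ?_⟩⟩
      refine setIntegral_mono_set hf.norm.integrableOn
        (Filter.Eventually.of_forall fun y => norm_nonneg _) (LE.le.eventuallyLE ?_)
      intro y hy
      rw [Metric.mem_closedBall, Real.dist_eq, abs_le]
      constructor <;> linarith [hy.1, hy.2]
  choose r hr using key
  have hR : ∀ x ∈ {x | ¬ GoodPt f lam x}, r x ≤ (∫ y, ‖f y‖) / lam := by
    intro x hx
    rw [le_div_iff₀ hlam, mul_comm]
    exact (hr x hx).2.le.trans (setIntegral_le_integral hf.norm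
      (Filter.Eventually.of_forall fun y => norm_nonneg _))
  obtain ⟨u, hu, hd, hc⟩ := Vitali.exists_disjoint_subfamily_covering_enlargement_closedBall
    {x | ¬ GoodPt f lam x} (fun x => x) r _ hR 5 (by norm_num)
  have hcount : u.Countable := hd.countable_of_nonempty_interior fun x hx =>
    ⟨x, mem_interior_iff_mem_nhds.2 (Metric.closedBall_mem_nhds x (hr x (hu hx)).1)⟩
  refine ⟨⋃ x ∈ u, Metric.closedBall x (5 * r x),
    MeasurableSet.biUnion hcount fun x _ => Metric.isClosed_closedBall.measurableSet, ?_,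
    fun x hx => ?_⟩
  · have h1 : ∀ x : u, volume (Metric.closedBall (x : ℝ) (5 * r x)) ≤
        ENNReal.ofReal (10 / lam) * ∫⁻ y in Metric.closedBall (x : ℝ) (r x), ‖f y‖ₑ := by
      intro x
      rw [Real.volume_closedBall, ← ofReal_integral_norm_eq_lintegral_enorm hf.integrableOn,
        ← ENNReal.ofReal_mul (by positivity)]
      refine ENNReal.ofReal_le_ofReal ?_
      rw [div_mul_eq_mul_div, le_div_iff₀ hlam]
      linarith [(hr x (hu x.2)).2]
    refine (measure_biUnion_le volume hcount _).trans ((ENNReal.tsum_le_tsum h1).trans ?_)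
    rw [ENNReal.tsum_mul_left, ← lintegral_biUnion hcount
      (fun x _ => Metric.isClosed_closedBall.measurableSet) hd, mul_div_right_comm,
      ENNReal.ofReal_mul (by positivity), ofReal_integral_norm_eq_lintegral_enorm hf]
    exact mul_le_mul_right (setLIntegral_le_lintegral _ _) _
  · by_contra h
    obtain ⟨b, hb, hsub⟩ := hc x h
    exact hx (mem_biUnion hb (hsub (Metric.mem_closedBall_self (hr x h).1.le)))

end Crest.Agent.R100
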