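import Crest.Agent.R100.Basic

/-!
# R100/Regime: one particle, one size  (task)

`reg β x s`: the non-break nodes above the leaf `x` at which the running maximum of
`amp (vl F s)` lies in `(β, 2β]`.
`reg_first`: the shortest non-break node above `x` with `amp > β`.
`reg_le`: `ρ = τ/β`, `r₀` minimal with `32ρ² ≤ 2^{r₀}` (`r₀ ≤ 6 + 3 log ρ`).  `reg` = non-break nodes
of `R` above `x` with `|vc| ≤ |v| < k₂` (`k₂` = least depth of a non-break node above `x` with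
`amp > 2β`, or `D`).  The nodes with `|v| < |vc| + r₀` cost `≤ 2β` each (`norm_gam_le_amp`; at most one
node of each depth).  For the others fix `y₀ = lft x`; `co_shift` on both children (they lie in `R`,
`F child = F v`, mean `≤ τ`, `W = len v`) gives
`‖vl F s child - ex(-(s-ξ)) y₀ vl F ξ child‖ ≤ 16ρτ 2^{-(|v|-|vc|)}`, hence `amp (vl F ξ) v ≤ 3β`, and
the errors add up to `≤ β`.  Apply `he` with `k₁ = |vc| + r₀`.
`sum_reg`: partition of the non-break nodes above `x` by the running maximum `a v ≤ τ`: either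
`a v ∈ (τ 2^{-(j+1)}, τ 2^{-j}]` for a unique `j < J`, or `a v ≤ τ 2^{-J}` (at most `D` nodes).  Nodes
not above `x` have `sg = 0`.
`mult`: let `c₀` have the longest `v c₀`; all `c ∈ C` lie in the window of length `2 Sep/len (v c₀)`
around `s₀`; cover it by `⌈2 Sep⌉ + 1` windows of length `1/len`.
-/

set_option autoImplicit false
open MeasureTheory Set

namespace Crest.Agent.R100

open Classical in
/-- the `β`-regime of the frequency `s` along the path to `x` -/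
noncomputable def reg (R B : Finset Nd) (F : Nd → ℝ → ℂ) (β : ℝ) (x : Nd) (s : ℝ) : Finset Nd :=
  R.filter (fun v => v ∉ B ∧ v <:+ x ∧ (∃ z ∈ R, z ∉ B ∧ z <:+ v ∧ β < amp (vl F s) z) ∧
    ∀ z ∈ R, z ∉ B → z <:+ v → amp (vl F s) z ≤ 2 * β)

/-- at most one node of each depth lies above `x` -/
theorem Regime_sum_depth {S : Finset Nd} {x : Nd} (hS : ∀ v ∈ S, v <:+ x) {T : Finset ℕ}
    (hT : ∀ v ∈ S, v.length ∈ T) (φ : ℕ → ℝ) (hφ : ∀ k, 0 ≤ φ k) :
    ∑ v ∈ S, φ v.length ≤ ∑ k ∈ T, φ k := by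
  classical
  rw [← Finset.sum_image (s := S) (g := List.length) (f := φ)
    (fun u hu v hv h => suffix_eq_of_length (hS u hu) (hS v hv) h)]
  refine Finset.sum_le_sum_of_subset_of_nonneg ?_ fun k _ _ => hφ k
  intro k hk
  obtain ⟨v, hv, rfl⟩ := Finset.mem_image.1 hk
  exact hT v hv

theorem Regime_mem_reg {R B : Finset Nd} {F : Nd → ℝ → ℂ} {β : ℝ} {x : Nd} {s : ℝ} {v : Nd} :
    v ∈ reg R B F β x s ↔ v ∈ R ∧ v ∉ B ∧ v <:+ x ∧
      (∃ z ∈ R, z ∉ B ∧ z <:+ v ∧ β < amp (vl F s) z) ∧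
      ∀ z ∈ R, z ∉ B → z <:+ v → amp (vl F s) z ≤ 2 * β := by
  classical
  unfold reg; rw [Finset.mem_filter]

theorem Regime_norm_term_le (val : Nd → ℂ) (v x : Nd) :
    ‖(sg v x : ℂ) * gam val v‖ ≤ amp val v := by
  rw [norm_mul, Complex.norm_real, Real.norm_eq_abs]
  calc |sg v x| * ‖gam val v‖ ≤ 1 * ‖gam val v‖ :=
        mul_le_mul_of_nonneg_right (abs_sg_le v x) (norm_nonneg _)
    _ ≤ amp val v := by rw [one_mul]; exact norm_gam_le_amp val v

/-- the first depth at which the running maximum exceeds `γ` -/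
theorem Regime_exists_cut {R B : Finset Nd} (g : Nd → ℝ) (γ : ℝ) (x : Nd) :
    ∃ k₂ : ℕ, ∀ v ∈ R, v ∉ B → v <:+ x →
      (v.length < k₂ ↔ ∀ z ∈ R, z ∉ B → z <:+ v → g z ≤ γ) := by
  classical
  by_cases hne : (R.filter (fun u => u ∉ B ∧ u <:+ x ∧ γ < g u)).Nonempty
  · obtain ⟨u, hu, hmin⟩ := Finset.exists_min_image _ List.length hne
    rw [Finset.mem_filter] at hu
    refine ⟨u.length, fun v _ _ hvx => ⟨fun hlt z hz hzb hzv => ?_, fun hall => ?_⟩⟩
    · by_contra hc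
      have := hmin z (Finset.mem_filter.2 ⟨hz, hzb, hzv.trans hvx, not_le.1 hc⟩)
      have := hzv.length_le
      omega
    · by_contra hc
      have := hall u hu.1 hu.2.1 (suffix_of_le hu.2.2.1 hvx (not_lt.1 hc))
      exact absurd hu.2.2.2 (not_lt.2 this)
  · refine ⟨x.length + 1, fun v _ _ hvx => ⟨fun _ z hz hzb hzv => ?_, fun _ => ?_⟩⟩
    · by_contra hc
      exact hne ⟨z, Finset.mem_filter.2 ⟨hz, hzb, hzv.trans hvx, not_le.1 hc⟩⟩
    · have := hvx.length_le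
      omega

theorem Regime_exists_r {ρ : ℝ} (hρ : 1 ≤ ρ) :
    ∃ r : ℕ, 32 * ρ ^ 2 ≤ 2 ^ r ∧ (r : ℝ) ≤ 6 + 3 * Real.log ρ := by
  have hex : ∃ r : ℕ, 32 * ρ ^ 2 ≤ 2 ^ r := by
    obtain ⟨r, hr⟩ := pow_unbounded_of_one_lt (32 * ρ ^ 2) (show (1 : ℝ) < 2 by norm_num)
    exact ⟨r, hr.le⟩
  classical
  refine ⟨Nat.find hex, Nat.find_spec hex, ?_⟩
  have hlog : 0 ≤ Real.log ρ := Real.log_nonneg hρ
  rcases Nat.eq_zero_or_pos (Nat.find hex) with h0 | hpos
  · rw [h0]; push_cast; linarith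
  · obtain ⟨m, hm⟩ : ∃ m, Nat.find hex = m + 1 := ⟨Nat.find hex - 1, by omega⟩
    have h1 : ¬ 32 * ρ ^ 2 ≤ 2 ^ m := Nat.find_min hex (by omega)
    rw [hm]
    have h2 : Real.log (2 ^ m) ≤ Real.log (32 * ρ ^ 2) :=
      Real.log_le_log (by positivity) (not_le.1 h1).le
    rw [Real.log_pow, Real.log_mul (by norm_num) (by positivity), Real.log_pow,
      show (32 : ℝ) = 2 ^ 5 by norm_num, Real.log_pow] at h2
    have h3 := Real.log_two_gt_d9
    push_cast at h2 ⊢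
    by_contra hc
    have h4 : 5 + 3 * Real.log ρ < m := by linarith
    nlinarith

/-- comparison of the coefficients at two close frequencies -/
theorem Regime_shift {w : Nd} {R B : Finset Nd} {P : ℝ} {D : ℕ} {F : Nd → ℝ → ℂ} {τ G : ℝ}
    {n : ℕ} (h : Run w R B P D F τ G n) {x v : Nd} (hv : v ∈ R) (hb : v ∉ B) (hvx : v <:+ x)
    (s ξ : ℝ) (b : Bool) :
    ‖vl F s (b :: v) - ex (-(s - ξ)) (lft x) * vl F ξ (b :: v)‖ ≤ |s - ξ| * len v * τ := by
  have h1 := co_shift (h.bm (b :: v)) (b :: v) ξ (s - ξ) (lft x) (len v)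
    (fun y hy => abs_sub_le_len (I_cons_sub b v hy) (I_mono hvx (lft_mem x)))
  rw [show ξ + (s - ξ) = s by ring] at h1
  refine h1.trans (mul_le_mul_of_nonneg_left (h.mean _ (h.child v hv hb b)) ?_)
  exact mul_nonneg (abs_nonneg _) (len_pos v).le

open Classical in
/-- the non-break nodes above `x` with running maximum at most `γ` -/
noncomputable def Regime_low (R B : Finset Nd) (F : Nd → ℝ → ℂ) (γ : ℝ) (x : Nd) (s : ℝ) :
    Finset Nd :=
  R.filter (fun v => v ∉ B ∧ v <:+ x ∧ ∀ z ∈ R, z ∉ B → z <:+ v → amp (vl F s) z ≤ γ)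

theorem Regime_mem_low {R B : Finset Nd} {F : Nd → ℝ → ℂ} {γ : ℝ} {x : Nd} {s : ℝ} {v : Nd} :
    v ∈ Regime_low R B F γ x s ↔ v ∈ R ∧ v ∉ B ∧ v <:+ x ∧
      ∀ z ∈ R, z ∉ B → z <:+ v → amp (vl F s) z ≤ γ := by
  classical
  unfold Regime_low; rw [Finset.mem_filter]

theorem Regime_low_split {R B : Finset Nd} {F : Nd → ℝ → ℂ} {β : ℝ} (hβ : 0 ≤ β) (x : Nd) (s : ℝ)
    (φ : Nd → ℂ) : ∑ v ∈ Regime_low R B F (2 * β) x s, φ v =
      ∑ v ∈ Regime_low R B F β x s, φ v + ∑ v ∈ reg R B F β x s, φ v := by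
  classical
  rw [← Finset.sum_union]
  · congr 1
    ext v
    rw [Finset.mem_union, Regime_mem_low, Regime_mem_low, Regime_mem_reg]
    constructor
    · rintro ⟨h1, h2, h3, h4⟩
      by_cases hc : ∀ z ∈ R, z ∉ B → z <:+ v → amp (vl F s) z ≤ β
      · exact Or.inl ⟨h1, h2, h3, hc⟩
      · push Not at hc
        exact Or.inr ⟨h1, h2, h3, hc, h4⟩
    · rintro (⟨h1, h2, h3, h4⟩ | ⟨h1, h2, h3, _, h4⟩)
      · exact ⟨h1, h2, h3, fun z k1 k2 k3 => (h4 z k1 k2 k3).trans (by linarith)⟩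
      · exact ⟨h1, h2, h3, h4⟩
  · rw [Finset.disjoint_left]
    intro v k1 k2
    rw [Regime_mem_low] at k1
    rw [Regime_mem_reg] at k2
    obtain ⟨z, j1, j2, j3, j4⟩ := k2.2.2.2.1
    exact absurd j4 (not_lt.2 (k1.2.2.2 z j1 j2 j3))

theorem reg_first {R B : Finset Nd} {F : Nd → ℝ → ℂ} {β : ℝ} {x : Nd} {s : ℝ}
    (hne : (reg R B F β x s).Nonempty) :
    ∃ vc ∈ R, vc ∉ B ∧ vc <:+ x ∧ β < amp (vl F s) vc ∧
      ∀ z ∈ R, z ∉ B → z <:+ vc → z ≠ vc → amp (vl F s) z ≤ β := by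
  classical
  obtain ⟨v, hv⟩ := hne
  obtain ⟨_, _, hvx, ⟨z, hz, hzb, hzv, hza⟩, _⟩ := Regime_mem_reg.1 hv
  have hne' : (R.filter (fun u => u ∉ B ∧ u <:+ x ∧ β < amp (vl F s) u)).Nonempty :=
    ⟨z, Finset.mem_filter.2 ⟨hz, hzb, hzv.trans hvx, hza⟩⟩
  obtain ⟨u, hu, hmin⟩ := Finset.exists_min_image _ List.length hne'
  rw [Finset.mem_filter] at hu
  refine ⟨u, hu.1, hu.2.1, hu.2.2.1, hu.2.2.2, fun y hy hyb hyu hne => ?_⟩
  by_contra hc
  have := hmin y (Finset.mem_filter.2 ⟨hy, hyb, hyu.trans hu.2.2.1, not_le.1 hc⟩)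
  exact hne (hyu.eq_of_length (le_antisymm hyu.length_le this))

theorem reg_le {w : Nd} {R B : Finset Nd} {P : ℝ} {D : ℕ} {F : Nd → ℝ → ℂ} {τ G : ℝ} {n : ℕ}
    (h : Run w R B P D F τ G n) {β : ℝ} (hβ : 0 < β) (hβτ : β ≤ τ) {x vc : Nd} {s ξ e : ℝ}
    (hvc : vc ∈ R) (hvb : vc ∉ B) (hvx : vc <:+ x) (hbig : β < amp (vl F s) vc)
    (hfirst : ∀ z ∈ R, z ∉ B → z <:+ vc → z ≠ vc → amp (vl F s) z ≤ β)
    (hclose : |s - ξ| * len vc ≤ 16 * (τ / β))
    (he : ∀ k₁ k₂ : ℕ, vc.length ≤ k₁ →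
      (∀ v ∈ R, v ∉ B → v <:+ x → k₁ ≤ v.length → v.length < k₂ → amp (vl F ξ) v ≤ 3 * β) →
      ‖∑ v ∈ R with (v ∉ B ∧ v <:+ x ∧ k₁ ≤ v.length ∧ v.length < k₂),
          (sg v x : ℂ) * gam (vl F ξ) v‖ ≤ e) :
    ‖∑ v ∈ reg R B F β x s, (sg v x : ℂ) * gam (vl F s) v‖ ≤
      β * (13 + 6 * Real.log (τ / β)) + e := by
  classical
  have hρ : 1 ≤ τ / β := (one_le_div hβ).2 hβτ
  obtain ⟨r, hr1, hr2⟩ := Regime_exists_r hρ
  obtain ⟨k₂, hk₂⟩ := Regime_exists_cut (R := R) (B := B) (amp (vl F s)) (2 * β) x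
  set k₁ := vc.length + r with hk₁
  have hτ : 0 < τ := hβ.trans_le hβτ
  -- the late nodes
  set L := R.filter (fun v => v ∉ B ∧ v <:+ x ∧ k₁ ≤ v.length ∧ v.length < k₂) with hL
  have hlow : ∀ v ∈ reg R B F β x s, vc.length ≤ v.length := by
    intro v hv
    obtain ⟨_, _, hvx', ⟨z, hz, hzb, hzv, hza⟩, _⟩ := Regime_mem_reg.1 hv
    by_contra hc
    have h1 : z.length < vc.length := lt_of_le_of_lt hzv.length_le (not_le.1 hc)
    have h2 := hfirst z hz hzb (suffix_of_le (hzv.trans hvx') hvx h1.le)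
      (by rintro rfl; exact lt_irrefl _ h1)
    exact absurd hza (not_lt.2 h2)
  have hLeq : (reg R B F β x s).filter (fun v => ¬ v.length < k₁) = L := by
    ext v
    rw [Finset.mem_filter, hL, Finset.mem_filter, Regime_mem_reg]
    constructor
    · rintro ⟨⟨h1, h2, h3, _, h5⟩, h6⟩
      exact ⟨h1, h2, h3, not_lt.1 h6, (hk₂ v h1 h2 h3).2 h5⟩
    · rintro ⟨h1, h2, h3, h4, h5⟩
      exact ⟨⟨h1, h2, h3, ⟨vc, hvc, hvb, suffix_of_le hvx h3 (by omega), hbig⟩,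
        (hk₂ v h1 h2 h3).1 h5⟩, not_lt.2 h4⟩
  have herr : ∀ v : Nd, k₁ ≤ v.length →
      |s - ξ| * len v * τ ≤ β / 2 * (1 / 2) ^ (v.length - k₁) := by
    intro v hv
    rw [len_eq_of_le (u := v) (v := vc) (by omega),
      show v.length - vc.length = r + (v.length - k₁) by omega, pow_add]
    have h1 : (1 / 2 : ℝ) ^ r * (32 * (τ / β) ^ 2) ≤ 1 := by
      calc (1 / 2 : ℝ) ^ r * (32 * (τ / β) ^ 2) ≤ (1 / 2 : ℝ) ^ r * 2 ^ r := by gcongr
        _ = 1 := by rw [← mul_pow]; norm_num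
    have h2 : |s - ξ| * len vc * (1 / 2) ^ r * τ ≤ β / 2 := by
      calc |s - ξ| * len vc * (1 / 2) ^ r * τ ≤ 16 * (τ / β) * (1 / 2) ^ r * τ := by gcongr
        _ = β / 2 * ((1 / 2 : ℝ) ^ r * (32 * (τ / β) ^ 2)) := by field_simp; ring
        _ ≤ β / 2 * 1 := by gcongr
        _ = β / 2 := mul_one _
    calc |s - ξ| * (len vc * ((1 / 2) ^ r * (1 / 2) ^ (v.length - k₁))) * τ
        = |s - ξ| * len vc * (1 / 2) ^ r * τ * (1 / 2) ^ (v.length - k₁) := by ring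
      _ ≤ β / 2 * (1 / 2) ^ (v.length - k₁) := by gcongr
  have hamp : ∀ v ∈ R, v ∉ B → v <:+ x → k₁ ≤ v.length → v.length < k₂ →
      amp (vl F ξ) v ≤ 3 * β := by
    intro v h1 h2 h3 h4 h5
    have h6 : amp (vl F s) v ≤ 2 * β := (hk₂ v h1 h2 h3).1 h5 v h1 h2 (List.suffix_refl _)
    have h7 : β / 2 * (1 / 2 : ℝ) ^ (v.length - k₁) ≤ β / 2 * 1 :=
      mul_le_mul_of_nonneg_left (pow_le_one₀ (by norm_num) (by norm_num)) (by linarith)
    have key : ∀ b : Bool, ‖vl F s (b :: v)‖ ≤ 2 * β → ‖vl F ξ (b :: v)‖ ≤ 3 * β := by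
      intro b hb
      have k1 := (Regime_shift h h1 h2 h3 s ξ b).trans (herr v h4)
      have k2 : ‖ex (-(s - ξ)) (lft x) * vl F ξ (b :: v)‖ = ‖vl F ξ (b :: v)‖ := by
        rw [norm_mul, norm_ex, one_mul]
      have k3 := norm_sub_norm_le (ex (-(s - ξ)) (lft x) * vl F ξ (b :: v)) (vl F s (b :: v))
      rw [norm_sub_rev, k2] at k3
      linarith
    exact max_le (key false ((le_max_left _ _).trans h6)) (key true ((le_max_right _ _).trans h6))
  have hmain := he k₁ k₂ (by omega) hamp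
  -- early nodes
  have hE : ‖∑ v ∈ (reg R B F β x s).filter (fun v => v.length < k₁),
      (sg v x : ℂ) * gam (vl F s) v‖ ≤ r * (2 * β) := by
    refine (norm_sum_le _ _).trans ?_
    have h1 := Regime_sum_depth (S := (reg R B F β x s).filter (fun v => v.length < k₁)) (x := x)
      (fun v hv => (Regime_mem_reg.1 (Finset.mem_filter.1 hv).1).2.2.1)
      (T := Finset.Ico vc.length k₁)
      (fun v hv => Finset.mem_Ico.2 ⟨hlow v (Finset.mem_filter.1 hv).1, (Finset.mem_filter.1 hv).2⟩)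
      (fun _ => 2 * β) (fun _ => by linarith)
    rw [Finset.sum_const (s := Finset.Ico _ _), Nat.card_Ico, show k₁ - vc.length = r by omega,
      nsmul_eq_mul] at h1
    refine le_trans (Finset.sum_le_sum fun v hv => ?_) h1
    obtain ⟨j1, j2, _, _, j5⟩ := Regime_mem_reg.1 (Finset.mem_filter.1 hv).1
    exact (Regime_norm_term_le _ _ _).trans (j5 v j1 j2 (List.suffix_refl _))
  -- late nodes
  have hLate : ‖∑ v ∈ L, (sg v x : ℂ) * gam (vl F s) v‖ ≤ β + e := by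
    have e1 : ∑ v ∈ L, (sg v x : ℂ) * gam (vl F s) v =
        ∑ v ∈ L, (sg v x : ℂ) * (gam (vl F s) v - ex (-(s - ξ)) (lft x) * gam (vl F ξ) v) +
          ex (-(s - ξ)) (lft x) * ∑ v ∈ L, (sg v x : ℂ) * gam (vl F ξ) v := by
      rw [Finset.mul_sum, ← Finset.sum_add_distrib]
      exact Finset.sum_congr rfl fun v _ => by ring
    rw [e1]
    refine (norm_add_le _ _).trans (add_le_add ?_ ?_)
    · refine (norm_sum_le _ _).trans ?_
      have h1 := Regime_sum_depth (S := L) (x := x)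
        (fun v hv => (Finset.mem_filter.1 hv).2.2.1) (T := Finset.Ico k₁ k₂)
        (fun v hv => Finset.mem_Ico.2 (Finset.mem_filter.1 hv).2.2.2)
        (fun k => β / 2 * (1 / 2) ^ (k - k₁)) (fun _ => by positivity)
      have h2 : ∑ k ∈ Finset.Ico k₁ k₂, β / 2 * (1 / 2 : ℝ) ^ (k - k₁) ≤ β := by
        rw [Finset.sum_Ico_eq_sum_range, ← Finset.mul_sum]
        simp only [add_tsub_cancel_left]
        have := sum_geometric_two_le (k₂ - k₁)
        nlinarith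
      refine le_trans (Finset.sum_le_sum fun v hv => ?_) (h1.trans h2)
      obtain ⟨j1, j2, j3, j4, _⟩ := Finset.mem_filter.1 hv
      have k0 := (Regime_shift h j1 j2 j3 s ξ false).trans (herr v j4)
      have k1 := (Regime_shift h j1 j2 j3 s ξ true).trans (herr v j4)
      have e2 : gam (vl F s) v - ex (-(s - ξ)) (lft x) * gam (vl F ξ) v =
          ((vl F s (false :: v) - ex (-(s - ξ)) (lft x) * vl F ξ (false :: v)) -
            (vl F s (true :: v) - ex (-(s - ξ)) (lft x) * vl F ξ (true :: v))) / 2 := by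
        unfold gam; ring
      rw [norm_mul, Complex.norm_real, Real.norm_eq_abs]
      refine (mul_le_mul_of_nonneg_right (abs_sg_le v x) (norm_nonneg _)).trans ?_
      rw [one_mul, e2, norm_div, Complex.norm_two]
      have := norm_sub_le (vl F s (false :: v) - ex (-(s - ξ)) (lft x) * vl F ξ (false :: v))
        (vl F s (true :: v) - ex (-(s - ξ)) (lft x) * vl F ξ (true :: v))
      linarith
    · rw [norm_mul, norm_ex, one_mul]
      exact hmain
  rw [← Finset.sum_filter_add_sum_filter_not (reg R B F β x s) (fun v => v.length < k₁), hLeq]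
  refine (norm_add_le _ _).trans ?_
  have : (r : ℝ) * (2 * β) ≤ (6 + 3 * Real.log (τ / β)) * (2 * β) :=
    mul_le_mul_of_nonneg_right hr2 (by linarith)
  linarith

theorem sum_reg {w : Nd} {R B : Finset Nd} {P : ℝ} {D : ℕ} {F : Nd → ℝ → ℂ} {τ G : ℝ} {n : ℕ}
    (h : Run w R B P D F τ G n) (hτ : 0 < τ) (x : Nd) (s : ℝ) (J : ℕ) :
    ‖Y (R \ B) F x s‖ ≤ D * (τ * (1 / 2) ^ J) +
      ∑ j ∈ Finset.range J,
        ‖∑ v ∈ reg R B F (τ * (1 / 2) ^ (j + 1)) x s, (sg v x : ℂ) * gam (vl F s) v‖ := by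
  classical
  have h0 : Y (R \ B) F x s =
      ∑ v ∈ Regime_low R B F (τ * (1 / 2) ^ 0) x s, (sg v x : ℂ) * gam (vl F s) v := by
    unfold Y
    rw [Finset.sum_congr rfl (g := fun v => (sg v x : ℂ) * gam (vl F s) v) fun v hv => by
      rw [h.gam_eq (Finset.mem_sdiff.1 hv).1 (Finset.mem_sdiff.1 hv).2]]
    symm
    refine Finset.sum_subset (fun v hv => ?_) fun v hv hn => ?_
    · rw [Regime_mem_low] at hv
      exact Finset.mem_sdiff.2 ⟨hv.1, hv.2.1⟩
    · rw [sg_eq_zero, Complex.ofReal_zero, zero_mul]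
      intro hx
      refine hn (Regime_mem_low.2 ⟨(Finset.mem_sdiff.1 hv).1, (Finset.mem_sdiff.1 hv).2, hx,
        fun z hz hzb _ => ?_⟩)
      rw [pow_zero, mul_one]
      exact max_le (h.norm_vl_le (h.child z hz hzb _) s) (h.norm_vl_le (h.child z hz hzb _) s)
  have h1 : ∀ J : ℕ, ‖Y (R \ B) F x s‖ ≤
      ‖∑ v ∈ Regime_low R B F (τ * (1 / 2) ^ J) x s, (sg v x : ℂ) * gam (vl F s) v‖ +
      ∑ j ∈ Finset.range J,
        ‖∑ v ∈ reg R B F (τ * (1 / 2) ^ (j + 1)) x s, (sg v x : ℂ) * gam (vl F s) v‖ := by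
    intro J
    induction J with
    | zero => rw [h0]; simp
    | succ J ih =>
      rw [Finset.sum_range_succ]
      rw [show τ * (1 / 2 : ℝ) ^ J = 2 * (τ * (1 / 2) ^ (J + 1)) by ring,
        Regime_low_split (by positivity)] at ih
      have := norm_add_le
        (∑ v ∈ Regime_low R B F (τ * (1 / 2) ^ (J + 1)) x s, (sg v x : ℂ) * gam (vl F s) v)
        (∑ v ∈ reg R B F (τ * (1 / 2) ^ (J + 1)) x s, (sg v x : ℂ) * gam (vl F s) v)
      linarith
  refine (h1 J).trans (add_le_add ?_ le_rfl)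
  refine (norm_sum_le _ _).trans ?_
  have h2 := Regime_sum_depth (S := Regime_low R B F (τ * (1 / 2) ^ J) x s) (x := x)
    (fun v hv => (Regime_mem_low.1 hv).2.2.1) (T := Finset.range D)
    (fun v hv => Finset.mem_range.2 (by have := h.depth v (Regime_mem_low.1 hv).1; omega))
    (fun _ => τ * (1 / 2) ^ J) (fun _ => by positivity)
  rw [Finset.sum_const (s := Finset.range D), Finset.card_range, nsmul_eq_mul] at h2
  refine le_trans (Finset.sum_le_sum fun v hv => ?_) h2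
  obtain ⟨j1, j2, _, j4⟩ := Regime_mem_low.1 hv
  exact (Regime_norm_term_le _ _ _).trans (j4 v j1 j2 (List.suffix_refl _))

theorem mult (a : ℝ →₀ ℂ) {x : Nd} {Sep κ s₀ : ℝ} (hS : 0 ≤ Sep) (hκ : 0 ≤ κ) (C : Finset ℝ)
    (hC : C ⊆ a.support) (v : ℝ → Nd) (hv : ∀ c ∈ C, v c <:+ x ∧ |c - s₀| * len (v c) ≤ Sep)
    (hw : ∀ c ∈ C, ∀ ζ, win a ζ (len (v c))⁻¹ ≤ κ) :
    ∑ c ∈ C, ‖a c‖ ≤ (2 * Sep + 2) * κ := by
  classical
  rcases C.eq_empty_or_nonempty with rfl | hne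
  · rw [Finset.sum_empty]; positivity
  obtain ⟨c₀, hc₀, hmax⟩ := Finset.exists_max_image C (fun c => (v c).length) hne
  set W := (len (v c₀))⁻¹ with hW
  have hl := len_pos (v c₀)
  have hWpos : 0 < W := inv_pos.2 hl
  set ζ := s₀ - Sep * W with hζ
  have hin : ∀ c ∈ C, 0 ≤ (c - ζ) / W ∧ (c - ζ) / W ≤ 2 * Sep := by
    intro c hc
    have h1 : |c - s₀| * len (v c₀) ≤ Sep :=
      (mul_le_mul_of_nonneg_left (len_le_of_le (hmax c hc)) (abs_nonneg _)).trans (hv c hc).2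
    have h2 : |c - s₀| ≤ Sep * W := by
      rw [hW, ← div_eq_mul_inv, le_div_iff₀ hl]; exact h1
    rw [abs_le] at h2
    refine ⟨div_nonneg (by linarith [h2.1]) hWpos.le, ?_⟩
    rw [div_le_iff₀ hWpos]
    linarith [h2.2]
  rw [← Finset.sum_fiberwise_of_maps_to (s := C) (t := Finset.range (⌊2 * Sep⌋₊ + 1))
    (g := fun c => ⌊(c - ζ) / W⌋₊)
    (fun c hc => Finset.mem_range.2 (Nat.lt_succ_of_le (Nat.floor_le_floor (hin c hc).2)))]
  have h3 : ∀ i ∈ Finset.range (⌊2 * Sep⌋₊ + 1),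
      ∑ c ∈ C with ⌊(c - ζ) / W⌋₊ = i, ‖a c‖ ≤ κ := by
    intro i _
    refine le_trans ?_ (hw c₀ hc₀ (ζ + i * W))
    unfold win
    refine Finset.sum_le_sum_of_subset_of_nonneg (fun c hc => ?_) fun _ _ _ => norm_nonneg _
    obtain ⟨k1, k2⟩ := Finset.mem_filter.1 hc
    have k3 := Nat.floor_le (hin c k1).1
    have k4 := Nat.lt_floor_add_one ((c - ζ) / W)
    rw [k2, le_div_iff₀ hWpos] at k3
    rw [k2, div_lt_iff₀ hWpos] at k4
    refine Finset.mem_filter.2 ⟨hC k1, by linarith, ?_⟩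
    rw [← hW]
    linarith
  refine (Finset.sum_le_sum h3).trans ?_
  rw [Finset.sum_const, Finset.card_range, nsmul_eq_mul]
  have := Nat.floor_le (show 0 ≤ 2 * Sep by linarith)
  push_cast
  exact mul_le_mul_of_nonneg_right (by linarith) hκ

end Crest.Agent.R100
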