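import Crest.Agent.R100.Epoch
import Crest.Agent.R100.Count
import Crest.Agent.R100.Regime

/-!
# R100/Level: all particles, one size  (task)

`ρ = τ/β`, `Sep = 16ρ`.  Candidates: `X = {(v, s) : v ∈ R \ B, s = fr x - c, x ∈ lv D w, c ∈ supp a,
β < amp (vl F s) v}`; tops `T` from `exists_tops`.  Map a top `(v, ξ)` to `(b :: v, ξ)` with a large
child (`β < ‖vl F ξ (b :: v)‖`; injective); `count` applies (separation `8ρ` at the children), so
`∑_T len v ≤ 2 · count`.  For each top `p` take `E_p` from `epoch_exp` (`val = vl F p.2`, `u = p.1`).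
For `(x, c)` with nonempty regime: `vc` from `reg_first`, a top `p(x,c)` covering `(vc, fr x - c)`,
`reg_le` with `e = 200β(log E_p x + 1 + nb B x)`.  For fixed `x` and `p` the mass
`π p = ∑_{c : p(x,c) = p} ‖a c‖` is `≤ (2 Sep + 2) e^{-G}` (`mult` with `s₀ = fr x - p.2`; `hw` applies
because `amp > 0` forces `F vc ≠ 0` somewhere on `I vc`).  `young`: with `M' = ∑_p ∑_x len x E_p x /
len w ≤ 19ρ²(1+P)·2·count`, `π₀ = 1/M'`: `∑_p π_p log E_p ≤ log⁺(π_max/π₀) + π₀ ∑_{p.1 <:+ x} E_p x`.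
`∑_x len x nb B x ≤ P len w` (`sum_lv_card`, `carl`).  Numerics: with `X = e^G (2B₀/β)^n`,
`ℓ = max 0 (log (2B₀/β))`: `log(1+X) ≤ log 2 + G + nℓ`, `1 + log(1+X) ≤ (2+G+n)(1+ℓ)`, so
`log(π_max M') ≤ 32 + 11 log ρ + 2P + 4nℓ + 3 log(2+G+n)`.
-/

set_option autoImplicit false
open MeasureTheory Set

namespace Crest.Agent.R100

theorem young {ι : Type*} (s : Finset ι) (π E : ι → ℝ) {πmax π₀ : ℝ} (h0 : 0 < π₀)
    (hπ : ∀ i ∈ s, 0 ≤ π i ∧ π i ≤ πmax) (hsum : ∑ i ∈ s, π i ≤ 1) (hE : ∀ i ∈ s, 0 < E i) :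
    ∑ i ∈ s, π i * Real.log (E i) ≤ max 0 (Real.log (πmax / π₀)) + π₀ * ∑ i ∈ s, E i := by
  set L := max 0 (Real.log (πmax / π₀)) with hL
  have hL0 : 0 ≤ L := le_max_left _ _
  have key : ∀ i ∈ s, π i * Real.log (E i) ≤ π i * L + π₀ * E i := by
    intro i hi
    obtain ⟨h1, h2⟩ := hπ i hi
    have hEi := hE i hi
    rcases h1.eq_or_lt with h3 | h3
    · rw [← h3, zero_mul, zero_mul, zero_add]; positivity
    · have e : Real.log (E i) = Real.log (π i / π₀) + Real.log (π₀ * E i / π i) := by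
        rw [← Real.log_mul (by positivity) (by positivity)]
        congr 1; field_simp
      have h4 : Real.log (π i / π₀) ≤ L :=
        (Real.log_le_log (by positivity) (by gcongr)).trans (le_max_right _ _)
      have h5 := Real.log_le_sub_one_of_pos (show 0 < π₀ * E i / π i by positivity)
      have h6 : π i * (π₀ * E i / π i) = π₀ * E i := by field_simp
      rw [e, mul_add]
      nlinarith [mul_le_mul_of_nonneg_left h4 h1, mul_le_mul_of_nonneg_left h5 h1]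
  refine (Finset.sum_le_sum key).trans ?_
  rw [Finset.sum_add_distrib, ← Finset.sum_mul, ← Finset.mul_sum]
  nlinarith

theorem level_num {ρ β G P : ℝ} {n : ℕ} (hρ : 1 ≤ ρ) (hβ : 0 < β) (hG : 0 ≤ G) (hP : 0 ≤ P)
    (hn : 1 ≤ n) :
    Real.log ((34 * ρ * Real.exp (-G)) * (19 * ρ ^ 2 * (1 + P) * (2 * (10 ^ 10 * ρ ^ 8 *
      (1 + Real.exp G * (2 * B0 / β) ^ n) *
      (1 + Real.log (1 + Real.exp G * (2 * B0 / β) ^ n)) ^ 3 * (1 + P))))) ≤
    32 + 11 * Real.log ρ + 2 * P + 4 * n * max 0 (Real.log (2 * B0 / β)) +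
      3 * Real.log (2 + G + n) := by
  set ℓ := max 0 (Real.log (2 * B0 / β)) with hℓ
  have hℓ0 : 0 ≤ ℓ := le_max_left _ _
  have hb : 0 < 2 * B0 / β := by unfold B0; positivity
  have hn' : (1 : ℝ) ≤ n := by exact_mod_cast hn
  set X := Real.exp G * (2 * B0 / β) ^ n with hX
  have hX0 : 0 < X := by positivity
  have h1 : X ≤ Real.exp (G + n * ℓ) := by
    rw [Real.exp_add, Real.exp_nat_mul, hX]
    gcongr
    exact (Real.exp_log hb).symm.le.trans (Real.exp_le_exp.2 (le_max_right _ _))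
  have h2 : 1 + X ≤ 2 * Real.exp (G + n * ℓ) := by
    have := Real.one_le_exp (show 0 ≤ G + n * ℓ by positivity)
    linarith
  have h3 : Real.log (1 + X) ≤ 1 + G + n * ℓ := by
    refine (Real.log_le_log (by positivity) h2).trans ?_
    rw [Real.log_mul (by positivity) (by positivity), Real.log_exp]
    linarith [Real.log_two_lt_d9]
  have h30 : 0 ≤ Real.log (1 + X) := Real.log_nonneg (by linarith)
  have h4 : 1 + Real.log (1 + X) ≤ (2 + G + n) * Real.exp (n * ℓ) := by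
    have := Real.add_one_le_exp (n * ℓ)
    have h5 : 0 ≤ n * ℓ := by positivity
    nlinarith
  have h5 : 1 + P ≤ Real.exp P := by linarith [Real.add_one_le_exp P]
  have h6 : (2584 * 10 ^ 10 : ℝ) ≤ Real.exp 32 := by
    have := Real.exp_one_gt_d9
    calc (2584 * 10 ^ 10 : ℝ) ≤ 2.7 ^ 32 := by norm_num
      _ ≤ Real.exp 1 ^ 32 := by gcongr; linarith
      _ = Real.exp 32 := by rw [← Real.exp_nat_mul]; norm_num
  rw [Real.log_le_iff_le_exp (by positivity)]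
  have e1 : Real.exp (32 + 11 * Real.log ρ + 2 * P + 4 * n * ℓ + 3 * Real.log (2 + G + n)) =
      Real.exp 32 * ρ ^ 11 * Real.exp P ^ 2 * Real.exp (n * ℓ) ^ 4 * (2 + G + n) ^ 3 := by
    have a1 : Real.exp (11 * Real.log ρ) = ρ ^ 11 := by
      rw [show (11 : ℝ) = ((11 : ℕ) : ℝ) by norm_num, Real.exp_nat_mul, Real.exp_log (by linarith)]
    have a2 : Real.exp (2 * P) = Real.exp P ^ 2 := by
      rw [show (2 : ℝ) = ((2 : ℕ) : ℝ) by norm_num, Real.exp_nat_mul]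
    have a3 : Real.exp (4 * n * ℓ) = Real.exp (n * ℓ) ^ 4 := by
      rw [show (4 : ℝ) = ((4 : ℕ) : ℝ) by norm_num, mul_assoc, Real.exp_nat_mul]
    have a4 : Real.exp (3 * Real.log (2 + G + n)) = (2 + G + n) ^ 3 := by
      rw [show (3 : ℝ) = ((3 : ℕ) : ℝ) by norm_num, Real.exp_nat_mul, Real.exp_log (by linarith)]
    rw [Real.exp_add, Real.exp_add, Real.exp_add, Real.exp_add, a1, a2, a3, a4]
  rw [e1]
  have e2 : Real.exp (-G) * Real.exp (G + n * ℓ) = Real.exp (n * ℓ) := by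
    rw [← Real.exp_add]; congr 1; ring
  calc _ ≤ (34 * ρ * Real.exp (-G)) * (19 * ρ ^ 2 * Real.exp P * (2 * (10 ^ 10 * ρ ^ 8 *
        (2 * Real.exp (G + n * ℓ)) * ((2 + G + n) * Real.exp (n * ℓ)) ^ 3 * Real.exp P))) := by
        gcongr
    _ = (2584 * 10 ^ 10) * ρ ^ 11 * Real.exp P ^ 2 *
        ((Real.exp (-G) * Real.exp (G + n * ℓ)) * Real.exp (n * ℓ) ^ 3) * (2 + G + n) ^ 3 := by ring
    _ = (2584 * 10 ^ 10) * ρ ^ 11 * Real.exp P ^ 2 * Real.exp (n * ℓ) ^ 4 * (2 + G + n) ^ 3 := by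
        rw [e2]; ring
    _ ≤ _ := by gcongr

section
variable {w : Nd} {R B : Finset Nd} {P : ℝ} {D : ℕ} {F : Nd → ℝ → ℂ} {τ G : ℝ} {n : ℕ}

theorem Level_child {val : Nd → ℂ} {v : Nd} {β : ℝ} (h : β < amp val v) :
    ∃ b : Bool, β < ‖val (b :: v)‖ := by
  rcases lt_max_iff.1 h with h | h
  · exact ⟨false, h⟩
  · exact ⟨true, h⟩

theorem Level_ne (h : Run w R B P D F τ G n) {β s : ℝ} (hβ : 0 < β) {v : Nd} (hv : v ∈ R)
    (hb : v ∉ B) (ha : β < amp (vl F s) v) : ∃ y ∈ I v, F v y ≠ 0 := by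
  by_contra hne
  push Not at hne
  obtain ⟨b, hb'⟩ := Level_child ha
  have : vl F s (b :: v) = 0 := by
    unfold vl co av
    rw [h.same v hv hb, setIntegral_eq_zero_of_forall_eq_zero, mul_zero]
    intro y hy
    rw [hne y (I_cons_sub b v hy), zero_mul]
  rw [this, norm_zero] at hb'
  linarith

theorem Level_tops (h : Run w R B P D F τ G n) (hP : 0 ≤ P) {β : ℝ} (hβ : 0 < β) (hβτ : β ≤ τ)
    (T : Finset (Nd × ℝ)) (hT : ∀ p ∈ T, p.1 ∈ R ∧ p.1 ∉ B ∧ β < amp (vl F p.2) p.1)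
    (hsep : ∀ p ∈ T, ∀ q ∈ T, p ≠ q → p.1 <:+ q.1 → 16 * (τ / β) < |p.2 - q.2| * len q.1) :
    ∑ p ∈ T, len p.1 ≤ 2 * (10 ^ 10 * (τ / β) ^ 8 * (1 + Real.exp G * (2 * B0 / β) ^ n) *
      (1 + Real.log (1 + Real.exp G * (2 * B0 / β) ^ n)) ^ 3 * (1 + P)) * len w := by
  classical
  choose! bb hbb using fun p (hp : p ∈ T) => Level_child (hT p hp).2.2
  have hinj : Function.Injective fun p : Nd × ℝ => ((bb p :: p.1, p.2) : Nd × ℝ) := by
    intro p q e
    simp only [Prod.mk.injEq, List.cons.injEq] at e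
    exact Prod.ext e.1.2 e.2
  have := count h hP hβ hβτ (T.image fun p => (bb p :: p.1, p.2)) ?_ ?_
  · rw [Finset.sum_image fun p _ q _ e => hinj e] at this
    simp only [len_cons] at this
    rw [← Finset.sum_div] at this
    linarith
  · intro p' hp'
    obtain ⟨p, hp, rfl⟩ := Finset.mem_image.1 hp'
    exact ⟨h.child _ (hT p hp).1 (hT p hp).2.1 _, hbb p hp⟩
  · intro p' hp' q' hq' hne hs
    obtain ⟨p, hp, rfl⟩ := Finset.mem_image.1 hp'
    obtain ⟨q, hq, rfl⟩ := Finset.mem_image.1 hq'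
    have hs' : p.1 <:+ q.1 := by
      rcases List.suffix_cons_iff.1 hs with e | e
      · rw [(List.cons.inj e).2]
      · exact (List.suffix_cons _ _).trans e
    have h1 := hsep p hp q hq (fun e => hne (by rw [e])) hs'
    rw [← mul_div_assoc, div_lt_iff₀ hβ] at h1
    simp only [len_cons]
    linarith

/-- the estimate at one leaf -/
theorem Level_leaf (h : Run w R B P D F τ G n) {β : ℝ} (hβ : 0 < β)
    (hβτ : β ≤ τ) (a : ℝ →₀ ℂ) (ha : l1 a ≤ 1)
    (hw : ∀ v ∈ R, (∃ y ∈ I v, F v y ≠ 0) → ∀ ζ, win a ζ (len v)⁻¹ ≤ Real.exp (-G))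
    {x : Nd} {s : ℝ} (T : Finset (Nd × ℝ)) (E : Nd × ℝ → ℝ) (hE : ∀ p ∈ T, 1 ≤ E p)
    (hcov : ∀ c ∈ a.support, ∀ v ∈ R, v ∉ B → β < amp (vl F (s - c)) v →
      ∃ p ∈ T, p.1 <:+ v ∧ |s - c - p.2| * len v ≤ 16 * (τ / β))
    (hep : ∀ p ∈ T, p.1 <:+ x → ∀ k₁ k₂ : ℕ, p.1.length ≤ k₁ →
      (∀ v ∈ R, v ∉ B → v <:+ x → k₁ ≤ v.length → v.length < k₂ → amp (vl F p.2) v ≤ 3 * β) →
      ‖∑ v ∈ R with (v ∉ B ∧ v <:+ x ∧ k₁ ≤ v.length ∧ v.length < k₂),
          (sg v x : ℂ) * gam (vl F p.2) v‖ ≤ 200 * β * (Real.log (E p) + 1 + nb B x))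
    {π₀ : ℝ} (h0 : 0 < π₀) :
    ∑ c ∈ a.support, ‖a c‖ * ‖∑ v ∈ reg R B F β x (s - c), (sg v x : ℂ) * gam (vl F (s - c)) v‖ ≤
      β * (213 + 6 * Real.log (τ / β) + 200 * max 0 (Real.log (34 * (τ / β) * Real.exp (-G) / π₀))) +
        200 * β * nb B x + 200 * β * π₀ * ∑ p ∈ T with p.1 <:+ x, E p := by
  classical
  have hρ : 1 ≤ τ / β := (one_le_div hβ).2 hβτ
  have hlog : 0 ≤ Real.log (τ / β) := Real.log_nonneg hρ
  set C := a.support.filter fun c => (reg R B F β x (s - c)).Nonempty with hC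
  have hCs : C ⊆ a.support := Finset.filter_subset _ _
  have ex : ∀ c ∈ C, ∃ (v : Nd) (p : Nd × ℝ), v ∈ R ∧ v <:+ x ∧ (∃ y ∈ I v, F v y ≠ 0) ∧ p ∈ T ∧
      p.1 <:+ x ∧ |s - c - p.2| * len v ≤ 16 * (τ / β) ∧
      ‖∑ v ∈ reg R B F β x (s - c), (sg v x : ℂ) * gam (vl F (s - c)) v‖ ≤
        β * (13 + 6 * Real.log (τ / β)) + 200 * β * (Real.log (E p) + 1 + nb B x) := by
    intro c hc
    obtain ⟨hc1, hc2⟩ := Finset.mem_filter.1 hc
    obtain ⟨v, hv, hvb, hvx, hbig, hfirst⟩ := reg_first hc2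
    obtain ⟨p, hp, hpv, hcl⟩ := hcov c hc1 v hv hvb hbig
    exact ⟨v, p, hv, hvx, Level_ne h hβ hv hvb hbig, hp, hpv.trans hvx, hcl,
      reg_le h hβ hβτ hv hvb hvx hbig hfirst hcl fun k₁ k₂ hk =>
        hep p hp (hpv.trans hvx) k₁ k₂ (hpv.length_le.trans hk)⟩
  choose! vc pc hv hvx hne hp hpx hcl hle using ex
  set Tx := T.filter fun p => p.1 <:+ x with hTx
  have hmaps : ∀ c ∈ C, pc c ∈ Tx := fun c hc => Finset.mem_filter.2 ⟨hp c hc, hpx c hc⟩
  have hC1 : ∑ c ∈ C, ‖a c‖ ≤ 1 :=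
    (Finset.sum_le_sum_of_subset_of_nonneg hCs fun _ _ _ => norm_nonneg _).trans ha
  have hy := young Tx (fun p => ∑ c ∈ C with pc c = p, ‖a c‖) E
    (πmax := 34 * (τ / β) * Real.exp (-G)) h0 ?_ ?_
    (fun p hp => one_pos.trans_le (hE p (Finset.mem_filter.1 hp).1))
  · have e1 : ∑ p ∈ Tx, (∑ c ∈ C with pc c = p, ‖a c‖) * Real.log (E p) =
        ∑ c ∈ C, ‖a c‖ * Real.log (E (pc c)) := by
      rw [← Finset.sum_fiberwise_of_maps_to hmaps]
      refine Finset.sum_congr rfl fun p _ => ?_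
      rw [Finset.sum_mul]
      exact Finset.sum_congr rfl fun c hc => by rw [(Finset.mem_filter.1 hc).2]
    rw [e1] at hy
    have e2 : ∑ c ∈ a.support, ‖a c‖ *
        ‖∑ v ∈ reg R B F β x (s - c), (sg v x : ℂ) * gam (vl F (s - c)) v‖ = ∑ c ∈ C, ‖a c‖ *
        ‖∑ v ∈ reg R B F β x (s - c), (sg v x : ℂ) * gam (vl F (s - c)) v‖ := by
      refine (Finset.sum_subset hCs fun c hc hc' => ?_).symm
      have : reg R B F β x (s - c) = ∅ :=
        Finset.not_nonempty_iff_eq_empty.1 fun h' => hc' (Finset.mem_filter.2 ⟨hc, h'⟩)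
      rw [this, Finset.sum_empty, norm_zero, mul_zero]
    set K := β * (213 + 6 * Real.log (τ / β)) + 200 * β * nb B x with hK
    have hK0 : 0 ≤ K := by positivity
    have h3 : ∑ c ∈ C, ‖a c‖ *
        ‖∑ v ∈ reg R B F β x (s - c), (sg v x : ℂ) * gam (vl F (s - c)) v‖ ≤
        ∑ c ∈ C, (‖a c‖ * K + 200 * β * (‖a c‖ * Real.log (E (pc c)))) :=
      Finset.sum_le_sum fun c hc => (mul_le_mul_of_nonneg_left (hle c hc) (norm_nonneg _)).trans
        (le_of_eq (by rw [hK]; ring))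
    rw [Finset.sum_add_distrib, ← Finset.sum_mul, ← Finset.mul_sum] at h3
    rw [e2]
    have h4 := mul_le_mul_of_nonneg_left hy (show 0 ≤ 200 * β by positivity)
    have h5 := mul_le_mul_of_nonneg_right hC1 hK0
    linarith
  · intro p _
    refine ⟨Finset.sum_nonneg fun _ _ => norm_nonneg _, ?_⟩
    refine (mult a (x := x) (Sep := 16 * (τ / β)) (κ := Real.exp (-G)) (s₀ := s - p.2)
      (by positivity) (by positivity) _ ((Finset.filter_subset _ _).trans hCs) vc ?_ ?_).trans ?_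
    · intro c hc
      obtain ⟨hc', rfl⟩ := Finset.mem_filter.1 hc
      refine ⟨hvx c hc', ?_⟩
      rw [abs_sub_comm, show s - (pc c).2 - c = s - c - (pc c).2 by ring]
      exact hcl c hc'
    · intro c hc
      have hc := (Finset.mem_filter.1 hc).1
      exact hw _ (hv c hc) (hne c hc)
    · gcongr; linarith
  · rwa [Finset.sum_fiberwise_of_maps_to hmaps]

end

theorem level_le {w : Nd} {R B : Finset Nd} {P : ℝ} {D : ℕ} {F : Nd → ℝ → ℂ} {τ G : ℝ} {n : ℕ}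
    (h : Run w R B P D F τ G n) (hP : 0 ≤ P) (hG : 0 ≤ G) (hn : 1 ≤ n) {β : ℝ} (hβ : 0 < β)
    (hβτ : β ≤ τ) (a : ℝ →₀ ℂ) (ha : l1 a ≤ 1)
    (hw : ∀ v ∈ R, (∃ y ∈ I v, F v y ≠ 0) → ∀ ζ, win a ζ (len v)⁻¹ ≤ Real.exp (-G))
    (fr : Nd → ℝ) :
    ∑ x ∈ lv D w, len x * ∑ c ∈ a.support, ‖a c‖ *
        ‖∑ v ∈ reg R B F β x (fr x - c), (sg v x : ℂ) * gam (vl F (fr x - c)) v‖ ≤
      10 ^ 4 * β * (1 + Real.log (τ / β) + P + n * max 0 (Real.log (2 * B0 / β)) +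
        Real.log (2 + G + n)) * len w := by
  classical
  have hρ : 1 ≤ τ / β := (one_le_div hβ).2 hβτ
  have hlog : 0 ≤ Real.log (τ / β) := Real.log_nonneg hρ
  have hD : ∀ v ∈ R, v.length ≤ D := fun v hv => by have := h.depth v hv; omega
  obtain ⟨T, hTX, hsep, hcov⟩ := exists_tops (((R \ B) ×ˢ ((lv D w ×ˢ a.support).image
    fun z => fr z.1 - z.2)).filter fun p => β < amp (vl F p.2) p.1) (Sep := 16 * (τ / β))
    (by positivity)
  have hT : ∀ p ∈ T, p.1 ∈ R ∧ p.1 ∉ B ∧ β < amp (vl F p.2) p.1 := fun p hp => by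
    obtain ⟨h1, h2⟩ := Finset.mem_filter.1 (hTX hp)
    obtain ⟨h3, h4⟩ := Finset.mem_sdiff.1 (Finset.mem_product.1 h1).1
    exact ⟨h3, h4, h2⟩
  have hcnt := Level_tops h hP hβ hβτ T hT hsep
  have hnum := level_num hρ hβ hG hP hn
  set Cn := 2 * (10 ^ 10 * (τ / β) ^ 8 * (1 + Real.exp G * (2 * B0 / β) ^ n) *
      (1 + Real.log (1 + Real.exp G * (2 * B0 / β) ^ n)) ^ 3 * (1 + P)) with hCn
  have hCn0 : 0 < Cn := by
    have hb : 0 < 2 * B0 / β := by unfold B0; positivity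
    have : 0 ≤ Real.log (1 + Real.exp G * (2 * B0 / β) ^ n) :=
      Real.log_nonneg (le_add_of_nonneg_right (by positivity))
    positivity
  set M := 19 * (τ / β) ^ 2 * (1 + P) * Cn with hM
  have hM0 : 0 < M := by positivity
  choose! E hE1 hEs hE using fun p (hp : p ∈ T) => epoch_exp h.toShape hP (h.mg p.2) hβ
    (fun v hv => h.norm_vl_le hv p.2) (hT p hp).1
  set L := max 0 (Real.log (34 * (τ / β) * Real.exp (-G) / M⁻¹)) with hL
  have h1 : ∀ x ∈ lv D w, len x * ∑ c ∈ a.support, ‖a c‖ *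
      ‖∑ v ∈ reg R B F β x (fr x - c), (sg v x : ℂ) * gam (vl F (fr x - c)) v‖ ≤
      β * (213 + 6 * Real.log (τ / β) + 200 * L) * len x + 200 * β * (len x * nb B x) +
        200 * β * M⁻¹ * ∑ p ∈ T with p.1 <:+ x, len x * E p x := by
    intro x hx
    have hxD := ((mem_lv (hD w h.root)).1 hx).1
    refine (mul_le_mul_of_nonneg_left (Level_leaf h hβ hβτ a ha hw (x := x) (s := fr x) T
      (fun p => E p x) (fun p hp => hE1 p hp x) ?_ ?_ (inv_pos.2 hM0)) (len_pos x).le).trans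
      (le_of_eq ?_)
    · intro c hc v hv hvb hbig
      exact hcov (v, fr x - c) (Finset.mem_filter.2 ⟨Finset.mem_product.2
        ⟨Finset.mem_sdiff.2 ⟨hv, hvb⟩, Finset.mem_image.2
          ⟨(x, c), Finset.mem_product.2 ⟨hx, hc⟩, rfl⟩⟩, hbig⟩)
    · intro p hp hpx
      exact hE p hp x ((mem_lv (hD _ (hT p hp).1)).2 ⟨hxD, hpx⟩)
    · rw [← Finset.mul_sum]; ring
  have h2 : ∑ x ∈ lv D w, len x * nb B x ≤ P * len w := by
    have := sum_lv_card (D := D) (w := w) (S := B) (fun u hu => h.sub u (h.brk hu))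
      fun u hu => hD u (h.brk hu)
    have h3 := h.carl w h.root
    rw [Finset.filter_true_of_mem fun u hu => h.sub u (h.brk hu)] at h3
    exact this.le.trans h3
  have h3 : ∑ x ∈ lv D w, ∑ p ∈ T with p.1 <:+ x, len x * E p x ≤ M * len w := by
    simp_rw [Finset.sum_filter]
    rw [Finset.sum_comm]
    calc _ ≤ ∑ p ∈ T, 19 * (τ / β) ^ 2 * (1 + P) * len p.1 := by
          refine Finset.sum_le_sum fun p hp => ?_
          rw [← Finset.sum_filter, lv_filter (h.sub _ (hT p hp).1) (hD _ (hT p hp).1)]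
          refine (hEs p hp).trans ?_
          have := len_pos p.1
          have e : 9 * (τ ^ 2 / (9 * β ^ 2) + 2) = (τ / β) ^ 2 + 18 := by field_simp; ring
          rw [e]
          gcongr
          nlinarith
      _ ≤ M * len w := by
          rw [← Finset.mul_sum, hM, mul_assoc _ Cn]
          gcongr
  refine (Finset.sum_le_sum h1).trans ?_
  rw [Finset.sum_add_distrib, Finset.sum_add_distrib, ← Finset.mul_sum, ← Finset.mul_sum,
    ← Finset.mul_sum, sum_len_lv]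
  have hℓ : 0 ≤ (n : ℝ) * max 0 (Real.log (2 * B0 / β)) :=
    mul_nonneg (Nat.cast_nonneg _) (le_max_left _ _)
  have hlg : 0 ≤ Real.log (2 + G + n) :=
    Real.log_nonneg (by linarith [(Nat.cast_nonneg n : (0 : ℝ) ≤ n)])
  have hL' : L ≤ 32 + 11 * Real.log (τ / β) + 2 * P + 4 * n * max 0 (Real.log (2 * B0 / β)) +
      3 * Real.log (2 + G + n) := by
    refine max_le (by nlinarith) ?_
    rwa [div_inv_eq_mul]
  have h4 : 200 * β * M⁻¹ * ∑ x ∈ lv D w, ∑ p ∈ T with p.1 <:+ x, len x * E p x ≤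
      200 * β * len w := by
    refine (mul_le_mul_of_nonneg_left h3 (by positivity)).trans (le_of_eq ?_)
    field_simp
  have h5 := mul_le_mul_of_nonneg_left h2 (show 0 ≤ 200 * β by positivity)
  have h6 : 213 + 6 * Real.log (τ / β) + 200 * L + 200 * P + 200 ≤
      10 ^ 4 * (1 + Real.log (τ / β) + P + n * max 0 (Real.log (2 * B0 / β)) +
        Real.log (2 + G + n)) := by linarith
  have h7 := mul_le_mul_of_nonneg_left h6 (mul_pos hβ (len_pos w)).le
  linarith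

end Crest.Agent.R100
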