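import Crest.Agent.R100.Defs

/-!
# R100/Num: parameters and the rank  (helper28)
-/

set_option autoImplicit false
open Real

namespace Crest.Agent.R100

/-- the global parameters -/
structure Par (H d Q : ℝ) (n g : ℕ) : Prop where
  H2 : 2 ≤ H
  d1 : 1 ≤ d
  Qdef : Q = (2 * H) ^ 4
  nge : d ≤ n * log (2 * H)
  nbig : 10 ^ 14 * Q ^ 7 ≤ n
  g1 : 8 * Q ^ 2 ≤ 2 ^ g
  g2 : 2 ^ g ≤ 16 * Q ^ 2

/-- the rank of a state -/
noncomputable def rk (H d : ℝ) (n : ℕ) (m G t : ℝ) : ℝ :=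
  n / 2 * log (2 * H / m) + d - (G - n * log (1 / t))

/-- admissible states -/
structure St (H d : ℝ) (n : ℕ) (m G t : ℝ) : Prop where
  m0 : 0 < m
  mH : m ≤ H
  t0 : 0 < t
  t1 : t ≤ 1
  G0 : 0 ≤ G
  Gle : G ≤ d + n / 8 + 2 * log (1 / t)
  rk0 : rk H d n m G t ≤ n / 2 * log (2 * H) + d

variable {H d Q : ℝ} {n g : ℕ} {m G t : ℝ}

theorem half_le_log_two : (1 / 2 : ℝ) ≤ log 2 := by linarith [Real.log_two_gt_d9]

theorem Par.Q256 (h : Par H d Q n g) : 256 ≤ Q := by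
  rw [h.Qdef]
  calc (256 : ℝ) = 4 ^ 4 := by norm_num
    _ ≤ (2 * H) ^ 4 := by gcongr; linarith [h.H2]

theorem Par.Q1 (h : Par H d Q n g) : 1 ≤ Q := by linarith [h.Q256]

theorem Par.lam1 (h : Par H d Q n g) : 1 ≤ log (2 * H) := by
  have : log 4 ≤ log (2 * H) := log_le_log (by norm_num) (by linarith [h.H2])
  have h4 : log 4 = 2 * log 2 := by
    rw [show (4 : ℝ) = 2 ^ 2 by norm_num, log_pow]; norm_num
  linarith [half_le_log_two]

theorem Par.logQ (h : Par H d Q n g) : log Q = 4 * log (2 * H) := by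
  rw [h.Qdef, log_pow]; norm_num

theorem Par.logQ_le (h : Par H d Q n g) : log Q ≤ Q := by
  linarith [log_le_sub_one_of_pos (show 0 < Q by linarith [h.Q1])]

theorem Par.pow_le (h : Par H d Q n g) {j : ℕ} (hj : j ≤ 7) : 10 ^ 14 * Q ^ j ≤ n :=
  le_trans (by gcongr; exact h.Q1) h.nbig

theorem Par.nQ (h : Par H d Q n g) : 10 ^ 14 * Q ≤ n := by simpa using h.pow_le (j := 1) (by norm_num)

theorem Par.n100 (h : Par H d Q n g) : (100 : ℝ) ≤ n := by linarith [h.nQ, h.Q1]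

theorem Par.n1 (h : Par H d Q n g) : 1 ≤ n := by
  have := h.n100
  exact_mod_cast (show (1 : ℝ) ≤ n by linarith)

theorem Par.g_le (h : Par H d Q n g) : (g : ℝ) ≤ n := by
  have h1 : (g : ℝ) ≤ 2 ^ g := by exact_mod_cast (Nat.lt_two_pow_self).le
  have h2 := h.pow_le (j := 2) (by norm_num)
  have h3 : 0 ≤ Q ^ 2 := by positivity
  linarith [h.g2]

theorem log_ten_le : log 10 ≤ 3 := by
  rw [log_le_iff_le_exp (by norm_num)]
  have h := Real.exp_one_gt_d9
  calc (10 : ℝ) ≤ 2.7182818283 ^ 3 := by norm_num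
    _ ≤ exp 1 ^ 3 := by gcongr
    _ = exp 3 := by rw [← Real.exp_nat_mul]; norm_num

theorem Par.loss (h : Par H d Q n g) : log (10 ^ 38 * Q ^ 34) ≤ n / 2 := by
  have hQ := h.Q1
  rw [log_mul (by norm_num) (by positivity), log_pow, log_pow]
  have := h.nQ
  have := h.logQ_le
  have := log_ten_le
  push_cast
  linarith

theorem St.logt (s : St H d n m G t) : 0 ≤ log (1 / t) :=
  log_nonneg (by rw [le_div_iff₀ s.t0]; linarith [s.t1])

theorem St.logm (s : St H d n m G t) : 1 / 2 ≤ log (2 * H / m) := by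
  refine half_le_log_two.trans (log_le_log (by norm_num) ?_)
  rw [le_div_iff₀ s.m0]; linarith [s.mH]

theorem St.rk_pos (h : Par H d Q n g) (s : St H d n m G t) : (n : ℝ) / 8 ≤ rk H d n m G t := by
  unfold rk
  have h1 := s.logm
  have h2 := s.logt
  have h3 := h.n100
  have h4 := s.Gle
  have h5 : (n : ℝ) / 2 * (1 / 2) ≤ n / 2 * log (2 * H / m) := by gcongr
  have h6 : 2 * log (1 / t) ≤ n * log (1 / t) := by gcongr; linarith
  linarith

theorem St.logm_le (h : Par H d Q n g) (s : St H d n m G t) : log (2 * H / m) ≤ log Q := by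
  have h2 := s.logt
  have h3 := h.n100
  have h4 := s.Gle
  have h6 : 2 * log (1 / t) ≤ n * log (1 / t) := by gcongr; linarith
  have h7 := s.rk0
  unfold rk at h7
  have h8 := h.nge
  have h9 := h.lam1
  rw [h.logQ]
  have h10 : (n : ℝ) * 1 ≤ n * log (2 * H) := by gcongr
  have h11 : (n : ℝ) / 2 * log (2 * H / m) ≤ n / 2 * (4 * log (2 * H)) := by linarith
  exact le_of_mul_le_mul_left h11 (by linarith)

theorem St.hH (h : Par H d Q n g) (s : St H d n m G t) : 2 * H ≤ Q * m := by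
  have hH : 0 < 2 * H := by linarith [h.H2]
  have := (log_le_log_iff (div_pos hH s.m0) (by linarith [h.Q1])).1 (s.logm_le h)
  rwa [div_le_iff₀ s.m0] at this

theorem St.logt_le (h : Par H d Q n g) (s : St H d n m G t) : log (1 / t) ≤ log Q := by
  have h1 := s.logm
  have h2 := s.logt
  have h3 := h.n100
  have h4 := s.Gle
  have h7 := s.rk0
  unfold rk at h7
  have h8 := h.nge
  have h9 := h.lam1
  rw [h.logQ]
  have h5 : 0 ≤ (n : ℝ) / 2 * log (2 * H / m) := by positivity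
  have h10 : (n : ℝ) * 1 ≤ n * log (2 * H) := by gcongr
  have h6 : 4 * log (1 / t) ≤ n * log (1 / t) := by gcongr; linarith
  have h11 : (n : ℝ) / 2 * log (1 / t) ≤ n / 2 * (4 * log (2 * H)) := by linarith
  exact le_of_mul_le_mul_left h11 (by linarith)

theorem St.ht (h : Par H d Q n g) (s : St H d n m G t) : 1 ≤ Q * t := by
  have := (log_le_log_iff (div_pos one_pos s.t0) (by linarith [h.Q1])).1 (s.logt_le h)
  rwa [div_le_iff₀ s.t0] at this

theorem St.hβ (h : Par H d Q n g) (s : St H d n m G t) (β : ℝ) (hβ : 0 < β)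
    (hlt : t ^ 2 * β ^ 2 * m < 2 * exp d * (β / B0) ^ n) : 1 ≤ Q * β := by
  by_contra hcon
  push Not at hcon
  have hQ := h.Q1
  have hB : (1 : ℝ) ≤ B0 := by unfold B0; norm_num
  have t0 := s.t0
  have m0 := s.m0
  have h1 := log_lt_log (by positivity) hlt
  rw [log_mul (by positivity) m0.ne', log_mul (by positivity) (by positivity), log_pow, log_pow,
    log_mul (by positivity) (by positivity), log_mul (by norm_num) (exp_pos d).ne', log_exp,
    log_pow, log_div hβ.ne' (by positivity)] at h1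
  have h2 : log Q + log β < 0 := by
    rw [← log_mul (by positivity) hβ.ne']; exact log_neg (by positivity) hcon
  have h3 := s.logt_le h
  rw [one_div, log_inv] at h3
  have h4 := s.logm_le h
  rw [log_div (by linarith [h.H2]) m0.ne'] at h4
  have h5 := h.lam1
  have h6 := h.logQ
  have h7 := h.nge
  have h8 := h.n100
  have h9 : 0 ≤ (n : ℝ) * log B0 := mul_nonneg (by positivity) (log_nonneg hB)
  have h10 : log 2 ≤ 1 := by linarith [Real.log_two_lt_d9]
  have h11 : ((n : ℝ) - 2) * log β ≤ (n - 2) * (-(4 * log (2 * H))) := by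
    gcongr
    · linarith
    · linarith
  have h12 : (100 : ℝ) * log (2 * H) ≤ n * log (2 * H) := by gcongr
  push_cast at h1
  nlinarith

theorem St.G_le (h : Par H d Q n g) (s : St H d n m G t) : 2 + G + n ≤ 3 * (n * Q) := by
  have h1 := s.Gle
  have h2 := s.logt_le h
  have h3 := h.logQ_le
  have h4 := h.nge
  have h5 := h.logQ
  have h6 := h.Q256
  have h7 := h.n100
  have h8 : (n : ℝ) * log (2 * H) ≤ n * Q := by gcongr; linarith [h.lam1]
  have h9 : (n : ℝ) * 256 ≤ n * Q := by gcongr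
  have h10 : 100 * Q ≤ n * Q := by gcongr
  linarith

/-- a new piece of not too small mass satisfies the invariant -/
theorem St.newm (h : Par H d Q n g) (s : St H d n m G t) {m' : ℝ}
    (hm' : m ≤ 10 ^ 12 * Q ^ 6 * m') : 0 < m' ∧ log (2 / m') ≤ n / 8 := by
  have hQ := h.Q1
  have h0 : 0 < m' := by
    by_contra hc
    push Not at hc
    have : 10 ^ 12 * Q ^ 6 * m' ≤ 0 := mul_nonpos_of_nonneg_of_nonpos (by positivity) hc
    linarith [s.m0]
  refine ⟨h0, ?_⟩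
  have h1 : 2 / m' ≤ 10 ^ 12 * Q ^ 7 := by
    rw [div_le_iff₀ h0]
    have h2 := s.hH h
    have h3 : Q * m ≤ Q * (10 ^ 12 * Q ^ 6 * m') := by gcongr
    have h4 : Q * (10 ^ 12 * Q ^ 6 * m') = 10 ^ 12 * Q ^ 7 * m' := by ring
    linarith [h.H2]
  refine (log_le_log (by positivity) h1).trans ?_
  rw [log_mul (by norm_num) (by positivity), log_pow, log_pow]
  have := h.nQ
  have := h.logQ_le
  have := log_ten_le
  push_cast
  linarith

/-- the cost of one run -/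
theorem St.cost (h : Par H d Q n g) (s : St H d n m G t) :
    10 ^ 12 * (n + 2 / t * (1 + (2 + 4 * (10 ^ 12 * Q ^ 6)) + log (2 + G + n))) +
      2 * (2 + 4 * (10 ^ 12 * Q ^ 6)) + g ≤ 10 ^ 13 * n := by
  have hQ := h.Q1
  have hn := h.n100
  have h1 : 2 / t ≤ 2 * Q := by
    rw [div_le_iff₀ s.t0]; linarith [s.ht h]
  have hG := s.G0
  have h2 : log (2 + G + n) ≤ 2 * √(3 * (n * Q)) := by
    refine (log_le_log (by positivity) (s.G_le h)).trans ?_
    have h3 : log (3 * (n * Q)) = 2 * log (√(3 * (n * Q))) := by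
      rw [log_sqrt (by positivity)]; ring
    rw [h3]
    have := log_le_sub_one_of_pos (show 0 < √(3 * (n * Q)) by positivity)
    linarith
  have h3 : 4 * Q * √(3 * (n * Q)) ≤ n := by
    have h4 : √(3 * (n * Q)) ≤ n / (4 * Q) := by
      rw [sqrt_le_left (by positivity), div_pow, le_div_iff₀ (by positivity)]
      have h5 := h.pow_le (j := 3) (by norm_num)
      have h6 : 0 ≤ Q ^ 3 := by positivity
      have h7 : (n : ℝ) * (48 * Q ^ 3) ≤ n * n := by gcongr; linarith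
      have h8 : (3 : ℝ) * (n * Q) * (4 * Q) ^ 2 = (n : ℝ) * (48 * Q ^ 3) := by ring
      rw [h8, sq]; exact h7
    calc 4 * Q * √(3 * (n * Q)) ≤ 4 * Q * (n / (4 * Q)) := by gcongr
      _ = n := by field_simp
  have h4 : 0 ≤ log (2 + G + n) := log_nonneg (by linarith)
  have h5 : 2 / t * (1 + (2 + 4 * (10 ^ 12 * Q ^ 6)) + log (2 + G + n)) ≤
      2 * Q * (1 + (2 + 4 * (10 ^ 12 * Q ^ 6)) + 2 * √(3 * (n * Q))) := by gcongr
  have h6 := h.nbig
  have h7 := h.nQ
  have h8 := h.pow_le (j := 6) (by norm_num)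
  have h9 := h.g_le
  have h10 : 2 * Q * (1 + (2 + 4 * (10 ^ 12 * Q ^ 6)) + 2 * √(3 * (n * Q))) =
      6 * Q + 8 * 10 ^ 12 * Q ^ 7 + 4 * Q * √(3 * (n * Q)) := by ring
  have h11 : 0 ≤ Q ^ 7 := by positivity
  have h12 : 0 ≤ Q ^ 6 := by positivity
  linarith

/-- level-up -/
theorem St.up (s : St H d n m G t) {m' : ℝ} (h1 : 2 * m ≤ m') (h2 : m' ≤ H) :
    St H d n m' G t ∧ rk H d n m' G t ≤ rk H d n m G t - n / 4 := by
  have m0 := s.m0
  have hH : 0 < 2 * H := by linarith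
  have hm' : 0 < m' := by linarith
  have h3 : log (2 * H / m') ≤ log (2 * H / m) - 1 / 2 := by
    rw [log_div hH.ne' hm'.ne', log_div hH.ne' m0.ne']
    have : log (2 * m) ≤ log m' := log_le_log (by positivity) h1
    rw [log_mul (by norm_num) m0.ne'] at this
    linarith [half_le_log_two]
  have h4 : rk H d n m' G t ≤ rk H d n m G t - n / 4 := by
    unfold rk
    have : (n : ℝ) / 2 * log (2 * H / m') ≤ n / 2 * (log (2 * H / m) - 1 / 2) := by gcongr
    linarith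
  exact ⟨⟨hm', h2, s.t0, s.t1, s.G0, s.Gle, by linarith [s.rk0, (Nat.cast_nonneg n : (0 : ℝ) ≤ n)]⟩, h4⟩

/-- extraction -/
theorem St.ext (h : Par H d Q n g) (s : St H d n m G t) {m' G' t' : ℝ}
    (hm' : m ≤ 10 ^ 12 * Q ^ 6 * m') (h2 : m' ≤ H) (t0 : 0 < t') (t1 : t' ≤ 1) (G0 : 0 ≤ G')
    (hG : G' ≤ d + log (2 / m') + 2 * log (1 / t'))
    (hgain : G - n * log (1 / t) + n - log (10 ^ 38 * Q ^ 34) + n / 2 * log (m / m') ≤
      G' - n * log (1 / t')) :
    St H d n m' G' t' ∧ rk H d n m' G' t' ≤ rk H d n m G t - n / 4 := by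
  obtain ⟨h0, h1⟩ := s.newm h hm'
  have m0 := s.m0
  have hH : 0 < 2 * H := by linarith [h.H2]
  have h4 : rk H d n m' G' t' ≤ rk H d n m G t - n / 4 := by
    unfold rk
    rw [log_div hH.ne' h0.ne', log_div hH.ne' m0.ne']
    rw [log_div m0.ne' h0.ne'] at hgain
    linarith [h.loss, h.n100]
  exact ⟨⟨h0, h2, t0, t1, G0, by linarith, by linarith [s.rk0, h.n100]⟩, h4⟩

theorem St.root (h : Par H d Q n g) : St H d n 1 0 1 :=
  ⟨one_pos, by linarith [h.H2], one_pos, le_rfl, le_rfl,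
    by simp; linarith [h.d1, h.n100], by simp [rk]⟩

/-- the parameters exist, and give the final bound -/
theorem exists_par (hH : 2 ≤ H) (hd : 1 ≤ d) : ∃ (Q : ℝ) (n g k : ℕ), Par H d Q n g ∧
    rk H d n 1 0 1 ≤ k * (n / 4) ∧ (10 ^ 13 * n * k : ℝ) ≤ 10 ^ 38 * (d + H ^ 29) := by
  obtain ⟨Q, hQ⟩ : ∃ Q, Q = (2 * H) ^ 4 := ⟨_, rfl⟩
  obtain ⟨l, hl⟩ : ∃ l, l = log (2 * H) := ⟨_, rfl⟩
  have hl1 : 1 ≤ l := by
    have : log 4 ≤ log (2 * H) := log_le_log (by norm_num) (by linarith)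
    have h4 : log 4 = 2 * log 2 := by
      rw [show (4 : ℝ) = 2 ^ 2 by norm_num, log_pow]; norm_num
    linarith [half_le_log_two]
  have hl2 : l ≤ 2 * H := by
    linarith [log_le_sub_one_of_pos (show 0 < 2 * H by linarith)]
  have hQ1 : 1 ≤ Q := by rw [hQ]; exact one_le_pow₀ (by linarith)
  obtain ⟨g, hg1, hg2⟩ := exists_nat_pow_near (x := 16 * Q ^ 2) (y := (2 : ℝ))
    (by nlinarith [one_le_pow₀ (n := 2) hQ1]) one_lt_two
  have ceil : ∀ x : ℝ, 0 ≤ x → ∃ c : ℕ, x ≤ c ∧ (c : ℝ) ≤ x + 1 := fun x hx =>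
    ⟨⌈x⌉₊, Nat.le_ceil _, (Nat.ceil_lt_add_one hx).le⟩
  obtain ⟨n, hn1, hn2⟩ := ceil (d / l + 10 ^ 14 * Q ^ 7) (by positivity)
  obtain ⟨k, hk1, hk2⟩ := ceil (6 * l) (by positivity)
  have hdl : 0 ≤ d / l := by positivity
  have hQ7' : 0 ≤ 10 ^ 14 * Q ^ 7 := by positivity
  have hdn : d ≤ n * l := by
    rw [← div_le_iff₀ (by linarith)]; linarith
  refine ⟨Q, n, g, k, ⟨hH, hd, hQ, hl ▸ hdn, by linarith, ?_, hg1⟩, ?_, ?_⟩
  · rw [pow_succ (2 : ℝ) g] at hg2; linarith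
  · have : (6 * l) * (n / 4) ≤ k * ((n : ℝ) / 4) := by gcongr
    simp only [rk, div_one, log_one, mul_zero, sub_zero, ← hl]
    linarith
  · have hQ7 : Q ^ 7 = 2 ^ 28 * H ^ 28 := by rw [hQ]; ring
    have hH28 : 1 ≤ H ^ 28 := one_le_pow₀ (by linarith)
    have e1 : (n : ℝ) ≤ d / l + 2 * 10 ^ 14 * 2 ^ 28 * H ^ 28 := by
      rw [hQ7] at hn2; linarith
    have e2 : (k : ℝ) ≤ 7 * l := by linarith
    have e3 : (n : ℝ) * k ≤ (d / l + 2 * 10 ^ 14 * 2 ^ 28 * H ^ 28) * (7 * l) := by gcongr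
    have e4 : (d / l + 2 * 10 ^ 14 * 2 ^ 28 * H ^ 28) * (7 * l) =
        7 * d + 14 * 10 ^ 14 * 2 ^ 28 * (H ^ 28 * l) := by field_simp; ring
    have e5 : H ^ 28 * l ≤ H ^ 28 * (2 * H) := by gcongr
    have e6 : H ^ 28 * (2 * H) = 2 * H ^ 29 := by ring
    have e7 : 0 ≤ H ^ 29 := by positivity
    rw [mul_assoc]
    linarith

end Crest.Agent.R100
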