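import Crest.Agent.R100.Basic

/-!
# R100/Sparse: greedy tops; nodes with a large coefficient near a fixed frequency are sparse  (task)

`exists_tops`: induction on `X.card`, removing an element `q` of maximal depth; keep the tops of the
rest and add `q` iff it is not covered.

`sparse`: write `X v = vl F ξ v`, `γ v = gam X v`; on the segment `F u = F r` (`Run.F_seg`).  For
`u ∈ seg`, `k : ℕ` define (recursion on `k`) `A (k+1) u = if u ∈ B then 0 else len u ‖γ u‖ + A k (0u) +
A k (1u)`, `Fr (k+1) u = if u ∈ B then len u else Fr k (0u) + Fr k (1u)`, `A 0 = Fr 0 = 0`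
(and `A₂` with `‖γ‖²`).  By induction on `k`, with `φ = F r · ex (-ξ)`:
`‖∫_{I u} φ ex(-η) - X u ∫_{I u} ex(-η)‖ ≤ A k u + 2τ Fr k u + τ |η| 2^{-k} (len u)²`
(`k = 0`: `‖ex(-η) y - mean‖ ≤ |η| len u`, or use `co_shift` twice and lose a factor 2 — there is
room: choose the constants accordingly; step: split the integrals, `X child - X u = ± γ u`).
With `norm_integral_ex_le` (`‖X u ∫ ex(-η)‖ ≤ 2τ/|η| ≤ β len u/4`) and `k = g` (or `g+1`): a node of the
filter has `β len u / 4 ≤ A` or `β len u/(8τ) ≤ Fr`; AM-GM: `A k u ≤ β len u/8 + (2k/β) A₂ k u`.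
Finally `∑_{u ∈ seg} A₂ k u ≤ k ∑_{v ∈ seg \ B} len v ‖γ v‖² ≤ k τ² len r` (`Shape.seg_sum` with
`μ v = len v ‖X v‖²`) and `∑_{u ∈ seg} Fr k u ≤ k len r` (induction on `k`, using
`sum_seg_of_not_break`/`Shape.induct`).
-/

set_option autoImplicit false
open MeasureTheory Set

namespace Crest.Agent.R100

theorem exists_tops (X : Finset (Nd × ℝ)) {Sep : ℝ} (hS : 0 ≤ Sep) :
    ∃ T ⊆ X, (∀ p ∈ T, ∀ q ∈ T, p ≠ q → p.1 <:+ q.1 → Sep < |p.2 - q.2| * len q.1) ∧
      ∀ q ∈ X, ∃ p ∈ T, p.1 <:+ q.1 ∧ |q.2 - p.2| * len q.1 ≤ Sep := by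
  classical
  induction X using Finset.induction_on_max_value (fun q : Nd × ℝ => q.1.length) with
  | empty => exact ⟨∅, Finset.Subset.refl _, by simp, by simp⟩
  | insert q s hq hmax ih =>
    obtain ⟨T, hT, h1, h2⟩ := ih
    by_cases hc : ∃ p ∈ T, p.1 <:+ q.1 ∧ |q.2 - p.2| * len q.1 ≤ Sep
    · refine ⟨T, hT.trans (Finset.subset_insert _ _), h1, fun q' hq' => ?_⟩
      rcases Finset.mem_insert.1 hq' with rfl | hq'
      · exact hc
      · exact h2 q' hq'
    · push Not at hc
      refine ⟨insert q T, Finset.insert_subset_insert _ hT, fun p hp p' hp' hne hs => ?_,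
        fun q' hq' => ?_⟩
      · rcases Finset.mem_insert.1 hp with rfl | hp0
        · rcases Finset.mem_insert.1 hp' with rfl | hp'
          · exact absurd rfl hne
          · have e : p.1 = p'.1 :=
              hs.eq_of_length (le_antisymm hs.length_le (hmax p' (hT hp')))
            have := hc p' hp' (e ▸ List.suffix_refl _)
            rwa [e] at this
        · rcases Finset.mem_insert.1 hp' with rfl | hp'
          · rw [abs_sub_comm]
            exact hc p hp0 hs
          · exact h1 p hp0 p' hp' hne hs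
      · rcases Finset.mem_insert.1 hq' with rfl | hq'
        · exact ⟨q', Finset.mem_insert_self _ _, List.suffix_refl _, by simpa using hS⟩
        · obtain ⟨p, hp, h3⟩ := h2 q' hq'
          exact ⟨p, Finset.mem_insert_of_mem hp, h3⟩

/-- sum of `ψ` over the first `k` generations of the segment below `u` -/
noncomputable def sparseS (B : Finset Nd) (ψ : Nd → ℝ) : ℕ → Nd → ℝ
  | 0, _ => 0
  | k + 1, u => ψ u + if u ∈ B then 0 else sparseS B ψ k (false :: u) + sparseS B ψ k (true :: u)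

theorem sparseS_nonneg (B : Finset Nd) {ψ : Nd → ℝ} (hψ : ∀ u, 0 ≤ ψ u) (k : ℕ) (u : Nd) :
    0 ≤ sparseS B ψ k u := by
  induction k generalizing u with
  | zero => exact le_rfl
  | succ k ih =>
    unfold sparseS
    refine add_nonneg (hψ u) ?_
    split_ifs
    · exact le_rfl
    · exact add_nonneg (ih _) (ih _)

theorem sparseS_sum {w : Nd} {R B : Finset Nd} {P : ℝ} {D : ℕ} (h : Shape w R B P D)
    {ψ : Nd → ℝ} (hψ : ∀ u, 0 ≤ ψ u) {r : Nd} (hr : r ∈ R) (k : ℕ) :
    ∑ u ∈ seg R B r, sparseS B ψ k u ≤ k * ∑ u ∈ seg R B r, ψ u := by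
  classical
  induction k with
  | zero => simp [sparseS]
  | succ k ih =>
    have h1 := h.seg_sum (sparseS B ψ k)
      (fun v => sparseS B ψ k (false :: v) + sparseS B ψ k (true :: v) - sparseS B ψ k v)
      (fun v _ _ => by ring) r hr
    have h2 := Finset.sum_filter_add_sum_filter_not (seg R B r) (· ∈ B) (sparseS B ψ k)
    have h3 := sparseS_nonneg B hψ k r
    rw [Finset.sum_sub_distrib] at h1
    simp only [sparseS]
    rw [Finset.sum_add_distrib, Finset.sum_ite, Finset.sum_const_zero]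
    push_cast
    linarith

theorem sparse_norm_j (v : Nd) (η : ℝ) : ‖co v (fun _ => 1) η‖ ≤ 1 := by
  simpa [avr_const] using norm_co_le v (fun _ => 1) η

theorem sparse_j_zero (v : Nd) : co v (fun _ => 1) 0 = 1 := by
  have : (len v : ℂ) ≠ 0 := by exact_mod_cast (len_pos v).ne'
  have h := len_mul_av v (fun y => (1 : ℂ) * ex (-0) y)
  simp only [neg_zero, ex_zero, mul_one, setIntegral_const, real_volume_I, Complex.real_smul] at h
  unfold co
  simp only [neg_zero, ex_zero, mul_one]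
  exact (mul_eq_left₀ this).1 h

theorem sparse_norm_j' (v : Nd) {η : ℝ} (hη : η ≠ 0) :
    len v * ‖co v (fun _ => 1) η‖ ≤ 2 / |η| := by
  have h := len_mul_av v (fun y => (1 : ℂ) * ex (-η) y)
  have h2 := norm_integral_ex_le (neg_ne_zero.2 hη) v
  rw [abs_neg] at h2
  simp only [one_mul] at h
  rw [← h, norm_mul, Complex.norm_real, Real.norm_of_nonneg (len_pos v).le] at h2
  simpa [co] using h2

theorem sparse_err {w : Nd} {R B : Finset Nd} {P : ℝ} {D : ℕ} {F : Nd → ℝ → ℂ} {τ G : ℝ} {n : ℕ}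
    (h : Run w R B P D F τ G n) (ξ η : ℝ) {δ : ℝ} (hδ : 0 < δ) (k : ℕ) : ∀ u ∈ R,
    len u * ‖vl F (ξ + η) u - vl F ξ u * co u (fun _ => 1) η‖ ≤
      sparseS B (fun v => if v ∈ B then 2 * τ * len v else
        len v * ‖gam (vl F ξ) v‖ ^ 2 / (4 * δ)) k u + k * δ * len u +
        τ * |η| * len u ^ 2 / 2 ^ k := by
  induction k with
  | zero =>
    intro u hu
    have hl := len_pos u
    have hW : ∀ y ∈ I u, |y - (lft u + len u / 2)| ≤ len u / 2 := fun y hy => by
      rw [abs_le]; constructor <;> linarith [hy.1, hy.2]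
    have h1 := co_shift (h.bm u) u ξ η _ _ hW
    have h2 := co_shift (BM.const 1) u 0 η _ _ hW
    rw [zero_add, sparse_j_zero, mul_one] at h2
    simp only [norm_one, avr_const, mul_one] at h2
    have h3 := h.norm_vl_le hu ξ
    have h4 : |η| * (len u / 2) * avr u (fun y => ‖F u y‖) ≤ |η| * (len u / 2) * τ :=
      mul_le_mul_of_nonneg_left (h.mean u hu) (by positivity)
    have e : vl F (ξ + η) u - vl F ξ u * co u (fun _ => 1) η =
        (co u (F u) (ξ + η) - ex (-η) (lft u + len u / 2) * co u (F u) ξ) -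
          vl F ξ u * (co u (fun _ => 1) η - ex (-η) (lft u + len u / 2)) := by
      unfold vl; ring
    have h5 : ‖vl F ξ u * (co u (fun _ => 1) η - ex (-η) (lft u + len u / 2))‖ ≤
        τ * (|η| * (len u / 2)) := by
      rw [norm_mul]
      exact mul_le_mul h3 h2 (norm_nonneg _) ((norm_nonneg _).trans h3)
    have h6 := (norm_sub_le _ _).trans (add_le_add (h1.trans h4) h5)
    rw [← e] at h6
    refine (mul_le_mul_of_nonneg_left h6 hl.le).trans (le_of_eq ?_)
    simp only [sparseS]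
    push_cast
    ring
  | succ k ih =>
    intro u hu
    have hl := len_pos u
    have h3 := h.norm_vl_le hu ξ
    have hτ : 0 ≤ τ := (norm_nonneg _).trans h3
    unfold sparseS
    by_cases hb : u ∈ B
    · simp only [hb, if_true, add_zero]
      have h4 : ‖vl F ξ u * co u (fun _ => 1) η‖ ≤ τ * 1 := by
        rw [norm_mul]
        exact mul_le_mul h3 (sparse_norm_j u η) (norm_nonneg _) hτ
      have h5 := (norm_sub_le _ _).trans (add_le_add (h.norm_vl_le hu (ξ + η)) h4)
      have h6 := mul_le_mul_of_nonneg_left h5 hl.le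
      have h7 : 0 ≤ ((k + 1 : ℕ) : ℝ) * δ * len u := by positivity
      have h8 : 0 ≤ τ * |η| * len u ^ 2 / 2 ^ (k + 1) := by positivity
      linarith
    · simp only [hb, if_false]
      have i0 := ih _ (h.child u hu hb false)
      have i1 := ih _ (h.child u hu hb true)
      rw [len_cons] at i0 i1
      have e : vl F (ξ + η) u - vl F ξ u * co u (fun _ => 1) η =
          ((vl F (ξ + η) (false :: u) - vl F ξ (false :: u) * co (false :: u) (fun _ => 1) η) +
            (vl F (ξ + η) (true :: u) - vl F ξ (true :: u) * co (true :: u) (fun _ => 1) η)) / 2 +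
          gam (vl F ξ) u *
            ((co (false :: u) (fun _ => 1) η - co (true :: u) (fun _ => 1) η) / 2) := by
        rw [h.mg (ξ + η) u hu hb, h.mg ξ u hu hb, co_split (BM.const 1) u η, gam]
        ring
      have j0 := sparse_norm_j (false :: u) η
      have j1 := sparse_norm_j (true :: u) η
      generalize co (false :: u) (fun _ => 1) η = c0 at *
      generalize co (true :: u) (fun _ => 1) η = c1 at *
      generalize vl F (ξ + η) (false :: u) - vl F ξ (false :: u) * c0 = e0 at *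
      generalize vl F (ξ + η) (true :: u) - vl F ξ (true :: u) * c1 = e1 at *
      generalize gam (vl F ξ) u = γ at *
      have h4 : ‖(c0 - c1) / 2‖ ≤ 1 := by
        rw [norm_div, Complex.norm_two]
        linarith [norm_sub_le c0 c1]
      have h5 : ‖γ * ((c0 - c1) / 2)‖ ≤ δ + ‖γ‖ ^ 2 / (4 * δ) := by
        rw [norm_mul]
        refine (mul_le_of_le_one_right (norm_nonneg _) h4).trans ?_
        rw [← sub_le_iff_le_add', le_div_iff₀ (by positivity)]
        nlinarith [sq_nonneg (‖γ‖ - 2 * δ)]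
      have h6 : ‖(e0 + e1) / 2‖ ≤ (‖e0‖ + ‖e1‖) / 2 := by
        rw [norm_div, Complex.norm_two]
        linarith [norm_add_le e0 e1]
      have h7 := mul_le_mul_of_nonneg_left ((norm_add_le _ _).trans (add_le_add h6 h5)) hl.le
      rw [e]
      refine h7.trans ?_
      have e2 : τ * |η| * len u ^ 2 / 2 ^ (k + 1) = 2 * (τ * |η| * (len u / 2) ^ 2 / 2 ^ k) := by
        rw [pow_succ (2 : ℝ) k]; ring
      have e3 : len u * ((‖e0‖ + ‖e1‖) / 2 + (δ + ‖γ‖ ^ 2 / (4 * δ))) =
        len u / 2 * ‖e0‖ + len u / 2 * ‖e1‖ + δ * len u + len u * ‖γ‖ ^ 2 / (4 * δ) := by ring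
      rw [e2, e3]
      push_cast
      linarith

open Classical in
theorem sparse_energy {w : Nd} {R B : Finset Nd} {P : ℝ} {D : ℕ} {F : Nd → ℝ → ℂ} {τ G : ℝ}
    {n : ℕ} (h : Run w R B P D F τ G n) (ξ : ℝ) {r : Nd} (hr : r ∈ R) :
    ∑ u ∈ seg R B r with u ∈ B, len u = len r ∧
      ∑ u ∈ seg R B r with u ∉ B, len u * ‖gam (vl F ξ) u‖ ^ 2 ≤ τ ^ 2 * len r := by
  have h1 : ∑ u ∈ seg R B r with u ∈ B, len u = len r := by
    simpa using h.toShape.seg_sum len (fun _ => 0)
      (fun v _ _ => by rw [len_cons, len_cons]; ring) r hr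
  refine ⟨h1, ?_⟩
  have h2 := h.toShape.seg_sum (fun v => len v * ‖vl F ξ v‖ ^ 2)
    (fun v => len v * ‖gam (vl F ξ) v‖ ^ 2) (fun v hv hb => by
      have := parallelogram_law_with_norm ℝ (vl F ξ (false :: v)) (vl F ξ (true :: v))
      rw [h.mg ξ v hv hb, gam, len_cons, len_cons, norm_div, norm_div, Complex.norm_two]
      linear_combination (-(len v) / 4) * this) r hr
  have h3 : ∑ u ∈ seg R B r with u ∈ B, len u * ‖vl F ξ u‖ ^ 2 ≤
      ∑ u ∈ seg R B r with u ∈ B, τ ^ 2 * len u :=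
    Finset.sum_le_sum fun u hu => by
      rw [mul_comm]
      exact mul_le_mul_of_nonneg_right (pow_le_pow_left₀ (norm_nonneg _)
        (h.norm_vl_le (mem_seg.1 (Finset.mem_filter.1 hu).1).1 ξ) 2) (len_pos u).le
  rw [← Finset.mul_sum, h1] at h3
  have h4 : 0 ≤ len r * ‖vl F ξ r‖ ^ 2 := mul_nonneg (len_pos r).le (sq_nonneg _)
  linarith

open Classical in
theorem sparse {w : Nd} {R B : Finset Nd} {P : ℝ} {D : ℕ} {F : Nd → ℝ → ℂ} {τ G : ℝ} {n : ℕ}
    (h : Run w R B P D F τ G n) {r : Nd} (hr : r ∈ R) (ξ : ℝ) {β M : ℝ} (hβ : 0 < β)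
    (hβτ : β ≤ τ) {g : ℕ} (hg : 4 * τ * M ≤ β * 2 ^ g) :
    ∑ u ∈ seg R B r with (∃ ξ' : ℝ, 8 * τ ≤ β * (|ξ' - ξ| * len u) ∧ |ξ' - ξ| * len u ≤ M ∧
        β < ‖vl F ξ' u‖), len u ≤ 24 * (g + 1) ^ 2 * (τ / β) ^ 2 * len r := by
  have hτ : 0 < τ := hβ.trans_le hβτ
  set δ := β / (4 * (g + 1)) with hδ
  have hδ0 : 0 < δ := by positivity
  set ψ : Nd → ℝ := fun v => if v ∈ B then 2 * τ * len v else
    len v * ‖gam (vl F ξ) v‖ ^ 2 / (4 * δ) with hψ
  have hψ0 : ∀ v, 0 ≤ ψ v := fun v => by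
    have := len_pos v
    simp only [hψ]
    split_ifs <;> positivity
  have key : ∀ u ∈ R, (∃ ξ' : ℝ, 8 * τ ≤ β * (|ξ' - ξ| * len u) ∧ |ξ' - ξ| * len u ≤ M ∧
      β < ‖vl F ξ' u‖) → len u ≤ 4 / β * sparseS B ψ g u := by
    rintro u hu ⟨ξ', h1, h2, h3⟩
    obtain ⟨η, rfl⟩ : ∃ η, ξ' = ξ + η := ⟨ξ' - ξ, by ring⟩
    rw [add_sub_cancel_left] at h1 h2
    have hl := len_pos u
    have hη : η ≠ 0 := by
      rintro rfl
      simp at h1
      linarith
    have hη' : 0 < |η| := abs_pos.2 hη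
    have h4 := sparse_err h ξ η hδ0 g u hu
    have h5 : len u * ‖vl F ξ u * co u (fun _ => 1) η‖ ≤ β / 4 * len u := by
      rw [norm_mul, mul_left_comm]
      refine (mul_le_mul (h.norm_vl_le hu ξ) (sparse_norm_j' u hη) (by positivity) hτ.le).trans ?_
      rw [← mul_div_assoc, div_le_iff₀ hη']
      linarith
    have h6 : (g : ℝ) * δ * len u ≤ β / 4 * len u := by
      refine mul_le_mul_of_nonneg_right ?_ hl.le
      rw [hδ, ← mul_div_assoc, div_le_div_iff₀ (by positivity) (by norm_num)]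
      nlinarith
    have h7 : τ * |η| * len u ^ 2 / 2 ^ g ≤ β / 4 * len u := by
      rw [div_le_iff₀ (by positivity)]
      have := mul_le_mul_of_nonneg_left h2 hτ.le
      have : τ * (|η| * len u) * len u ≤ β * 2 ^ g / 4 * len u :=
        mul_le_mul_of_nonneg_right (by linarith) hl.le
      linarith
    have h8 : β ≤ ‖vl F (ξ + η) u - vl F ξ u * co u (fun _ => 1) η‖ +
        ‖vl F ξ u * co u (fun _ => 1) η‖ := h3.le.trans (norm_le_norm_sub_add _ _)
    have h9 := mul_le_mul_of_nonneg_left h8 hl.le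
    rw [div_mul_eq_mul_div, le_div_iff₀ hβ]
    linarith
  obtain ⟨e1, e2⟩ := sparse_energy h ξ hr
  have h1 : ∑ u ∈ seg R B r, ψ u ≤ 2 * τ * len r + τ ^ 2 * len r / (4 * δ) := by
    simp only [hψ]
    rw [Finset.sum_ite, ← Finset.mul_sum, ← Finset.sum_div]
    refine add_le_add (le_of_eq ?_) (div_le_div_of_nonneg_right ?_ (by positivity))
    · rw [← e1]
    · exact e2
  have h2 := sparseS_sum h.toShape hψ0 hr g
  have hl := len_pos r
  calc _ ≤ ∑ u ∈ seg R B r with (∃ ξ' : ℝ, 8 * τ ≤ β * (|ξ' - ξ| * len u) ∧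
          |ξ' - ξ| * len u ≤ M ∧ β < ‖vl F ξ' u‖), 4 / β * sparseS B ψ g u :=
        Finset.sum_le_sum fun u hu => key u (mem_seg.1 (Finset.mem_filter.1 hu).1).1
          (Finset.mem_filter.1 hu).2
    _ ≤ ∑ u ∈ seg R B r, 4 / β * sparseS B ψ g u :=
        Finset.sum_le_sum_of_subset_of_nonneg (Finset.filter_subset _ _) fun u _ _ =>
          mul_nonneg (by positivity) (sparseS_nonneg B hψ0 g u)
    _ ≤ 4 / β * (g * (2 * τ * len r + τ ^ 2 * len r / (4 * δ))) := by
        rw [← Finset.mul_sum]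
        gcongr
        refine h2.trans ?_
        gcongr
    _ = (8 * g * (τ / β) + 4 * g * (g + 1) * (τ / β) ^ 2) * len r := by
        rw [hδ]; field_simp; ring
    _ ≤ _ := by
        have h3 : 1 ≤ τ / β := (one_le_div hβ).2 hβτ
        generalize τ / β = ρ at h3
        have h4 : ρ ≤ ρ ^ 2 := by nlinarith
        have h5 : (0 : ℝ) ≤ g := Nat.cast_nonneg g
        refine mul_le_mul_of_nonneg_right ?_ hl.le
        nlinarith [mul_le_mul_of_nonneg_left h4 h5, mul_nonneg h5 (sq_nonneg ρ),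
          mul_nonneg (mul_nonneg h5 h5) (sq_nonneg ρ)]

end Crest.Agent.R100
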