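import Crest.Agent.R100.Basic

/-!
# R100/Window: lattice expansion of a windowed trigonometric polynomial  (task)

`W y = cos²(π(y-c)/(2r)) tp a y` on `[c-r, c+r]` vanishes at both ends, so it lifts to a continuous
function on `AddCircle (2r)` (`AddCircle.liftIoc_continuous`/`liftIco`).  Its coefficients
`ω k = (2r)⁻¹ ∫_{c-r}^{c+r} W ex(-kπ/r)` are `∑_ξ a ξ · coef`, where for one frequency, with
`x = ξ r/π - k`, `‖coef‖ = |sin(πx)|/(2π|x||x²-1|)` (write `cos² = 1/2 + e^{iu}/4 + e^{-iu}/4`),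
`‖coef‖ ≤ 1/2` always and `≤ 1/(2π|x|(x²-1))` for `|x| ≥ 2`; hence `∑_k ‖coef‖ ≤ 4`
(`window_one`).  `hasSum_fourier_series_of_summable` gives uniform convergence; take a finite
partial sum within `η`.  The `l²` bound is `hasSum_sq_fourierCoeffOn`/Bessel and `cos² ≤ 1`.
(An alternative without `AddCircle`: any proof is fine.)
-/

set_option autoImplicit false
open MeasureTheory Set Real

namespace Crest.Agent.R100

theorem Window_int_ex {θ : ℝ} (hθ : θ ≠ 0) (a b : ℝ) :
    ∫ y in a..b, ex θ y = (ex θ b - ex θ a) / (θ * Complex.I) := by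
  have hc : (θ : ℂ) * Complex.I ≠ 0 := mul_ne_zero (by exact_mod_cast hθ) Complex.I_ne_zero
  have h : ∀ y : ℝ, ex θ y = Complex.exp (θ * Complex.I * y) := fun y => by
    unfold ex; congr 1; push_cast; ring
  simp_rw [h]
  exact integral_exp_mul_complex hc

theorem Window_cos_sq (p c y : ℝ) :
    ((cos (p * (y - c) / 2) ^ 2 : ℝ) : ℂ) =
      1 / 2 + ex (-p) c / 4 * ex p y + ex p c / 4 * ex (-p) y := by
  have h1 : ex (-p) c * ex p y = Complex.exp ((p * (y - c) : ℝ) * Complex.I) := by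
    unfold ex; rw [← Complex.exp_add]; congr 1; push_cast; ring
  have h2 : ex p c * ex (-p) y = Complex.exp (-((p * (y - c) : ℝ) : ℂ) * Complex.I) := by
    unfold ex; rw [← Complex.exp_add]; congr 1; push_cast; ring
  have h3 := Complex.two_cos ((p * (y - c) : ℝ) : ℂ)
  rw [cos_sq, mul_div_cancel₀ _ two_ne_zero]
  rw [← h1, ← h2, ← Complex.ofReal_cos] at h3
  push_cast at h3 ⊢
  linear_combination h3 / 4

theorem Window_ex_pi {r : ℝ} (hr : 0 < r) : ex (π / r) r = -1 ∧ ex (-(π / r)) r = -1 := by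
  have h : π / r * r = π := div_mul_cancel₀ _ hr.ne'
  constructor
  · unfold ex; rw [h, Complex.exp_pi_mul_I]
  · unfold ex
    rw [neg_mul, h, Complex.ofReal_neg, neg_mul, Complex.exp_neg, Complex.exp_pi_mul_I]
    norm_num

theorem Window_far (θ c : ℝ) {r : ℝ} (hr : 0 < r) (h : 2 ≤ |θ * r / π|) :
    ‖((2 * r)⁻¹ : ℝ) * ∫ y in (c - r)..(c + r),
      ((cos (π * (y - c) / (2 * r)) ^ 2 : ℝ) : ℂ) * ex θ y‖ ≤
      1 / (2 * π * |θ * r / π| * (|θ * r / π| ^ 2 - 1)) := by
  obtain ⟨p, hp⟩ : ∃ p, p = π / r := ⟨_, rfl⟩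
  have hp0 : 0 < p := hp ▸ div_pos pi_pos hr
  obtain ⟨x, hx⟩ : ∃ x, x = θ * r / π := ⟨_, rfl⟩
  have hθ : θ = x * p := by rw [hx, hp]; field_simp
  rw [← hx] at h ⊢
  have hx2 : 4 ≤ x ^ 2 := by rw [← sq_abs]; nlinarith
  have x0 : x ≠ 0 := fun h => by rw [h] at hx2; norm_num at hx2
  have x1 : x + 1 ≠ 0 := fun h => by rw [eq_neg_of_add_eq_zero_left h] at hx2; norm_num at hx2
  have x2 : x - 1 ≠ 0 := fun h => by rw [eq_of_sub_eq_zero h] at hx2; norm_num at hx2
  have t0 : θ ≠ 0 := hθ ▸ mul_ne_zero x0 hp0.ne'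
  have t1 : p + θ ≠ 0 := by rw [hθ, show p + x * p = (x + 1) * p by ring]; positivity
  have t2 : -p + θ ≠ 0 := by rw [hθ, show -p + x * p = (x - 1) * p by ring]; positivity
  have e : ∀ y, ((cos (π * (y - c) / (2 * r)) ^ 2 : ℝ) : ℂ) * ex θ y =
      1 / 2 * ex θ y + ex (-p) c / 4 * ex (p + θ) y + ex p c / 4 * ex (-p + θ) y := fun y => by
    rw [show π * (y - c) / (2 * r) = p * (y - c) / 2 by rw [hp]; field_simp, Window_cos_sq, ex_add,
      ex_add]
    ring
  have hi : ∀ (z : ℂ) (η : ℝ), IntervalIntegrable (fun y => z * ex η y) volume (c - r) (c + r) :=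
    fun z η => (by fun_prop : Continuous fun y => z * ex η y).intervalIntegrable _ _
  obtain ⟨q1, q2⟩ := Window_ex_pi hr
  rw [← hp] at q1 q2
  have inv : ∀ η y, ex η y * ex (-η) y = 1 := fun η y => by rw [← ex_add]; simp
  have neg : ∀ η, ex η (c - r) = ex η c * ex (-η) r := fun η => by
    rw [sub_eq_add_neg, ex_add']; unfold ex; congr 4; ring
  have key : ∫ y in (c - r)..(c + r), ((cos (π * (y - c) / (2 * r)) ^ 2 : ℝ) : ℂ) * ex θ y =
      (ex θ (c + r) - ex θ (c - r)) * Complex.I * ((1 / (2 * p * x * (x ^ 2 - 1)) : ℝ) : ℂ) := by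
    simp_rw [e]
    rw [intervalIntegral.integral_add ((hi _ _).add (hi _ _)) (hi _ _),
      intervalIntegral.integral_add (hi _ _) (hi _ _), intervalIntegral.integral_const_mul,
      intervalIntegral.integral_const_mul, intervalIntegral.integral_const_mul, Window_int_ex t0,
      Window_int_ex t1, Window_int_ex t2]
    have a1 : ex (-p) c * (ex (p + θ) (c + r) - ex (p + θ) (c - r)) =
        -(ex θ (c + r) - ex θ (c - r)) := by
      rw [ex_add, ex_add, ex_add' p, neg p, q1, q2]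
      linear_combination (ex θ (c - r) - ex θ (c + r)) * inv p c
    have a2 : ex p c * (ex (-p + θ) (c + r) - ex (-p + θ) (c - r)) =
        -(ex θ (c + r) - ex θ (c - r)) := by
      rw [ex_add, ex_add, ex_add' (-p), neg (-p), neg_neg, q1, q2]
      linear_combination (ex θ (c - r) - ex θ (c + r)) * inv p c
    rw [div_mul_div_comm (ex (-p) c), a1, div_mul_div_comm (ex p c), a2]
    generalize ex θ (c + r) - ex θ (c - r) = E
    have y0 : (x : ℂ) ≠ 0 := by exact_mod_cast x0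
    have y1 : (x : ℂ) + 1 ≠ 0 := by exact_mod_cast x1
    have y2 : (x : ℂ) - 1 ≠ 0 := by exact_mod_cast x2
    have y3 : (p : ℂ) ≠ 0 := by exact_mod_cast hp0.ne'
    rw [hθ, show p + x * p = (x + 1) * p by ring, show -p + x * p = (x - 1) * p by ring,
      show x ^ 2 - 1 = (x + 1) * (x - 1) by ring]
    push_cast
    simp only [div_mul_eq_div_div, Complex.div_I]
    field_simp
    ring
  have hE : ‖ex θ (c + r) - ex θ (c - r)‖ ≤ 2 := (norm_sub_le _ _).trans (by simp; norm_num)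
  have ax : 0 < |x| := abs_pos.2 x0
  have h3 : 0 < x ^ 2 - 1 := by linarith
  rw [key, norm_mul, norm_mul, norm_mul, Complex.norm_I, mul_one, Complex.norm_real,
    Complex.norm_real, Real.norm_of_nonneg (by positivity), Real.norm_eq_abs, abs_div, abs_one,
    abs_mul, abs_mul, abs_of_pos h3, abs_of_pos (by positivity : 0 < 2 * p), sq_abs]
  calc _ ≤ (2 * r)⁻¹ * (2 * (1 / (2 * p * |x| * (x ^ 2 - 1)))) := by gcongr
    _ = _ := by rw [hp]; field_simp

theorem Window_near (θ c : ℝ) {r : ℝ} (hr : 0 < r) :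
    ‖((2 * r)⁻¹ : ℝ) * ∫ y in (c - r)..(c + r),
      ((cos (π * (y - c) / (2 * r)) ^ 2 : ℝ) : ℂ) * ex θ y‖ ≤ 1 / 2 := by
  have h1 : ∫ y in (c - r)..(c + r), cos (π * (y - c) / (2 * r)) ^ 2 = r := by
    have hd : ∀ y ∈ uIcc (c - r) (c + r), HasDerivAt
        (fun y => y / 2 + r / (2 * π) * sin (π * (y - c) / r)) (cos (π * (y - c) / (2 * r)) ^ 2) y :=
      fun y _ => by
        have := ((hasDerivAt_id y).div_const 2).add
          ((((((hasDerivAt_id y).sub_const c).const_mul π).div_const r).sin).const_mul (r / (2 * π)))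
        refine this.congr_deriv (Eq.symm ?_)
        rw [cos_sq, show 2 * (π * (y - c) / (2 * r)) = π * (y - c) / r by field_simp]
        simp only [id]
        field_simp
    rw [intervalIntegral.integral_eq_sub_of_hasDerivAt hd
      ((by fun_prop : Continuous fun y => cos (π * (y - c) / (2 * r)) ^ 2).intervalIntegrable _ _),
      show π * (c + r - c) / r = π by field_simp; ring,
      show π * (c - r - c) / r = -π by field_simp; ring]
    simp
    ring
  rw [norm_mul, Complex.norm_real, Real.norm_of_nonneg (by positivity)]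
  have h2 := intervalIntegral.norm_integral_le_integral_norm (μ := volume)
    (f := fun y => ((cos (π * (y - c) / (2 * r)) ^ 2 : ℝ) : ℂ) * ex θ y)
    (by linarith : c - r ≤ c + r)
  simp only [norm_mul, norm_ex, mul_one, Complex.norm_real, Real.norm_eq_abs, abs_pow,
    sq_abs] at h2
  rw [h1] at h2
  calc _ ≤ (2 * r)⁻¹ * r := by gcongr
    _ = _ := by field_simp

theorem Window_tele (G : ℤ → ℝ) (hG : ∀ k, G k ≤ G (k + 1)) (h1 : ∀ k, |G k| ≤ 1)
    (Λ : Finset ℤ) : ∑ k ∈ Λ, (G (k + 1) - G k) ≤ 2 := by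
  obtain ⟨n, hn⟩ : ∃ n : ℕ, ∀ k ∈ Λ, k.natAbs < n := by
    obtain ⟨n, hn⟩ := (Λ.image Int.natAbs).bddAbove
    exact ⟨n + 1, fun k hk => Nat.lt_succ_of_le (hn (Finset.mem_coe.2 (Finset.mem_image_of_mem _ hk)))⟩
  have h2 : Λ ⊆ (Finset.range (2 * n)).image fun i : ℕ => (i : ℤ) - n := fun k hk => by
    have := hn k hk
    exact Finset.mem_image.2 ⟨(k + n).toNat, Finset.mem_range.2 (by omega), by omega⟩
  refine (Finset.sum_le_sum_of_subset_of_nonneg h2 fun k _ _ => sub_nonneg.2 (hG k)).trans ?_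
  rw [Finset.sum_image fun a _ b _ h => by simpa using h]
  have := Finset.sum_range_sub (fun i : ℕ => G ((i : ℤ) - n)) (2 * n)
  simp only [Nat.cast_add, Nat.cast_one, add_sub_right_comm] at this
  rw [this]
  linarith [abs_le.1 (h1 (((2 * n : ℕ) : ℤ) - n)), abs_le.1 (h1 (((0 : ℕ) : ℤ) - n))]

theorem Window_h_mono {x y : ℝ} (h : x ≤ y) : x / (1 + |x|) ≤ y / (1 + |y|) := by
  rw [div_le_div_iff₀ (by positivity) (by positivity)]
  rcases abs_cases x with ⟨h1, h2⟩ | ⟨h1, h2⟩ <;> rcases abs_cases y with ⟨h3, h4⟩ | ⟨h3, h4⟩ <;>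
    rw [h1, h3] <;> nlinarith

theorem Window_h_far {x : ℝ} (h : 2 ≤ |x|) : 1 / (2 * π * |x| * (|x| ^ 2 - 1)) ≤
    (x + 1 / 2) / (1 + |x + 1 / 2|) - (x - 1 / 2) / (1 + |x - 1 / 2|) := by
  have e : (x + 1 / 2) / (1 + |x + 1 / 2|) - (x - 1 / 2) / (1 + |x - 1 / 2|) =
      1 / ((|x| + 3 / 2) * (|x| + 1 / 2)) := by
    rcases abs_cases x with ⟨h1, h2⟩ | ⟨h1, h2⟩
    · rw [h1] at h ⊢
      rw [abs_of_pos (by linarith), abs_of_pos (by linarith), div_sub_div _ _ (by linarith)
        (by linarith), div_eq_div_iff (by nlinarith) (by nlinarith)]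
      ring
    · rw [h1] at h ⊢
      rw [abs_of_neg (by linarith), abs_of_neg (by linarith), div_sub_div _ _ (by linarith)
        (by linarith), div_eq_div_iff (by nlinarith) (by nlinarith)]
      ring
  rw [e]
  generalize |x| = a at h
  refine one_div_le_one_div_of_le (by positivity) ?_
  have h1 : 6 * a * (a ^ 2 - 1) ≤ 2 * π * a * (a ^ 2 - 1) := by
    have := pi_gt_three
    have : 0 ≤ a ^ 2 - 1 := by nlinarith
    gcongr
    linarith
  nlinarith

theorem window_one (ξ c : ℝ) {r : ℝ} (hr : 0 < r) (Λ : Finset ℤ) :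
    ∑ k ∈ Λ, ‖((2 * r)⁻¹ : ℝ) * ∫ y in (c - r)..(c + r),
      ((cos (π * (y - c) / (2 * r)) ^ 2 : ℝ) : ℂ) * ex ξ y * ex (-(k * π / r)) y‖ ≤ 4 := by
  classical
  obtain ⟨t, ht⟩ : ∃ t, t = ξ * r / π := ⟨_, rfl⟩
  have hx : ∀ k : ℤ, (ξ + -(k * π / r)) * r / π = t - k := fun k => by
    rw [ht]; field_simp; ring
  simp_rw [mul_assoc _ (ex ξ _), ← ex_add]
  let G : ℤ → ℝ := fun k => -((t - k + 1 / 2) / (1 + |t - k + 1 / 2|))
  have hG : ∀ k, G (k + 1) - G k = (t - k + 1 / 2) / (1 + |t - k + 1 / 2|) -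
      (t - k - 1 / 2) / (1 + |t - k - 1 / 2|) := fun k => by
    simp only [G]
    rw [show t - ((k + 1 : ℤ) : ℝ) + 1 / 2 = t - k - 1 / 2 by push_cast; ring]
    ring
  have hG0 : ∀ k, G k ≤ G (k + 1) := fun k => by
    have := Window_h_mono (show t - k - 1 / 2 ≤ t - k + 1 / 2 by linarith)
    linarith [hG k]
  have hG1 : ∀ k, |G k| ≤ 1 := fun k => by
    simp only [G]
    rw [abs_neg, abs_div, abs_of_pos (by positivity : 0 < 1 + |t - k + 1 / 2|),
      div_le_one (by positivity)]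
    linarith
  rw [← Finset.sum_filter_add_sum_filter_not Λ fun k : ℤ => 2 ≤ |t - k|]
  have h1 := Window_tele G hG0 hG1 (Λ.filter fun k : ℤ => 2 ≤ |t - k|)
  have h2 : (Λ.filter fun k : ℤ => ¬2 ≤ |t - k|).card ≤ 4 := by
    have : (Λ.filter fun k : ℤ => ¬2 ≤ |t - k|) ⊆ Finset.Icc (⌊t⌋ - 1) (⌊t⌋ + 2) := fun k hk => by
      have := abs_lt.1 (not_le.1 (Finset.mem_filter.1 hk).2)
      have a1 : (⌊t⌋ : ℝ) - 2 < k := by linarith [Int.floor_le t]
      have a2 : (k : ℝ) < ⌊t⌋ + 3 := by linarith [Int.lt_floor_add_one t]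
      have b1 : ⌊t⌋ - 2 < k := by exact_mod_cast a1
      have b2 : k < ⌊t⌋ + 3 := by exact_mod_cast a2
      exact Finset.mem_Icc.2 ⟨by omega, by omega⟩
    refine (Finset.card_le_card this).trans ?_
    rw [Int.card_Icc]
    omega
  have h3 := Finset.sum_le_card_nsmul (Λ.filter fun k : ℤ => ¬2 ≤ |t - k|) _ (1 / 2 : ℝ)
    fun k _ => Window_near (ξ + -(k * π / r)) c hr
  have h4 : ((Λ.filter fun k : ℤ => ¬2 ≤ |t - k|).card : ℝ) ≤ 4 := by exact_mod_cast h2
  rw [nsmul_eq_mul] at h3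
  refine (add_le_add (le_trans (Finset.sum_le_sum fun k hk => ?_) h1) h3).trans (by linarith)
  have hk := (Finset.mem_filter.1 hk).2
  have := Window_far (ξ + -(k * π / r)) c hr (by rwa [hx])
  rw [hx] at this
  rw [hG]
  exact this.trans (Window_h_far hk)

theorem window (a : ℝ →₀ ℂ) (c : ℝ) {r η : ℝ} (hr : 0 < r) (hη : 0 < η) :
    ∃ (Λ : Finset ℤ) (ω : ℤ → ℂ), ∑ k ∈ Λ, ‖ω k‖ ≤ 4 * l1 a ∧
      ∑ k ∈ Λ, ‖ω k‖ ^ 2 ≤ (2 * r)⁻¹ * ∫ y in Ico (c - r) (c + r), ‖tp a y‖ ^ 2 ∧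
      ∀ y, |y - c| ≤ r → ‖((cos (π * (y - c) / (2 * r)) ^ 2 : ℝ) : ℂ) * tp a y -
        ∑ k ∈ Λ, ω k * ex (k * π / r) y‖ ≤ η := by
  have hT : Fact (0 < 2 * r) := ⟨by positivity⟩
  let W : ℝ → ℂ := fun y => ((cos (π * (y - c) / (2 * r)) ^ 2 : ℝ) : ℂ) * tp a y
  have hW : Continuous W := by fun_prop
  have e2 : c - r + 2 * r = c + r := by ring
  have hW0 : W (c - r) = W (c - r + 2 * r) := by
    simp only [W]
    rw [show π * (c - r - c) / (2 * r) = -(π / 2) by field_simp; ring,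
      show π * (c - r + 2 * r - c) / (2 * r) = π / 2 by field_simp; ring]
    simp
  let f : C(AddCircle (2 * r), ℂ) :=
    ⟨AddCircle.liftIoc (2 * r) (c - r) W, AddCircle.liftIoc_continuous hW0 hW.continuousOn⟩
  have hfou : ∀ (k : ℤ) (y : ℝ), fourier k (y : AddCircle (2 * r)) = ex (k * π / r) y :=
    fun k y => by
      have : (r : ℂ) ≠ 0 := by exact_mod_cast hr.ne'
      rw [fourier_coe_apply, ex]; congr 1; push_cast; field_simp
  have hab : c - r < c - r + 2 * r := by linarith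
  have hc : ∀ k, fourierCoeff f k = fourierCoeffOn hab W k := fourierCoeff_liftIoc_eq W
  have hc' : ∀ k : ℤ, fourierCoeff f k = ∑ ξ ∈ a.support, a ξ * (((2 * r)⁻¹ : ℝ) *
      ∫ y in (c - r)..(c + r), ((cos (π * (y - c) / (2 * r)) ^ 2 : ℝ) : ℂ) * ex ξ y *
        ex (-(k * π / r)) y) := fun k => by
    rw [fourierCoeff_eq_intervalIntegral _ _ (c - r), intervalIntegral.integral_congr_ae
      (g := fun y => ∑ ξ ∈ a.support, a ξ * (((cos (π * (y - c) / (2 * r)) ^ 2 : ℝ) : ℂ) * ex ξ y *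
        ex (-(k * π / r)) y)) (ae_of_all _ fun y hy => ?_), intervalIntegral.integral_finsetSum
        fun ξ _ => Continuous.intervalIntegrable (by fun_prop) _ _, e2, Finset.smul_sum]
    · refine Finset.sum_congr rfl fun ξ _ => ?_
      rw [intervalIntegral.integral_const_mul, Complex.real_smul, one_div]
      ring
    · rw [uIoc_of_le hab.le] at hy
      change _ • AddCircle.liftIoc (2 * r) (c - r) W y = _
      rw [AddCircle.liftIoc_coe_apply hy, hfou, smul_eq_mul]
      simp only [W, tp, Finset.mul_sum]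
      refine Finset.sum_congr rfl fun ξ _ => ?_
      rw [show ((-k : ℤ) : ℝ) * π / r = -(k * π / r) by push_cast; ring]
      ring
  have h1 : ∀ Λ : Finset ℤ, ∑ k ∈ Λ, ‖fourierCoeff f k‖ ≤ 4 * l1 a := fun Λ => by
    simp_rw [hc']
    refine (Finset.sum_le_sum fun k _ => norm_sum_le _ _).trans ?_
    rw [Finset.sum_comm, l1, Finset.mul_sum]
    refine Finset.sum_le_sum fun ξ _ => ?_
    simp_rw [norm_mul (a ξ)]
    rw [← Finset.mul_sum, mul_comm]
    exact mul_le_mul_of_nonneg_right (window_one ξ c hr Λ) (norm_nonneg _)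
  have hs : Summable (fourierCoeff f) :=
    (summable_of_sum_le (fun _ => norm_nonneg _) h1).of_norm
  obtain ⟨Λ, hΛ⟩ := (Metric.tendsto_nhds.1 (hasSum_fourier_series_of_summable hs) η hη).exists
  refine ⟨Λ, fourierCoeff f, h1 Λ, ?_, fun y hy => ?_⟩
  · have hL : MemLp W 2 (volume.restrict (Ioc (c - r) (c - r + 2 * r))) := by
      obtain ⟨M, hM⟩ := isCompact_Icc.exists_bound_of_continuousOn
        (hW.continuousOn (s := Icc (c - r) (c - r + 2 * r)))
      exact MemLp.of_bound hW.aestronglyMeasurable M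
        (ae_restrict_of_forall_mem measurableSet_Ioc fun y hy => hM y (Ioc_subset_Icc_self hy))
    have h2 := hasSum_sq_fourierCoeffOn hab hL
    simp_rw [hc]
    refine (sum_le_hasSum Λ (fun _ _ => sq_nonneg _) h2).trans ?_
    rw [e2, smul_eq_mul, show c + r - (c - r) = 2 * r by ring, integral_Ico_eq_integral_Ioc,
      ← intervalIntegral.integral_of_le (by linarith)]
    refine mul_le_mul_of_nonneg_left (intervalIntegral.integral_mono_on (by linarith)
      (Continuous.intervalIntegrable (by fun_prop) _ _)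
      (Continuous.intervalIntegrable (by fun_prop) _ _) fun y _ => ?_) (by positivity)
    refine pow_le_pow_left₀ (norm_nonneg _) ?_ 2
    rw [norm_mul, Complex.norm_real, Real.norm_of_nonneg (sq_nonneg _)]
    exact mul_le_of_le_one_left (norm_nonneg _) (cos_sq_le_one _)
  · have h2 := (ContinuousMap.dist_apply_le_dist (y : AddCircle (2 * r))).trans hΛ.le
    have h3 : f y = W y := by
      change AddCircle.liftIoc (2 * r) (c - r) W y = _
      rcases eq_or_lt_of_le (show c - r ≤ y by linarith [abs_le.1 hy]) with h | h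
      · rw [AddCircle.liftIoc_eq_liftIco hW0, AddCircle.liftIco_coe_apply ⟨h.le, by linarith⟩]
      · exact AddCircle.liftIoc_coe_apply ⟨h, by linarith [abs_le.1 hy]⟩
    rw [dist_comm, dist_eq_norm, h3] at h2
    simpa only [hfou, ContinuousMap.sum_apply, ContinuousMap.smul_apply, smul_eq_mul] using h2

end Crest.Agent.R100
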